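import Crest.Agent.H2.PlDefs

/-! Row 40: two geometric facts on the algebraic unit circle. -/

set_option autoImplicit false

namespace Crest.Agent.H3.Pl
open Crest.Agent.H2.Pl

lemma coe_two : ((2 : L) : ℂ) = 2 := rfl
lemma coe_four : ((4 : L) : ℂ) = 4 := rfl

lemma sum_units (q : L) (hq : ‖(q : ℂ)‖ ≤ 2) : ∃ u u' : U, (q : ℂ) = uc u + uc u' := by
  by_cases h0 : q = 0
  · refine ⟨1, mkU (-1) (by simp), ?_⟩
    simp [h0]
  have hs : 0 < ‖(q : ℂ)‖ := norm_pos_iff.2 (by exact_mod_cast h0)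
  set s := ‖(q : ℂ)‖ with hsdef
  have hsc : (s : ℂ) ≠ 0 := by exact_mod_cast hs.ne'
  have ht0 : 0 ≤ 1 - s ^ 2 / 4 := by nlinarith
  set t := Real.sqrt (1 - s ^ 2 / 4) with ht
  have ht2 : t ^ 2 = 1 - s ^ 2 / 4 := Real.sq_sqrt ht0
  let sL : L := ⟨(s : ℂ), norm_mem q⟩
  have htm : (t : ℂ) ∈ algebraicClosure ℚ ℂ := by
    refine mem_of_pow (n := 2) two_pos (1 - sL ^ 2 / 4) ?_
    rw [← Complex.ofReal_pow, ht2]
    simp [sL, coe_four]
  have hI : Complex.I ∈ algebraicClosure ℚ ℂ := mem_of_pow (n := 2) two_pos (-1) (by simp)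
  let tL : L := ⟨(t : ℂ), htm⟩
  let iL : L := ⟨Complex.I, hI⟩
  have key : ∀ e : ℝ, e ^ 2 = t ^ 2 → ‖(q : ℂ) / s * (s / 2 + e * Complex.I)‖ = 1 := by
    intro e he
    rw [norm_mul, norm_div, Complex.norm_real, Real.norm_of_nonneg hs.le, ← hsdef, div_self hs.ne',
      one_mul]
    have : ((s : ℂ) / 2 + e * Complex.I) = ((s / 2 : ℝ) : ℂ) + e * Complex.I := by push_cast; ring
    rw [this, Complex.norm_add_mul_I, he, ht2]
    rw [show (s / 2) ^ 2 + (1 - s ^ 2 / 4) = 1 by ring, Real.sqrt_one]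
  have k1 := key t rfl
  have k2 := key (-t) (neg_sq t)
  refine ⟨mkU (q / sL * (sL / 2 + tL * iL)) (by simpa [sL, tL, iL, coe_two] using k1),
    mkU (q / sL * (sL / 2 + -tL * iL)) (by simpa [sL, tL, iL, coe_two] using k2), ?_⟩
  simp only [uc_mkU, sL, tL, iL]
  push_cast
  rw [coe_two]
  field_simp
  ring

/-- Lemma G. -/
lemma exists_two_units {w z : L} (h : ‖(w : ℂ)‖ ≤ 2 * ‖(z : ℂ)‖) :
    ∃ u u' : U, w = u • z + u' • z := by
  by_cases hz : z = 0
  · subst hz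
    have : w = 0 := by
      have : ‖(w : ℂ)‖ ≤ 0 := by simpa using h
      exact_mod_cast norm_le_zero_iff.1 this
    exact ⟨1, 1, by simp [this]⟩
  have hz' : (z : ℂ) ≠ 0 := by exact_mod_cast hz
  obtain ⟨u, u', hu⟩ := sum_units (w / z) (by
    push_cast
    rw [norm_div, div_le_iff₀ (norm_pos_iff.2 hz')]; exact h)
  refine ⟨u, u', Subtype.ext ?_⟩
  push_cast at hu ⊢
  rw [coe_smul, coe_smul, ← add_mul, ← hu, div_mul_cancel₀ _ hz']

instance instInfiniteU : Infinite U := by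
  by_contra hfin
  rw [not_infinite_iff_finite] at hfin
  have hc : (Nat.card U : ℤ) ≠ 0 := by exact_mod_cast Nat.card_pos.ne'
  obtain ⟨h, hh⟩ := exists_root (mkU (-1) (by simp)) hc
  rw [zpow_natCast, pow_card_eq_one'] at hh
  have := congrArg uc hh
  simp only [uc_one, uc_mkU] at this
  norm_num at this

end Crest.Agent.H3.Pl
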