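import Crest.Agent.H2.PlD
import Crest.Agent.H3.PlG

/-! Row 40: the statements `NearStmt` and `BaseStmt`. -/

set_option autoImplicit false

namespace Crest.Agent.H3.Pl
open Crest.Agent.H2.Pl MeasureTheory Filter
open scoped ComplexConjugate

lemma re_mul_ge {x y : ℂ} (hx : ‖x‖ = 1) (hy : ‖y‖ = 1) : 2 * x.re + 2 * y.re - 3 ≤ (x * y).re := by
  have h1 : x.re ^ 2 + x.im ^ 2 = 1 := by
    have := Complex.sq_norm x
    rw [hx, Complex.normSq_apply] at this; nlinarith
  have h2 : y.re ^ 2 + y.im ^ 2 = 1 := by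
    have := Complex.sq_norm y
    rw [hy, Complex.normSq_apply] at this; nlinarith
  rw [Complex.mul_re]
  nlinarith [sq_nonneg (x.im - y.im), sq_nonneg (x.re + y.re - 2)]

lemma norm_int_mul_ge {Y : Type} [MeasurableSpace Y] (κ : Measure Y) [IsProbabilityMeasure κ]
    {f g : Y → ℂ} (hf : Measurable f) (hg : Measurable g) (hf1 : ∀ y, ‖f y‖ = 1)
    (hg1 : ∀ y, ‖g y‖ = 1) :
    2 * ‖∫ y, f y ∂κ‖ + 2 * ‖∫ y, g y ∂κ‖ - 3 ≤ ‖∫ y, f y * g y ∂κ‖ := by
  have bf : BM f := BM.of_le hf fun y => (hf1 y).le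
  have bg : BM g := BM.of_le hg fun y => (hg1 y).le
  obtain ⟨α, hα, ha⟩ := RCLike.exists_norm_eq_mul_self (∫ y, f y ∂κ)
  obtain ⟨β, hβ, hb⟩ := RCLike.exists_norm_eq_mul_self (∫ y, g y ∂κ)
  have e1 : ‖∫ y, f y ∂κ‖ = ∫ y, (α * f y).re ∂κ := by
    have := integral_re (𝕜 := ℂ) (μ := κ) (f := fun y => α * f y) (BM.integrable (by fun_prop) κ)
    simp only [RCLike.re_to_complex] at this
    rw [this, integral_const_mul, ← ha]; simp
  have e2 : ‖∫ y, g y ∂κ‖ = ∫ y, (β * g y).re ∂κ := by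
    have := integral_re (𝕜 := ℂ) (μ := κ) (f := fun y => β * g y) (BM.integrable (by fun_prop) κ)
    simp only [RCLike.re_to_complex] at this
    rw [this, integral_const_mul, ← hb]; simp
  have e3 : ∫ y, (α * f y * (β * g y)).re ∂κ ≤ ‖∫ y, f y * g y ∂κ‖ := by
    have := integral_re (𝕜 := ℂ) (μ := κ) (f := fun y => α * f y * (β * g y))
      (BM.integrable (by fun_prop) κ)
    simp only [RCLike.re_to_complex] at this
    rw [this]
    have e : (fun y => α * f y * (β * g y)) = fun y => α * β * (f y * g y) := by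
      funext y; ring
    rw [e, integral_const_mul]
    refine (Complex.re_le_norm _).trans ?_
    rw [norm_mul, norm_mul, hα, hβ, one_mul, one_mul]
  refine le_trans ?_ e3
  have b1 : BM fun y => 2 * (α * f y).re := (BM.const 2).mul ((BM.const α).mul bf).re
  have b2 : BM fun y => 2 * (β * g y).re := (BM.const 2).mul ((BM.const β).mul bg).re
  have e4 : ∫ y, (2 * (α * f y).re + 2 * (β * g y).re - 3) ∂κ =
      2 * ‖∫ y, f y ∂κ‖ + 2 * ‖∫ y, g y ∂κ‖ - 3 := by
    rw [integral_sub ((b1.add b2).integrable κ) (integrable_const _),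
      integral_add (b1.integrable κ) (b2.integrable κ),
      integral_const_mul, integral_const_mul, ← e1, ← e2]
    simp
  rw [← e4]
  refine integral_mono (((b1.add b2).sub (BM.const 3)).integrable κ)
    ((((BM.const α).mul bf).mul ((BM.const β).mul bg)).re.integrable κ) fun y => ?_
  exact re_mul_ge (by rw [norm_mul, hα, hf1, one_mul]) (by rw [norm_mul, hβ, hg1, one_mul])

theorem near : NearStmt := by
  intro Y _ _ ν _ S Φ hSg z hz W hW hW0 hW1 hinv
  have bW : BM W := BM.of_le hW (C := 1) fun y => by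
    rw [Real.norm_of_nonneg (hW0 y)]; exact hW1 y
  have bE : ∀ w, BM (Φ.E (S.F w)) := fun w => Φ.E_bm (S.bmF w)
  by_contra hlt
  push Not at hlt
  set m := ∫ y, W y ∂ν with hm
  have hrot : ∀ u : U, ∫ y, ‖Φ.E (S.F (u • z)) y‖ * W y ∂ν = ∫ y, ‖Φ.E (S.F z) y‖ * W y ∂ν := by
    intro u
    have := bE z
    rw [← S.int_T u (f := fun y => ‖Φ.E (S.F z) y‖ * W y) (by fun_prop)]
    refine integral_congr_ae ?_
    have e : S.F (u • z) = fun y => S.F z (S.T u y) := funext fun y => (S.F_T z u y).symm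
    filter_upwards [Φ.E_T (S.bmF z) u, hinv u] with y h1 h2
    rw [e, h1, h2]
  have hle : ∫ y, ‖Φ.E (S.F z) y‖ * W y ∂ν ≤ m := by
    have := bE z
    refine integral_mono (BM.integrable (by fun_prop) ν) (bW.integrable ν) fun y => ?_
    exact mul_le_of_le_one_left (hW0 y) (Φ.E_le (fun y => (S.norm z y).le) y)
  have hm0 : 0 < m := by linarith
  have hk : ∀ w : L, ‖(w : ℂ)‖ ≤ 2 * ‖(z : ℂ)‖ → (m / 2) ^ 2 ≤ Φ.k w := by
    intro w hw
    obtain ⟨u, u', rfl⟩ := exists_two_units hw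
    have b1 := bE (u • z)
    have b2 := bE (u' • z)
    have b3 := bE (u • z + u' • z)
    have h1 : ∫ y, (m * (2 * (‖Φ.E (S.F (u • z)) y‖ * W y) + 2 * (‖Φ.E (S.F (u' • z)) y‖ * W y)
        - 3 * W y) - (m / 2) ^ 2) ∂ν ≤ Φ.k (u • z + u' • z) := by
      refine integral_mono (BM.integrable (by fun_prop) ν) (BM.integrable (by fun_prop) ν)
        fun y => ?_
      have h2 := norm_int_mul_ge (Φ.κ y) (S.meas (u • z)) (S.meas (u' • z)) (S.norm _) (S.norm _)
      simp only [← S.add] at h2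
      change 2 * ‖Φ.E (S.F (u • z)) y‖ + 2 * ‖Φ.E (S.F (u' • z)) y‖ - 3 ≤
        ‖Φ.E (S.F (u • z + u' • z)) y‖ at h2
      have h3 := mul_le_mul_of_nonneg_right h2 (hW0 y)
      have h4 : ‖Φ.E (S.F (u • z + u' • z)) y‖ * W y ≤ ‖Φ.E (S.F (u • z + u' • z)) y‖ :=
        mul_le_of_le_one_right (norm_nonneg _) (hW1 y)
      have h5 := mul_le_mul_of_nonneg_left (h3.trans h4) hm0.le
      beta_reduce
      nlinarith [sq_nonneg (‖Φ.E (S.F (u • z + u' • z)) y‖ - m / 2)]
    rw [integral_sub (BM.integrable (by fun_prop) ν) (BM.integrable (by fun_prop) ν),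
      integral_const_mul,
      integral_sub (BM.integrable (by fun_prop) ν) (BM.integrable (by fun_prop) ν),
      integral_add (BM.integrable (by fun_prop) ν) (BM.integrable (by fun_prop) ν),
      integral_const_mul, integral_const_mul, integral_const_mul, hrot, hrot, ← hm] at h1
    simp only [integral_const, probReal_univ, smul_eq_mul, one_mul] at h1
    nlinarith
  obtain ⟨ι, _, w, p, hw, hs⟩ := hSg ‖(z : ℂ)‖ (norm_pos_iff.2 (by exact_mod_cast hz))
    ((m / 2) ^ 2) (by positivity)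
  simp only [Φ.int_sq_F, Complex.ofReal_re] at hs
  refine absurd hs (not_lt.2 ?_)
  calc (m / 2) ^ 2 = ∑ i, ∑ j, p i * p j * (m / 2) ^ 2 := by
        simp only [← Finset.sum_mul, ← Finset.mul_sum, hw.sum, mul_one, one_mul]
    _ ≤ _ := by
        refine Finset.sum_le_sum fun i _ => Finset.sum_le_sum fun j _ => ?_
        refine mul_le_mul_of_nonneg_left (hk _ ?_) (mul_nonneg (hw.nonneg i) (hw.nonneg j))
        push_cast
        linarith [norm_sub_le (w i : ℂ) (w j), hw.small i, hw.small j]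

lemma norm_sub_one_sq {x : ℂ} (hx : ‖x‖ = 1) : ‖x - 1‖ ^ 2 = 2 - 2 * x.re := by
  have h1 := Complex.sq_norm x
  rw [hx, Complex.normSq_apply] at h1
  rw [Complex.sq_norm, Complex.normSq_apply]
  simp only [Complex.sub_re, Complex.one_re, Complex.sub_im, Complex.one_im]
  nlinarith

lemma one_le_comb {ι : Type} [Fintype ι] {p : ι → ℝ} (hp : ∑ i, p i = 1) {x : ι → ℂ}
    (hx : ∀ i, ‖x i‖ = 1) :
    1 ≤ ‖∑ i, (p i : ℂ) * x i‖ ^ 2 + ∑ i, p i * ‖x i - 1‖ ^ 2 := by
  have h1 : ∑ i, p i * ‖x i - 1‖ ^ 2 = 2 - 2 * (∑ i, (p i : ℂ) * x i).re := by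
    simp only [norm_sub_one_sq (hx _), Complex.re_sum, Complex.re_ofReal_mul, mul_sub,
      Finset.sum_sub_distrib, ← Finset.sum_mul, hp, Finset.mul_sum]
    congr 1
    · ring
    · exact Finset.sum_congr rfl fun i _ => by ring
  have h2 := Complex.re_le_norm (∑ i, (p i : ℂ) * x i)
  rw [h1]
  nlinarith [sq_nonneg (‖∑ i, (p i : ℂ) * x i‖ - 1)]

lemma exists_overlap {X : Type} [MeasurableSpace X] (η : Measure X) [IsProbabilityMeasure η]
    {G : Type} [Infinite G] {Z : G → X → ℝ} (hm : ∀ u, Measurable (Z u)) (h0 : ∀ u x, 0 ≤ Z u x)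
    (h1 : ∀ u x, Z u x ≤ 1) {c : ℝ} (hc : 0 < c) (hint : ∀ u, ∫ x, Z u x ∂η = c) :
    ∃ u u', u ≠ u' ∧ 0 < ∫ x, Z u x * Z u' x ∂η := by
  classical
  have bZ : ∀ u, BM (Z u) := fun u => BM.of_le (hm u) (C := 1) fun y => by
    rw [Real.norm_of_nonneg (h0 u y)]; exact h1 u y
  by_contra hne
  push Not at hne
  obtain ⟨N, hN⟩ := exists_nat_gt (1 / c)
  obtain ⟨s, hs⟩ := Infinite.exists_subset_card_eq G N
  have hz : ∀ u u', u ≠ u' → ∀ᵐ x ∂η, Z u x * Z u' x = 0 := fun u u' h =>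
    (integral_eq_zero_iff_of_nonneg (fun x => mul_nonneg (h0 u x) (h0 u' x))
      (((bZ u).mul (bZ u')).integrable η)).1
      (le_antisymm (hne u u' h) (integral_nonneg fun x => mul_nonneg (h0 u x) (h0 u' x)))
  have hall : ∀ᵐ x ∂η, ∀ u ∈ s, ∀ u' ∈ s, u ≠ u' → Z u x * Z u' x = 0 := by
    rw [eventually_all_finset]
    intro u _
    rw [eventually_all_finset]
    intro u' _
    by_cases h : u = u'
    · exact Eventually.of_forall fun x h' => (h' h).elim
    · exact (hz u u' h).mono fun x hx _ => hx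
  have hle : ∫ x, ∑ u ∈ s, Z u x ∂η ≤ ∫ _x, (1 : ℝ) ∂η := by
    refine integral_mono_ae ((BM.sum s fun u _ => bZ u).integrable η) (integrable_const _) ?_
    filter_upwards [hall] with x hx
    by_cases h : ∃ u ∈ s, Z u x ≠ 0
    · obtain ⟨u, hu, hu0⟩ := h
      rw [Finset.sum_eq_single_of_mem u hu fun v hv hvu =>
        (mul_eq_zero.1 (hx v hv u hu hvu)).resolve_right hu0]
      exact h1 u x
    · push Not at h
      rw [Finset.sum_eq_zero h]; exact zero_le_one
  rw [integral_finsetSum _ fun u _ => (bZ u).integrable η] at hle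
  simp only [hint, Finset.sum_const, hs, nsmul_eq_mul, integral_const, probReal_univ,
    smul_eq_mul, mul_one] at hle
  rw [div_lt_iff₀ hc] at hN
  linarith

theorem base : BaseStmt := by
  intro Y _ _ ν _ S hS
  by_contra hne
  obtain ⟨Z, hZm, hZ0, hZ1, -, hc, hcont⟩ := (botFac S).sq.exists_cont hne
  set η := (botFac S).η with hη
  have hmp : ∀ (u : U) (f : Y × Y → ℝ), Measurable f →
      ∫ p, f (Prod.map (S.T u) id p) ∂η = ∫ p, f p ∂η := by
    intro u f hf
    have := integral_map (μ := η) (botFac_mp S u).measurable.aemeasurable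
      (f := f) hf.aestronglyMeasurable
    rw [(botFac_mp S u).map_eq] at this
    exact this.symm
  have hZu : ∀ u : U, Measurable fun p : Y × Y => Z (Prod.map (S.T u) id p) := fun u =>
    hZm.comp (botFac_mp S u).measurable
  obtain ⟨u, u', huu, hpos⟩ := exists_overlap η (Z := fun (u : U) p => Z (Prod.map (S.T u) id p))
    hZu (fun _ _ => hZ0 _) (fun _ _ => hZ1 _) hc fun u => hmp u Z hZm
  have bZ : ∀ u : U, BM fun p : Y × Y => Z (Prod.map (S.T u) id p) := fun u =>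
    BM.of_le (hZu u) (C := 1) fun y => by rw [Real.norm_of_nonneg (hZ0 _)]; exact hZ1 _
  obtain ⟨W, bW, hW0, hW1, hWa, hWb, hWpos⟩ : ∃ W : Y × Y → ℝ, BM W ∧ (∀ p, 0 ≤ W p) ∧
      (∀ p, W p ≤ 1) ∧ (∀ p, W p ≤ Z (Prod.map (S.T u) id p)) ∧
      (∀ p, W p ≤ Z (Prod.map (S.T u') id p)) ∧ 0 < ∫ p, W p ∂η :=
    ⟨fun p => Z (Prod.map (S.T u) id p) * Z (Prod.map (S.T u') id p), (bZ u).mul (bZ u'),
      fun p => mul_nonneg (hZ0 _) (hZ0 _), fun p => mul_le_one₀ (hZ1 _) (hZ0 _) (hZ1 _),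
      fun p => mul_le_of_le_one_right (hZ0 _) (hZ1 _),
      fun p => mul_le_of_le_one_left (hZ0 _) (hZ1 _), hpos⟩
  set m := ∫ p, W p ∂η with hm
  obtain ⟨δ, hδ, hsm⟩ := hcont (m / 10) (by positivity)
  set d : L := u • (1 : L) - u' • (1 : L) with hd
  have hdc : (d : ℂ) = uc u - uc u' := by rw [hd]; push_cast; rw [coe_smul, coe_smul]; simp
  have hd0 : (d : ℂ) ≠ 0 := by
    rw [hdc, sub_ne_zero]; exact fun h => huu (uc_inj h)
  have hrot : ∀ (v : U) (w : L), ‖(w : ℂ)‖ < δ →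
      ∫ p, ‖S.F (v • w) p.1 - S.F w p.2‖ ^ 2 * Z (Prod.map (S.T v) id p) ∂η ≤ m / 10 := by
    intro v w hw
    have h1 := hsm w hw
    rw [← hmp v _ (by
      have := (botFac S).sq.meas w
      fun_prop)] at h1
    refine le_of_eq_of_le (integral_congr_ae (Eventually.of_forall fun p => ?_)) h1
    simp only [Fac.sq, Prod.map, id, S.F_T]
    congr 2
    rw [← S.mul_conj w p.2, ← sub_mul, norm_mul, RCLike.norm_conj, S.norm, mul_one]
  have hsmall : ∀ w : L, ‖(w : ℂ)‖ < δ * ‖(d : ℂ)‖ →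
      ∫ p, ‖S.F w p.1 - 1‖ ^ 2 * W p ∂η ≤ 4 * (m / 10) := by
    intro w hw
    set w' : L := w / d with hw'
    have hw'n : ‖(w' : ℂ)‖ < δ := by
      rw [hw']; push_cast; rwa [norm_div, div_lt_iff₀ (norm_pos_iff.2 hd0)]
    have hww : w = u • w' - u' • w' := by
      apply Subtype.ext
      push_cast
      rw [coe_smul, coe_smul, ← sub_mul, ← hdc, hw']
      push_cast
      field_simp
    have b0 : ∀ v : U, BM fun p : Y × Y =>
        2 * (‖S.F (v • w') p.1 - S.F w' p.2‖ ^ 2 * Z (Prod.map (S.T v) id p)) := fun v =>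
      (BM.const 2).mul (BM.mul (by fun_prop) (bZ v))
    have h1 := hrot u w' hw'n
    have h2 := hrot u' w' hw'n
    have h3 : ∫ p, ‖S.F w p.1 - 1‖ ^ 2 * W p ∂η ≤
        ∫ p, (2 * (‖S.F (u • w') p.1 - S.F w' p.2‖ ^ 2 * Z (Prod.map (S.T u) id p)) +
          2 * (‖S.F (u' • w') p.1 - S.F w' p.2‖ ^ 2 * Z (Prod.map (S.T u') id p))) ∂η := by
      refine integral_mono (BM.integrable (by fun_prop) η) (((b0 u).add (b0 u')).integrable η)
        fun p => ?_
      have e : ‖S.F w p.1 - 1‖ = ‖(S.F (u • w') p.1 - S.F w' p.2) -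
          (S.F (u' • w') p.1 - S.F w' p.2)‖ := by
        rw [hww, S.F_sub, ← S.mul_conj (u' • w') p.1, ← sub_mul, norm_mul, RCLike.norm_conj,
          S.norm, mul_one, sub_sub_sub_cancel_right]
      beta_reduce
      rw [e]
      generalize S.F (u • w') p.1 - S.F w' p.2 = a
      generalize S.F (u' • w') p.1 - S.F w' p.2 = b
      have t1 := norm_sub_le a b
      have t2 : ‖a - b‖ ^ 2 ≤ 2 * ‖a‖ ^ 2 + 2 * ‖b‖ ^ 2 := by
        nlinarith [norm_nonneg (a - b), norm_nonneg a, norm_nonneg b, sq_nonneg (‖a‖ - ‖b‖)]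
      have t3 := mul_le_mul_of_nonneg_right t2 (hW0 p)
      have t4 := mul_le_mul_of_nonneg_left (hWa p) (sq_nonneg ‖a‖)
      have t5 := mul_le_mul_of_nonneg_left (hWb p) (sq_nonneg ‖b‖)
      nlinarith
    rw [integral_add ((b0 u).integrable η) ((b0 u').integrable η),
      integral_const_mul, integral_const_mul] at h3
    linarith
  obtain ⟨ι, _, w, p, hw, hs⟩ := hS (δ * ‖(d : ℂ)‖) (mul_pos hδ (norm_pos_iff.2 hd0)) (m / 10)
    (by positivity)
  have hs' : ∫ y, ‖∑ i, (p i : ℂ) * S.F (w i) y‖ ^ 2 ∂ν < m / 10 := by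
    rw [S.comb_sq]; exact hs
  rw [← (botFac S).int_η_fst (by fun_prop)] at hs'
  have h4 : m ≤ ∫ q, (‖∑ i, (p i : ℂ) * S.F (w i) q.1‖ ^ 2 +
      ∑ i, p i * (‖S.F (w i) q.1 - 1‖ ^ 2 * W q)) ∂η := by
    refine integral_mono (bW.integrable η) (BM.integrable (by fun_prop) η) fun q => ?_
    have t1 := mul_le_mul_of_nonneg_right (one_le_comb hw.sum fun i => S.norm (w i) q.1) (hW0 q)
    have t2 := mul_le_of_le_one_right (sq_nonneg ‖∑ i, (p i : ℂ) * S.F (w i) q.1‖) (hW1 q)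
    rw [add_mul, Finset.sum_mul] at t1
    simp only [mul_assoc] at t1
    beta_reduce
    linarith
  rw [integral_add (BM.integrable (by fun_prop) η) (BM.integrable (by fun_prop) η),
    integral_finsetSum _ fun i _ => BM.integrable (by fun_prop) η] at h4
  have h5 : ∑ i, ∫ q, p i * (‖S.F (w i) q.1 - 1‖ ^ 2 * W q) ∂η ≤ ∑ i, p i * (4 * (m / 10)) :=
    Finset.sum_le_sum fun i _ => by
      rw [integral_const_mul]
      exact mul_le_mul_of_nonneg_left (hsmall _ (hw.small i)) (hw.nonneg i)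
  rw [← Finset.sum_mul, hw.sum] at h5
  linarith

end Crest.Agent.H3.Pl
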