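import Crest.Agent.H3.PlC

/-! Row 40, piece P2, parts D and E: a sample path and its density points. -/

set_option autoImplicit false

namespace Crest.Agent.H3.Pl
open Crest.Agent.H2.Pl MeasureTheory Filter Metric
open scoped Topology

lemma L_dense (x : ℂ) {δ : ℝ} (hδ : 0 < δ) : ∃ z : L, ‖(z : ℂ) - x‖ < δ := by
  obtain ⟨a, ha⟩ := exists_rat_near x.re (half_pos hδ)
  obtain ⟨b, hb⟩ := exists_rat_near x.im (half_pos hδ)
  have hI : Complex.I ∈ algebraicClosure ℚ ℂ :=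
    mem_of_pow (n := 2) two_pos (-1) (by simp)
  refine ⟨(a : L) + (b : L) * ⟨Complex.I, hI⟩, ?_⟩
  refine (Complex.norm_le_abs_re_add_abs_im _).trans_lt ?_
  rw [abs_sub_comm] at ha hb
  have e1 : ((((a : L) + (b : L) * ⟨Complex.I, hI⟩ : L) : ℂ) - x).re = a - x.re := by simp
  have e2 : ((((a : L) + (b : L) * ⟨Complex.I, hI⟩ : L) : ℂ) - x).im = b - x.im := by simp
  rw [e1, e2]
  linarith

lemma U_dense {t : ℂ} (ht : ‖t‖ = 1) {δ : ℝ} (hδ : 0 < δ) : ∃ u : U, ‖uc u - t‖ < δ := by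
  obtain ⟨z, hz⟩ := L_dense t (lt_min (half_pos hδ) one_pos)
  have h1 : ‖(z : ℂ) - t‖ < δ / 2 := hz.trans_le (min_le_left _ _)
  have h2 : ‖(z : ℂ) - t‖ < 1 := hz.trans_le (min_le_right _ _)
  have h3 : |‖(z : ℂ)‖ - 1| ≤ ‖(z : ℂ) - t‖ := by rw [← ht]; exact abs_norm_sub_norm_le _ _
  have h0 : 0 < ‖(z : ℂ)‖ := by have := (abs_le.1 h3).1; linarith
  have h0' : ((‖(z : ℂ)‖ : ℝ) : ℂ) ≠ 0 := by exact_mod_cast h0.ne'
  let y : L := z / ⟨_, norm_mem z⟩
  have hy : (y : ℂ) = z / ((‖(z : ℂ)‖ : ℝ) : ℂ) := by simp [y]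
  have hn : ‖(y : ℂ)‖ = 1 := by
    rw [hy, norm_div, Complex.norm_real, norm_norm, div_self h0.ne']
  refine ⟨mkU y hn, ?_⟩
  rw [uc_mkU]
  have h4 : ‖(y : ℂ) - z‖ = |‖(z : ℂ)‖ - 1| := by
    have : (y : ℂ) - z = y * ((1 - ‖(z : ℂ)‖ : ℝ) : ℂ) := by
      rw [hy]; push_cast; field_simp
    rw [this, norm_mul, hn, one_mul, Complex.norm_real, Real.norm_eq_abs, abs_sub_comm]
  have h5 := norm_sub_le_norm_sub_add_norm_sub (y : ℂ) z t
  linarith

instance : Countable U := by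
  have : Function.Injective fun u : U => ((u : Lˣ) : L) := fun u v h =>
    Subtype.ext (Units.ext h)
  exact this.countable

lemma exists_ap {δ : ℝ} (hδ : 0 < δ) : ∃ ap : ℂ → L, (∀ x, ‖(ap x : ℂ) - x‖ < δ) ∧
    ∀ G : L → Om → ℝ, (∀ z, Measurable (G z)) → Measurable fun p : ℂ × Om => G (ap p.1) p.2 := by
  classical
  obtain ⟨e, he⟩ := exists_surjective_nat L
  have hex : ∀ x : ℂ, ∃ k, ‖(e k : ℂ) - x‖ < δ := by
    intro x
    obtain ⟨z, hz⟩ := L_dense x hδ
    obtain ⟨k, rfl⟩ := he z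
    exact ⟨k, hz⟩
  have hs : ∀ x, ‖(e (Nat.find (hex x)) : ℂ) - x‖ < δ := fun x => Nat.find_spec (hex x)
  obtain ⟨k, hk, hs⟩ : ∃ k : ℂ → ℕ, Measurable k ∧ ∀ x, ‖(e (k x) : ℂ) - x‖ < δ :=
    ⟨fun x => Nat.find (hex x),
      measurable_find hex fun k => measurableSet_lt (by fun_prop) measurable_const, hs⟩
  refine ⟨fun x => e (k x), hs, fun G hG => ?_⟩
  have h1 : Measurable fun q : ℕ × Om => G (e q.1) q.2 :=
    measurable_from_prod_countable_right fun n => hG (e n)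
  exact h1.comp ((hk.comp measurable_fst).prodMk measurable_snd)

lemma exists_scales {μ : Measure Om} (ht : ∀ z, MeasurePreserving (tr z) μ μ)
    {γ : Fin 5 → Om → ℝ} (hγ : Gam μ γ) : ∃ δ : ℕ → ℝ, (∀ n, 0 < δ n) ∧ (∀ n, δ (n + 1) ≤ δ n) ∧
      ∀ i (a b : ℕ → L), (∀ n, ‖(a n : ℂ) - b n‖ < 2 * δ n) →
        ∀ᵐ ω ∂μ, Summable fun n => ‖γ i (tr (a n) ω) - γ i (tr (b n) ω)‖ := by
  have h1 : ∀ n : ℕ, ∃ δ > 0, ∀ i, ∀ w : L, ‖(w : ℂ)‖ < δ →
      eLpNorm (fun ω => γ i (tr w ω) - γ i ω) 2 μ ≤ ENNReal.ofReal ((1 / 2) ^ n) := by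
    intro n
    choose δ hδ h using fun i => hγ.cont i ((1 / 2) ^ n) (by positivity)
    refine ⟨Finset.univ.inf' Finset.univ_nonempty δ, (Finset.lt_inf'_iff _).2 fun i _ => hδ i,
      fun i w hw => h i w (hw.trans_le (Finset.inf'_le _ (Finset.mem_univ i)))⟩
  choose δ₀ hδ₀ hcont using h1
  let δ : ℕ → ℝ := fun n => Nat.rec (δ₀ 0 / 2) (fun k d => min d (δ₀ (k + 1) / 2)) n
  have hδpos : ∀ n, 0 < δ n := by
    intro n
    induction n with
    | zero => exact half_pos (hδ₀ 0)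
    | succ n ih => exact lt_min ih (half_pos (hδ₀ _))
  have hδle : ∀ n, δ n ≤ δ₀ n / 2 := by
    intro n
    cases n with
    | zero => exact le_rfl
    | succ n => exact min_le_right _ _
  refine ⟨δ, hδpos, fun n => min_le_left _ _, fun i a b hab => ?_⟩
  have hm : ∀ z : L, Measurable fun ω => γ i (tr z ω) := fun z =>
    (hγ.meas i).comp (continuous_tr z).measurable
  refine summable_norm_of_tsum_eLpNorm_ne_top (p := 2) (by norm_num)
    (f := fun n ω => γ i (tr (a n) ω) - γ i (tr (b n) ω))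
    (fun n => ((hm _).sub (hm _)).aestronglyMeasurable) ?_
  have hb : ∀ n, eLpNorm (fun ω => γ i (tr (a n) ω) - γ i (tr (b n) ω)) 2 μ ≤
      ENNReal.ofReal ((1 / 2) ^ n) := by
    intro n
    have h2 : ‖((a n - b n : L) : ℂ)‖ < δ₀ n := by
      have := hab n
      have := hδle n
      push_cast
      linarith
    have h3 := hcont n i (a n - b n) h2
    have h4 : AEStronglyMeasurable (fun ω => γ i (tr (a n - b n) ω) - γ i ω) μ :=
      ((hm _).sub (hγ.meas i)).aestronglyMeasurable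
    rw [← eLpNorm_comp_measurePreserving h4 (ht (b n))] at h3
    convert h3 using 2
    funext ω
    simp [tr_tr]
  refine ne_top_of_le_ne_top ?_ (ENNReal.tsum_le_tsum hb)
  rw [← ENNReal.ofReal_tsum_of_nonneg (fun n => by positivity) summable_geometric_two]
  exact ENNReal.ofReal_ne_top

lemma exists_version {μ : Measure Om} (ht : ∀ z, MeasurePreserving (tr z) μ μ)
    {γ : Fin 5 → Om → ℝ} (hγ : Gam μ γ) : ∃ Γ : Fin 5 → ℂ × Om → ℝ, (∀ i, Measurable (Γ i)) ∧
      (∀ x, ∀ᵐ ω ∂μ, ∑ i, Γ i (x, ω) = 1) ∧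
      ∀ i (u : U) x, ∀ᵐ ω ∂μ, Γ i (x, ω) * Γ i (x + uc u, ω) = 0 := by
  obtain ⟨δ, hδpos, hδanti, hsum⟩ := exists_scales ht hγ
  choose ap hap hapm using fun n => exists_ap (hδpos n)
  have hGm : ∀ i n, Measurable fun p : ℂ × Om => γ i (tr (ap n p.1) p.2) := fun i n =>
    hapm n (fun z ω => γ i (tr z ω)) fun z => (hγ.meas i).comp (continuous_tr z).measurable
  obtain ⟨Γ, hΓm, hΓ⟩ : ∃ Γ : Fin 5 → ℂ × Om → ℝ, (∀ i, Measurable (Γ i)) ∧
      ∀ i x ω l, Tendsto (fun n => γ i (tr (ap n x) ω)) atTop (𝓝 l) → Γ i (x, ω) = l :=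
    ⟨fun i p => limsup (fun n => γ i (tr (ap n p.1) p.2)) atTop,
      fun i => Measurable.limsup (hGm i), fun i x ω l hl => hl.limsup_eq⟩
  have hlim : ∀ i x, ∀ᵐ ω ∂μ, Tendsto (fun n => γ i (tr (ap n x) ω)) atTop (𝓝 (Γ i (x, ω))) := by
    intro i x
    have hd : ∀ n, ‖(ap n x : ℂ) - ap (n + 1) x‖ < 2 * δ n := by
      intro n
      have a1 := hap n x
      have a2 := hap (n + 1) x
      have a3 := norm_sub_le_norm_sub_add_norm_sub (ap n x : ℂ) x (ap (n + 1) x)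
      rw [norm_sub_rev x] at a3
      linarith [hδanti n]
    filter_upwards [hsum i (fun n => ap n x) (fun n => ap (n + 1) x) hd] with ω hω
    have hc : CauchySeq fun n => γ i (tr (ap n x) ω) :=
      cauchySeq_of_summable_dist (by simpa only [dist_eq_norm] using hω)
    obtain ⟨l, hl⟩ := cauchySeq_tendsto_of_complete hc
    rwa [hΓ i x ω l hl]
  refine ⟨Γ, hΓm, fun x => ?_, fun i u x => ?_⟩
  · have h0 : ∀ n, ∀ᵐ ω ∂μ, ∑ i, γ i (tr (ap n x) ω) = 1 := fun n =>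
      (ht (ap n x)).quasiMeasurePreserving.ae hγ.sum
    filter_upwards [ae_all_iff.2 fun i => hlim i x, ae_all_iff.2 h0] with ω h1 h2
    have := tendsto_finsetSum Finset.univ fun i _ => h1 i
    simp only [h2] at this
    exact tendsto_nhds_unique this tendsto_const_nhds
  · have hd : ∀ n, ‖((u • (1 : L) + ap n x : L) : ℂ) - ap n (x + uc u)‖ < 2 * δ n := by
      intro n
      have a1 := hap n x
      have a2 := hap n (x + uc u)
      have a3 := norm_sub_le ((ap n x : ℂ) - x) ((ap n (x + uc u) : ℂ) - (x + uc u))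
      have e1 : ((u • (1 : L) + ap n x : L) : ℂ) - ap n (x + uc u) =
          ((ap n x : ℂ) - x) - ((ap n (x + uc u) : ℂ) - (x + uc u)) := by
        push_cast; rw [coe_smul]; push_cast; ring
      rw [e1]
      linarith
    have h0 : ∀ n, ∀ᵐ ω ∂μ,
        γ i (tr (ap n x) ω) * γ i (tr (u • (1 : L)) (tr (ap n x) ω)) = 0 := fun n =>
      (ht (ap n x)).quasiMeasurePreserving.ae (hγ.orth i u)
    filter_upwards [hlim i x, hlim i (x + uc u),
      hsum i (fun n => u • (1 : L) + ap n x) (fun n => ap n (x + uc u)) hd, ae_all_iff.2 h0]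
      with ω h1 h2 h3 h4
    have h5 := (tendsto_zero_iff_norm_tendsto_zero.2 h3.tendsto_atTop_zero).add h2
    simp only [sub_add_cancel, zero_add] at h5
    have h6 := h1.mul h5
    simp only [tr_tr] at h4
    simp only [h4] at h6
    exact tendsto_nhds_unique h6 tendsto_const_nhds

theorem exists_sets {μ : Measure Om} [IsProbabilityMeasure μ]
    (ht : ∀ z, MeasurePreserving (tr z) μ μ) {γ : Fin 5 → Om → ℝ} (hγ : Gam μ γ) :
    ∃ B : Fin 5 → Set ℂ, (∀ i, MeasurableSet (B i)) ∧ (∀ᵐ x : ℂ, ∃ i, x ∈ B i) ∧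
      ∀ i (u : U), ∀ᵐ x : ℂ, ¬ (x ∈ B i ∧ x + uc u ∈ B i) := by
  obtain ⟨Γ, hΓm, hcover, hprod⟩ := exists_version ht hγ
  have m1 : MeasurableSet {p : ℂ × Om | ∑ i, Γ i (p.1, p.2) = 1} :=
    measurableSet_eq_fun (Finset.measurable_sum _ fun i _ => hΓm i) measurable_const
  have hc' : ∀ᵐ ω ∂μ, ∀ᵐ x : ℂ, ∑ i, Γ i (x, ω) = 1 :=
    (Measure.ae_ae_comm (p := fun x ω => ∑ i, Γ i (x, ω) = 1) m1).1
      (Eventually.of_forall hcover)
  have hp' : ∀ i (u : U), ∀ᵐ ω ∂μ, ∀ᵐ x : ℂ, Γ i (x, ω) * Γ i (x + uc u, ω) = 0 := by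
    intro i u
    have m3 : Measurable fun p : ℂ × Om => Γ i (p.1 + uc u, p.2) :=
      (hΓm i).comp ((measurable_fst.add_const (uc u)).prodMk measurable_snd)
    have m2 : MeasurableSet {p : ℂ × Om | Γ i (p.1, p.2) * Γ i (p.1 + uc u, p.2) = 0} :=
      measurableSet_eq_fun ((hΓm i).mul m3) measurable_const
    exact (Measure.ae_ae_comm (p := fun x ω => Γ i (x, ω) * Γ i (x + uc u, ω) = 0) m2).1
      (Eventually.of_forall (hprod i u))
  obtain ⟨ω, hω1, hω2⟩ := (hc'.and (ae_all_iff.2 fun i => ae_all_iff.2 (hp' i))).exists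
  refine ⟨fun i => {x | Γ i (x, ω) ≠ 0}, fun i => ?_, ?_, fun i u => ?_⟩
  · have m3 : Measurable fun x : ℂ => Γ i (x, ω) :=
      (hΓm i).comp (measurable_id.prodMk measurable_const)
    exact (measurableSet_eq_fun m3 measurable_const).compl
  · filter_upwards [hω1] with x hx
    by_contra hne
    have : ∀ i, Γ i (x, ω) = 0 := fun i => by
      by_contra h
      exact hne ⟨i, h⟩
    simp [this] at hx
  · filter_upwards [hω2 i u] with x hx h
    exact mul_ne_zero h.1 h.2 hx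

lemma vol_closedBall (x : ℂ) {r : ℝ} (hr : 0 ≤ r) :
    volume.real (closedBall x r) = Real.pi * r ^ 2 := by
  rw [measureReal_def, Complex.volume_closedBall]
  simp [ENNReal.toReal_ofReal hr, mul_comm]

lemma small_compl {B : Set ℂ} (hB : MeasurableSet B) {x : ℂ}
    (hx : Tendsto (fun r : ℝ => volume (B ∩ closedBall x r) / volume (closedBall x r))
      (𝓝[>] 0) (𝓝 1)) :
    ∀ᶠ r : ℝ in 𝓝[>] 0, volume.real (closedBall x r \ B) < Real.pi * r ^ 2 / 10 := by
  have h1 := (ENNReal.tendsto_toReal ENNReal.one_ne_top).comp hx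
  have h2 := h1.eventually (lt_mem_nhds (show (9 / 10 : ℝ) < ENNReal.toReal 1 by norm_num))
  filter_upwards [h2, self_mem_nhdsWithin] with r hr hr0
  have hr0' : 0 < r := hr0
  simp only [Function.comp_apply, ENNReal.toReal_div] at hr
  rw [← measureReal_def, ← measureReal_def, vol_closedBall x hr0'.le,
    lt_div_iff₀ (by positivity), Set.inter_comm] at hr
  have h3 := measureReal_inter_add_sdiff (μ := volume) (s := closedBall x r) hB
    measure_closedBall_lt_top.ne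
  rw [vol_closedBall x hr0'.le] at h3
  linarith

lemma no_unit_dist {B : Set ℂ} (hB : MeasurableSet B)
    (hu : ∀ u : U, ∀ᵐ x : ℂ, ¬ (x ∈ B ∧ x + uc u ∈ B)) {x y : ℂ}
    (hx : Tendsto (fun r : ℝ => volume (B ∩ closedBall x r) / volume (closedBall x r))
      (𝓝[>] 0) (𝓝 1))
    (hy : Tendsto (fun r : ℝ => volume (B ∩ closedBall y r) / volume (closedBall y r))
      (𝓝[>] 0) (𝓝 1)) : dist x y ≠ 1 := by
  intro hd
  obtain ⟨r, ⟨h1, h2⟩, hr⟩ :=
    (((small_compl hB hx).and (small_compl hB hy)).and self_mem_nhdsWithin).exists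
  have hr' : 0 < r := hr
  obtain ⟨u, hu'⟩ := U_dense (t := y - x) (by rw [← dist_eq_norm, dist_comm, hd]) (half_pos hr')
  have hsub : closedBall x (r / 2) ≤ᵐ[volume]
      ((closedBall x r \ B) ∪ ((fun z => z + uc u) ⁻¹' (closedBall y r \ B)) : Set ℂ) := by
    filter_upwards [hu u] with z hz hzx
    have hz1 : dist z x ≤ r / 2 := hzx
    by_cases hzB : z ∈ B
    · refine Or.inr ⟨?_, fun h => hz ⟨hzB, h⟩⟩
      rw [mem_closedBall, dist_eq_norm]
      rw [dist_eq_norm] at hz1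
      have e : z + uc u - y = (z - x) + (uc u - (y - x)) := by ring
      rw [e]
      linarith [norm_add_le (z - x) (uc u - (y - x))]
    · exact Or.inl ⟨mem_closedBall.2 (by linarith), hzB⟩
  have hfin1 : volume (closedBall x r \ B) ≠ ⊤ :=
    ne_top_of_le_ne_top measure_closedBall_lt_top.ne (measure_mono Set.sdiff_subset)
  have hfin2 : volume (closedBall y r \ B) ≠ ⊤ :=
    ne_top_of_le_ne_top measure_closedBall_lt_top.ne (measure_mono Set.sdiff_subset)
  have h3 := (measure_mono_ae hsub).trans (measure_union_le _ _)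
  rw [measure_preimage_add_right] at h3
  have h4 := ENNReal.toReal_mono (ENNReal.add_ne_top.2 ⟨hfin1, hfin2⟩) h3
  rw [ENNReal.toReal_add hfin1 hfin2, ← measureReal_def, ← measureReal_def, ← measureReal_def,
    vol_closedBall x (half_pos hr').le] at h4
  have : 0 < Real.pi * r ^ 2 := by positivity
  nlinarith

theorem measCol_of_sets {B : Fin 5 → Set ℂ} (hB : ∀ i, MeasurableSet (B i))
    (hc : ∀ᵐ x : ℂ, ∃ i, x ∈ B i) (hu : ∀ i (u : U), ∀ᵐ x : ℂ, ¬ (x ∈ B i ∧ x + uc u ∈ B i)) :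
    MeasCol := by
  have h1 : ∀ i, ∃ N : Set ℂ, MeasurableSet N ∧ volume N = 0 ∧ ∀ x ∈ B i, x ∉ N →
      Tendsto (fun r : ℝ => volume (B i ∩ closedBall x r) / volume (closedBall x r))
        (𝓝[>] 0) (𝓝 1) := by
    intro i
    have := Besicovitch.ae_tendsto_measure_inter_div (volume : Measure ℂ) (B i)
    rw [ae_restrict_iff' (hB i), ae_iff] at this
    obtain ⟨N, hN1, hN2, hN3⟩ := exists_measurable_superset_of_null this
    refine ⟨N, hN2, hN3, fun x hx hxN => ?_⟩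
    by_contra h
    exact hxN (hN1 fun h' => h (h' hx))
  choose N hN1 hN2 hN3 using h1
  refine ⟨fun i => B i \ N i, fun i => (hB i).diff (hN1 i), ?_, fun i x hx y hy => ?_,
    fun i x hx => ?_⟩
  · filter_upwards [hc, ae_all_iff.2 fun i => measure_eq_zero_iff_ae_notMem.1 (hN2 i)]
      with x ⟨i, hi⟩ hx
    exact ⟨i, hi, hx i⟩
  · exact no_unit_dist (hB i) (hu i) (hN3 i x hx.1 hx.2) (hN3 i y hy.1 hy.2)
  · refine (hN3 i x hx.1 hx.2).congr fun r => ?_
    congr 1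
    exact measure_congr (((sdiff_null_ae_eq_self (hN2 i)).symm).inter (ae_eq_refl _))

theorem extractStmt (hC : ContStmt) : ExtractStmt := by
  intro hM hS c hc
  obtain ⟨μ, hμ, ht, hr, hp⟩ := exists_measure hM c hc
  obtain ⟨γ, hγ⟩ := exists_gam hC hS μ ht hr hp
  obtain ⟨B, h1, h2, h3⟩ := exists_sets ht hγ
  exact measCol_of_sets h1 h2 h3

end Crest.Agent.H3.Pl
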