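import Mathlib

/-! The Prékopa–Leindler inequality (midpoint form) on Euclidean space. -/

set_option autoImplicit false

namespace Crest.Agent.H3.OT

open MeasureTheory Filter Topology Set
open scoped ENNReal NNReal

lemma volume_preimage_two_mul_sub (K : Set ℝ) (b : ℝ) :
    2 * volume ((fun x : ℝ => 2 * x - b) ⁻¹' K) = volume K := by
  have : (fun x : ℝ => 2 * x - b) ⁻¹' K = (fun x : ℝ => 2 * x) ⁻¹' ((fun x => x + -b) ⁻¹' K) := by
    ext x; simp [sub_eq_add_neg]
  rw [this, Real.volume_preimage_mul_left (by norm_num), measure_preimage_add_right, ← mul_assoc]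
  have h2 : (2 : ℝ≥0∞) * ENNReal.ofReal |(2 : ℝ)⁻¹| = 1 := by
    rw [abs_of_pos (by norm_num), ENNReal.ofReal_inv_of_pos (by norm_num)]
    simp only [ENNReal.ofReal_ofNat]
    exact ENNReal.mul_inv_cancel (by norm_num) (by norm_num)
  rw [h2, one_mul]

lemma bm_compact {A B C : Set ℝ} (hA : IsCompact A) (hB : IsCompact B) (hAn : A.Nonempty)
    (hBn : B.Nonempty) (hC : ∀ x ∈ A, ∀ y ∈ B, (2 : ℝ)⁻¹ * (x + y) ∈ C) :
    volume A + volume B ≤ 2 * volume C := by
  obtain ⟨a, ha, ha'⟩ := hA.exists_isGreatest hAn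
  obtain ⟨b, hb, hb'⟩ := hB.exists_isLeast hBn
  rw [← volume_preimage_two_mul_sub A b, ← volume_preimage_two_mul_sub B a, ← mul_add,
    ← measure_union₀]
  · gcongr
    rintro x (hx | hx)
    · convert hC _ hx _ hb using 1; ring
    · convert hC _ ha _ hx using 1; ring
  · exact (hB.measurableSet.preimage (by fun_prop)).nullMeasurableSet
  · refine measure_mono_null (t := {(a + b) / 2}) ?_ (by simp)
    rintro x ⟨hx1, hx2⟩
    have h1 := ha' hx1
    have h2 := hb' hx2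
    simp only [mem_singleton_iff] at h1 h2 ⊢
    linarith

lemma bm_one {A B C : Set ℝ} (hA : MeasurableSet A) (hB : MeasurableSet B) (hAn : A.Nonempty)
    (hBn : B.Nonempty) (hC : ∀ x ∈ A, ∀ y ∈ B, (2 : ℝ)⁻¹ * (x + y) ∈ C) :
    volume A + volume B ≤ 2 * volume C := by
  obtain ⟨a, ha⟩ := hAn
  obtain ⟨b, hb⟩ := hBn
  rw [hA.measure_eq_iSup_isCompact, hB.measure_eq_iSup_isCompact]
  simp only [iSup_and']
  refine ENNReal.biSup_add_biSup_le' (p := fun K : Set ℝ => K ⊆ A ∧ IsCompact K)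
    (q := fun K : Set ℝ => K ⊆ B ∧ IsCompact K) ⟨∅, by simp⟩ ⟨∅, by simp⟩ ?_
  rintro K₁ ⟨h1, h1'⟩ K₂ ⟨h2, h2'⟩
  refine le_trans ?_ (bm_compact (h1'.insert a) (h2'.insert b) (insert_nonempty _ _)
    (insert_nonempty _ _) fun x hx y hy => hC x (insert_subset ha h1 hx) y (insert_subset hb h2 hy))
  gcongr <;> exact subset_insert _ _

lemma layercake_le_one {F : ℝ → ℝ≥0∞} (hF : Measurable F) (h1 : ∀ x, F x ≤ 1) :
    ∫⁻ x, F x = ∫⁻ t in Ioi (0 : ℝ), volume {x | ENNReal.ofReal t < F x} := by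
  have hne : ∀ x, F x ≠ ⊤ := fun x => ne_top_of_le_ne_top ENNReal.one_ne_top (h1 x)
  have := lintegral_eq_lintegral_meas_lt (volume : Measure ℝ) (f := fun x => (F x).toReal)
    (ae_of_all _ fun x => ENNReal.toReal_nonneg) hF.ennreal_toReal.aemeasurable
  simp only [ENNReal.ofReal_toReal (hne _)] at this
  rw [this]
  refine setLIntegral_congr_fun measurableSet_Ioi fun t ht => ?_
  simp only [ENNReal.ofReal_lt_iff_lt_toReal (le_of_lt ht) (hne _)]

lemma measurable_level {F : ℝ → ℝ≥0∞} :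
    Measurable fun t : ℝ => volume {x | ENNReal.ofReal t < F x} := by
  refine Antitone.measurable fun s t hst => measure_mono fun x hx => ?_
  exact lt_of_le_of_lt (ENNReal.ofReal_le_ofReal hst) hx

lemma pl_norm {f g h : ℝ → ℝ≥0∞} (hf : Measurable f) (hg : Measurable g) (hh : Measurable h)
    (hf1 : ⨆ x, f x = 1) (hg1 : ⨆ x, g x = 1)
    (H : ∀ x y, f x * g y ≤ h ((2 : ℝ)⁻¹ * (x + y)) ^ 2) :
    (∫⁻ x, f x) + ∫⁻ x, g x ≤ 2 * ∫⁻ x, h x := by
  have hf2 : ∀ x, f x ≤ 1 := fun x => hf1 ▸ le_iSup f x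
  have hg2 : ∀ x, g x ≤ 1 := fun x => hg1 ▸ le_iSup g x
  refine le_trans ?_ (mul_le_mul_right (lintegral_mono (f := fun x => min (h x) 1)
    fun x => min_le_left _ _) _)
  rw [layercake_le_one hf hf2, layercake_le_one hg hg2,
    layercake_le_one (hh.min measurable_const) fun x => min_le_right _ _,
    ← lintegral_add_left measurable_level, ← lintegral_const_mul _ measurable_level]
  refine setLIntegral_mono' measurableSet_Ioi fun t ht => ?_
  by_cases ht1 : ENNReal.ofReal t < 1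
  · refine bm_one (measurableSet_lt measurable_const hf) (measurableSet_lt measurable_const hg)
      (lt_iSup_iff.1 (ht1.trans_eq hf1.symm)) (lt_iSup_iff.1 (ht1.trans_eq hg1.symm))
      fun x hx y hy => ?_
    refine lt_min ?_ ht1
    by_contra hcon
    push Not at hcon
    have h1 : ENNReal.ofReal t * ENNReal.ofReal t < f x * g y := ENNReal.mul_lt_mul hx hy
    have h2 := (H x y).trans (pow_le_pow_left' hcon 2)
    rw [sq] at h2
    exact absurd h1 (not_lt.2 h2)
  · have e1 : {x | ENNReal.ofReal t < f x} = ∅ :=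
      eq_empty_of_forall_notMem fun x hx => ht1 (lt_of_lt_of_le hx (hf2 x))
    have e2 : {x | ENNReal.ofReal t < g x} = ∅ :=
      eq_empty_of_forall_notMem fun x hx => ht1 (lt_of_lt_of_le hx (hg2 x))
    simp [e1, e2]

lemma ennreal_amgm {a b c : ℝ≥0∞} (h : a + b ≤ 2 * c) : a * b ≤ c ^ 2 := by
  by_cases hc : c = ⊤
  · simp [hc]
  have h2 : 2 * c ≠ ⊤ := ENNReal.mul_ne_top (by norm_num) hc
  lift a to ℝ≥0 using ne_top_of_le_ne_top h2 (le_self_add.trans h)
  lift b to ℝ≥0 using ne_top_of_le_ne_top h2 (le_add_self.trans h)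
  lift c to ℝ≥0 using hc
  norm_cast at h ⊢
  have h' : (a : ℝ) + b ≤ 2 * c := by exact_mod_cast h
  have : (a : ℝ) * b ≤ (c : ℝ) ^ 2 := by
    nlinarith [sq_nonneg ((a : ℝ) - b), a.coe_nonneg, b.coe_nonneg, c.coe_nonneg]
  exact_mod_cast this

lemma pl_bdd {f g h : ℝ → ℝ≥0∞} (hf : Measurable f) (hg : Measurable g) (hh : Measurable h)
    (hf1 : ⨆ x, f x ≠ ⊤) (hg1 : ⨆ x, g x ≠ ⊤)
    (H : ∀ x y, f x * g y ≤ h ((2 : ℝ)⁻¹ * (x + y)) ^ 2) :
    (∫⁻ x, f x) * ∫⁻ x, g x ≤ (∫⁻ x, h x) ^ 2 := by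
  by_cases hf0 : ⨆ x, f x = 0
  · have : f = 0 := funext fun x => le_antisymm ((le_iSup f x).trans hf0.le) bot_le
    simp [this]
  by_cases hg0 : ⨆ x, g x = 0
  · have : g = 0 := funext fun x => le_antisymm ((le_iSup g x).trans hg0.le) bot_le
    simp [this]
  obtain ⟨M, hM⟩ := WithTop.ne_top_iff_exists.1 hf1
  obtain ⟨N, hN⟩ := WithTop.ne_top_iff_exists.1 hg1
  change (M : ℝ≥0∞) = _ at hM
  change (N : ℝ≥0∞) = _ at hN
  have hM0 : M ≠ 0 := by rintro rfl; exact hf0 (by simpa using hM.symm)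
  have hN0 : N ≠ 0 := by rintro rfl; exact hg0 (by simpa using hN.symm)
  set s : ℝ≥0 := NNReal.sqrt (M⁻¹ * N⁻¹) with hs
  have hs2 : (s : ℝ≥0∞) ^ 2 = ((M⁻¹ : ℝ≥0) : ℝ≥0∞) * ((N⁻¹ : ℝ≥0) : ℝ≥0∞) := by
    rw [← ENNReal.coe_pow, hs, NNReal.sq_sqrt, ENNReal.coe_mul]
  have key := pl_norm (f := fun x => ((M⁻¹ : ℝ≥0) : ℝ≥0∞) * f x)
    (g := fun x => ((N⁻¹ : ℝ≥0) : ℝ≥0∞) * g x) (h := fun x => (s : ℝ≥0∞) * h x)
    (hf.const_mul _) (hg.const_mul _) (hh.const_mul _)
    (by rw [← ENNReal.mul_iSup, ← hM, ← ENNReal.coe_mul, inv_mul_cancel₀ hM0]; simp)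
    (by rw [← ENNReal.mul_iSup, ← hN, ← ENNReal.coe_mul, inv_mul_cancel₀ hN0]; simp)
    (fun x y => by
      rw [mul_pow, hs2, mul_mul_mul_comm]
      exact mul_le_mul_right (H x y) _)
  have key2 := ennreal_amgm key
  rw [lintegral_const_mul _ hf, lintegral_const_mul _ hg, lintegral_const_mul _ hh, mul_pow, hs2,
    mul_mul_mul_comm] at key2
  refine (ENNReal.mul_le_mul_iff_right ?_ ?_).1 key2
  · simp [hM0, hN0]
  · exact ENNReal.mul_ne_top ENNReal.coe_ne_top ENNReal.coe_ne_top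

lemma lintegral_eq_iSup_min {X : Type*} [MeasurableSpace X] (μ : Measure X) {f : X → ℝ≥0∞}
    (hf : Measurable f) : ∫⁻ x, f x ∂μ = ⨆ n : ℕ, ∫⁻ x, min (f x) n ∂μ := by
  rw [← lintegral_iSup (fun n => hf.min measurable_const)]
  · congr 1; ext x
    rw [← inf_iSup_eq (f x) fun n : ℕ => (n : ℝ≥0∞)]
    simp [ENNReal.iSup_natCast]
  · intro m n hmn x
    exact min_le_min_left _ (by exact_mod_cast hmn)

/-- the midpoint Prékopa–Leindler property of a measure on a real vector space -/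
def HasPL {X : Type*} [AddCommGroup X] [Module ℝ X] [MeasurableSpace X] (μ : Measure X) : Prop :=
  ∀ f g h : X → ℝ≥0∞, Measurable f → Measurable g → Measurable h →
    (∀ x y, f x * g y ≤ h ((2 : ℝ)⁻¹ • (x + y)) ^ 2) →
    (∫⁻ x, f x ∂μ) * ∫⁻ x, g x ∂μ ≤ (∫⁻ x, h x ∂μ) ^ 2

lemma hasPL_real : HasPL (volume : Measure ℝ) := by
  intro f g h hf hg hh H
  rw [lintegral_eq_iSup_min _ hf, lintegral_eq_iSup_min _ hg, ENNReal.iSup_mul]
  refine iSup_le fun m => ?_
  rw [ENNReal.mul_iSup]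
  refine iSup_le fun n => ?_
  refine pl_bdd (hf.min measurable_const) (hg.min measurable_const) hh ?_ ?_ fun x y => ?_
  · exact ne_top_of_le_ne_top (ENNReal.natCast_ne_top m) (iSup_le fun x => min_le_right _ _)
  · exact ne_top_of_le_ne_top (ENNReal.natCast_ne_top n) (iSup_le fun x => min_le_right _ _)
  · exact le_trans (mul_le_mul' (min_le_left _ _) (min_le_left _ _)) (H x y)

lemma HasPL.prod {X Y : Type*} [AddCommGroup X] [Module ℝ X] [MeasurableSpace X]
    [AddCommGroup Y] [Module ℝ Y] [MeasurableSpace Y] {μ : Measure X} {ν : Measure Y}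
    [SFinite ν] (hμ : HasPL μ) (hν : HasPL ν) : HasPL (μ.prod ν) := by
  intro f g h hf hg hh H
  rw [lintegral_prod _ hf.aemeasurable, lintegral_prod _ hg.aemeasurable,
    lintegral_prod _ hh.aemeasurable]
  refine hμ _ _ _ hf.lintegral_prod_right' hg.lintegral_prod_right' hh.lintegral_prod_right'
    fun x x' => ?_
  exact hν _ _ _ (hf.comp measurable_prodMk_left) (hg.comp measurable_prodMk_left)
    (hh.comp measurable_prodMk_left) fun y y' => H (x, y) (x', y')

lemma HasPL.map {X Y : Type*} [AddCommGroup X] [Module ℝ X] [MeasurableSpace X]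
    [AddCommGroup Y] [Module ℝ Y] [MeasurableSpace Y] {μ : Measure X} {ν : Measure Y}
    (hμ : HasPL μ) {e : X → Y} (he : MeasurePreserving e μ ν)
    (hl : ∀ x y, e ((2 : ℝ)⁻¹ • (x + y)) = (2 : ℝ)⁻¹ • (e x + e y)) : HasPL ν := by
  intro f g h hf hg hh H
  rw [← he.lintegral_comp hf, ← he.lintegral_comp hg, ← he.lintegral_comp hh]
  refine hμ _ _ _ (hf.comp he.measurable) (hg.comp he.measurable) (hh.comp he.measurable)
    fun x y => ?_
  rw [hl]; exact H _ _

lemma hasPL_pi (n : ℕ) : HasPL (volume : Measure (Fin n → ℝ)) := by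
  induction n with
  | zero =>
    intro f g h hf hg hh H
    have : (volume : Measure (Fin 0 → ℝ)) = Measure.dirac 0 := by
      rw [volume_pi, Measure.pi_of_empty]; congr; exact Subsingleton.elim _ _
    rw [this]
    simpa using H 0 0
  | succ n ih =>
    refine (hasPL_real.prod ih).map
      ((volume_preserving_piFinSuccAbove (fun _ : Fin (n + 1) => ℝ) 0).symm _) fun x y => ?_
    ext i
    refine Fin.cases ?_ (fun j => ?_) i <;> simp [MeasurableEquiv.piFinSuccAbove, mul_add]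

theorem hasPL_euclidean (d : ℕ) : HasPL (volume : Measure (EuclideanSpace ℝ (Fin d))) :=
  (hasPL_pi d).map (PiLp.volume_preserving_toLp (Fin d)) fun x y => by simp

end Crest.Agent.H3.OT
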