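import Mathlib
import Crest.Agent.H3.PL

/-! Semi-discrete optimal transport: Laguerre cells, weak duality, balanced potentials. -/

set_option autoImplicit false
set_option linter.unusedSectionVars false

namespace Crest.Agent.H3.OT

open MeasureTheory Filter Topology Set
open scoped ENNReal NNReal RealInnerProductSpace

variable {E : Type*} [NormedAddCommGroup E] [InnerProductSpace ℝ E] [FiniteDimensional ℝ E]
  [MeasurableSpace E] [BorelSpace E]

/-- the properties of the source measure that are used -/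
structure Src (ρ : Measure E) (K : Set E) (R : ℝ) : Prop where
  prob : IsProbabilityMeasure ρ
  ac : ρ ≪ volume
  conv : Convex ℝ K
  aeK : ∀ᵐ x ∂ρ, x ∈ K
  pos : 0 < R
  bdd : ∀ x ∈ K, ‖x‖ ≤ R
  pl : ∀ f g h : E → ℝ≥0∞, Measurable f → Measurable g → Measurable h →
    (∀ x ∈ K, ∀ y ∈ K, f x * g y ≤ h ((2 : ℝ)⁻¹ • (x + y)) ^ 2) →
    (∫⁻ x, f x ∂ρ) * ∫⁻ x, g x ∂ρ ≤ (∫⁻ x, h x ∂ρ) ^ 2

variable {ρ : Measure E} {K : Set E} {R : ℝ}

lemma Src.integrable (hs : Src ρ K R) {F : Type*} [NormedAddCommGroup F] {g : E → F}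
    (hg : Continuous g) : Integrable g ρ := by
  have := hs.prob
  obtain ⟨C, hC⟩ := (isCompact_closedBall (0 : E) R).exists_bound_of_continuousOn hg.continuousOn
  refine Integrable.of_bound hg.aestronglyMeasurable C ?_
  filter_upwards [hs.aeK] with x hx
  exact hC x (by simpa using hs.bdd x hx)

lemma Src.hyperplane (hs : Src ρ K R) {v : E} (hv : v ≠ 0) (c : ℝ) : ∀ᵐ x ∂ρ, ⟪x, v⟫ ≠ c := by
  refine hs.ac.ae_le ?_
  let s : AffineSubspace ℝ E := AffineSubspace.comap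
    (((innerSL ℝ v : E →L[ℝ] ℝ) : E →ₗ[ℝ] ℝ).toAffineMap) (AffineSubspace.mk' c ⊥)
  have hs' : ∀ x, x ∈ s ↔ ⟪x, v⟫ = c := fun x => by
    simp [s, AffineSubspace.mem_mk', sub_eq_zero, real_inner_comm]
  have hne : s ≠ ⊤ := by
    intro h
    have h0 := (hs' 0).1 (h ▸ AffineSubspace.mem_top ℝ E _)
    have h1 := (hs' v).1 (h ▸ AffineSubspace.mem_top ℝ E _)
    rw [inner_zero_left] at h0
    rw [← h0, inner_self_eq_zero] at h1
    exact hv h1
  have := Measure.addHaar_affineSubspace (volume : Measure E) s hne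
  rw [mem_ae_iff]
  convert this using 2
  ext x; simp [hs']

variable {ι : Type*} [Fintype ι] [Nonempty ι]

/-- the potential `max_i ⟪x, y i⟫ - ψ i` -/
noncomputable def Phi (y : ι → E) (ψ : ι → ℝ) (x : E) : ℝ := ⨆ i, (⟪x, y i⟫ - ψ i)

/-- the open Laguerre cell -/
def cell (y : ι → E) (ψ : ι → ℝ) (i : ι) : Set E :=
  {x | ∀ j, j ≠ i → ⟪x, y j⟫ - ψ j < ⟪x, y i⟫ - ψ i}

lemma le_Phi (y : ι → E) (ψ : ι → ℝ) (x : E) (i : ι) : ⟪x, y i⟫ - ψ i ≤ Phi y ψ x :=
  le_ciSup (f := fun i => ⟪x, y i⟫ - ψ i) (Finite.bddAbove_range _) i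

lemma exists_eq_Phi (y : ι → E) (ψ : ι → ℝ) (x : E) : ∃ i, ⟪x, y i⟫ - ψ i = Phi y ψ x :=
  exists_eq_ciSup_of_finite

lemma Phi_eq_of_mem {y : ι → E} {ψ : ι → ℝ} {i : ι} {x : E} (hx : x ∈ cell y ψ i) :
    Phi y ψ x = ⟪x, y i⟫ - ψ i := by
  refine le_antisymm (ciSup_le fun j => ?_) (le_Phi y ψ x i)
  by_cases h : j = i
  · rw [h]
  · exact (hx j h).le

lemma isOpen_cell (y : ι → E) (ψ : ι → ℝ) (i : ι) : IsOpen (cell y ψ i) := by
  have : cell y ψ i = ⋂ j, {x | j ≠ i → ⟪x, y j⟫ - ψ j < ⟪x, y i⟫ - ψ i} := by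
    ext x; simp [cell]
  rw [this]
  refine isOpen_iInter_of_finite fun j => ?_
  by_cases h : j = i
  · simp [h]
  · simp only [ne_eq, h, not_false_eq_true, forall_const]
    exact isOpen_lt (by fun_prop) (by fun_prop)

lemma measurableSet_cell (y : ι → E) (ψ : ι → ℝ) (i : ι) : MeasurableSet (cell y ψ i) :=
  (isOpen_cell y ψ i).measurableSet

lemma disjoint_cell (y : ι → E) (ψ : ι → ℝ) : Pairwise (Function.onFun Disjoint (cell y ψ)) := by
  intro i j hij
  refine Set.disjoint_left.2 fun x hi hj => ?_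
  exact lt_asymm (hi j hij.symm) (hj i hij)

lemma mid_mem_cell {y : ι → E} {ψ ψ' : ι → ℝ} {i : ι} {x x' : E} (hx : x ∈ cell y ψ i)
    (hx' : x' ∈ cell y ψ' i) :
    (2 : ℝ)⁻¹ • (x + x') ∈ cell y (fun j => (ψ j + ψ' j) / 2) i := by
  intro j hj
  have h1 := hx j hj
  have h2 := hx' j hj
  simp only [inner_smul_left, inner_add_left, conj_trivial]
  linarith

lemma Phi_sub_le (y y' : ι → E) (ψ ψ' : ι → ℝ) (x x' : E) (C : ℝ)
    (h : ∀ i, (⟪x, y i⟫ - ψ i) - (⟪x', y' i⟫ - ψ' i) ≤ C) : Phi y ψ x - Phi y' ψ' x' ≤ C := by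
  obtain ⟨i, hi⟩ := exists_eq_Phi y ψ x
  linarith [le_Phi y' ψ' x' i, h i]

lemma lipschitz_Phi {y : ι → E} {L : ℝ≥0} (hy : ∀ i, ‖y i‖ ≤ L) (ψ : ι → ℝ) :
    LipschitzWith L (Phi y ψ) := by
  refine LipschitzWith.of_le_add_mul L fun x x' => ?_
  have := Phi_sub_le y y ψ ψ x x' (L * dist x x') fun i => by
    rw [sub_sub_sub_cancel_right, ← inner_sub_left, dist_eq_norm, mul_comm]
    exact (real_inner_le_norm _ _).trans (mul_le_mul_of_nonneg_left (hy i) (norm_nonneg _))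
  linarith

lemma continuous_Phi (y : ι → E) (ψ : ι → ℝ) : Continuous (Phi y ψ) :=
  (lipschitz_Phi (L := ‖y‖₊) (fun i => norm_le_pi_norm y i) ψ).continuous

lemma Src.ae_mem_cell (hs : Src ρ K R) {y : ι → E} (hy : Function.Injective y) (ψ : ι → ℝ) :
    ∀ᵐ x ∂ρ, ∃ i, x ∈ cell y ψ i := by
  have : ∀ᵐ x ∂ρ, ∀ i j, i ≠ j → ⟪x, y i - y j⟫ ≠ ψ i - ψ j := by
    refine ae_all_iff.2 fun i => ae_all_iff.2 fun j => ?_
    by_cases h : i = j
    · simp [h]
    · filter_upwards [hs.hyperplane (sub_ne_zero.2 (hy.ne h)) (ψ i - ψ j)] with x hx _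
      exact hx
  filter_upwards [this] with x hx
  obtain ⟨i, hi⟩ := exists_eq_Phi y ψ x
  refine ⟨i, fun j hj => lt_of_le_of_ne (hi ▸ le_Phi y ψ x j) fun h => hx j i hj ?_⟩
  rw [inner_sub_right]; linarith

lemma integral_iUnion_cell (y : ι → E) (ψ : ι → ℝ) {g : E → ℝ} (hg : Integrable g ρ) :
    ∫ x in ⋃ i, cell y ψ i, g x ∂ρ = ∑ i, ∫ x in cell y ψ i, g x ∂ρ := by
  rw [integral_iUnion (measurableSet_cell y ψ) (disjoint_cell y ψ) hg.integrableOn, tsum_fintype]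

lemma Src.integral_eq_sum (hs : Src ρ K R) {y : ι → E} (hy : Function.Injective y) (ψ : ι → ℝ)
    {g : E → ℝ} (hg : Integrable g ρ) : ∫ x, g x ∂ρ = ∑ i, ∫ x in cell y ψ i, g x ∂ρ := by
  rw [← integral_iUnion_cell y ψ hg, Measure.restrict_eq_self_of_ae_mem]
  filter_upwards [hs.ae_mem_cell hy ψ] with x hx
  exact mem_iUnion.2 hx

lemma sum_integral_cell_le (y : ι → E) (ψ : ι → ℝ) {g : E → ℝ} (hg : Integrable g ρ)
    (hg0 : ∀ x, 0 ≤ g x) : ∑ i, ∫ x in cell y ψ i, g x ∂ρ ≤ ∫ x, g x ∂ρ := by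
  rw [← integral_iUnion_cell y ψ hg]
  exact setIntegral_le_integral hg (ae_of_all _ hg0)

/-- mass of a cell -/
noncomputable def mass (ρ : Measure E) (y : ι → E) (ψ : ι → ℝ) (i : ι) : ℝ := ρ.real (cell y ψ i)

/-- first moment of a cell, tested against `v` -/
noncomputable def mom (ρ : Measure E) (y : ι → E) (ψ : ι → ℝ) (i : ι) (v : E) : ℝ :=
  ∫ x in cell y ψ i, ⟪x, v⟫ ∂ρ

lemma Src.sum_mass (hs : Src ρ K R) {y : ι → E} (hy : Function.Injective y) (ψ : ι → ℝ) :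
    ∑ i, mass ρ y ψ i = 1 := by
  have := hs.prob
  have := hs.integral_eq_sum hy ψ (g := fun _ => (1 : ℝ)) (integrable_const _)
  simpa [mass] using this.symm

lemma Src.mom_add_smul (hs : Src ρ K R) (y : ι → E) (ψ : ι → ℝ) (i : ι) (v w : E) (t : ℝ) :
    mom ρ y ψ i (v + t • w) = mom ρ y ψ i v + t * mom ρ y ψ i w := by
  simp only [mom, inner_add_right, inner_smul_right]
  rw [integral_add (hs.integrable (by fun_prop)).integrableOn
    (hs.integrable (by fun_prop)).integrableOn, integral_const_mul]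

lemma Src.abs_mom_le (hs : Src ρ K R) (y : ι → E) (ψ : ι → ℝ) (i : ι) (v : E) :
    |mom ρ y ψ i v| ≤ R * ‖v‖ * mass ρ y ψ i := by
  have := hs.prob
  rw [← Real.norm_eq_abs, mom, mass]
  refine norm_setIntegral_le_of_norm_le_const_ae (measure_lt_top ρ _) (ae_restrict_of_ae ?_)
  filter_upwards [hs.aeK] with x hx
  exact (abs_real_inner_le_norm _ _).trans (mul_le_mul_of_nonneg_right (hs.bdd x hx) (norm_nonneg _))

lemma Src.integral_cell_affine (hs : Src ρ K R) (y : ι → E) (ψ : ι → ℝ) (i : ι) (v : E) (c : ℝ) :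
    ∫ x in cell y ψ i, (⟪x, v⟫ - c) ∂ρ = mom ρ y ψ i v - mass ρ y ψ i * c := by
  have := hs.prob
  rw [integral_sub (hs.integrable (by fun_prop)).integrableOn (integrable_const _)]
  simp [mom, mass]

/-- the transport value of a configuration -/
noncomputable def val (ρ : Measure E) (y : ι → E) (ψ : ι → ℝ) : ℝ := ∑ i, mom ρ y ψ i (y i)

lemma Src.integral_Phi (hs : Src ρ K R) {y : ι → E} (hy : Function.Injective y) (ψ : ι → ℝ) :
    ∫ x, Phi y ψ x ∂ρ = val ρ y ψ - ∑ i, mass ρ y ψ i * ψ i := by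
  rw [hs.integral_eq_sum hy ψ (hs.integrable (continuous_Phi y ψ)), val, ← Finset.sum_sub_distrib]
  refine Finset.sum_congr rfl fun i _ => ?_
  rw [← hs.integral_cell_affine]
  exact setIntegral_congr_fun (measurableSet_cell y ψ i) fun x hx => Phi_eq_of_mem hx

/-- weak duality between two configurations -/
lemma Src.weak_duality (hs : Src ρ K R) {y y' : ι → E} (hy : Function.Injective y)
    (hy' : Function.Injective y') (ψ ψ' : ι → ℝ) :
    ∑ i, mom ρ y ψ i (y' i) + ∑ i, (mass ρ y' ψ' i - mass ρ y ψ i) * ψ' i ≤ val ρ y' ψ' := by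
  have h1 := hs.integral_Phi hy' ψ'
  have h2 : ∑ i, (mom ρ y ψ i (y' i) - mass ρ y ψ i * ψ' i) ≤ ∫ x, Phi y' ψ' x ∂ρ := by
    rw [hs.integral_eq_sum hy ψ (hs.integrable (continuous_Phi y' ψ'))]
    refine Finset.sum_le_sum fun i _ => ?_
    rw [← hs.integral_cell_affine]
    exact setIntegral_mono (hs.integrable (by fun_prop)).integrableOn
      (hs.integrable (continuous_Phi y' ψ')).integrableOn fun x => le_Phi y' ψ' x i
  simp only [sub_mul, Finset.sum_sub_distrib] at h2 ⊢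
  linarith

/-! ### existence of balanced potentials -/

/-- the Kantorovich functional -/
noncomputable def kant (ρ : Measure E) (y : ι → E) (m ψ : ι → ℝ) : ℝ :=
  ∫ x, Phi y ψ x ∂ρ + ∑ i, m i * ψ i

lemma Src.continuous_kant (hs : Src ρ K R) (y : ι → E) (m : ι → ℝ) :
    Continuous (kant ρ y m) := by
  have := hs.prob
  refine Continuous.add ?_ (by fun_prop)
  refine (LipschitzWith.of_le_add (f := fun ψ : ι → ℝ => ∫ x, Phi y ψ x ∂ρ) fun ψ ψ' => ?_).continuous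
  have h1 : ∫ x, Phi y ψ x ∂ρ ≤ ∫ x, (Phi y ψ' x + dist ψ ψ') ∂ρ := by
    refine integral_mono (hs.integrable (continuous_Phi y ψ))
      (hs.integrable ((continuous_Phi y ψ').add continuous_const)) fun x => ?_
    have := Phi_sub_le y y ψ ψ' x x (dist ψ ψ') fun i => by
      have := dist_le_pi_dist ψ ψ' i
      rw [Real.dist_eq, abs_le] at this
      linarith [this.1]
    simp only; linarith
  rwa [integral_add (hs.integrable (continuous_Phi y ψ')) (integrable_const _), integral_const,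
    probReal_univ, one_smul] at h1

lemma Src.kant_shift (hs : Src ρ K R) (y : ι → E) {m : ι → ℝ} (hm1 : ∑ i, m i = 1) (ψ : ι → ℝ)
    (c : ℝ) : kant ρ y m (fun i => ψ i - c) = kant ρ y m ψ := by
  have := hs.prob
  have h : ∀ x, Phi y (fun i => ψ i - c) x = Phi y ψ x + c := fun x => by
    have h1 := Phi_sub_le y y (fun i => ψ i - c) ψ x x c fun i => by linarith
    have h2 := Phi_sub_le y y ψ (fun i => ψ i - c) x x (-c) fun i => by linarith
    linarith
  simp only [kant, h, mul_sub, Finset.sum_sub_distrib, ← Finset.sum_mul, hm1]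
  rw [integral_add (hs.integrable (continuous_Phi y ψ)) (integrable_const _), integral_const,
    probReal_univ, one_smul]
  ring

lemma Src.kant_lower (hs : Src ρ K R) (y : ι → E) {m : ι → ℝ} (hm : ∀ i, 0 < m i)
    (hm1 : ∑ i, m i = 1) (ψ : ι → ℝ) (a b : ι) :
    -(R * ‖y‖) + m a * (ψ a - ψ b) ≤ kant ρ y m ψ := by
  have := hs.prob
  obtain ⟨i, hi⟩ := Finite.exists_min ψ
  have h1 : -(R * ‖y‖) - ψ i ≤ ∫ x, Phi y ψ x ∂ρ := by
    have : ∫ _, (-(R * ‖y‖) - ψ i) ∂ρ ≤ ∫ x, Phi y ψ x ∂ρ := by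
      refine integral_mono_ae (integrable_const _) (hs.integrable (continuous_Phi y ψ)) ?_
      filter_upwards [hs.aeK] with x hx
      have h1 := le_Phi y ψ x i
      have h2 : |⟪x, y i⟫| ≤ R * ‖y‖ := (abs_real_inner_le_norm _ _).trans
        (mul_le_mul (hs.bdd x hx) (norm_le_pi_norm y i) (norm_nonneg _) hs.pos.le)
      linarith [(abs_le.1 h2).1]
    simpa using this
  have h2 : m a * (ψ a - ψ i) ≤ ∑ j, m j * (ψ j - ψ i) :=
    Finset.single_le_sum (f := fun j => m j * (ψ j - ψ i))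
      (fun j _ => mul_nonneg (hm j).le (sub_nonneg.2 (hi j))) (Finset.mem_univ a)
  simp only [mul_sub, Finset.sum_sub_distrib, ← Finset.sum_mul, hm1] at h2
  have h3 : m a * ψ i ≤ m a * ψ b := mul_le_mul_of_nonneg_left (hi b) (hm a).le
  rw [kant]; linarith

lemma Src.first_order (hs : Src ρ K R) {y : ι → E} (hy : Function.Injective y) {m ψ ψ₀ : ι → ℝ}
    {s : ℝ} (hmin : ∀ ψ', kant ρ y m ψ + s / 2 * ∑ i, m i * (ψ i - ψ₀ i) ^ 2 ≤
      kant ρ y m ψ' + s / 2 * ∑ i, m i * (ψ' i - ψ₀ i) ^ 2) (i : ι) :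
    m i * (1 + s * (ψ i - ψ₀ i)) ≤ mass ρ y ψ i := by
  classical
  have := hs.prob
  let A : ℝ → Set E := fun τ => {x | Phi y ψ x - τ ≤ ⟪x, y i⟫ - ψ i}
  have hA : ∀ τ, MeasurableSet (A τ) := fun τ =>
    (isClosed_le ((continuous_Phi y ψ).sub continuous_const) (by fun_prop)).measurableSet
  have h1 : ∀ τ, 0 < τ → m i * (1 + s * (ψ i - ψ₀ i)) - s * m i / 2 * τ ≤ ρ.real (A τ) := by
    intro τ hτ
    have h := hmin (Function.update ψ i (ψ i - τ))
    have e1 : ∫ x, Phi y (Function.update ψ i (ψ i - τ)) x ∂ρ ≤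
        ∫ x, Phi y ψ x ∂ρ + τ * ρ.real (A τ) := by
      have : ∫ x, Phi y (Function.update ψ i (ψ i - τ)) x ∂ρ ≤
          ∫ x, (Phi y ψ x + (A τ).indicator (fun _ => τ) x) ∂ρ := by
        refine integral_mono (hs.integrable (continuous_Phi y _))
          ((hs.integrable (continuous_Phi y ψ)).add ((integrable_const _).indicator (hA τ)))
          fun x => ?_
        refine ciSup_le fun j => ?_
        have h0 : 0 ≤ (A τ).indicator (fun _ => τ) x := indicator_nonneg (fun _ _ => hτ.le) x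
        by_cases hj : j = i
        · subst hj
          rw [Function.update_self]
          by_cases hx : x ∈ A τ
          · rw [indicator_of_mem hx]; linarith [le_Phi y ψ x j]
          · have : ¬ (Phi y ψ x - τ ≤ ⟪x, y j⟫ - ψ j) := hx
            linarith
        · rw [Function.update_of_ne hj]; linarith [le_Phi y ψ x j]
      rwa [integral_add (hs.integrable (continuous_Phi y ψ)) ((integrable_const _).indicator (hA τ)),
        integral_indicator_const _ (hA τ), smul_eq_mul, mul_comm] at this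
    have e2 : ∀ g : ι → ℝ → ℝ, ∑ j, g j (Function.update ψ i (ψ i - τ) j) =
        ∑ j, g j (ψ j) + (g i (ψ i - τ) - g i (ψ i)) := fun g => by
      rw [← Finset.add_sum_erase _ _ (Finset.mem_univ i),
        ← Finset.add_sum_erase _ (fun j => g j (ψ j)) (Finset.mem_univ i), Function.update_self,
        Finset.sum_congr rfl (g := fun j => g j (ψ j)) fun j hj => by
          rw [Function.update_of_ne (Finset.ne_of_mem_erase hj)]]
      ring
    have e3 := e2 fun j r => m j * r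
    have e4 := e2 fun j r => m j * (r - ψ₀ j) ^ 2
    simp only [kant] at h e3 e4
    rw [e3, e4] at h
    refine le_of_mul_le_mul_left ?_ hτ
    nlinarith
  have h2 : Tendsto (fun n : ℕ => ρ (A (1 / ((n : ℝ) + 1)))) atTop
      (𝓝 (ρ (⋂ n : ℕ, A (1 / ((n : ℝ) + 1))))) := by
    refine tendsto_measure_iInter_atTop (fun n => (hA _).nullMeasurableSet) (fun a b hab x hx => ?_)
      ⟨0, measure_ne_top _ _⟩
    have : 1 / ((b : ℝ) + 1) ≤ 1 / ((a : ℝ) + 1) := Nat.one_div_le_one_div hab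
    have hx' : Phi y ψ x - 1 / ((b : ℝ) + 1) ≤ ⟪x, y i⟫ - ψ i := hx
    change Phi y ψ x - 1 / ((a : ℝ) + 1) ≤ ⟪x, y i⟫ - ψ i
    linarith
  have h3 : ρ (⋂ n : ℕ, A (1 / ((n : ℝ) + 1))) ≤ ρ (cell y ψ i) := by
    refine measure_mono_ae ?_
    filter_upwards [hs.ae_mem_cell hy ψ] with x ⟨j, hj⟩ hx
    have hx' : Phi y ψ x ≤ ⟪x, y i⟫ - ψ i := by
      have ht : Tendsto (fun n : ℕ => Phi y ψ x - 1 / ((n : ℝ) + 1)) atTop (𝓝 (Phi y ψ x - 0)) :=
        tendsto_const_nhds.sub tendsto_one_div_add_atTop_nhds_zero_nat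
      rw [sub_zero] at ht
      exact le_of_tendsto' ht fun n => mem_iInter.1 hx n
    by_cases hij : i = j
    · exact hij ▸ hj
    · have := hj i hij
      rw [Phi_eq_of_mem hj] at hx'
      linarith
  have h4 := (ENNReal.tendsto_toReal (measure_ne_top _ _)).comp h2
  have h5 : Tendsto (fun n : ℕ => m i * (1 + s * (ψ i - ψ₀ i)) - s * m i / 2 * (1 / ((n : ℝ) + 1)))
      atTop (𝓝 (m i * (1 + s * (ψ i - ψ₀ i)) - s * m i / 2 * 0)) :=
    tendsto_const_nhds.sub (tendsto_one_div_add_atTop_nhds_zero_nat.const_mul _)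
  rw [mul_zero, sub_zero] at h5
  exact (le_of_tendsto_of_tendsto' h5 h4 fun n => h1 _ (by positivity)).trans
    (ENNReal.toReal_mono (measure_ne_top _ _) h3)

lemma Src.exists_balanced (hs : Src ρ K R) {y : ι → E} (hy : Function.Injective y) {m : ι → ℝ}
    (hm : ∀ i, 0 < m i) (hm1 : ∑ i, m i = 1) (ψ₀ : ι → ℝ) :
    ∃ A : ℝ, 0 ≤ A ∧ ∀ s : ℝ, 0 ≤ s → ∃ ψ : ι → ℝ, (∀ i, |ψ i - ψ₀ i| ≤ A) ∧
      ∀ i, mass ρ y ψ i = m i * (1 + s * (ψ i - ψ₀ i)) := by
  obtain ⟨i₀, hi₀⟩ := Finite.exists_min m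
  have hR := hs.pos
  have hm₀ := hm i₀
  set A' : ℝ := (|kant ρ y m ψ₀| + R * ‖y‖) / m i₀ with hA'
  have hA'0 : 0 ≤ A' := by positivity
  refine ⟨A' + 2 * ‖ψ₀‖, by positivity, fun s hs0 => ?_⟩
  let J : (ι → ℝ) → ℝ := fun ψ => kant ρ y m ψ + s / 2 * ∑ i, m i * (ψ i - ψ₀ i) ^ 2
  have hJ : Continuous J := (hs.continuous_kant y m).add (by fun_prop)
  let S : Set (ι → ℝ) := Metric.closedBall ψ₀ (A' + 2 * ‖ψ₀‖) ∩ {ψ | ∑ i, m i * (ψ i - ψ₀ i) = 0}
  have hS : IsCompact S :=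
    (isCompact_closedBall _ _).inter_right (isClosed_eq (by fun_prop) continuous_const)
  have hS0 : ψ₀ ∈ S := ⟨Metric.mem_closedBall_self (by positivity), by simp⟩
  obtain ⟨ψ, hψS, hψ⟩ := hS.exists_isMinOn ⟨ψ₀, hS0⟩ hJ.continuousOn
  have hmin : ∀ ψ', J ψ ≤ J ψ' := by
    intro ψ'
    set c := ∑ i, m i * (ψ' i - ψ₀ i) with hc
    have hc0 : ∑ i, m i * (ψ' i - c - ψ₀ i) = 0 := by
      have : ∀ i, m i * (ψ' i - c - ψ₀ i) = m i * (ψ' i - ψ₀ i) - m i * c := fun i => by ring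
      simp only [this, Finset.sum_sub_distrib, ← Finset.sum_mul, hm1, ← hc]; ring
    have h1 : J (fun i => ψ' i - c) ≤ J ψ' := by
      simp only [J, hs.kant_shift y hm1]
      have : ∑ i, m i * (ψ' i - c - ψ₀ i) ^ 2 = ∑ i, m i * (ψ' i - ψ₀ i) ^ 2 - c ^ 2 := by
        have : ∀ i, m i * (ψ' i - c - ψ₀ i) ^ 2 =
          m i * (ψ' i - ψ₀ i) ^ 2 - 2 * c * (m i * (ψ' i - ψ₀ i)) + m i * c ^ 2 := fun i => by ring
        simp only [this, Finset.sum_sub_distrib, Finset.sum_add_distrib, ← Finset.sum_mul,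
          ← Finset.mul_sum, hm1, ← hc]
        ring
      rw [this]; nlinarith [sq_nonneg c]
    refine le_trans ?_ h1
    by_cases hmem : (fun i => ψ' i - c) ∈ S
    · exact hψ hmem
    have hb : ¬ (dist (fun i => ψ' i - c) ψ₀ ≤ A' + 2 * ‖ψ₀‖) := fun h => hmem ⟨h, hc0⟩
    rw [dist_pi_le_iff (by positivity)] at hb
    push Not at hb
    obtain ⟨i, hi⟩ := hb
    have hj : ∃ j, ψ' j - c - ψ₀ j ≤ 0 := by
      by_contra hcon
      push Not at hcon
      have := Finset.sum_pos (s := Finset.univ) (fun j _ => mul_pos (hm j) (hcon j))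
        Finset.univ_nonempty
      linarith
    have hk : ∃ k, 0 ≤ ψ' k - c - ψ₀ k := by
      by_contra hcon
      push Not at hcon
      have := Finset.sum_neg (s := Finset.univ) (fun j _ => mul_neg_of_pos_of_neg (hm j) (hcon j))
        Finset.univ_nonempty
      linarith
    obtain ⟨j, hj⟩ := hj
    obtain ⟨k, hk⟩ := hk
    have hn : ∀ l, |ψ₀ l| ≤ ‖ψ₀‖ := fun l => norm_le_pi_norm ψ₀ l
    have hab : ∃ a b, A' ≤ (ψ' a - c) - (ψ' b - c) := by
      rw [Real.dist_eq, lt_abs] at hi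
      rcases hi with hi | hi
      · exact ⟨i, j, by linarith [(abs_le.1 (hn i)).1, (abs_le.1 (hn j)).2]⟩
      · exact ⟨k, i, by linarith [(abs_le.1 (hn i)).2, (abs_le.1 (hn k)).1]⟩
    obtain ⟨a, b, hab⟩ := hab
    have h2 := hs.kant_lower y hm hm1 (fun i => ψ' i - c) a b
    have h3 : m i₀ * A' ≤ m a * ((ψ' a - c) - (ψ' b - c)) :=
      mul_le_mul (hi₀ a) hab hA'0 (hm a).le
    have h4 : m i₀ * A' = |kant ρ y m ψ₀| + R * ‖y‖ := by rw [hA']; field_simp
    have h5 : J ψ ≤ J ψ₀ := hψ hS0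
    have h6 : J ψ₀ = kant ρ y m ψ₀ := by simp [J]
    have h7 : 0 ≤ s / 2 * ∑ i, m i * (ψ' i - c - ψ₀ i) ^ 2 :=
      mul_nonneg (by positivity) (Finset.sum_nonneg fun i _ => mul_nonneg (hm i).le (sq_nonneg _))
    simp only [J] at h5 h6 ⊢
    linarith [le_abs_self (kant ρ y m ψ₀)]
  refine ⟨ψ, fun i => ?_, fun i => ?_⟩
  · have := (dist_pi_le_iff (by positivity)).1 hψS.1 i
    rwa [Real.dist_eq] at this
  · have hle := hs.first_order hy hmin
    have hsum : ∑ i, m i * (1 + s * (ψ i - ψ₀ i)) = ∑ i, mass ρ y ψ i := by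
      have h0 : ∑ i, m i * (ψ i - ψ₀ i) = 0 := hψS.2
      have : ∀ i, m i * (1 + s * (ψ i - ψ₀ i)) = m i + s * (m i * (ψ i - ψ₀ i)) := fun i => by ring
      simp only [this, Finset.sum_add_distrib, ← Finset.mul_sum, h0, hm1, hs.sum_mass hy]; ring
    exact ((Finset.sum_eq_sum_iff_of_le fun i _ => hle i).1 hsum i (Finset.mem_univ i)).symm

lemma Src.exists_balanced' (hs : Src ρ K R) {y : ι → E} (hy : Function.Injective y) {m : ι → ℝ}
    (hm : ∀ i, 0 < m i) (hm1 : ∑ i, m i = 1) : ∃ ψ : ι → ℝ, ∀ i, mass ρ y ψ i = m i := by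
  obtain ⟨A, -, h⟩ := hs.exists_balanced hy hm hm1 0
  obtain ⟨ψ, -, hψ⟩ := h 0 le_rfl
  exact ⟨ψ, fun i => by simpa using hψ i⟩

end Crest.Agent.H3.OT
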