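import Mathlib
import Crest.Agent.H3.SemiDisc

/-! Stability of the barycenters of Laguerre cells under changes of the masses. -/

set_option autoImplicit false
set_option linter.unusedSectionVars false

namespace Crest.Agent.H3.OT

open MeasureTheory Filter Topology Set
open scoped ENNReal NNReal RealInnerProductSpace

variable {E : Type*} [NormedAddCommGroup E] [InnerProductSpace ℝ E] [FiniteDimensional ℝ E]
  [MeasurableSpace E] [BorelSpace E]

variable {ρ : Measure E} {K : Set E} {R : ℝ}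

lemma Src.pl_real (hs : Src ρ K R) {f g h : E → ℝ} (hf : Measurable f) (hg : Measurable g)
    (hh : Measurable h) (hf0 : ∀ x, 0 ≤ f x) (hg0 : ∀ x, 0 ≤ g x) (hh0 : ∀ x, 0 ≤ h x)
    (hfi : Integrable f ρ) (hgi : Integrable g ρ) (hhi : Integrable h ρ)
    (H : ∀ x ∈ K, ∀ y ∈ K, f x * g y ≤ h ((2 : ℝ)⁻¹ • (x + y)) ^ 2) :
    (∫ x, f x ∂ρ) * ∫ x, g x ∂ρ ≤ (∫ x, h x ∂ρ) ^ 2 := by
  have := hs.pl (fun x => ENNReal.ofReal (f x)) (fun x => ENNReal.ofReal (g x))
    (fun x => ENNReal.ofReal (h x)) hf.ennreal_ofReal hg.ennreal_ofReal hh.ennreal_ofReal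
    fun x hx y hy => by
      rw [← ENNReal.ofReal_mul (hf0 x), ← ENNReal.ofReal_pow (hh0 _)]
      exact ENNReal.ofReal_le_ofReal (H x hx y hy)
  rwa [← ofReal_integral_eq_lintegral_ofReal hfi (ae_of_all _ hf0),
    ← ofReal_integral_eq_lintegral_ofReal hgi (ae_of_all _ hg0),
    ← ofReal_integral_eq_lintegral_ofReal hhi (ae_of_all _ hh0),
    ← ENNReal.ofReal_mul (integral_nonneg hf0), ← ENNReal.ofReal_pow (integral_nonneg hh0),
    ENNReal.ofReal_le_ofReal_iff (sq_nonneg _)] at this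

/-- Gaussian weight -/
noncomputable def wt (l : ℝ) (x : E) : ℝ := Real.exp (-(l * ‖x‖ ^ 2 / 2))

lemma continuous_wt (l : ℝ) : Continuous (wt l : E → ℝ) := by unfold wt; fun_prop

lemma wt_pos (l : ℝ) (x : E) : 0 < wt l x := Real.exp_pos _

lemma Src.jensen_exp (hs : Src ρ K R) (l : ℝ) (A : Set E) {g : E → ℝ} (hg : Continuous g) {a : ℝ}
    (ha : ∫ x in A, wt l x * g x ∂ρ = a * ∫ x in A, wt l x ∂ρ) :
    Real.exp a * ∫ x in A, wt l x ∂ρ ≤ ∫ x in A, wt l x * Real.exp (g x) ∂ρ := by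
  have hw := continuous_wt (E := E) l
  have h1 : ∫ x in A, Real.exp a * (wt l x + (wt l x * g x - a * wt l x)) ∂ρ ≤
      ∫ x in A, wt l x * Real.exp (g x) ∂ρ := by
    refine setIntegral_mono (hs.integrable (by fun_prop)).integrableOn
      (hs.integrable (by fun_prop)).integrableOn fun x => ?_
    have h2 := Real.add_one_le_exp (g x - a)
    have h3 : Real.exp (g x) = Real.exp a * Real.exp (g x - a) := by
      rw [← Real.exp_add]; ring_nf
    have h4 := mul_le_mul_of_nonneg_left h2 (mul_pos (Real.exp_pos a) (wt_pos l x)).le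
    simp only [h3]; nlinarith
  rwa [integral_const_mul, integral_add (hs.integrable (by fun_prop)).integrableOn
    (hs.integrable (by fun_prop)).integrableOn, integral_sub
    (hs.integrable (by fun_prop)).integrableOn (hs.integrable (by fun_prop)).integrableOn,
    integral_const_mul, ha, sub_self, add_zero] at h1

lemma Src.tilt (hs : Src ρ K R) {l : ℝ} (hl : 0 < l) {A B C : Set E} (hA : MeasurableSet A)
    (hB : MeasurableSet B) (hC : MeasurableSet C)
    (hmid : ∀ x ∈ A, ∀ y ∈ B, (2 : ℝ)⁻¹ • (x + y) ∈ C) {g : E → ℝ} (hg : Continuous g) {L : ℝ}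
    (hL : ∀ x ∈ K, ∀ y ∈ K, g y - g x ≤ L * ‖x - y‖) {a b : ℝ}
    (ha : ∫ x in A, wt l x * g x ∂ρ = a * ∫ x in A, wt l x ∂ρ)
    (hb : ∫ x in B, wt l x * g x ∂ρ = b * ∫ x in B, wt l x ∂ρ) :
    √(∫ x in A, wt l x ∂ρ) * √(∫ x in B, wt l x ∂ρ) * (1 + (b - a) / 2 - L ^ 2 / (2 * l)) ≤
      ∫ x in C, wt l x ∂ρ := by
  have hw := continuous_wt (E := E) l
  have hA0 : 0 ≤ ∫ x in A, wt l x ∂ρ := integral_nonneg fun x => (wt_pos l x).le
  have hB0 : 0 ≤ ∫ x in B, wt l x ∂ρ := integral_nonneg fun x => (wt_pos l x).le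
  have hC0 : 0 ≤ ∫ x in C, wt l x ∂ρ := integral_nonneg fun x => (wt_pos l x).le
  have j1 := hs.jensen_exp l A (g := fun x => -g x) (by fun_prop) (a := -a) (by
    simp only [mul_neg, integral_neg, ha, neg_mul])
  have j2 := hs.jensen_exp l B hg hb
  have key := hs.pl_real (f := A.indicator fun x => wt l x * Real.exp (-g x))
    (g := B.indicator fun x => wt l x * Real.exp (g x))
    (h := C.indicator fun x => Real.exp (L ^ 2 / (2 * l)) * wt l x)
    (Measurable.indicator (by fun_prop) hA) (Measurable.indicator (by fun_prop) hB)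
    (Measurable.indicator (by fun_prop) hC)
    (fun x => indicator_nonneg (fun x _ => mul_nonneg (wt_pos l x).le (Real.exp_pos _).le) x)
    (fun x => indicator_nonneg (fun x _ => mul_nonneg (wt_pos l x).le (Real.exp_pos _).le) x)
    (fun x => indicator_nonneg (fun x _ => mul_nonneg (Real.exp_pos _).le (wt_pos l x).le) x)
    ((hs.integrable (by fun_prop)).indicator hA) ((hs.integrable (by fun_prop)).indicator hB)
    ((hs.integrable (by fun_prop)).indicator hC) (fun x hx y hy => by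
      by_cases hxA : x ∈ A
      swap
      · rw [indicator_of_notMem hxA, zero_mul]; exact sq_nonneg _
      by_cases hyB : y ∈ B
      swap
      · rw [indicator_of_notMem hyB, mul_zero]; exact sq_nonneg _
      rw [indicator_of_mem hxA, indicator_of_mem hyB, indicator_of_mem (hmid x hxA y hyB)]
      simp only [wt, ← Real.exp_add]
      rw [sq (Real.exp _), ← Real.exp_add]
      refine Real.exp_le_exp.2 ?_
      have e1 : ‖(2 : ℝ)⁻¹ • (x + y)‖ ^ 2 = (‖x‖ ^ 2 + ‖y‖ ^ 2) / 2 - ‖x - y‖ ^ 2 / 4 := by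
        have := parallelogram_law_with_norm ℝ x y
        rw [norm_smul, mul_pow, Real.norm_eq_abs, sq_abs]; nlinarith
      rw [e1]
      have e2 := hL x hx y hy
      have e3 : L * ‖x - y‖ ≤ l * ‖x - y‖ ^ 2 / 4 + L ^ 2 / l := by
        have : l * ‖x - y‖ ^ 2 / 4 + L ^ 2 / l - L * ‖x - y‖ = (l * ‖x - y‖ / 2 - L) ^ 2 / l := by
          field_simp; ring
        have h2 : 0 ≤ (l * ‖x - y‖ / 2 - L) ^ 2 / l := by positivity
        linarith
      have e4 : L ^ 2 / (2 * l) + L ^ 2 / (2 * l) = L ^ 2 / l := by field_simp; ring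
      linarith)
  rw [integral_indicator hA, integral_indicator hB, integral_indicator hC, integral_const_mul] at key
  set VA := ∫ x in A, wt l x ∂ρ
  set VB := ∫ x in B, wt l x ∂ρ
  set VC := ∫ x in C, wt l x ∂ρ
  have k2 : (Real.exp (-a) * VA) * (Real.exp b * VB) ≤ (Real.exp (L ^ 2 / (2 * l)) * VC) ^ 2 :=
    le_trans (mul_le_mul j1 j2 (by positivity) (le_trans (by positivity) j1)) key
  have k3 : √VA * √VB * Real.exp ((b - a) / 2 - L ^ 2 / (2 * l)) ≤ VC := by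
    refine abs_le_of_sq_le_sq' ?_ hC0 |>.2
    have hpos : 0 < Real.exp (L ^ 2 / (2 * l)) ^ 2 := by positivity
    refine le_of_mul_le_mul_left ?_ hpos
    rw [← mul_pow _ VC]
    refine le_trans (le_of_eq ?_) k2
    rw [mul_pow, mul_pow, Real.sq_sqrt hA0, Real.sq_sqrt hB0]
    have : Real.exp (L ^ 2 / (2 * l)) ^ 2 * Real.exp ((b - a) / 2 - L ^ 2 / (2 * l)) ^ 2 =
        Real.exp (-a) * Real.exp b := by
      simp only [sq, ← Real.exp_add]; congr 1; ring
    linear_combination (VA * VB) * this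
  refine le_trans (mul_le_mul_of_nonneg_left ?_ (by positivity)) k3
  linarith [Real.add_one_le_exp ((b - a) / 2 - L ^ 2 / (2 * l))]

variable {ι : Type*} [Fintype ι] [Nonempty ι]

lemma Src.key_sum (hs : Src ρ K R) {l : ℝ} (hl : 0 < l) {y : ι → E} (hy : Function.Injective y)
    (ψ ψ' : ι → ℝ) {g : ι → E → ℝ} (hg : ∀ i, Continuous (g i)) {L a b p q : ι → ℝ}
    (hL : ∀ i, ∀ x ∈ K, ∀ y ∈ K, g i y - g i x ≤ L i * ‖x - y‖)
    (hp : ∀ i, p i = √(∫ x in cell y ψ i, wt l x ∂ρ))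
    (hq : ∀ i, q i = √(∫ x in cell y ψ' i, wt l x ∂ρ))
    (ha : ∀ i, ∫ x in cell y ψ i, wt l x * g i x ∂ρ = a i * ∫ x in cell y ψ i, wt l x ∂ρ)
    (hb : ∀ i, ∫ x in cell y ψ' i, wt l x * g i x ∂ρ = b i * ∫ x in cell y ψ' i, wt l x ∂ρ) :
    ∑ i, p i * q i * (b i - a i - L i ^ 2 / l) ≤ ∑ i, (p i - q i) ^ 2 := by
  have hw := hs.integrable (continuous_wt (E := E) l)
  have h1 := sum_integral_cell_le y (fun j => (ψ j + ψ' j) / 2) hw fun x => (wt_pos l x).le
  have h2 : ∑ i, p i * q i * (1 + (b i - a i) / 2 - L i ^ 2 / (2 * l)) ≤ ∫ x, wt l x ∂ρ := by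
    refine le_trans (Finset.sum_le_sum fun i _ => ?_) h1
    rw [hp, hq]
    exact hs.tilt hl (measurableSet_cell _ _ _) (measurableSet_cell _ _ _)
      (measurableSet_cell _ _ _) (fun x hx x' hx' => mid_mem_cell hx hx') (hg i) (hL i) (ha i) (hb i)
  have h3 : ∑ i, p i ^ 2 = ∫ x, wt l x ∂ρ := by
    rw [hs.integral_eq_sum hy ψ hw]
    exact Finset.sum_congr rfl fun i _ => by
      rw [hp, Real.sq_sqrt (integral_nonneg fun x => (wt_pos l x).le)]
  have h4 : ∑ i, q i ^ 2 = ∫ x, wt l x ∂ρ := by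
    rw [hs.integral_eq_sum hy ψ' hw]
    exact Finset.sum_congr rfl fun i _ => by
      rw [hq, Real.sq_sqrt (integral_nonneg fun x => (wt_pos l x).le)]
  have h5 : ∑ i, (p i - q i) ^ 2 - ∑ i, p i * q i * (b i - a i - L i ^ 2 / l) =
      ∑ i, p i ^ 2 + ∑ i, q i ^ 2 -
        2 * ∑ i, p i * q i * (1 + (b i - a i) / 2 - L i ^ 2 / (2 * l)) := by
    rw [Finset.mul_sum, ← Finset.sum_add_distrib, ← Finset.sum_sub_distrib,
      ← Finset.sum_sub_distrib]
    refine Finset.sum_congr rfl fun i _ => ?_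
    field_simp; ring
  linarith

/-- inverse weight -/
noncomputable def iw (l : ℝ) (x : E) : ℝ := Real.exp (l * ‖x‖ ^ 2 / 2)

lemma continuous_iw (l : ℝ) : Continuous (iw l : E → ℝ) := by unfold iw; fun_prop

lemma wt_mul_iw (l : ℝ) (x : E) : wt l x * iw l x = 1 := by
  rw [wt, iw, ← Real.exp_add]; simp

lemma exp_le_two {t : ℝ} (ht : t ≤ 1 / 2) : Real.exp t ≤ 2 := by
  have h := Real.add_one_le_exp (-t)
  have h2 : Real.exp t * Real.exp (-t) = 1 := by rw [← Real.exp_add]; simp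
  nlinarith [Real.exp_pos t]

lemma iw_le_two {l : ℝ} (hl : 0 < l) (hlR : l * R ^ 2 ≤ 1) {x : E} (hx : ‖x‖ ≤ R) : iw l x ≤ 2 := by
  refine exp_le_two ?_
  have : ‖x‖ ^ 2 ≤ R ^ 2 := by gcongr
  nlinarith

lemma iw_sub_le {l : ℝ} (hl : 0 < l) (hlR : l * R ^ 2 ≤ 1) {x y : E} (hx : ‖x‖ ≤ R)
    (hy : ‖y‖ ≤ R) : |iw l y - iw l x| ≤ 2 * l * R * ‖x - y‖ := by
  have key : ∀ x y : E, ‖x‖ ≤ R → ‖y‖ ≤ R → iw l y - iw l x ≤ 2 * l * R * ‖x - y‖ := by
    intro x y hx hy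
    have h1 := Real.add_one_le_exp (l * ‖x‖ ^ 2 / 2 - l * ‖y‖ ^ 2 / 2)
    have h2 : iw l x = iw l y * Real.exp (l * ‖x‖ ^ 2 / 2 - l * ‖y‖ ^ 2 / 2) := by
      rw [iw, iw, ← Real.exp_add]; ring_nf
    have h3 : ‖y‖ ^ 2 - ‖x‖ ^ 2 ≤ 2 * R * ‖x - y‖ := by
      have : ‖y‖ - ‖x‖ ≤ ‖x - y‖ := by rw [norm_sub_rev]; exact norm_sub_norm_le y x
      have h0 : 0 ≤ ‖y‖ + ‖x‖ := by positivity
      nlinarith [norm_nonneg (x - y)]
    have h4 : 0 < iw l y := Real.exp_pos _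
    have h5 := iw_le_two hl hlR hy
    have hR : 0 ≤ R := (norm_nonneg _).trans hx
    have h6 : 0 ≤ l * R * ‖x - y‖ := by positivity
    have h7 : iw l y - iw l x ≤ iw l y * (l * R * ‖x - y‖) := by
      rw [h2]; nlinarith [mul_le_mul_of_nonneg_left h1 h4.le, mul_le_mul_of_nonneg_left h3 hl.le]
    nlinarith
  rw [abs_le]
  constructor
  · have := key y x hy hx
    rw [norm_sub_rev] at this; linarith
  · exact key x y hx hy

lemma Src.wt_bounds (hs : Src ρ K R) {l : ℝ} (hl : 0 < l) (hlR : l * R ^ 2 ≤ 1) (A : Set E) :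
    ρ.real A ≤ 2 * ∫ x in A, wt l x ∂ρ ∧ ∫ x in A, wt l x ∂ρ ≤ ρ.real A := by
  have := hs.prob
  have hw := hs.integrable (continuous_wt (E := E) l)
  constructor
  · rw [← integral_const_mul]
    have : ∫ _ in A, (1 : ℝ) ∂ρ ≤ ∫ x in A, 2 * wt l x ∂ρ := by
      refine integral_mono_ae (integrable_const _) (hw.const_mul 2).integrableOn
        (ae_restrict_of_ae ?_)
      filter_upwards [hs.aeK] with x hx
      have h1 := wt_mul_iw l x
      have h2 := iw_le_two hl hlR (hs.bdd x hx)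
      nlinarith [wt_pos l x]
    simpa using this
  · have : ∫ x in A, wt l x ∂ρ ≤ ∫ _ in A, (1 : ℝ) ∂ρ := by
      refine integral_mono hw.integrableOn (integrable_const _) fun x => ?_
      refine Real.exp_le_one_iff.2 ?_
      have : 0 ≤ l * ‖x‖ ^ 2 / 2 := by positivity
      linarith
    simpa using this

lemma hell_term {p q α α' m m' : ℝ} (hp : 0 < p) (hq : 0 < q) (hα' : 1 ≤ α') (hm : m = α * p ^ 2)
    (hm' : m' = α' * q ^ 2) (h1 : m ≤ 2 * p ^ 2) (hm0 : 0 < m) (hpq : p ≤ 2 * q) :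
    (p - q) ^ 2 ≤ 4 * ((m' - m) ^ 2 / m) + 4 * (p * q * (α' - α) ^ 2) := by
  have e1 : α' * (q - p) * (q + p) = (m' - m) - (α' - α) * p ^ 2 := by rw [hm, hm']; ring
  have e2 : (p - q) ^ 2 * p ^ 2 ≤ (α' * (q - p) * (q + p)) ^ 2 := by
    have : p ^ 2 ≤ (α' * (q + p)) ^ 2 := by
      gcongr; nlinarith
    calc _ ≤ (p - q) ^ 2 * (α' * (q + p)) ^ 2 := by gcongr
      _ = _ := by ring
  have e3 : ((m' - m) - (α' - α) * p ^ 2) ^ 2 ≤
      2 * (m' - m) ^ 2 + 2 * ((α' - α) ^ 2 * p ^ 2) * p ^ 2 := by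
    nlinarith [sq_nonneg ((m' - m) + (α' - α) * p ^ 2)]
  have e4 : (m' - m) ^ 2 ≤ 2 * ((m' - m) ^ 2 / m) * p ^ 2 := by
    have : (m' - m) ^ 2 = (m' - m) ^ 2 / m * m := by field_simp
    conv_lhs => rw [this]
    have h0 : 0 ≤ (m' - m) ^ 2 / m := by positivity
    nlinarith
  have e5 : (α' - α) ^ 2 * p ^ 2 ≤ 2 * (p * q * (α' - α) ^ 2) := by
    have : p ^ 2 ≤ 2 * (p * q) := by nlinarith
    nlinarith [sq_nonneg (α' - α)]
  have hp2 : 0 < p ^ 2 := by positivity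
  refine le_of_mul_le_mul_right ?_ hp2
  rw [e1] at e2
  nlinarith

lemma Src.bary (hs : Src ρ K R) {y : ι → E} (hy : Function.Injective y) (ψ ψ' : ι → ℝ)
    {m m' : ι → ℝ} (hm : ∀ i, mass ρ y ψ i = m i) (hm' : ∀ i, mass ρ y ψ' i = m' i)
    (hm0 : ∀ i, 0 < m i) (h1 : ∀ i, m i ≤ 2 * m' i) (h2 : ∀ i, m' i ≤ 2 * m i) (v : ι → E)
    (θ : ℝ) :
    θ * ∑ i, (mom ρ y ψ' i (v i) - mom ρ y ψ i (v i)) ≤
      16 * ∑ i, (m' i - m i) ^ 2 / m i + 2310 * θ ^ 2 * R ^ 2 * ∑ i, m i * ‖v i‖ ^ 2 := by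
  have := hs.prob
  have hR := hs.pos
  set l : ℝ := 1 / (128 * R ^ 2) with hl
  have hl0 : 0 < l := by positivity
  have hlR : l * R ^ 2 = 1 / 128 := by rw [hl]; field_simp
  have hlR' : l * R ^ 2 ≤ 1 := by rw [hlR]; norm_num
  have hiw := continuous_iw (E := E) l
  let V : ι → ℝ := fun i => ∫ x in cell y ψ i, wt l x ∂ρ
  let V' : ι → ℝ := fun i => ∫ x in cell y ψ' i, wt l x ∂ρ
  have hV : ∀ i, m i ≤ 2 * V i ∧ V i ≤ m i := fun i => hm i ▸ hs.wt_bounds hl0 hlR' _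
  have hV' : ∀ i, m' i ≤ 2 * V' i ∧ V' i ≤ m' i := fun i => hm' i ▸ hs.wt_bounds hl0 hlR' _
  have hV0 : ∀ i, 0 < V i := fun i => by linarith [(hV i).1, hm0 i]
  have hV0' : ∀ i, 0 < V' i := fun i => by linarith [(hV' i).1, hm0 i, h1 i]
  let p : ι → ℝ := fun i => √(V i)
  let q : ι → ℝ := fun i => √(V' i)
  have hp0 : ∀ i, 0 < p i := fun i => Real.sqrt_pos.2 (hV0 i)
  have hq0 : ∀ i, 0 < q i := fun i => Real.sqrt_pos.2 (hV0' i)
  have hp2 : ∀ i, p i ^ 2 = V i := fun i => Real.sq_sqrt (hV0 i).le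
  have hq2 : ∀ i, q i ^ 2 = V' i := fun i => Real.sq_sqrt (hV0' i).le
  set H := ∑ i, (p i - q i) ^ 2 with hH
  set Hm := ∑ i, (m' i - m i) ^ 2 / m i with hHm
  -- step 1
  let α : ι → ℝ := fun i => m i / V i
  let α' : ι → ℝ := fun i => m' i / V' i
  set c : ℝ := 1 / (8 * l * R ^ 2) with hc
  have hc' : c = 16 := by rw [hc, mul_assoc, hlR]; norm_num
  have k1 := hs.key_sum hl0 hy ψ ψ' (g := fun i x => c * (α' i - α i) * iw l x)
    (fun i => by fun_prop) (L := fun i => |c * (α' i - α i)| * (2 * l * R))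
    (a := fun i => c * (α' i - α i) * α i) (b := fun i => c * (α' i - α i) * α' i) (p := p) (q := q)
    (fun i x hx x' hx' => by
      rw [← mul_sub, mul_assoc |_|]
      refine (le_abs_self _).trans ?_
      rw [abs_mul]
      exact mul_le_mul_of_nonneg_left (iw_sub_le hl0 hlR' (hs.bdd x hx) (hs.bdd x' hx'))
        (abs_nonneg _))
    (fun i => rfl) (fun i => rfl)
    (fun i => by
      have : ∀ x : E, wt l x * (c * (α' i - α i) * iw l x) = c * (α' i - α i) := fun x => by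
        linear_combination (c * (α' i - α i)) * wt_mul_iw l x
      simp only [this, integral_const, smul_eq_mul, measureReal_restrict_apply_univ]
      change mass ρ y ψ i * _ = _ * V i
      rw [hm]; simp only [α]; field_simp [(hV0 i).ne'])
    (fun i => by
      have : ∀ x : E, wt l x * (c * (α' i - α i) * iw l x) = c * (α' i - α i) := fun x => by
        linear_combination (c * (α' i - α i)) * wt_mul_iw l x
      simp only [this, integral_const, smul_eq_mul, measureReal_restrict_apply_univ]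
      change mass ρ y ψ' i * _ = _ * V' i
      rw [hm']; simp only [α']; field_simp [(hV0' i).ne'])
  have k2 : 8 * ∑ i, p i * q i * (α' i - α i) ^ 2 ≤ H := by
    refine le_trans (le_of_eq ?_) k1
    rw [Finset.mul_sum]
    refine Finset.sum_congr rfl fun i _ => ?_
    have : (|c * (α' i - α i)| * (2 * l * R)) ^ 2 / l = 8 * (α' i - α i) ^ 2 := by
      rw [mul_pow, sq_abs, hc']
      have : (2 * l * R) ^ 2 / l = 4 * (l * R ^ 2) := by field_simp; ring
      rw [mul_div_assoc, this, hlR]; ring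
    rw [this, hc']; ring
  have hpq : ∀ i, p i ≤ 2 * q i := fun i => by
    refine abs_le_of_sq_le_sq' ?_ (by linarith [hq0 i]) |>.2
    rw [mul_pow, hp2, hq2]; linarith [(hV i).2, (hV' i).1, h1 i]
  have k3 : H ≤ 8 * Hm := by
    have : H ≤ 4 * Hm + 4 * ∑ i, p i * q i * (α' i - α i) ^ 2 := by
      rw [hH, hHm, Finset.mul_sum, Finset.mul_sum, ← Finset.sum_add_distrib]
      refine Finset.sum_le_sum fun i _ => hell_term (hp0 i) (hq0 i) ?_ ?_ ?_ ?_ (hm0 i) (hpq i)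
      · exact (one_le_div (hV0' i)).2 (hV' i).2
      · rw [hp2]; simp only [α]; field_simp [(hV0 i).ne']
      · rw [hq2]; simp only [α']; field_simp [(hV0' i).ne']
      · rw [hp2]; exact (hV i).1
    linarith
  -- step 2
  let β : ι → ℝ := fun i => mom ρ y ψ i (v i) / V i
  let β' : ι → ℝ := fun i => mom ρ y ψ' i (v i) / V' i
  have k4 := hs.key_sum hl0 hy ψ ψ' (g := fun i x => θ * (⟪x, v i⟫ * iw l x))
    (fun i => by fun_prop) (L := fun i => |θ| * (3 * ‖v i‖))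
    (a := fun i => θ * β i) (b := fun i => θ * β' i) (p := p) (q := q)
    (fun i x hx x' hx' => by
      rw [← mul_sub, mul_assoc |_|]
      refine (le_abs_self _).trans ?_
      rw [abs_mul]
      refine mul_le_mul_of_nonneg_left ?_ (abs_nonneg _)
      have e1 : ⟪x', v i⟫ * iw l x' - ⟪x, v i⟫ * iw l x =
          ⟪x' - x, v i⟫ * iw l x' + ⟪x, v i⟫ * (iw l x' - iw l x) := by
        rw [inner_sub_left]; ring
      have e2 : |⟪x' - x, v i⟫| ≤ ‖x - x'‖ * ‖v i‖ := by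
        rw [norm_sub_rev]; exact abs_real_inner_le_norm _ _
      have e3 : |⟪x, v i⟫| ≤ R * ‖v i‖ := (abs_real_inner_le_norm _ _).trans
        (mul_le_mul_of_nonneg_right (hs.bdd x hx) (norm_nonneg _))
      have e4 := iw_sub_le hl0 hlR' (hs.bdd x hx) (hs.bdd x' hx')
      have e5 : |iw l x'| ≤ 2 := by
        rw [abs_of_pos (show 0 < iw l x' from Real.exp_pos _)]; exact iw_le_two hl0 hlR' (hs.bdd x' hx')
      rw [e1]
      calc _ ≤ |⟪x' - x, v i⟫| * |iw l x'| + |⟪x, v i⟫| * |iw l x' - iw l x| := by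
            rw [← abs_mul, ← abs_mul]; exact abs_add_le _ _
        _ ≤ ‖x - x'‖ * ‖v i‖ * 2 + R * ‖v i‖ * (2 * l * R * ‖x - x'‖) := by gcongr
        _ = (2 + 2 * (l * R ^ 2)) * (‖v i‖ * ‖x - x'‖) := by ring
        _ ≤ 3 * (‖v i‖ * ‖x - x'‖) := by gcongr; rw [hlR]; norm_num
        _ = _ := by ring)
    (fun i => rfl) (fun i => rfl)
    (fun i => by
      have : ∀ x : E, wt l x * (θ * (⟪x, v i⟫ * iw l x)) = θ * ⟪x, v i⟫ := fun x => by
        linear_combination (θ * ⟪x, v i⟫) * wt_mul_iw l x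
      simp only [this, integral_const_mul]
      change θ * mom ρ y ψ i (v i) = _ * V i
      simp only [β]; field_simp [(hV0 i).ne'])
    (fun i => by
      have : ∀ x : E, wt l x * (θ * (⟪x, v i⟫ * iw l x)) = θ * ⟪x, v i⟫ := fun x => by
        linear_combination (θ * ⟪x, v i⟫) * wt_mul_iw l x
      simp only [this, integral_const_mul]
      change θ * mom ρ y ψ' i (v i) = _ * V' i
      simp only [β']; field_simp [(hV0' i).ne'])
  have k5 : θ * ∑ i, (mom ρ y ψ' i (v i) - mom ρ y ψ i (v i)) ≤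
      ∑ i, p i * q i * (θ * β' i - θ * β i - (|θ| * (3 * ‖v i‖)) ^ 2 / l) + H +
        2310 * θ ^ 2 * R ^ 2 * ∑ i, m i * ‖v i‖ ^ 2 := by
    rw [hH, Finset.mul_sum, Finset.mul_sum, ← Finset.sum_add_distrib, ← Finset.sum_add_distrib]
    refine Finset.sum_le_sum fun i _ => ?_
    have b1 : mom ρ y ψ i (v i) = β i * p i ^ 2 := by
      rw [hp2]; simp only [β]; field_simp [(hV0 i).ne']
    have b2 : mom ρ y ψ' i (v i) = β' i * q i ^ 2 := by
      rw [hq2]; simp only [β']; field_simp [(hV0' i).ne']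
    have b3 : |β i| ≤ 2 * R * ‖v i‖ := by
      simp only [β]
      rw [abs_div, abs_of_pos (hV0 i), div_le_iff₀ (hV0 i)]
      refine (hs.abs_mom_le y ψ i (v i)).trans ?_
      rw [hm]
      calc R * ‖v i‖ * m i ≤ R * ‖v i‖ * (2 * V i) := by gcongr; exact (hV i).1
        _ = _ := by ring
    have b4 : |β' i| ≤ 2 * R * ‖v i‖ := by
      simp only [β']
      rw [abs_div, abs_of_pos (hV0' i), div_le_iff₀ (hV0' i)]
      refine (hs.abs_mom_le y ψ' i (v i)).trans ?_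
      rw [hm']
      calc R * ‖v i‖ * m' i ≤ R * ‖v i‖ * (2 * V' i) := by gcongr; exact (hV' i).1
        _ = _ := by ring
    have b5 : β i ^ 2 ≤ (2 * R * ‖v i‖) ^ 2 := sq_le_sq' (abs_le.1 b3).1 (abs_le.1 b3).2
    have b6 : β' i ^ 2 ≤ (2 * R * ‖v i‖) ^ 2 := sq_le_sq' (abs_le.1 b4).1 (abs_le.1 b4).2
    have b7 : p i ^ 2 ≤ m i := by rw [hp2]; exact (hV i).2
    have b8 : q i ^ 2 ≤ 2 * m i := by rw [hq2]; linarith [(hV' i).2, h2 i]
    have b9 : p i * q i ≤ 2 * m i := by nlinarith [sq_nonneg (p i - q i), hm0 i]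
    have b10 : (|θ| * (3 * ‖v i‖)) ^ 2 / l = 1152 * (θ ^ 2 * R ^ 2 * ‖v i‖ ^ 2) := by
      rw [mul_pow, sq_abs, hl]; field_simp; ring
    have b11 : θ ^ 2 * β i ^ 2 * p i ^ 2 ≤ θ ^ 2 * (2 * R * ‖v i‖) ^ 2 * m i := by gcongr
    have b12 : θ ^ 2 * β' i ^ 2 * q i ^ 2 ≤ θ ^ 2 * (2 * R * ‖v i‖) ^ 2 * (2 * m i) := by gcongr
    have b13 : p i * q i * (θ ^ 2 * R ^ 2 * ‖v i‖ ^ 2) ≤ 2 * m i * (θ ^ 2 * R ^ 2 * ‖v i‖ ^ 2) := by
      gcongr
    rw [b1, b2, b10]
    nlinarith [sq_nonneg (q i - p i - θ * β' i * q i), sq_nonneg (q i - p i - θ * β i * p i)]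
  linarith

end Crest.Agent.H3.OT
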