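import Mathlib

/-! Row 134, piece H, part 1: the abstract non-backtracking recursion. -/

set_option autoImplicit false
set_option linter.unusedSectionVars false

namespace Crest.Agent.H3.Fg

open Finset

variable {V : Type} [AddCommGroup V] [Module ℝ V] {J : Type} [Fintype J] [DecidableEq J]

/-- Pythagoras for a bilinear form. -/
lemma bil_sum {ι : Type} (B : V →ₗ[ℝ] V →ₗ[ℝ] ℝ) (s : Finset ι) (f g : ι → V)
    (h : ∀ i ∈ s, ∀ i' ∈ s, i ≠ i' → B (f i) (g i') = 0) :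
    B (∑ i ∈ s, f i) (∑ i ∈ s, g i) = ∑ i ∈ s, B (f i) (g i) := by
  rw [map_sum B, LinearMap.sum_apply]
  refine sum_congr rfl fun i hi => ?_
  rw [map_sum, sum_eq_single_of_mem i hi fun i' hi' hne => h i hi i' hi' hne.symm]

/-- The weights. -/
noncomputable def wt (far : J → J → Prop) [DecidableRel far] (i : J) : ℝ :=
  1 / (#{j | far i j} : ℝ)

/-- The error terms. -/
def er (T : J → V →ₗ[ℝ] V) (x : J → V) (i : J) : V := T i (∑ j ∈ univ.erase i, x j)

/-- The recursion. -/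
noncomputable def xs (T T' : J → V →ₗ[ℝ] V) (far : J → J → Prop) [DecidableRel far] (ξ₀ : V) :
    ℕ → J → V
  | 0 => fun j => (1 / (Fintype.card J : ℝ)) • T' j ξ₀
  | k + 1 => fun j => T' j (∑ i ∈ univ.filter (fun i => far i j),
      wt far i • er T (xs T T' far ξ₀ k) i)

/-- The orthogonality data. -/
structure NB (B : V →ₗ[ℝ] V →ₗ[ℝ] ℝ) (T T' : J → V →ₗ[ℝ] V) (far : J → J → Prop) (ξ₀ : V)
    (X E : J → Submodule ℝ V) : Prop where
  pos : ∀ x, 0 ≤ B x x
  symm : ∀ x y, B x y = B y x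
  isoT : ∀ j x y, B (T j x) (T j y) = B x y
  isoT' : ∀ j x y, B (T' j x) (T' j y) = B x y
  oX : ∀ j j', j ≠ j' → ∀ x ∈ X j, ∀ y ∈ X j', B x y = 0
  oE : ∀ j j', j ≠ j' → ∀ x ∈ E j, ∀ y ∈ E j', B x y = 0
  o0 : ∀ i, ∀ y ∈ E i, B ξ₀ y = 0
  m0 : ∀ j, T' j ξ₀ ∈ X j
  mT : ∀ i j, j ≠ i → ∀ x ∈ X j, T i x ∈ E i
  mT' : ∀ i j, far i j → ∀ y ∈ E i, T' j y ∈ X j

variable {B : V →ₗ[ℝ] V →ₗ[ℝ] ℝ} {T T' : J → V →ₗ[ℝ] V} {far : J → J → Prop} [DecidableRel far]
  {ξ₀ : V} {X E : J → Submodule ℝ V}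

lemma NB.er_mem (h : NB B T T' far ξ₀ X E) {x : J → V} (hx : ∀ j, x j ∈ X j) (i : J) :
    er T x i ∈ E i := by
  rw [er, map_sum]
  exact Submodule.sum_mem _ fun j hj => h.mT i j (ne_of_mem_erase hj) _ (hx j)

lemma NB.xs_mem (h : NB B T T' far ξ₀ X E) (k : ℕ) : ∀ j, xs T T' far ξ₀ k j ∈ X j := by
  induction k with
  | zero => exact fun j => Submodule.smul_mem _ _ (h.m0 j)
  | succ k ih =>
    intro j
    rw [xs]
    beta_reduce
    rw [map_sum]
    exact Submodule.sum_mem _ fun i hi => h.mT' i j (mem_filter.1 hi).2 _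
      (Submodule.smul_mem _ _ (h.er_mem ih i))

lemma NB.B_er (h : NB B T T' far ξ₀ X E) {x y : J → V} (hx : ∀ j, x j ∈ X j) (hy : ∀ j, y j ∈ X j)
    (i : J) : B (er T x i) (er T y i) = ∑ j ∈ univ.erase i, B (x j) (y j) := by
  rw [er, er, h.isoT, bil_sum B _ _ _ fun j _ j' _ hne => h.oX j j' hne _ (hx j) _ (hy j')]

lemma NB.B_xs (h : NB B T T' far ξ₀ X E) (k k' : ℕ) (j : J) :
    B (xs T T' far ξ₀ (k + 1) j) (xs T T' far ξ₀ (k' + 1) j) =
      ∑ i ∈ univ.filter (fun i => far i j),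
        wt far i ^ 2 * B (er T (xs T T' far ξ₀ k) i) (er T (xs T T' far ξ₀ k') i) := by
  rw [xs, xs, h.isoT', bil_sum B _ _ _ fun i _ i' _ hne => h.oE i i' hne _
    (Submodule.smul_mem _ _ (h.er_mem (h.xs_mem k) i)) _
    (Submodule.smul_mem _ _ (h.er_mem (h.xs_mem k') i'))]
  refine sum_congr rfl fun i _ => ?_
  simp only [map_smul, LinearMap.smul_apply, smul_eq_mul]
  ring

lemma NB.orth (h : NB B T T' far ξ₀ X E) (k : ℕ) :
    ∀ k', k < k' → ∀ j, B (xs T T' far ξ₀ k j) (xs T T' far ξ₀ k' j) = 0 := by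
  induction k with
  | zero =>
    intro k' hk j
    obtain ⟨k', rfl⟩ : ∃ m, k' = m + 1 := ⟨k' - 1, by omega⟩
    rw [xs, xs, map_smul, LinearMap.smul_apply, h.isoT', map_sum,
      sum_eq_zero fun i _ => h.o0 i _ (Submodule.smul_mem _ _ (h.er_mem (h.xs_mem k') i)),
      smul_zero]
  | succ k ih =>
    intro k' hk j
    obtain ⟨k', rfl⟩ : ∃ m, k' = m + 1 := ⟨k' - 1, by omega⟩
    rw [h.B_xs]
    refine sum_eq_zero fun i _ => ?_
    rw [h.B_er (h.xs_mem k) (h.xs_mem k'), sum_eq_zero fun j _ => ih k' (by omega) j, mul_zero]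

lemma NB.orth' (h : NB B T T' far ξ₀ X E) {k k' : ℕ} (hk : k ≠ k') (j : J) :
    B (xs T T' far ξ₀ k j) (xs T T' far ξ₀ k' j) = 0 := by
  rcases lt_or_gt_of_ne hk with h1 | h1
  · exact h.orth k k' h1 j
  · rw [h.symm]; exact h.orth k' k h1 j

lemma NB.B_X (h : NB B T T' far ξ₀ X E) (k k' : ℕ) :
    B (∑ j, xs T T' far ξ₀ k j) (∑ j, xs T T' far ξ₀ k' j) =
      ∑ j, B (xs T T' far ξ₀ k j) (xs T T' far ξ₀ k' j) :=
  bil_sum B _ _ _ fun j _ j' _ hne => h.oX j j' hne _ (h.xs_mem k j) _ (h.xs_mem k' j')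

lemma NB.B_E (h : NB B T T' far ξ₀ X E) (k k' : ℕ) :
    B (∑ i, er T (xs T T' far ξ₀ k) i) (∑ i, er T (xs T T' far ξ₀ k') i) =
      ∑ i, ∑ j ∈ univ.erase i, B (xs T T' far ξ₀ k j) (xs T T' far ξ₀ k' j) := by
  rw [bil_sum B _ _ _ fun j _ j' _ hne => h.oE j j' hne _ (h.er_mem (h.xs_mem k) j) _
    (h.er_mem (h.xs_mem k') j')]
  exact sum_congr rfl fun i _ => h.B_er (h.xs_mem k) (h.xs_mem k') i

lemma NB.E_le (h : NB B T T' far ξ₀ X E) (k : ℕ) :
    ∑ i, ∑ j ∈ univ.erase i, B (xs T T' far ξ₀ k j) (xs T T' far ξ₀ k j) ≤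
      Fintype.card J * ∑ j, B (xs T T' far ξ₀ k j) (xs T T' far ξ₀ k j) := by
  calc _ ≤ ∑ _i : J, ∑ j, B (xs T T' far ξ₀ k j) (xs T T' far ξ₀ k j) :=
        sum_le_sum fun i _ => sum_le_sum_of_subset_of_nonneg (erase_subset _ _)
          fun j _ _ => h.pos _
    _ = _ := by rw [sum_const, card_univ, nsmul_eq_mul]

lemma NB.X_le (h : NB B T T' far ξ₀ X E) {D : ℝ} (hD : 0 < D)
    (hfar : ∀ i, D ≤ (#{j | far i j} : ℝ)) (hJ : 0 < Fintype.card J) (k : ℕ) :
    ∑ j, B (xs T T' far ξ₀ k j) (xs T T' far ξ₀ k j) ≤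
      (Fintype.card J / D) ^ k * (B ξ₀ ξ₀ / Fintype.card J) := by
  have hJ' : (0 : ℝ) < Fintype.card J := by exact_mod_cast hJ
  induction k with
  | zero =>
    simp only [xs, map_smul, LinearMap.smul_apply, h.isoT', smul_eq_mul, sum_const, card_univ,
      nsmul_eq_mul, pow_zero, one_mul]
    apply le_of_eq
    field_simp
  | succ k ih =>
    simp only [h.B_xs]
    rw [sum_comm' (t' := univ) (s' := fun i => univ.filter (fun j => far i j)) (by simp)]
    have h1 : ∀ i, ∑ _j ∈ univ.filter (fun j => far i j),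
        wt far i ^ 2 * B (er T (xs T T' far ξ₀ k) i) (er T (xs T T' far ξ₀ k) i) ≤
        (1 / D) * ∑ j ∈ univ.erase i, B (xs T T' far ξ₀ k j) (xs T T' far ξ₀ k j) := by
      intro i
      rw [sum_const, nsmul_eq_mul, ← h.B_er (h.xs_mem k) (h.xs_mem k), ← mul_assoc]
      refine mul_le_mul_of_nonneg_right ?_ (h.pos _)
      have h2 := hfar i
      have h3 : (0 : ℝ) < #{j | far i j} := hD.trans_le h2
      calc (#{j | far i j} : ℝ) * wt far i ^ 2 = 1 / (#{j | far i j} : ℝ) := by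
            rw [wt]; field_simp
        _ ≤ 1 / D := one_div_le_one_div_of_le hD h2
    refine (sum_le_sum fun i _ => h1 i).trans ?_
    rw [← mul_sum]
    have h4 := (h.E_le k).trans (mul_le_mul_of_nonneg_left ih hJ'.le)
    refine (mul_le_mul_of_nonneg_left h4 (by positivity)).trans (le_of_eq ?_)
    rw [pow_succ]
    field_simp

lemma diag_zero (hTT : ∀ j y, T j (T' j y) = y) (hJ : 0 < Fintype.card J) :
    ∑ j, T j (xs T T' far ξ₀ 0 j) = ξ₀ := by
  have hJ' : (Fintype.card J : ℝ) ≠ 0 := by exact_mod_cast hJ.ne'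
  simp only [xs, map_smul, hTT, sum_const, card_univ]
  rw [← Nat.cast_smul_eq_nsmul ℝ, smul_smul, mul_one_div_cancel hJ', one_smul]

lemma diag_succ (hTT : ∀ j y, T j (T' j y) = y) (hfar : ∀ i, (0 : ℝ) < (#{j | far i j} : ℝ))
    (k : ℕ) : ∑ j, T j (xs T T' far ξ₀ (k + 1) j) = ∑ i, er T (xs T T' far ξ₀ k) i := by
  simp only [xs, hTT]
  rw [sum_comm' (t' := univ) (s' := fun i => univ.filter (fun j => far i j)) (by simp)]
  refine sum_congr rfl fun i _ => ?_
  rw [sum_const, ← Nat.cast_smul_eq_nsmul ℝ, smul_smul, wt, mul_one_div_cancel (hfar i).ne',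
    one_smul]

lemma full (x : J → V) : ∑ i, T i (∑ j, x j) = ∑ j, T j (x j) + ∑ i, er T x i := by
  rw [← sum_add_distrib]
  refine sum_congr rfl fun i _ => ?_
  rw [er, ← map_add, add_sum_erase _ _ (mem_univ i)]

theorem exists_nb (T T' : J → V →ₗ[ℝ] V) (far : J → J → Prop) [DecidableRel far] (ξ₀ : V)
    (hTT : ∀ j y, T j (T' j y) = y) {D : ℝ} (hD : 0 < D) (hfar : ∀ i, D ≤ (#{j | far i j} : ℝ))
    (hJ : 0 < Fintype.card J) {K : ℕ} (hK : 0 < K) (hDJ : D ≤ Fintype.card J)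
    (hq : ((Fintype.card J : ℝ) / D) ^ K ≤ 2) :
    ∃ ξ : V, (∀ M : Submodule ℝ V, ξ₀ ∈ M → (∀ j, ∀ y ∈ M, T j y ∈ M) →
        (∀ j, ∀ y ∈ M, T' j y ∈ M) → ξ ∈ M) ∧
      ∀ (B : V →ₗ[ℝ] V →ₗ[ℝ] ℝ) (X E : J → Submodule ℝ V), NB B T T' far ξ₀ X E →
        B ξ ξ ≤ 2 * K * B ξ₀ ξ₀ / Fintype.card J ∧
        B (∑ j, T j ξ - ξ₀) (∑ j, T j ξ - ξ₀) ≤ 2 * B ξ₀ ξ₀ / K := by
  have hJ' : (0 : ℝ) < Fintype.card J := by exact_mod_cast hJ
  have hK' : (0 : ℝ) < K := by exact_mod_cast hK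
  let a : ℕ → ℝ := fun k => (-1) ^ k * (1 - k / K)
  let x := xs T T' far ξ₀
  refine ⟨∑ k ∈ range K, a k • ∑ j, x k j, fun M h0 hT hT' => ?_, fun B X E h => ?_⟩
  · have : ∀ k j, x k j ∈ M := by
      intro k
      induction k with
      | zero => exact fun j => M.smul_mem _ (hT' j _ h0)
      | succ k ih =>
        exact fun j => hT' j _ (M.sum_mem fun i _ => M.smul_mem _ (hT i _ (M.sum_mem fun j _ => ih j)))
    exact M.sum_mem fun k _ => M.smul_mem _ (M.sum_mem fun j _ => this k j)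
  have hXb : ∀ k ∈ range K, ∑ j, B (x k j) (x k j) ≤ 2 * (B ξ₀ ξ₀ / Fintype.card J) := by
    intro k hk
    refine (h.X_le hD hfar hJ k).trans (mul_le_mul_of_nonneg_right ?_
      (div_nonneg (h.pos _) hJ'.le))
    exact (pow_le_pow_right₀ ((one_le_div hD).2 hDJ) (mem_range.1 hk).le).trans hq
  constructor
  · rw [bil_sum B _ _ _ fun k _ k' _ hne => by
      simp only [map_smul, LinearMap.smul_apply, x]
      rw [h.B_X, sum_eq_zero fun j _ => h.orth' hne j, smul_zero, smul_zero]]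
    calc _ ≤ ∑ _k ∈ range K, 2 * (B ξ₀ ξ₀ / Fintype.card J) := by
          refine sum_le_sum fun k hk => ?_
          simp only [map_smul, LinearMap.smul_apply, smul_eq_mul, x]
          rw [h.B_X, ← mul_assoc]
          have h1 : a k * a k ≤ 1 := by
            have h2 : (k : ℝ) / K ≤ 1 := (div_le_one hK').2 (by exact_mod_cast (mem_range.1 hk).le)
            have h3 : 0 ≤ (k : ℝ) / K := by positivity
            have h4 : a k * a k = (1 - k / K) ^ 2 := by
              simp only [a]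
              rw [mul_mul_mul_comm, ← mul_pow]; simp [sq]
            rw [h4]; nlinarith
          have h5 := hXb k hk
          have h6 : 0 ≤ ∑ j, B (x k j) (x k j) := sum_nonneg fun j _ => h.pos _
          exact (mul_le_of_le_one_left h6 h1).trans h5
      _ = _ := by rw [sum_const, card_range, nsmul_eq_mul]; ring
  · have hfar' : ∀ i, (0 : ℝ) < (#{j | far i j} : ℝ) := fun i => hD.trans_le (hfar i)
    have e : ∑ j, T j (∑ k ∈ range K, a k • ∑ j, x k j) - ξ₀ =
        ∑ k ∈ range K, ((-1) ^ k / K : ℝ) • ∑ i, er T (x k) i := by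
      have e1 : ∑ j, T j (∑ k ∈ range K, a k • ∑ j, x k j) =
          ∑ k ∈ range K, a k • ∑ j, T j (x k j) + ∑ k ∈ range K, a k • ∑ i, er T (x k) i := by
        rw [← sum_add_distrib]
        simp only [← smul_add, ← full]
        simp only [map_sum (T _) _ (range K), map_smul]
        rw [sum_comm]
        simp only [smul_sum]
      have e2 : ∑ k ∈ range K, a k • ∑ j, T j (x k j) =
          ξ₀ + ∑ k ∈ range K, a (k + 1) • ∑ i, er T (x k) i := by
        have e3 := sum_range_succ (fun k => a k • ∑ j, T j (x k j)) K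
        have e4 := sum_range_succ' (fun k => a k • ∑ j, T j (x k j)) K
        have e5 : a K = 0 := by simp only [a]; rw [div_self hK'.ne', sub_self, mul_zero]
        have e6 : a 0 = 1 := by simp [a]
        simp only [e5, zero_smul, add_zero] at e3
        rw [← e3, e4, e6, one_smul, add_comm]
        simp only [x, diag_zero hTT hJ, diag_succ hTT hfar']
      rw [e1, e2, add_assoc, add_sub_cancel_left, ← sum_add_distrib]
      refine sum_congr rfl fun k _ => ?_
      rw [← add_smul]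
      congr 1
      simp only [a]
      push_cast
      field_simp
      ring
    rw [e, bil_sum B _ _ _ fun k _ k' _ hne => by
      simp only [map_smul, LinearMap.smul_apply, x]
      rw [h.B_E, sum_eq_zero fun i _ => sum_eq_zero fun j _ => h.orth' hne j, smul_zero, smul_zero]]
    calc _ ≤ ∑ _k ∈ range K, 2 * B ξ₀ ξ₀ / K ^ 2 := by
          refine sum_le_sum fun k hk => ?_
          simp only [map_smul, LinearMap.smul_apply, smul_eq_mul, x]
          rw [h.B_E, ← mul_assoc]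
          have h4 : ((-1) ^ k / K : ℝ) * ((-1) ^ k / K) = 1 / K ^ 2 := by
            rw [div_mul_div_comm, ← mul_pow]; simp [sq]
          have h5 := (h.E_le k).trans (mul_le_mul_of_nonneg_left (hXb k hk) hJ'.le)
          rw [h4]
          refine (mul_le_mul_of_nonneg_left h5 (by positivity)).trans (le_of_eq ?_)
          field_simp
      _ = _ := by rw [sum_const, card_range, nsmul_eq_mul]; field_simp

end Crest.Agent.H3.Fg
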