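import Mathlib

/-! Row 134, piece H, part 2: ping-pong on `ℤ ∗ ℤ` and the lamp argument. -/

set_option autoImplicit false

namespace Crest.Agent.H3.Fg

open Monoid

/-- The free product `ℤ ∗ ℤ`. -/
abbrev G : Type := CoprodI fun _ : Bool => Multiplicative ℤ

/-- The generator with index `c`. -/
def gen (c : Bool) (n : ℤ) : G :=
  CoprodI.of (M := fun _ : Bool => Multiplicative ℤ) (i := c) (Multiplicative.ofAdd n)

lemma gen_add (c : Bool) (m n : ℤ) : gen c (m + n) = gen c m * gen c n := by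
  rw [gen, ofAdd_add, map_mul]; rfl

lemma gen_zero (c : Bool) : gen c 0 = 1 := by rw [gen, ofAdd_zero, map_one]

lemma gen_pow (c : Bool) (n : ℕ) : gen c 1 ^ n = gen c n := by
  induction n with
  | zero => simp [gen_zero]
  | succ n ih => rw [pow_succ, ih, ← gen_add]; push_cast; rfl

/-- The exponent of the first syllable, if it has index `c`. -/
noncomputable def hd (c : Bool) (p : G) : ℤ :=
  (CoprodI.Word.equivPair c (CoprodI.Word.equiv p)).head.toAdd

lemma hd_gen (c : Bool) (n : ℤ) (p : G) : hd c (gen c n * p) = n + hd c p := by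
  have : CoprodI.Word.equiv (gen c n * p) = gen c n • CoprodI.Word.equiv p :=
    mul_smul (gen c n) p (CoprodI.Word.empty : CoprodI.Word fun _ : Bool => Multiplicative ℤ)
  rw [hd, this, gen, CoprodI.Word.equivPair_smul_same]
  rfl

lemma hd_one (c : Bool) : hd c 1 = 0 := by
  have : CoprodI.Word.equiv (1 : G) = CoprodI.Word.empty := one_smul G CoprodI.Word.empty
  rw [hd, this, CoprodI.Word.equivPair_head, dif_neg (by simp [CoprodI.Word.empty])]
  rfl

lemma hd_excl {c c' : Bool} {p : G} (h : hd c p ≠ 0) (h' : hd c' p ≠ 0) : c = c' := by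
  have key : ∀ c, hd c p ≠ 0 → ∃ h : (CoprodI.Word.equiv p).toList ≠ [],
      ((CoprodI.Word.equiv p).toList.head h).1 = c := by
    intro c hc
    by_contra hne
    apply hc
    rw [hd, CoprodI.Word.equivPair_head, dif_neg hne]
    rfl
  obtain ⟨_, h1⟩ := key c h
  obtain ⟨_, h2⟩ := key c' h'
  exact h1.symm.trans h2

lemma hd_eq {c c' : Bool} {p : G} {a b : ℤ} (h : hd c p = a) (h' : hd c' p = b) (ha : a ≠ 0)
    (hb : b ≠ 0) : a = b := by
  have := hd_excl (h ▸ ha) (h' ▸ hb)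
  rw [← h, ← h', this]

/-- The swap automorphism. -/
def sw : G →* G := CoprodI.lift fun b =>
  CoprodI.of (M := fun _ : Bool => Multiplicative ℤ) (i := !b)

lemma sw_gen (c : Bool) (n : ℤ) : sw (gen c n) = gen (!c) n := by
  rw [sw, gen, CoprodI.lift_of]; rfl

lemma sw_sw (p : G) : sw (sw p) = p := by
  have : sw.comp sw = MonoidHom.id G := by
    ext c : 2
    change sw (sw (gen c 1)) = gen c 1
    rw [sw_gen, sw_gen, Bool.not_not]
  exact DFunLike.congr_fun this p

/-- The swap as a permutation. -/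
def swP : Equiv.Perm G := Function.Involutive.toPerm sw sw_sw

/-- The side of the `m`-th letter. -/
def side (m : ℕ) : Bool := decide (m % 2 = 1)

lemma side_succ (m : ℕ) : side (m + 1) ≠ side m := by
  simp only [side, ne_eq, decide_eq_decide]; omega

/-- The sets `X_j`. -/
def SX (j : ℕ) : Set G :=
  {p | hd (side (j + 1)) p = 2 * (j + 1) + 1 ∨ hd (side j) p = -(2 * j + 1)}

/-- The sets `Y_i`. -/
def SY (i : ℕ) : Set G := {p | p ∉ SX i ∧ ∀ c, hd c p = 0 ∨ hd c p % 2 = 1}

lemma SX_disj {j j' : ℕ} {p : G} (h : p ∈ SX j) (h' : p ∈ SX j') : j = j' := by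
  rcases h with h | h <;> rcases h' with h' | h'
  all_goals
    have := hd_eq h h' (by omega) (by omega)
    omega

lemma SX_sub_SY {i j : ℕ} (hij : j ≠ i) {p : G} (h : p ∈ SX j) : p ∈ SY i := by
  refine ⟨fun h' => hij (SX_disj h h'), fun c => ?_⟩
  by_cases hc : hd c p = 0
  · exact Or.inl hc
  · right
    rcases h with h | h
    · have := hd_eq rfl h hc (by omega)
      omega
    · have := hd_eq rfl h hc (by omega)
      omega

section Seq
variable {a : ℕ → G}
  (ha : ∀ j : ℕ, hd (side (j + 1)) (a j) = 2 * (j + 1) + 1 + hd (side (j + 1)) (a (j + 1)))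
include ha

lemma seq_up {i : ℕ} (hi : hd (side (i + 1)) (a i) ≠ 2 * (i + 1) + 1) (d : ℕ) :
    hd (side (i + 1 + d)) (a (i + 1 + d)) ≠ 0 := by
  induction d with
  | zero => have := ha i; simp only [add_zero]; omega
  | succ d ih =>
    have h1 := ha (i + 1 + d)
    have h2 : hd (side (i + 1 + d + 1)) (a (i + 1 + d)) = 0 := by
      by_contra h; exact side_succ _ (hd_excl h ih)
    rw [← add_assoc]
    push_cast at h1
    omega

lemma seq_step {j : ℕ} (h : hd (side j) (a j) ≠ 0) : a (j + 1) ∈ SX (j + 1) := by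
  have h1 := ha j
  have h2 : hd (side (j + 1)) (a j) = 0 := by
    by_contra h'; exact side_succ _ (hd_excl h' h)
  right
  push_cast
  omega

lemma seq_up' {i j : ℕ} (hi : a i ∉ SX i) (hj : i + 2 ≤ j) : a j ∈ SX j := by
  obtain ⟨d, rfl⟩ : ∃ d, j = i + 1 + d + 1 := ⟨j - (i + 2), by omega⟩
  exact seq_step ha (seq_up ha (fun h => hi (Or.inl h)) d)

lemma seq_down (d : ℕ) : ∀ j : ℕ, a (j + 1 + d) ∉ SX (j + 1 + d) →
    hd (side (j + 1)) (a j) ≠ 0 := by
  induction d with
  | zero =>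
    intro j hj h
    have := ha j
    exact hj (Or.inr (by simp only [add_zero]; push_cast; omega))
  | succ d ih =>
    intro j hj
    have h1 := ih (j + 1) (by rwa [show j + 1 + 1 + d = j + 1 + (d + 1) by omega])
    have h2 : hd (side (j + 1)) (a (j + 1)) = 0 := by
      by_contra h'; exact side_succ _ (hd_excl h1 h')
    have := ha j
    omega

lemma seq_down' {i j : ℕ} (hi : a i ∉ SX i) (hj : j + 2 ≤ i) : a j ∈ SX j := by
  obtain ⟨d, rfl⟩ : ∃ d, i = j + 1 + 1 + d := ⟨i - (j + 2), by omega⟩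
  have h1 := seq_down ha d (j + 1) hi
  have h2 : hd (side (j + 1)) (a (j + 1)) = 0 := by
    by_contra h'; exact side_succ _ (hd_excl h1 h')
  have := ha j
  left
  omega

lemma seq_SY {i i' : ℕ} (h : i < i') (hi : a i ∈ SY i) (hi' : a i' ∈ SY i') : False := by
  rcases (Nat.succ_le_of_lt h).eq_or_lt with rfl | h2
  · have h1 := ha i
    have h3 := hi.2 (side (i + 1))
    have h4 := hi'.2 (side (i + 1))
    have h5 : hd (side (i + 1)) (a i) ≠ 2 * (i + 1) + 1 := fun h => hi.1 (Or.inl h)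
    have h6 : hd (side (i + 1)) (a (i + 1)) ≠ -(2 * ((i + 1 : ℕ) : ℤ) + 1) :=
      fun h => hi'.1 (Or.inr h)
    simp only [Nat.succ_eq_add_one] at h4
    push_cast at h6
    omega
  · exact hi.1 (seq_down' ha hi'.1 h2)

lemma seq_start (h0 : hd (side 0) (a 0) = -1) (j : ℕ) : a j ∈ SX j := by
  have key : ∀ j, hd (side j) (a j) = -(2 * j + 1) := by
    intro j
    induction j with
    | zero => simpa using h0
    | succ j ih =>
      have h1 := ha j
      have h2 : hd (side (j + 1)) (a j) = 0 := by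
        by_contra h'; exact side_succ _ (hd_excl h' (ih ▸ by omega))
      push_cast
      omega
  exact Or.inr (key j)

end Seq

/-! ### The lamp -/

section Lamp
variable {ι : Type} [DecidableEq ι] {P : Type} [DecidableEq P]

/-- Switching the lamp at `p₀`. -/
def lamp (p₀ : P) (n : ℤ) : Equiv.Perm (P × ℤ) :=
  Equiv.prodShear (Equiv.refl P) fun p => Equiv.addRight (if p = p₀ then n else 0)

lemma lamp_apply (p₀ : P) (n : ℤ) (p : P) (z : ℤ) :
    lamp p₀ n (p, z) = (p, z + if p = p₀ then n else 0) := rfl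

lemma lamp_zpow (p₀ : P) (n : ℤ) : lamp p₀ 1 ^ n = lamp p₀ n := by
  let f : Multiplicative ℤ →* Equiv.Perm (P × ℤ) := MonoidHom.mk' (fun m => lamp p₀ m.toAdd) (by
    intro a b
    ext ⟨p, z⟩ : 1
    simp only [toAdd_mul, Equiv.Perm.mul_apply, lamp_apply]
    split_ifs <;> simp [add_comm, add_left_comm])
  have := map_zpow f (Multiplicative.ofAdd 1) n
  simpa [f, ← ofAdd_zsmul] using this.symm

theorem lamp_eq (ρ : FreeGroup ι →* Equiv.Perm P) (g : ι) (hg : ρ (FreeGroup.of g) = 1) (p₀ : P)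
    {γ γ' : FreeGroup ι} {n m : ℤ} (hn : n ≠ 0)
    (h : γ * FreeGroup.of g ^ n * γ⁻¹ = γ' * FreeGroup.of g ^ m * γ'⁻¹) : ρ γ p₀ = ρ γ' p₀ := by
  let r : FreeGroup ι →* Equiv.Perm (P × ℤ) := FreeGroup.lift fun x =>
    if x = g then lamp p₀ 1 else Equiv.prodCongr (ρ (FreeGroup.of x)) (Equiv.refl ℤ)
  have hr : ∀ γ, ∃ f : P → ℤ, ∀ p z, r γ (p, z) = (ρ γ p, z + f p) := by
    intro γ
    induction γ using FreeGroup.induction_on with
    | C1 => exact ⟨0, fun p z => by simp⟩
    | of x =>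
      by_cases hx : x = g
      · subst hx
        exact ⟨fun p => if p = p₀ then 1 else 0, fun p z => by simp [r, hg, lamp_apply]⟩
      · exact ⟨0, fun p z => by simp [r, hx]⟩
    | inv_of x ih =>
      obtain ⟨f, hf⟩ := ih
      refine ⟨fun p => -f ((ρ (FreeGroup.of x))⁻¹ p), fun p z => ?_⟩
      rw [map_inv, map_inv, Equiv.Perm.inv_eq_iff_eq, hf]
      simp
    | mul x y hx hy =>
      obtain ⟨f, hf⟩ := hx
      obtain ⟨f', hf'⟩ := hy
      refine ⟨fun p => f' p + f (ρ y p), fun p z => ?_⟩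
      rw [map_mul, map_mul, Equiv.Perm.mul_apply, hf', hf, Equiv.Perm.mul_apply, add_assoc]
  have hrg : ∀ n : ℤ, r (FreeGroup.of g ^ n) = lamp p₀ n := by
    intro n
    rw [map_zpow, ← lamp_zpow]
    simp [r]
  have key : ∀ (γ : FreeGroup ι) (n : ℤ) (q : P) (z : ℤ),
      r (γ * FreeGroup.of g ^ n * γ⁻¹) (ρ γ q, z) = (ρ γ q, z + if q = p₀ then n else 0) := by
    intro γ n q z
    obtain ⟨f, hf⟩ := hr γ
    have h1 : r γ⁻¹ (ρ γ q, z) = (q, z - f q) := by
      rw [map_inv, Equiv.Perm.inv_eq_iff_eq, hf]; simp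
    rw [map_mul, map_mul, Equiv.Perm.mul_apply, Equiv.Perm.mul_apply, h1, hrg, lamp_apply, hf]
    congr 1
    ring
  have h1 := key γ n p₀ 0
  have h2 := key γ' m ((ρ γ')⁻¹ (ρ γ p₀)) 0
  have e : ρ γ' ((ρ γ')⁻¹ (ρ γ p₀)) = ρ γ p₀ := by simp
  rw [e, ← h, h1] at h2
  have h3 := congrArg Prod.snd h2
  simp only [if_true, zero_add] at h3
  by_cases h4 : (ρ γ')⁻¹ (ρ γ p₀) = p₀
  · exact Equiv.Perm.inv_eq_iff_eq.1 h4
  · rw [if_neg h4] at h3
    exact (hn h3).elim

end Lamp

end Crest.Agent.H3.Fg
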