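import Crest.Agent.H4.FgA
import Crest.Agent.H3.FgNB
import Crest.Agent.H3.FgPP

/-! Row 134, piece H: a small vector field with a prescribed cocycle value. -/

set_option autoImplicit false

namespace Crest.Agent.H3.Fg

open Crest.Agent.H4.Gen Crest.Agent.H4.Fg Finset

universe u

variable {ι : Type}

/-- Conjugation by a group element. -/
noncomputable def Ad (d : FreeGroup ι) : R ι →ₗ[ℝ] R ι :=
  (LinearMap.mulRight ℝ (e d⁻¹)).comp (LinearMap.mulLeft ℝ (e d))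

lemma Ad_apply (d : FreeGroup ι) (y : R ι) : Ad d y = e d * y * e d⁻¹ := rfl

lemma Ad_e (d γ : FreeGroup ι) : Ad d (e γ) = e (d * γ * d⁻¹) := by
  rw [Ad_apply, e_mul, e_mul]

lemma Ad_mul (d d' : FreeGroup ι) (y : R ι) : Ad (d * d') y = Ad d (Ad d' y) := by
  simp only [Ad_apply, mul_inv_rev, e_mul, mul_assoc]

lemma Ad_one (y : R ι) : Ad 1 y = y := by simp [Ad_apply, e_one]

lemma σ_Ad (d : FreeGroup ι) (y : R ι) : σ (Ad d y) = Ad d (σ y) := by
  simp only [Ad_apply, σ_mul, σ_e, inv_inv, mul_assoc]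

/-- Elements supported on conjugates of powers of `g` with position in `S`. -/
noncomputable def Sp (ρ : FreeGroup ι →* Equiv.Perm G) (g : ι) (S : Set G) : Submodule ℝ (R ι) :=
  Submodule.span ℝ {y | ∃ (γ : FreeGroup ι) (n : ℤ), n ≠ 0 ∧ ρ γ 1 ∈ S ∧
    y = e (γ * FreeGroup.of g ^ n * γ⁻¹)}

lemma Sp_le_CP (ρ : FreeGroup ι →* Equiv.Perm G) (g : ι) (S : Set G) : Sp ρ g S ≤ CP g :=
  Submodule.span_mono fun _ ⟨γ, n, hn, _, h⟩ => ⟨γ, n, hn, h⟩

lemma PW_le_Sp (ρ : FreeGroup ι →* Equiv.Perm G) (g : ι) {S : Set G} (h1 : (1 : G) ∈ S) :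
    PW g ≤ Sp ρ g S :=
  Submodule.span_mono fun _ ⟨n, hn, h⟩ => ⟨1, n, hn, by simpa using h1, by simpa using h⟩

lemma Ad_mem {ρ : FreeGroup ι →* Equiv.Perm G} {g : ι} {S S' : Set G} {d : FreeGroup ι}
    (h : ∀ p ∈ S, ρ d p ∈ S') {y : R ι} (hy : y ∈ Sp ρ g S) : Ad d y ∈ Sp ρ g S' := by
  have : Sp ρ g S ≤ (Sp ρ g S').comap (Ad d) := by
    refine Submodule.span_le.2 ?_
    rintro _ ⟨γ, n, hn, hγ, rfl⟩
    refine Submodule.subset_span ⟨d * γ, n, hn, ?_, ?_⟩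
    · rw [map_mul]; exact h _ hγ
    · rw [Ad_e]; simp only [mul_assoc, mul_inv_rev]
  exact this hy

variable {A : Type u} [CStarAlgebra A]

/-- The real inner product coming from a representation. -/
noncomputable def Bl (T : TS A) (lam : FreeGroup ι →* A) : R ι →ₗ[ℝ] R ι →ₗ[ℝ] ℝ :=
  LinearMap.mk₂ ℝ (fun x y => (T.τ (star (pi lam x) * pi lam y)).re)
    (fun x x' y => by simp [add_mul])
    (fun r x y => by
      rw [map_smul, star_smul, star_trivial, smul_mul_assoc, LinearMap.map_smul_of_tower]; simp)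
    (fun x y y' => by simp [mul_add])
    (fun r x y => by rw [map_smul, mul_smul_comm, LinearMap.map_smul_of_tower]; simp)

lemma Bl_apply (T : TS A) (lam : FreeGroup ι →* A) (x y : R ι) :
    Bl T lam x y = (T.τ (star (pi lam x) * pi lam y)).re := rfl

lemma Bl_self (T : TS A) (lam : FreeGroup ι →* A) (x : R ι) :
    Bl T lam x x = T.n2 (pi lam x) ^ 2 := (T.n2_sq _).symm

lemma Bl_symm (T : TS A) (lam : FreeGroup ι →* A) (x y : R ι) : Bl T lam x y = Bl T lam y x := by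
  rw [Bl_apply, Bl_apply, ← Complex.conj_re, ← T.star', star_mul, star_star]

lemma Bl_Ad {T : TS A} {lam : FreeGroup ι →* A} (h : Rep T lam) (d : FreeGroup ι) (x y : R ι) :
    Bl T lam (Ad d x) (Ad d y) = Bl T lam x y := by
  simp only [Bl_apply, Ad_apply, map_mul, pi_e, star_mul, ← h.star_eq, star_star]
  have h1 : ∀ z, star (lam d) * (lam d * z) = z := fun z => by
    rw [← mul_assoc, (h.unit d).1, one_mul]
  rw [← T.τ_conj (h.unit d).1 (star (pi lam x) * pi lam y)]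
  simp only [mul_assoc, h1]

lemma Bl_orth {T : TS A} {lam : FreeGroup ι →* A} (h : Rep T lam) {ρ : FreeGroup ι →* Equiv.Perm G}
    {g : ι} (hg : ρ (FreeGroup.of g) = 1) {S S' : Set G} (hS : ∀ p ∈ S, p ∉ S') {x y : R ι}
    (hx : x ∈ Sp ρ g S) (hy : y ∈ Sp ρ g S') : Bl T lam x y = 0 := by
  classical
  induction hx using Submodule.span_induction with
  | zero => simp
  | add a b _ _ ha hb => rw [map_add, LinearMap.add_apply, ha, hb, add_zero]
  | smul r a _ ha => rw [map_smul, LinearMap.smul_apply, ha, smul_zero]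
  | mem a ha =>
    obtain ⟨γ, n, hn, hγ, rfl⟩ := ha
    induction hy using Submodule.span_induction with
    | zero => simp
    | add a b _ _ ha hb => rw [map_add, ha, hb, add_zero]
    | smul r a _ ha => rw [map_smul, ha, smul_zero]
    | mem a ha =>
      obtain ⟨γ', m, -, hγ', rfl⟩ := ha
      rw [Bl_apply, pi_e, pi_e, h.star_eq, ← map_mul, h.tr, Complex.zero_re]
      intro h1
      rw [inv_mul_eq_one] at h1
      exact hS _ hγ (lamp_eq ρ g hg 1 hn h1 ▸ hγ')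

lemma exists_bound (y : R ι) : ∃ C : ℝ, 0 < C ∧ ∀ (A : Type u) [CStarAlgebra A] (T : TS A)
    (lam : FreeGroup ι →* A), Rep T lam → T.n2 (pi lam y) ≤ C := by
  induction y using R_ind with
  | he γ => exact ⟨1, one_pos, fun A _ T lam h => by rw [pi_e, T.n2_unitary (h.unit γ)]⟩
  | add x y hx hy =>
    obtain ⟨C, hC, h1⟩ := hx
    obtain ⟨D, hD, h2⟩ := hy
    refine ⟨C + D, by positivity, fun A _ T lam h => ?_⟩
    rw [map_add]
    exact (T.n2_add_le _ _).trans (add_le_add (h1 A T lam h) (h2 A T lam h))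
  | smul r x hx =>
    obtain ⟨C, hC, h1⟩ := hx
    refine ⟨(|r| + 1) * C, by positivity, fun A _ T lam h => ?_⟩
    rw [map_smul, ← Complex.coe_smul, T.n2_smul, Complex.norm_real, Real.norm_eq_abs]
    exact mul_le_mul (by linarith) (h1 A T lam h) (T.n2_nonneg _) (by positivity)

/-- The two letters. -/
def lt (u v : ι) : Bool → FreeGroup ι
  | false => FreeGroup.of v
  | true => FreeGroup.of u * FreeGroup.of v * (FreeGroup.of u)⁻¹

/-- The syllables. -/
def zz (u v : ι) (m : ℕ) : FreeGroup ι := lt u v (side m) ^ (2 * m + 1)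

/-- The prefixes. -/
def RR (u v : ι) : ℕ → FreeGroup ι
  | 0 => zz u v 0
  | j + 1 => RR u v j * zz u v (j + 1)

lemma RR_mem (u v : ι) (j : ℕ) :
    RR u v j ∈ Subgroup.closure {FreeGroup.of u, FreeGroup.of v} := by
  have hu : FreeGroup.of u ∈ Subgroup.closure {FreeGroup.of u, FreeGroup.of v} :=
    Subgroup.subset_closure (by simp)
  have hv : FreeGroup.of v ∈ Subgroup.closure {FreeGroup.of u, FreeGroup.of v} :=
    Subgroup.subset_closure (by simp)
  have hz : ∀ m, zz u v m ∈ Subgroup.closure {FreeGroup.of u, FreeGroup.of v} := by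
    intro m
    refine pow_mem ?_ _
    cases side m
    · exact hv
    · exact mul_mem (mul_mem hu hv) (inv_mem hu)
  induction j with
  | zero => exact hz 0
  | succ j ih => exact mul_mem ih (hz _)

section Coc
variable {u v : ι} {ξ : R ι} {c : FreeGroup ι → R ι} (hc : IsCoc u ξ c)
include hc

lemma coc_mul (γ δ : FreeGroup ι) : c (γ * δ) = c γ + Ad γ (c δ) := hc.mul γ δ

lemma coc_one : c 1 = 0 := by
  have := coc_mul hc 1 1
  rw [one_mul, Ad_one] at this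
  exact left_eq_add.1 this

lemma coc_pow (huv : u ≠ v) (n : ℕ) : c (FreeGroup.of v ^ n) = 0 := by
  induction n with
  | zero => rw [pow_zero, coc_one hc]
  | succ n ih => rw [pow_succ, coc_mul hc, ih, hc.at_ne v huv.symm, map_zero, add_zero]

lemma coc_conj (huv : u ≠ v) (n : ℕ) : c (lt u v true ^ n) = ξ - Ad (lt u v true ^ n) ξ := by
  have h1 : c (FreeGroup.of u)⁻¹ = -Ad (FreeGroup.of u)⁻¹ ξ := by
    have := coc_mul hc (FreeGroup.of u)⁻¹ (FreeGroup.of u)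
    rw [inv_mul_cancel, coc_one hc, hc.at_u] at this
    exact eq_neg_of_add_eq_zero_left this.symm
  rw [lt, conj_pow, coc_mul hc, coc_mul hc, hc.at_u, coc_pow hc huv, map_zero, add_zero, h1,
    map_neg, ← Ad_mul, sub_eq_add_neg]

lemma coc_RR (huv : u ≠ v) (M : ℕ) :
    c (RR u v (2 * M)) = ∑ j ∈ range (2 * M), ((-1 : ℝ) ^ j) • Ad (RR u v j) ξ := by
  induction M with
  | zero => simpa [RR, zz, side, lt] using hc.at_ne v huv.symm
  | succ M ih =>
    have s1 : side (2 * M + 1) = true := by simp [side]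
    have s2 : side (2 * M + 1 + 1) = false := by simp [side]; omega
    have e1 : c (zz u v (2 * M + 1)) = ξ - Ad (zz u v (2 * M + 1)) ξ := by
      rw [zz, s1, coc_conj hc huv]
    have e2 : c (zz u v (2 * M + 1 + 1)) = 0 := by rw [zz, s2, lt, coc_pow hc huv]
    rw [show 2 * (M + 1) = 2 * M + 1 + 1 by ring, sum_range_succ, sum_range_succ, ← ih, RR,
      coc_mul hc, e2, map_zero, add_zero, RR, coc_mul hc, e1, map_sub, ← Ad_mul, pow_succ,
      pow_mul]
    simp only [even_two, Even.neg_pow, one_pow, one_smul, mul_neg, mul_one, neg_smul]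
    abel

end Coc

lemma exists_rho {u v g : ι} (huv : u ≠ v) (hug : u ≠ g) (hvg : v ≠ g) :
    ∃ ρ : FreeGroup ι →* Equiv.Perm G, ρ (FreeGroup.of g) = 1 ∧
      ∀ m p, ρ (zz u v m) p = gen (side m) (2 * m + 1) * p := by
  classical
  let ρ : FreeGroup ι →* Equiv.Perm G := FreeGroup.lift fun x =>
    if x = u then swP else if x = v then Equiv.mulLeft (gen false 1) else 1
  have hu : ρ (FreeGroup.of u) = swP := by simp [ρ]
  have hv : ρ (FreeGroup.of v) = Equiv.mulLeft (gen false 1) := by simp [ρ, huv.symm]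
  have hl : ∀ b, ρ (lt u v b) = Equiv.mulLeft (gen b 1) := by
    rintro (_ | _)
    · exact hv
    · rw [lt, map_mul, map_mul, map_inv, hu, hv, mul_inv_eq_iff_eq_mul]
      ext p
      change sw (gen false 1 * p) = gen true 1 * sw p
      rw [map_mul, sw_gen]; rfl
  refine ⟨ρ, by simp [ρ, hug.symm, hvg.symm], fun m p => ?_⟩
  rw [zz, map_pow, hl, Equiv.pow_mulLeft, gen_pow]
  push_cast
  rfl

lemma card_far (N : ℕ) (i : Fin N) :
    ((N : ℝ) - 3) ≤ (#{j : Fin N | (i : ℕ) + 2 ≤ j ∨ (j : ℕ) + 2 ≤ i} : ℝ) := by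
  have h1 := card_filter_add_card_filter_not (s := (univ : Finset (Fin N)))
    (fun j : Fin N => (i : ℕ) + 2 ≤ j ∨ (j : ℕ) + 2 ≤ i)
  have h2 : #{j : Fin N | ¬ ((i : ℕ) + 2 ≤ j ∨ (j : ℕ) + 2 ≤ i)} ≤ 3 := by
    have : #{j : Fin N | ¬ ((i : ℕ) + 2 ≤ j ∨ (j : ℕ) + 2 ≤ i)} ≤ #(range 3) := by
      refine card_le_card_of_injOn (fun j => (j : ℕ) + 1 - i) (fun j hj => ?_) fun j hj j' hj' h => ?_
      · simp only [coe_filter, mem_univ, true_and, Set.mem_ofPred_eq] at hj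
        simp only [coe_range, Set.mem_Iio]
        omega
      · simp only [coe_filter, mem_univ, true_and, Set.mem_ofPred_eq] at hj hj'
        simp only at h
        exact Fin.ext (by omega)
    simpa using this
  rw [card_univ, Fintype.card_fin] at h1
  have h3 : (N : ℝ) ≤ #{j : Fin N | (i : ℕ) + 2 ≤ j ∨ (j : ℕ) + 2 ≤ i} + 3 := by
    exact_mod_cast (by omega)
  linarith

lemma num_q {K M : ℕ} (hK0 : (0 : ℝ) < K) (hM : (3 * K + 2 : ℝ) ≤ M) :
    (((2 * M : ℕ) : ℝ) / (((2 * M : ℕ) : ℝ) - 3)) ^ K ≤ 2 := by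
  have hN : ((2 * M : ℕ) : ℝ) = 2 * M := by push_cast; ring
  rw [hN]
  have hM0 : (0 : ℝ) < M := by linarith
  have h1 := one_add_mul_le_pow (a := -(3 / (2 * M : ℝ))) (by
    have : 3 / (2 * M : ℝ) ≤ 2 := by rw [div_le_iff₀ (by positivity)]; linarith
    linarith) K
  have h2 : (1 : ℝ) / 2 ≤ 1 + K * -(3 / (2 * M : ℝ)) := by
    have : K * (3 / (2 * M : ℝ)) ≤ 1 / 2 := by
      rw [← mul_div_assoc, div_le_iff₀ (by positivity)]; linarith
    linarith
  have h3 : (2 * M : ℝ) / (2 * M - 3) = (1 + -(3 / (2 * M : ℝ)))⁻¹ := by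
    rw [← inv_div]
    congr 1
    field_simp
    ring
  rw [h3, inv_pow]
  exact inv_le_of_inv_le₀ two_pos (by linarith)

/-- The signed conjugations. -/
noncomputable def TT (d : ℕ → FreeGroup ι) (N : ℕ) (j : Fin N) : R ι →ₗ[ℝ] R ι :=
  ((-1 : ℝ) ^ (j : ℕ)) • Ad (d j)

lemma TT_apply (d : ℕ → FreeGroup ι) (N : ℕ) (j : Fin N) (y : R ι) :
    TT d N j y = ((-1 : ℝ) ^ (j : ℕ)) • Ad (d j) y := rfl

lemma neg_one_sq' (j : ℕ) : (-1 : ℝ) ^ j * (-1) ^ j = 1 := by rw [← mul_pow]; simp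

lemma TT_mem {ρ : FreeGroup ι →* Equiv.Perm G} {g : ι} {S S' : Set G} {d : ℕ → FreeGroup ι}
    {N : ℕ} {j : Fin N} (h : ∀ p ∈ S, ρ (d j) p ∈ S') {y : R ι} (hy : y ∈ Sp ρ g S) :
    TT d N j y ∈ Sp ρ g S' := by
  rw [TT_apply]; exact Submodule.smul_mem _ _ (Ad_mem h hy)

lemma TT_anti (ρ : FreeGroup ι →* Equiv.Perm G) (g : ι) (d : ℕ → FreeGroup ι) (N : ℕ) (j : Fin N)
    (y : R ι) (hy : y ∈ Sp ρ g Set.univ ⊓ LinearMap.ker (σ + LinearMap.id)) :
    TT d N j y ∈ Sp ρ g Set.univ ⊓ LinearMap.ker (σ + LinearMap.id) := by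
  rw [Submodule.mem_inf, LinearMap.mem_ker, LinearMap.add_apply, LinearMap.id_apply] at hy ⊢
  refine ⟨TT_mem (fun _ _ => Set.mem_univ _) hy.1, ?_⟩
  rw [TT_apply, map_smul, σ_Ad, ← smul_add, ← map_add, hy.2, map_zero, smul_zero]

lemma TT_iso {T : TS A} {lam : FreeGroup ι →* A} (h : Rep T lam) (d : ℕ → FreeGroup ι) (N : ℕ)
    (j : Fin N) (x y : R ι) : Bl T lam (TT d N j x) (TT d N j y) = Bl T lam x y := by
  simp only [TT_apply, LinearMap.smul_apply, map_smul, smul_eq_mul, ← mul_assoc, neg_one_sq',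
    one_mul, Bl_Ad h]

lemma nb_of {T : TS A} {lam : FreeGroup ι →* A} (hrep : Rep T lam) {u v g : ι}
    {ρ : FreeGroup ι →* Equiv.Perm G} (hg : ρ (FreeGroup.of g) = 1)
    (hρ : ∀ m p, ρ (zz u v m) p = gen (side m) (2 * m + 1) * p) {ξ₀ : R ι} (hξ₀ : ξ₀ ∈ PW g)
    (N : ℕ) :
    NB (Bl T lam) (TT (RR u v) N) (TT (fun j => (RR u v j)⁻¹) N)
      (fun i j => (i : ℕ) + 2 ≤ j ∨ (j : ℕ) + 2 ≤ i) ξ₀
      (fun j => Sp ρ g (SX j)) (fun i => Sp ρ g {q | ρ (RR u v i)⁻¹ q ∈ SY i}) := by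
  have hseq : ∀ (q : G) (j : ℕ), hd (side (j + 1)) (ρ (RR u v j)⁻¹ q) =
      2 * (j + 1) + 1 + hd (side (j + 1)) (ρ (RR u v (j + 1))⁻¹ q) := by
    intro q j
    have : (RR u v j)⁻¹ = zz u v (j + 1) * (RR u v (j + 1))⁻¹ := by simp [RR]
    rw [this, map_mul, Equiv.Perm.mul_apply, hρ, hd_gen]
    push_cast
    rfl
  have hstart : ∀ j : ℕ, ρ (RR u v j)⁻¹ 1 ∈ SX j := by
    refine seq_start (a := fun j => ρ (RR u v j)⁻¹ 1) (hseq 1) ?_
    have h1 : ρ (zz u v 0) (ρ (RR u v 0)⁻¹ 1) = 1 := by simp [RR]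
    have h2 := hd_one (side 0)
    rw [← h1, hρ, hd_gen] at h2
    push_cast at h2
    linarith
  have h0 : ξ₀ ∈ Sp ρ g {1} := PW_le_Sp ρ g (Set.mem_singleton _) hξ₀
  refine ⟨fun x => ?_, Bl_symm T lam, TT_iso hrep _ _, TT_iso hrep _ _, fun j j' hne x hx y hy => ?_,
    fun j j' hne x hx y hy => ?_, fun i y hy => ?_, fun j => ?_, fun i j hne x hx => ?_,
    fun i j hfar y hy => ?_⟩
  · rw [Bl_self]; positivity
  · exact Bl_orth hrep hg (fun p h h' => hne (Fin.ext (SX_disj h h'))) hx hy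
  · refine Bl_orth hrep hg (fun q h h' => ?_) hx hy
    rw [Set.mem_ofPred_eq] at h h'
    rcases lt_or_gt_of_ne (Fin.val_ne_of_ne hne) with h1 | h1
    · exact seq_SY (a := fun j => ρ (RR u v j)⁻¹ q) (hseq q) h1 h h'
    · exact seq_SY (a := fun j => ρ (RR u v j)⁻¹ q) (hseq q) h1 h' h
  · refine Bl_orth hrep hg (fun p hp h => ?_) h0 hy
    rw [Set.mem_singleton_iff] at hp
    rw [Set.mem_ofPred_eq, hp] at h
    exact h.1 (hstart i)
  · refine TT_mem (fun p hp => ?_) h0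
    rw [Set.mem_singleton_iff] at hp
    rw [hp]
    exact hstart j
  · refine TT_mem (fun p hp => ?_) hx
    have : ρ (RR u v i)⁻¹ (ρ (RR u v i) p) = p := by simp
    rw [Set.mem_ofPred_eq, this]
    exact SX_sub_SY (Fin.val_ne_of_ne hne) hp
  · refine TT_mem (fun q hq => ?_) hy
    rw [Set.mem_ofPred_eq] at hq
    rcases hfar with h1 | h1
    · exact seq_up' (a := fun j => ρ (RR u v j)⁻¹ q) (hseq q) hq.1 h1
    · exact seq_down' (a := fun j => ρ (RR u v j)⁻¹ q) (hseq q) hq.1 h1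

theorem hStmt : HStmt.{u} := by
  intro ι u v g huv hug hvg ξ₀ hσ hξ₀ η hη
  obtain ⟨C, hC, hbd⟩ := exists_bound.{u} ξ₀
  obtain ⟨ρ, hg, hρ⟩ := exists_rho huv hug hvg
  obtain ⟨K, hK⟩ := exists_nat_gt (2 * C ^ 2 / η ^ 2)
  have hK0 : (0 : ℝ) < K := lt_of_le_of_lt (by positivity) hK
  obtain ⟨M, hM⟩ := exists_nat_gt (3 * K + 2 + K * C ^ 2 / η ^ 2)
  have hKC : 0 ≤ K * C ^ 2 / η ^ 2 := by positivity
  have hN : ((2 * M : ℕ) : ℝ) = 2 * M := by push_cast; ring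
  have hM0 : (0 : ℝ) < M := by linarith
  have hM1 : 0 < M := by exact_mod_cast hM0
  obtain ⟨ξ, hinv, hest⟩ := exists_nb (TT (RR u v) (2 * M)) (TT (fun j => (RR u v j)⁻¹) (2 * M))
    (fun i j => (i : ℕ) + 2 ≤ j ∨ (j : ℕ) + 2 ≤ i) ξ₀
    (fun j y => by
      simp only [TT_apply, map_smul, smul_smul, neg_one_sq', one_smul, ← Ad_mul,
        mul_inv_cancel, Ad_one])
    (D := ((2 * M : ℕ) : ℝ) - 3) (by rw [hN]; linarith) (card_far _)
    (by rw [Fintype.card_fin]; omega)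
    (K := K) (by exact_mod_cast hK0) (by rw [Fintype.card_fin]; linarith)
    (by rw [Fintype.card_fin]; exact num_q hK0 (by linarith))
  have hmem := hinv (Sp ρ g Set.univ ⊓ LinearMap.ker (σ + LinearMap.id))
    (by
      rw [Submodule.mem_inf, LinearMap.mem_ker, LinearMap.add_apply, LinearMap.id_apply, hσ]
      exact ⟨PW_le_Sp ρ g (Set.mem_univ _) hξ₀, neg_add_cancel _⟩)
    (TT_anti ρ g _ _) (TT_anti ρ g _ _)
  rw [Submodule.mem_inf, LinearMap.mem_ker, LinearMap.add_apply, LinearMap.id_apply] at hmem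
  refine ⟨RR u v (2 * M), RR_mem u v _, ξ, eq_neg_of_add_eq_zero_left hmem.2,
    Sp_le_CP ρ g _ hmem.1, fun c hc A _ Tr lam hrep => ?_⟩
  obtain ⟨h1, h2⟩ := hest _ _ _ (nb_of hrep hg hρ hξ₀ (2 * M))
  have hW : ∑ j, TT (RR u v) (2 * M) j ξ = c (RR u v (2 * M)) := by
    rw [coc_RR hc huv, ← Fin.sum_univ_eq_sum_range (fun j => ((-1 : ℝ) ^ j) • Ad (RR u v j) ξ)]
    simp only [TT_apply]
  rw [hW] at h2
  simp only [Bl_self, Fintype.card_fin] at h1 h2
  have hs : Tr.n2 (pi lam ξ₀) ^ 2 ≤ C ^ 2 := pow_le_pow_left₀ (Tr.n2_nonneg _) (hbd A Tr lam hrep) 2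
  have hη2 : 0 < η ^ 2 := by positivity
  constructor
  · refine (sq_le_sq₀ (Tr.n2_nonneg _) hη.le).1 (h1.trans ?_)
    rw [hN, div_le_iff₀ (by positivity)]
    have h3 : K * C ^ 2 / η ^ 2 ≤ M := by linarith
    rw [div_le_iff₀ hη2] at h3
    have h4 := mul_le_mul_of_nonneg_left hs hK0.le
    linarith
  · refine (sq_le_sq₀ (Tr.n2_nonneg _) hη.le).1 (h2.trans ?_)
    rw [div_le_iff₀ hK0]
    rw [div_lt_iff₀ hη2] at hK
    linarith

end Crest.Agent.H3.Fg
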