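import Crest.Agent.H3.GenD1

/-! Row 95, piece D, part 2: the Pauli tower and single generation. -/

set_option linter.unusedSimpArgs false
set_option linter.style.haveILetI false

open scoped Topology
open Filter

namespace Crest.Agent.H3.Gen

open Crest.Agent.H4.Gen

universe u

variable {A : Type u} [CStarAlgebra A]

lemma Fac.irr_top {T : TS A} {N : StarSubalgebra ℂ A} (hN : Fac T N) [IsClosed (N : Set A)] :
    Irr (⊤ : StarSubalgebra ℂ N) := by
  intro z hz
  obtain ⟨c, hc⟩ := hN.irr z z.2 fun p hp =>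
    congrArg Subtype.val (hz ⟨p, hp⟩ StarSubalgebra.mem_top)
  exact ⟨c, Subtype.ext hc⟩

lemma fac_top (T : TS A) (hI : Irr (⊤ : StarSubalgebra ℂ A)) (hf : ¬ FiniteDimensional ℂ A) :
    Fac T ⊤ where
  cl := TS.cl_top
  irr z _ hz := hI z hz
  inf h := hf (Module.Finite.of_surjective
    (⊤ : StarSubalgebra ℂ A).toSubalgebra.val.toLinearMap fun x => ⟨⟨x, trivial⟩, rfl⟩)

lemma sep_restrict {T : TS A} (hS : T.Sep) (N : StarSubalgebra ℂ A) [IsClosed (N : Set A)] :
    (T.restrict N).Sep := by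
  classical
  obtain ⟨D, hD, h⟩ := hS
  let g : A × ℕ → N := fun p =>
    if h : ∃ y : N, T.n2 (p.1 - y) < 1 / ((p.2 : ℝ) + 1) then h.choose else 0
  refine ⟨g '' (D ×ˢ Set.univ), (hD.prod Set.countable_univ).image _, fun a ε hε => ?_⟩
  obtain ⟨m, hm⟩ := exists_nat_one_div_lt (half_pos hε)
  obtain ⟨d, hd, hda⟩ := h a (1 / ((m : ℝ) + 1)) (by positivity)
  refine ⟨g (d, m), ⟨(d, m), ⟨hd, trivial⟩, rfl⟩, ?_⟩
  have hex : ∃ y : N, T.n2 (d - y) < 1 / ((m : ℝ) + 1) := ⟨a, by rwa [T.n2_sub_comm]⟩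
  have h1 : T.n2 (d - (g (d, m) : A)) < 1 / ((m : ℝ) + 1) := by
    simp only [g, dif_pos hex]; exact hex.choose_spec
  have h2 := T.n2_triangle (a : A) d (g (d, m))
  change T.n2 ((a : A) - (g (d, m) : A)) < ε
  linarith

/-- Popa's lemma: a conjugate of the symmetry is almost orthogonal to a given centred element. -/
lemma popa_sig (hP : PopaStmt.{u}) {T : TS A} (hW : T.W) (hI : Irr (⊤ : StarSubalgebra ℂ A))
    (hf : ¬ FiniteDimensional ℂ A) {σ y : A} (hσ : σ ∈ unitary A) (hτ : T.τ σ = 0)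
    (hy : T.τ y = 0) {ε : ℝ} (hε : 0 < ε) :
    ∃ a ∈ unitary A, ‖T.τ (star y * (a * σ * star a * y * (a * σ * star a)))‖ ≤ ε := by
  have hpop := hP A T ⊤ hW TS.cl_top hI hf
  set c : ℝ := ‖y‖ + 1 with hc
  have hc0 : 0 < c := by positivity
  set y' : A := ((c⁻¹ : ℝ) : ℂ) • y with hy'
  have hyn : ‖y'‖ ≤ 1 := by
    rw [hy', norm_smul, Complex.norm_real, Real.norm_of_nonneg (by positivity),
      inv_mul_le_iff₀ hc0]
    linarith
  have hyy : y = (c : ℂ) • y' := by
    rw [hy', smul_smul, ← Complex.ofReal_mul, mul_inv_cancel₀ hc0.ne', Complex.ofReal_one, one_smul]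
  have hτy : T.τ y' = 0 := by rw [hy', map_smul, hy, smul_zero]
  obtain ⟨a, -, ha, h⟩ := hpop {1, y', star y', σ} (Set.toFinite _) (by
    intro x hx
    simp only [Set.mem_insert_iff, Set.mem_singleton_iff] at hx
    rcases hx with rfl | rfl | rfl | rfl
    · exact (T.norm_unitary (one_mem _)).le
    · exact hyn
    · rwa [norm_star]
    · exact (T.norm_unitary hσ).le) 4 (ε / c ^ 2) (by positivity)
  refine ⟨a, ha, ?_⟩
  have w1 : Adm T a {1, y', star y', σ} 1 false (sg a false * 1) := Adm.single _ _ (by simp)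
  have w2 := Adm.cons 1 true false σ _ (by simp) (fun _ => hτ) w1
  have w3 := Adm.cons 2 false true y' _ (by simp) (fun _ => hτy) w2
  have w4 := Adm.cons 3 true false σ _ (by simp) (fun _ => hτ) w3
  have := h 4 le_rfl true _ (star y') (by simp) w4
  simp only [sg, mul_one] at this
  have e : star y * (a * σ * star a * y * (a * σ * star a)) =
      ((c ^ 2 : ℝ) : ℂ) • (star y' * (a * σ * (star a * y' * (a * σ * star a)))) := by
    conv_lhs => rw [hyy]
    simp only [star_smul, smul_mul_assoc, mul_smul_comm, smul_smul, mul_assoc, RCLike.star_def,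
      Complex.conj_ofReal]
    congr 1
    push_cast; ring
  rw [e, map_smul, norm_smul, Complex.norm_real, Real.norm_of_nonneg (by positivity)]
  rwa [le_div_iff₀' (by positivity)] at this

/-- One step of the tower. -/
lemma tower_step (hP : PopaStmt.{u}) (hH : HalvStmt.{u}) {T : TS A} (hW : T.W)
    {N : StarSubalgebra ℂ A} (hN : Fac T N) (b : A) {η : ℝ} (hη : 0 < η) :
    ∃ v ∈ N, Hv v ∧ ∀ z ∈ N, T.τ z = 0 → T.n2 (z - b) < η → sig v * z = z * sig v →
      T.n2 z ≤ 5 * η := by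
  haveI : IsClosed (N : Set A) := hN.cl.isClosed
  have hW' := hW.restrict hN.cl
  obtain ⟨v, hv1, hv2⟩ := hH N (T.restrict N) hW' hN.irr_top hN.inf
  have hv : Hv v := ⟨hv1, hv2⟩
  have hv' : ∀ w : N, Hv w → Hv (w : A) := fun w hw =>
    ⟨congrArg Subtype.val hw.sq, congrArg Subtype.val hw.sum⟩
  by_cases hex : ∃ y ∈ N, T.τ y = 0 ∧ T.n2 (y - b) < η
  swap
  · exact ⟨v, v.2, hv' v hv, fun z hz h1 h2 _ => (hex ⟨z, hz, h1, h2⟩).elim⟩
  obtain ⟨y, hyN, hy0, hyb⟩ := hex
  obtain ⟨a, ha, h⟩ := popa_sig hP hW' hN.irr_top hN.inf hv.sig_unitary (τ_sig _ v)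
    (y := ⟨y, hyN⟩) hy0 (pow_pos hη 2)
  rw [← sig_conj ha] at h
  set w : N := a * v * star a with hw
  have hww : Hv (w : A) := hv' w (hv.uconj ha)
  have h' : ‖T.τ (star y * (sig (w : A) * y * sig (w : A)))‖ ≤ η ^ 2 := h
  refine ⟨w, w.2, hww, fun z _ _ hzb hz => ?_⟩
  generalize (w : A) = w' at hww h' hz
  set σ := sig w' with hσ
  have hu : σ ∈ unitary A := hww.sig_unitary
  have hzz : σ * z * σ = z := by rw [hz, mul_assoc, hww.sig_sq, mul_one]
  have h1 : T.n2 (y - z) ≤ 2 * η := by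
    have := T.n2_triangle y b z
    rw [T.n2_sub_comm b z] at this
    linarith
  have h2 : T.n2 (y - σ * y * σ) ≤ 4 * η := by
    have := T.n2_triangle y z (σ * y * σ)
    have e : z - σ * y * σ = σ * (z - y) * σ := by rw [mul_sub, sub_mul, hzz]
    rw [e, T.n2_mul_unitary hu, T.n2_unitary_mul hu, T.n2_sub_comm z y] at this
    linarith
  have h3 := T.n2_sub_sq y (σ * y * σ)
  rw [T.n2_mul_unitary hu, T.n2_unitary_mul hu] at h3
  have h4 : (T.τ (star y * (σ * y * σ))).re ≤ η ^ 2 := (Complex.re_le_norm _).trans h'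
  have h5 : T.n2 (y - σ * y * σ) ^ 2 ≤ (4 * η) ^ 2 := pow_le_pow_left₀ (T.n2_nonneg _) h2 2
  have h6 : T.n2 y ≤ 3 * η := by
    refine (sq_le_sq₀ (T.n2_nonneg _) (by positivity)).1 ?_
    nlinarith
  have h7 := T.n2_triangle z y 0
  rw [sub_zero, sub_zero, T.n2_sub_comm] at h7
  linarith

/-- Two self-adjoint elements whose closed subalgebras are irreducible. -/
lemma exists_irr_pair (hP : PopaStmt.{u}) (hH : HalvStmt.{u}) {T : TS A} (hW : T.W) (hS : T.Sep)
    (hI : Irr (⊤ : StarSubalgebra ℂ A)) (hf : ¬ FiniteDimensional ℂ A) :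
    ∃ a b : A, star a = a ∧ star b = b ∧ ‖a‖ ≤ 3 / 2 ∧ ‖b‖ ≤ 3 / 2 ∧
      ∀ S : StarSubalgebra ℂ A, IsClosed (S : Set A) → a ∈ S → b ∈ S → Irr S := by
  obtain ⟨D, hD, hden⟩ := hS
  obtain ⟨d, hd⟩ := (hD.insert 0).exists_eq_range (Set.insert_nonempty _ _)
  have hpos : ∀ n : ℕ, (0 : ℝ) < 1 / (((Nat.unpair n).2 : ℝ) + 1) := fun n => by positivity
  choose st hst1 hst2 hst3 using fun (N : {N : StarSubalgebra ℂ A // Fac T N}) (n : ℕ) =>
    tower_step hP hH hW N.2 (d (Nat.unpair n).1) (hpos n)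
  let N : ℕ → {N : StarSubalgebra ℂ A // Fac T N} := fun n =>
    Nat.rec ⟨⊤, fac_top T hI hf⟩ (fun n N => ⟨cm N.1 (st N n), N.2.cm hW (hst2 N n) (hst1 N n)⟩) n
  let v : ℕ → A := fun n => st (N n) n
  have hN : ∀ n, (N (n + 1)).1 = cm (N n).1 (v n) := fun n => rfl
  have hv : ∀ n, Hv (v n) := fun n => hst2 _ _
  have hanti : Antitone fun n => (N n).1 := antitone_nat_of_succ_le fun n => by
    rw [hN]; exact inf_le_left
  have hcomm : ∀ n m, n < m → ∀ x ∈ (N m).1, v n * x = x * v n ∧ star (v n) * x = x * star (v n) :=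
    fun n m h x hx => (mem_cm.1 (hanti (Nat.succ_le_of_lt h) hx)).2
  have hvm : ∀ n, v n ∈ (N n).1 := fun n => hst1 _ _
  have hsig : ∀ n, sig (v n) ∈ (N n).1 := fun n =>
    sub_mem (mul_mem (star_mem (hvm n)) (hvm n)) (mul_mem (hvm n) (star_mem (hvm n)))
  have hrho : ∀ n, rho (v n) ∈ (N n).1 := fun n => add_mem (hvm n) (star_mem (hvm n))
  have n1 : ∀ n, ‖sig (v n)‖ ≤ 1 := fun n => (T.norm_unitary (hv n).sig_unitary).le
  have n2 : ∀ n, ‖rho (v n)‖ ≤ 1 := fun n => (T.norm_unitary (hv n).rho_unitary).le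
  refine ⟨wsum fun n => sig (v n), wsum fun n => rho (v n), star_wsum fun n => star_sig _,
    star_wsum fun n => star_rho _, norm_wsum n1, norm_wsum n2, fun S hS ha hb z hz => ?_⟩
  have m1 : ∀ n, sig (v n) ∈ S := mem_of_wsum hS n1 (fun n => (hv n).sig_sq) (fun n m h => by
    obtain ⟨c1, c2⟩ := hcomm n m h _ (hsig m)
    exact ((Commute.mul_left c2 c1).sub_left (Commute.mul_left c1 c2)).eq) ha
  have m2 : ∀ n, rho (v n) ∈ S := mem_of_wsum hS n2 (fun n => (hv n).rho_sq) (fun n m h => by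
    obtain ⟨c1, c2⟩ := hcomm n m h _ (hrho m)
    exact (Commute.add_left c1 c2).eq) hb
  set z' := z - T.τ z • (1 : A) with hz'
  have hz'c : ∀ p ∈ S, p * z' = z' * p := fun p hp => by
    rw [hz', mul_sub, sub_mul, hz p hp, mul_smul_comm, smul_mul_assoc, mul_one, one_mul]
  have hzN : ∀ n, z' ∈ (N n).1 := by
    intro n
    induction n with
    | zero => exact StarSubalgebra.mem_top
    | succ n ih =>
      rw [hN]
      exact mem_cm.2 ⟨ih, (hv n).comm_of_sig_rho (hz'c _ (m1 n)) (hz'c _ (m2 n))⟩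
  have hsmall : ∀ m : ℕ, T.n2 z' ≤ 5 * (1 / ((m : ℝ) + 1)) := by
    intro m
    obtain ⟨b, hb, hzb⟩ := hden z' (1 / ((m : ℝ) + 1)) (by positivity)
    have : b ∈ Set.range d := hd ▸ Set.mem_insert_of_mem _ hb
    obtain ⟨i, rfl⟩ := this
    have := hst3 (N (Nat.pair i m)) (Nat.pair i m) z' (hzN _) (T.τ_centre z)
      (by simpa only [Nat.unpair_pair] using hzb) (hz'c _ (m1 _))
    simpa only [Nat.unpair_pair] using this
  have h0 : T.n2 z' = 0 := by
    refine le_antisymm ?_ (T.n2_nonneg _)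
    have := (tendsto_one_div_add_atTop_nhds_zero_nat (𝕜 := ℝ)).const_mul 5
    rw [mul_zero] at this
    exact ge_of_tendsto' this hsmall
  exact ⟨T.τ z, sub_eq_zero.1 (hW.faithful _ h0)⟩

/-- Three generators. -/
lemma exists_triple (hP : PopaStmt.{u}) (hL : LocalStmt.{u}) (hM : MainStmt.{u})
    (hT : TopStmt.{u}) (hH : HalvStmt.{u}) {T : TS A} (hW : T.W) (hS : T.Sep)
    (hI : Irr (⊤ : StarSubalgebra ℂ A)) (hf : ¬ FiniteDimensional ℂ A) :
    ∃ a b u : A, star a = a ∧ star b = b ∧ ‖a‖ ≤ 3 / 2 ∧ ‖b‖ ≤ 3 / 2 ∧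
      ∀ S : StarSubalgebra ℂ A, T.Cl S → a ∈ S → b ∈ S → u ∈ S → S = ⊤ := by
  obtain ⟨a, b, ha, hb, na, nb, h⟩ := exists_irr_pair hP hH hW hS hI hf
  let R : StarSubalgebra ℂ A := sInf {S | T.Cl S ∧ a ∈ S ∧ b ∈ S}
  have hR : T.Cl R := fun x c hx hc => StarSubalgebra.mem_sInf.2 fun S hS =>
    hS.1 x c (fun n => StarSubalgebra.mem_sInf.1 (hx n) S hS) hc
  have hRi : Irr R := h R hR.isClosed (StarSubalgebra.mem_sInf.2 fun S hS => hS.2.1)
    (StarSubalgebra.mem_sInf.2 fun S hS => hS.2.2)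
  obtain ⟨u, -, -, hu⟩ := hM A T R hW hS (hL A T R (hP A T R hW hR hRi hf)) 1 (one_mem _) 1 one_pos
  exact ⟨a, b, u, ha, hb, na, nb, fun S hS h1 h2 h3 =>
    hT A T R S u hS (sInf_le ⟨hS, h1, h2⟩) h3 hu⟩

/-- An element of the commutant whose corner lies in `S` lies in `S`. -/
lemma mem_of_corner {S : StarSubalgebra ℂ A} {v x : A} (h : Hv v) (hv : v ∈ S)
    (h1 : v * x = x * v) (h2 : star v * x = x * star v) :
    (star v * v * x ∈ S → x ∈ S) ∧ (v * star v * x ∈ S → x ∈ S) := by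
  have c1 : ∀ y, x * (v * y) = v * (x * y) := fun y => by rw [← mul_assoc, ← h1, mul_assoc]
  have c2 : ∀ y, x * (star v * y) = star v * (x * y) := fun y => by
    rw [← mul_assoc, ← h2, mul_assoc]
  have e0 : x = star v * v * x + v * star v * x := by rw [← add_mul, h.sum, one_mul]
  constructor
  · intro hm
    have e : v * star v * x = v * (star v * v * x) * star v := by
      simp only [mul_assoc, h.r3, ← h2]
    rw [e0, e]
    exact add_mem hm (mul_mem (mul_mem hv hm) (star_mem hv))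
  · intro hm
    have e : star v * v * x = star v * (v * star v * x) * v := by
      simp only [mul_assoc, h.r4, ← h1]
    rw [e0, e]
    exact add_mem (mul_mem (mul_mem (star_mem hv) hm) hv) hm

lemma mem_of_add_I {S : StarSubalgebra ℂ A} {p q : A} (hp : star p = p) (hq : star q = q)
    (h : p + Complex.I • q ∈ S) : p ∈ S ∧ q ∈ S := by
  have h' := star_mem h
  rw [star_add, star_smul, hp, hq, RCLike.star_def, Complex.conj_I] at h'
  constructor
  · have : p = (1 / 2 : ℂ) • ((p + Complex.I • q) + (p + -Complex.I • q)) := by module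
    rw [this]
    exact S.smul_mem (add_mem h h') _
  · have : q = (-Complex.I / 2 : ℂ) • ((p + Complex.I • q) - (p + -Complex.I • q)) := by
      rw [add_sub_add_left_eq_sub, ← sub_smul, smul_smul]
      have : -Complex.I / 2 * (Complex.I - -Complex.I) = 1 := by
        linear_combination (-1 : ℂ) * Complex.I_mul_I
      rw [this, one_smul]
    rw [this]
    exact S.smul_mem (sub_mem h h') _

theorem singleStmt (hP : PopaStmt.{u}) (hL : LocalStmt.{u}) (hM : MainStmt.{u})
    (hT : TopStmt.{u}) (hH : HalvStmt.{u}) : SingleStmt.{u} := by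
  intro A _ T hW hS hI hf
  obtain ⟨v, hv1, hv2⟩ := hH A T hW hI hf
  have hv : Hv v := ⟨hv1, hv2⟩
  have hN : Fac T (cm ⊤ v) := (fac_top T hI hf).cm hW hv StarSubalgebra.mem_top
  set N := cm ⊤ v with hNdef
  haveI : IsClosed (N : Set A) := hN.cl.isClosed
  obtain ⟨a, b, w, ha, hb, na, nb, h⟩ := exists_triple hP hL hM hT hH (hW.restrict hN.cl)
    (sep_restrict hS N) hN.irr_top hN.inf
  let p : N := (1 / 2 : ℂ) • (w + star w)
  let q : N := (-Complex.I / 2 : ℂ) • (w - star w)
  have hp : star p = p := by simp [p, add_comm]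
  have hq : star q = q := by
    simp only [q, star_smul, star_sub, star_star, RCLike.star_def, map_div₀, map_neg,
      Complex.conj_I, map_ofNat]
    module
  have hw : w = p + Complex.I • q := by
    simp only [p, q, smul_smul]
    have : Complex.I * (-Complex.I / 2) = 1 / 2 := by
      linear_combination (-1 / 2 : ℂ) * Complex.I_mul_I
    rw [this]
    module
  clear_value p q
  have cv : ∀ x : N, v * x = x * v := fun x => (mem_cm.1 x.2).2.1
  have cs : ∀ x : N, star v * x = x * star v := fun x => (mem_cm.1 x.2).2.2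
  have c1 : ∀ (x : N) (y : A), x * (v * y) = v * (x * y) := fun x y => by
    rw [← mul_assoc, ← cv, mul_assoc]
  have c2 : ∀ (x : N) (y : A), x * (star v * y) = star v * (x * y) := fun x y => by
    rw [← mul_assoc, ← cs, mul_assoc]
  have sa : ∀ x : N, star x = x → star (x : A) = x := fun x hx => congrArg Subtype.val hx
  set r : A := (1 / 8 : ℂ) • (star v * v * a + v * star v * b) with hr
  set B : A := star v * v * p + v * star v * q + v + star v with hB
  have hrs : star r = r := by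
    simp only [hr, star_smul, star_add, star_mul, star_star, sa a ha, sa b hb, mul_assoc,
      c1, c2, ← cv, ← cs]
    simp
  have hBs : star B = B := by
    simp only [hB, star_add, star_mul, star_star, sa p hp, sa q hq, mul_assoc,
      c1, c2, ← cv, ← cs]
    abel
  refine ⟨(sig v + r) + Complex.I • B, fun S hS hx => ?_⟩
  obtain ⟨hA, hBm⟩ := mem_of_add_I (by rw [star_add, star_sig, hrs]) hBs hx
  have nv : ‖v‖ ≤ 1 := by
    have e : v = (1 / 2 : ℂ) • (rho v - sig v * rho v) := by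
      rw [hv.sig_rho, rho]; module
    have n1 := T.norm_unitary hv.rho_unitary
    have n2 := T.norm_unitary (mul_mem hv.sig_unitary hv.rho_unitary)
    have n3 := norm_sub_le (rho v) (sig v * rho v)
    rw [e, norm_smul]
    have : ‖(1 / 2 : ℂ)‖ = 1 / 2 := by simp
    rw [this]
    linarith
  have nr : ‖r‖ ≤ 1 / 2 := by
    have nv' : ‖star v‖ ≤ 1 := by rwa [norm_star]
    have k : ∀ x y z : A, ‖x‖ ≤ 1 → ‖y‖ ≤ 1 → ‖z‖ ≤ 3 / 2 → ‖x * y * z‖ ≤ 3 / 2 := by
      intro x y z hx hy hz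
      have a1 : ‖x * y‖ ≤ 1 := (norm_mul_le _ _).trans (mul_le_one₀ hx (norm_nonneg _) hy)
      refine (norm_mul_le _ _).trans ?_
      nlinarith [norm_nonneg z, norm_nonneg (x * y)]
    have k1 := k _ _ (a : A) nv' nv na
    have k2 := k _ _ (b : A) nv nv' nb
    have k3 := norm_add_le (star v * v * a) (v * star v * b)
    rw [hr, norm_smul]
    have : ‖(1 / 8 : ℂ)‖ = 1 / 8 := by simp
    rw [this]
    linarith
  have hσr : sig v * r = r * sig v := by
    simp only [hr, sig, mul_smul_comm, smul_mul_assoc, mul_add, add_mul, mul_sub, sub_mul,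
      mul_assoc, c1, c2, ← cv, ← cs, hv.r1, hv.r2, hv.r3, hv.r4, mul_zero]
    module
  have hσ : sig v ∈ S := by
    refine sign_mem hS.isClosed (s := sig v * r) hv.sig_sq ?_ ?_ ?_
    · exact ((Commute.refl _).mul_right hσr).eq
    · refine (norm_mul_le _ _).trans ?_
      rw [T.norm_unitary hv.sig_unitary, one_mul]; exact nr
    · rwa [mul_add, mul_one, ← mul_assoc, hv.sig_sq, one_mul]
  have hrS : r ∈ S := by simpa using sub_mem hA hσ
  have e11 : star v * v ∈ S := by
    have : star v * v = (1 / 2 : ℂ) • (1 + sig v) := by rw [← hv.sum, sig]; module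
    rw [this]; exact S.smul_mem (add_mem (one_mem _) hσ) _
  have e22 : v * star v ∈ S := by
    have : v * star v = (1 / 2 : ℂ) • (1 - sig v) := by rw [← hv.sum, sig]; module
    rw [this]; exact S.smul_mem (sub_mem (one_mem _) hσ) _
  have hvS : v ∈ S := by
    have : v = v * star v * B * (star v * v) := by
      simp only [hB, mul_add, add_mul, mul_assoc, c1, c2, ← cv, ← cs, hv.r1, hv.r2, hv.r3, hv.r4,
        hv.r5, hv.r6, hv.sq, hv.sq', mul_zero, zero_add, add_zero]
    rw [this]; exact mul_mem (mul_mem e22 hBm) e11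
  have haS : (a : A) ∈ S := by
    refine (mem_of_corner hv hvS (cv a) (cs a)).1 ?_
    have : star v * v * a = (8 : ℂ) • (star v * v * r) := by
      simp only [hr, mul_smul_comm, smul_smul, mul_add, mul_assoc, hv.r1, hv.r3, mul_zero, add_zero]
      norm_num
    rw [this]; exact S.smul_mem (mul_mem e11 hrS) _
  have hbS : (b : A) ∈ S := by
    refine (mem_of_corner hv hvS (cv b) (cs b)).2 ?_
    have : v * star v * b = (8 : ℂ) • (v * star v * r) := by
      simp only [hr, mul_smul_comm, smul_smul, mul_add, mul_assoc, hv.r2, hv.r4, mul_zero, zero_add]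
      norm_num
    rw [this]; exact S.smul_mem (mul_mem e22 hrS) _
  have hpS : (p : A) ∈ S := by
    refine (mem_of_corner hv hvS (cv p) (cs p)).1 ?_
    have : star v * v * p = star v * v * B * (star v * v) := by
      simp only [hB, mul_add, add_mul, mul_assoc, c1, c2, ← cv, ← cs, hv.r1, hv.r2, hv.r3, hv.r4,
        hv.r5, hv.r6, hv.sq, hv.sq', mul_zero, zero_add, add_zero]
    rw [this]; exact mul_mem (mul_mem e11 hBm) e11
  have hqS : (q : A) ∈ S := by
    refine (mem_of_corner hv hvS (cv q) (cs q)).2 ?_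
    have : v * star v * q = v * star v * B * (v * star v) := by
      simp only [hB, mul_add, add_mul, mul_assoc, c1, c2, ← cv, ← cs, hv.r1, hv.r2, hv.r3, hv.r4,
        hv.r5, hv.r6, hv.sq, hv.sq', mul_zero, zero_add, add_zero]
    rw [this]; exact mul_mem (mul_mem e22 hBm) e22
  have htop := h (S.comap N.subtype)
    (fun x c hx hc => hS (fun n => (x n : A)) c hx ⟨hc.bdd, hc.lim⟩) haS hbS (by
      rw [hw]; exact add_mem hpS (StarSubalgebra.smul_mem _ hqS _))
  refine top_le_iff.1 (le_of_cm hv StarSubalgebra.mem_top hvS fun x hx => ?_)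
  have : (⟨x, hx⟩ : N) ∈ S.comap N.subtype := htop ▸ StarSubalgebra.mem_top
  exact this

end Crest.Agent.H3.Gen
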