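import Crest.Agent.H4.GenI

/-! Row 95, piece D, part 1: matrix units, relative commutants and the sign lemma. -/

set_option linter.unusedSimpArgs false
set_option linter.style.haveILetI false

open scoped Topology
open Filter

namespace Crest.Agent.H3.Gen

open Crest.Agent.H4.Gen

universe u

variable {A : Type u} [CStarAlgebra A]

/-- A `II₁` subfactor, as a subalgebra. -/
structure Fac (T : TS A) (N : StarSubalgebra ℂ A) : Prop where
  cl : T.Cl N
  irr : ∀ z ∈ N, (∀ p ∈ N, z * p = p * z) → ∃ c : ℂ, z = c • (1 : A)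
  inf : ¬ FiniteDimensional ℂ N

/-- A partial isometry that generates `2 × 2` matrix units. -/
structure Hv (v : A) : Prop where
  sq : v * v = 0
  sum : star v * v + v * star v = 1

namespace Hv

variable {v : A} (h : Hv v)
include h

lemma sq' : star v * star v = 0 := by rw [← star_mul, h.sq, star_zero]

lemma vsv : v * star v * v = v := by
  have h2 := congrArg (fun x => x * v) h.sum
  simp only [add_mul, mul_assoc, h.sq, mul_zero, zero_add, one_mul] at h2
  rw [mul_assoc]; exact h2

lemma svs : star v * v * star v = star v := by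
  have := congrArg star h.vsv
  simpa [star_mul, mul_assoc] using this

lemma r1 (x : A) : v * (v * x) = 0 := by rw [← mul_assoc, h.sq, zero_mul]
lemma r2 (x : A) : star v * (star v * x) = 0 := by rw [← mul_assoc, h.sq', zero_mul]
lemma r3 (x : A) : v * (star v * (v * x)) = v * x := by
  rw [← mul_assoc, ← mul_assoc, h.vsv]
lemma r4 (x : A) : star v * (v * (star v * x)) = star v * x := by
  rw [← mul_assoc, ← mul_assoc, h.svs]
lemma r5 : v * (star v * v) = v := by rw [← mul_assoc, h.vsv]
lemma r6 : star v * (v * star v) = star v := by rw [← mul_assoc, h.svs]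

lemma uconj {a : A} (ha : a ∈ unitary A) : Hv (a * v * star a) := by
  have h1 : ∀ x, star a * (a * x) = x := fun x => by rw [← mul_assoc, ha.1, one_mul]
  constructor
  · simp only [mul_assoc, h1, h.r1, mul_zero]
  · simp only [star_mul, star_star, mul_assoc, h1]
    have : a * (star v * v + v * star v) * star a = 1 := by rw [h.sum, mul_one, ha.2]
    rw [← this]; simp only [mul_add, add_mul, mul_assoc]

end Hv

/-- The symmetry `e₁₁ - e₂₂`. -/
def sig (v : A) : A := star v * v - v * star v

/-- The symmetry `e₁₂ + e₂₁`. -/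
def rho (v : A) : A := v + star v

/-- The map onto the commutant of the matrix units. -/
def phi (v y : A) : A := star v * v * y * (star v * v) + v * y * star v

lemma star_sig (v : A) : star (sig v) = sig v := by simp [sig, star_mul]
lemma star_rho (v : A) : star (rho v) = rho v := by simp [rho, add_comm]

namespace Hv

variable {v : A} (h : Hv v)
include h

lemma sig_sq : sig v * sig v = 1 := by
  rw [← h.sum]
  simp only [sig, mul_sub, sub_mul, mul_assoc, h.r1, h.r2, h.r3, h.r4, h.r5, h.r6, h.sq, h.sq',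
    mul_zero]
  abel

lemma rho_sq : rho v * rho v = 1 := by
  rw [← h.sum]
  simp only [rho, mul_add, add_mul, h.sq, h.sq']
  abel

lemma sig_rho : sig v * rho v = star v - v := by
  simp only [sig, rho, mul_add, sub_mul, mul_assoc, h.r5, h.r6, h.sq, h.sq', mul_zero]
  abel

lemma sig_unitary : sig v ∈ unitary A := ⟨by rw [star_sig, h.sig_sq], by rw [star_sig, h.sig_sq]⟩
lemma rho_unitary : rho v ∈ unitary A := ⟨by rw [star_rho, h.rho_sq], by rw [star_rho, h.rho_sq]⟩

lemma comm_of_sig_rho {z : A} (h1 : sig v * z = z * sig v) (h2 : rho v * z = z * rho v) :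
    v * z = z * v ∧ star v * z = z * star v := by
  have h3 : (star v - v) * z = z * (star v - v) := by
    rw [← h.sig_rho, mul_assoc, h2, ← mul_assoc, h1, mul_assoc]
  have e1 : (2 : ℂ) • v = rho v - (star v - v) := by rw [rho, two_smul]; abel
  have e2 : (2 : ℂ) • star v = rho v + (star v - v) := by rw [rho, two_smul]; abel
  constructor
  · have : ((2 : ℂ) • v) * z = z * ((2 : ℂ) • v) := by rw [e1, sub_mul, mul_sub, h2, h3]
    rw [smul_mul_assoc, mul_smul_comm] at this
    exact smul_right_injective A two_ne_zero this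
  · have : ((2 : ℂ) • star v) * z = z * ((2 : ℂ) • star v) := by rw [e2, add_mul, mul_add, h2, h3]
    rw [smul_mul_assoc, mul_smul_comm] at this
    exact smul_right_injective A two_ne_zero this

lemma phi_comm (y : A) : v * phi v y = phi v y * v ∧ star v * phi v y = phi v y * star v := by
  constructor <;>
  simp only [phi, mul_add, add_mul, mul_assoc, h.r1, h.r2, h.r3, h.r4, h.r5, h.r6, h.sq, h.sq',
    mul_zero, zero_add, add_zero]

lemma decomp (x : A) : x = star v * v * phi v x + star v * phi v (x * v) + v * phi v (star v * x)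
    + v * star v * phi v (star v * x * v) := by
  have : x = (star v * v + v * star v) * x * (star v * v + v * star v) := by
    rw [h.sum, one_mul, mul_one]
  conv_lhs => rw [this]
  simp only [phi, mul_add, add_mul, mul_assoc, h.r1, h.r2, h.r3, h.r4, h.r5, h.r6, h.sq, h.sq',
    mul_zero, zero_add, add_zero]
  abel

end Hv

lemma τ_sig (T : TS A) (v : A) : T.τ (sig v) = 0 := by
  rw [sig, map_sub, T.tr, sub_self]

lemma sig_conj {a : A} (ha : a ∈ unitary A) (v : A) :
    sig (a * v * star a) = a * sig v * star a := by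
  have h1 : ∀ x, star a * (a * x) = x := fun x => by rw [← mul_assoc, ha.1, one_mul]
  simp only [sig, star_mul, star_star, mul_assoc, h1, mul_sub, sub_mul]

/-- The relative commutant of the matrix units. -/
def cm (N : StarSubalgebra ℂ A) (v : A) : StarSubalgebra ℂ A :=
  N ⊓ StarSubalgebra.centralizer ℂ {v}

lemma mem_cm {N : StarSubalgebra ℂ A} {v x : A} :
    x ∈ cm N v ↔ x ∈ N ∧ v * x = x * v ∧ star v * x = x * star v := by
  simp [cm, StarSubalgebra.mem_centralizer_iff]

lemma phi_mem {N : StarSubalgebra ℂ A} {v y : A} (h : Hv v) (hv : v ∈ N) (hy : y ∈ N) :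
    phi v y ∈ cm N v := by
  have hs := star_mem hv
  refine mem_cm.2 ⟨?_, h.phi_comm y⟩
  exact add_mem (mul_mem (mul_mem (mul_mem hs hv) hy) (mul_mem hs hv)) (mul_mem (mul_mem hv hy) hs)

/-- A subalgebra containing the matrix units and their commutant is everything. -/
lemma le_of_cm {N S : StarSubalgebra ℂ A} {v : A} (h : Hv v) (hv : v ∈ N) (hS : v ∈ S)
    (hc : cm N v ≤ S) : N ≤ S := by
  intro x hx
  have hs := star_mem hv
  have hs' := star_mem hS
  rw [h.decomp x]
  refine add_mem (add_mem (add_mem ?_ ?_) ?_) ?_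
  · exact mul_mem (mul_mem hs' hS) (hc (phi_mem h hv hx))
  · exact mul_mem hs' (hc (phi_mem h hv (mul_mem hx hv)))
  · exact mul_mem hS (hc (phi_mem h hv (mul_mem hs hx)))
  · exact mul_mem (mul_mem hS hs') (hc (phi_mem h hv (mul_mem (mul_mem hs hx) hv)))

lemma Fac.cm {T : TS A} (hW : T.W) {N : StarSubalgebra ℂ A} (hN : Fac T N) {v : A} (h : Hv v)
    (hv : v ∈ N) : Fac T (cm N v) where
  cl x a hx hc := by
    refine mem_cm.2 ⟨hN.cl x a (fun n => (mem_cm.1 (hx n)).1) hc, ?_, ?_⟩
    · exact TS.Conv.unique hW ((TS.Conv.const v).mul hc)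
        ((hc.mul (TS.Conv.const v)).congr fun n => (mem_cm.1 (hx n)).2.1.symm)
    · exact TS.Conv.unique hW ((TS.Conv.const (star v)).mul hc)
        ((hc.mul (TS.Conv.const (star v))).congr fun n => (mem_cm.1 (hx n)).2.2.symm)
  irr z hz hp := by
    obtain ⟨hzN, h1, h2⟩ := mem_cm.1 hz
    refine hN.irr z hzN fun p hpN => ?_
    have hle : N ≤ StarSubalgebra.centralizer ℂ {z} := by
      refine le_of_cm h hv ?_ ?_
      · rw [StarSubalgebra.mem_centralizer_iff]
        rintro g rfl
        refine ⟨h1.symm, ?_⟩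
        have := congrArg star h2
        simpa [star_mul] using this
      · intro y hy
        rw [StarSubalgebra.mem_centralizer_iff]
        rintro g rfl
        refine ⟨hp y hy, ?_⟩
        have := congrArg star (hp _ (star_mem hy))
        simpa [star_mul] using this.symm
    exact ((StarSubalgebra.mem_centralizer_iff ℂ).1 (hle hpN) z rfl).1
  inf hf := by
    apply hN.inf
    let M : Submodule ℂ A := Subalgebra.toSubmodule (H3.Gen.cm N v).toSubalgebra
    haveI : FiniteDimensional ℂ M := hf
    have hle : Subalgebra.toSubmodule N.toSubalgebra ≤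
        M.map (LinearMap.mulLeft ℂ (star v * v)) ⊔ M.map (LinearMap.mulLeft ℂ (star v)) ⊔
          M.map (LinearMap.mulLeft ℂ v) ⊔ M.map (LinearMap.mulLeft ℂ (v * star v)) := by
      intro x hx
      have hx' : x ∈ N := hx
      have hs := star_mem hv
      rw [h.decomp x]
      refine Submodule.add_mem_sup (Submodule.add_mem_sup (Submodule.add_mem_sup ?_ ?_) ?_) ?_
      · exact ⟨_, phi_mem h hv hx', rfl⟩
      · exact ⟨_, phi_mem h hv (mul_mem hx' hv), rfl⟩
      · exact ⟨_, phi_mem h hv (mul_mem hs hx'), rfl⟩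
      · exact ⟨_, phi_mem h hv (mul_mem (mul_mem hs hx') hv), rfl⟩
    exact Submodule.finiteDimensional_of_le hle

/-- Newton–Schulz iteration: the sign of `σ (1 + s)` lies in any closed subalgebra containing it. -/
lemma sign_mem {S : StarSubalgebra ℂ A} (hS : IsClosed (S : Set A)) {σ s : A} (hσ : σ * σ = 1)
    (hc : σ * s = s * σ) (hs : ‖s‖ ≤ 1 / 2) (hm : σ * (1 + s) ∈ S) : σ ∈ S := by
  let f : A → A := fun s => (-(1 / 2 : ℂ)) • ((3 : ℂ) • (s * s) + s * s * s)
  let t : ℕ → A := fun k => f^[k] s
  have key : ∀ k, σ * t k = t k * σ ∧ ‖t k‖ ≤ (7 / 8) ^ k * (1 / 2) ∧ σ * (1 + t k) ∈ S := by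
    intro k
    induction k with
    | zero => exact ⟨hc, by rw [pow_zero, one_mul]; exact hs, hm⟩
    | succ k ih =>
      obtain ⟨h1, h2, h3⟩ := ih
      have e : t (k + 1) = f (t k) := Function.iterate_succ_apply' f k s
      rw [e]
      generalize t k = r at h1 h2 h3
      have hcm : Commute σ r := h1
      refine ⟨?_, ?_, ?_⟩
      · exact (((hcm.mul_right hcm).smul_right _).add_right
          ((hcm.mul_right hcm).mul_right hcm)).smul_right _
      · have h7 : (7 / 8 : ℝ) ^ k ≤ 1 := pow_le_one₀ (by norm_num) (by norm_num)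
        have hr : ‖r‖ ≤ 1 / 2 := by linarith
        have h0 := norm_nonneg r
        have a1 : ‖r * r‖ ≤ ‖r‖ * ‖r‖ := norm_mul_le _ _
        have a2 : ‖r * r * r‖ ≤ ‖r‖ * ‖r‖ * ‖r‖ :=
          (norm_mul_le _ _).trans (mul_le_mul_of_nonneg_right a1 h0)
        have a3 : ‖f r‖ ≤ (1 / 2) * (3 * ‖r * r‖ + ‖r * r * r‖) := by
          simp only [f, norm_smul, norm_neg]
          have : ‖(1 / 2 : ℂ)‖ = 1 / 2 := by simp
          rw [this]
          refine mul_le_mul_of_nonneg_left ((norm_add_le _ _).trans ?_) (by norm_num)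
          rw [norm_smul]; simp
        have a4 : ‖r‖ * ‖r‖ ≤ ‖r‖ * (1 / 2) := mul_le_mul_of_nonneg_left hr h0
        have a5 : ‖r‖ * ‖r‖ * ‖r‖ ≤ ‖r‖ * (1 / 2) * (1 / 2) :=
          mul_le_mul a4 hr h0 (by positivity)
        rw [pow_succ]
        nlinarith
      · have e2 : σ * (1 + f r) = (1 / 2 : ℂ) • ((3 : ℂ) • (σ * (1 + r)) -
            σ * (1 + r) * (σ * (1 + r)) * (σ * (1 + r))) := by
          have c1 : (1 + r) * σ = σ * (1 + r) := by rw [add_mul, mul_add, h1, one_mul, mul_one]
          have c2 : σ * (1 + r) * (σ * (1 + r)) = (1 + r) * (1 + r) := by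
            rw [← c1, mul_assoc, c1, ← mul_assoc σ σ, hσ, one_mul]
          have c3 : (1 + r) * (1 + r) * (σ * (1 + r)) = σ * ((1 + r) * (1 + r) * (1 + r)) := by
            rw [mul_assoc (1 + r), ← mul_assoc (1 + r) σ, c1, ← mul_assoc, ← mul_assoc, c1]
            simp only [mul_assoc]
          rw [c2, c3, ← mul_smul_comm, ← mul_sub, ← mul_smul_comm]
          congr 1
          simp only [f, mul_add, add_mul, one_mul, mul_one, smul_add, smul_sub]
          module
        rw [e2]
        exact S.smul_mem (sub_mem (S.smul_mem h3 _) (mul_mem (mul_mem h3 h3) h3)) _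
  have ht : Tendsto t atTop (𝓝 0) := by
    refine squeeze_zero_norm (fun k => (key k).2.1) ?_
    have := (tendsto_pow_atTop_nhds_zero_of_lt_one (r := (7 / 8 : ℝ)) (by norm_num)
      (by norm_num)).mul_const (1 / 2)
    simpa using this
  have h2 : Tendsto (fun k => σ * (1 + t k)) atTop (𝓝 (σ * (1 + 0))) :=
    (ht.const_add 1).const_mul σ
  rw [add_zero, mul_one] at h2
  exact hS.mem_of_tendsto h2 (Eventually.of_forall fun k => (key k).2.2)

/-- The weighted sum of a sequence. -/
noncomputable def wsum (s : ℕ → A) : A := ∑' n, ((1 / 3 : ℂ) ^ n) • s n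

lemma wsum_bound {s : ℕ → A} (hs : ∀ n, ‖s n‖ ≤ 1) (n : ℕ) :
    ‖((1 / 3 : ℂ) ^ n) • s n‖ ≤ (1 / 3 : ℝ) ^ n := by
  rw [norm_smul, norm_pow]
  have : ‖(1 / 3 : ℂ)‖ = 1 / 3 := by simp
  rw [this]
  exact mul_le_of_le_one_right (by positivity) (hs n)

lemma wsum_summable {s : ℕ → A} (hs : ∀ n, ‖s n‖ ≤ 1) :
    Summable fun n => ((1 / 3 : ℂ) ^ n) • s n :=
  Summable.of_norm_bounded (summable_geometric_of_lt_one (by norm_num) (by norm_num))
    (wsum_bound hs)

lemma norm_wsum {s : ℕ → A} (hs : ∀ n, ‖s n‖ ≤ 1) : ‖wsum s‖ ≤ 3 / 2 := by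
  have := tsum_of_norm_bounded
    (hasSum_geometric_of_lt_one (r := (1 / 3 : ℝ)) (by norm_num) (by norm_num)) (wsum_bound hs)
  refine this.trans (by norm_num)

lemma wsum_eq {s : ℕ → A} (hs : ∀ n, ‖s n‖ ≤ 1) :
    wsum s = s 0 + (1 / 3 : ℂ) • wsum (fun n => s (n + 1)) := by
  rw [wsum, (wsum_summable hs).tsum_eq_zero_add, pow_zero, one_smul, wsum,
    ← (wsum_summable (fun n => hs (n + 1))).tsum_const_smul]
  congr 2
  funext n
  rw [smul_smul, pow_succ']

lemma star_wsum {s : ℕ → A} (hs : ∀ n, star (s n) = s n) : star (wsum s) = wsum s := by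
  rw [wsum, tsum_star]
  congr 1
  funext n
  simp [hs]

lemma mem_of_wsum {S : StarSubalgebra ℂ A} (hS : IsClosed (S : Set A)) {s : ℕ → A}
    (hs : ∀ n, ‖s n‖ ≤ 1) (h1 : ∀ n, s n * s n = 1) (hc : ∀ n m, n < m → s n * s m = s m * s n)
    (hm : wsum s ∈ S) (n : ℕ) : s n ∈ S := by
  have key : ∀ n, wsum (fun k => s (k + n)) ∈ S → s n ∈ S ∧ wsum (fun k => s (k + (n + 1))) ∈ S := by
    intro n hn
    rw [wsum_eq (fun k => hs (k + n))] at hn
    simp only [zero_add] at hn
    have e : (fun k => s (k + 1 + n)) = fun k => s (k + (n + 1)) := by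
      funext k; congr 1; omega
    rw [e] at hn
    set t := wsum (fun k => s (k + (n + 1))) with ht
    have hct : Commute (s n) t :=
      Commute.tsum_right _ fun k => Commute.smul_right (hc n _ (by omega)) _
    have hnt : ‖t‖ ≤ 3 / 2 := norm_wsum fun k => hs _
    have hmem : s n ∈ S := by
      refine sign_mem hS (s := s n * ((1 / 3 : ℂ) • t)) (h1 n) ?_ ?_ ?_
      · exact (Commute.refl _).mul_right (hct.smul_right _)
      · refine (norm_mul_le _ _).trans ?_
        rw [norm_smul]
        have : ‖(1 / 3 : ℂ)‖ = 1 / 3 := by simp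
        rw [this]
        have := hs n
        have := norm_nonneg t
        nlinarith [norm_nonneg (s n)]
      · rwa [mul_add, mul_one, ← mul_assoc, h1, one_mul]
    refine ⟨hmem, ?_⟩
    have : t = (3 : ℂ) • ((s n + (1 / 3 : ℂ) • t) - s n) := by
      rw [add_sub_cancel_left, smul_smul]; norm_num
    rw [this]
    exact S.smul_mem (sub_mem hn hmem) _
  have : ∀ n, wsum (fun k => s (k + n)) ∈ S := by
    intro n
    induction n with
    | zero => simpa using hm
    | succ n ih => exact (key n ih).2
  exact (key n (this n)).1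

end Crest.Agent.H3.Gen
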