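import Crest.Prelude.Def_Hochschild

/-! Row 121: Hochschild cochains with values in a (non unital) bimodule, dimension shifting. -/

set_option autoImplicit false
set_option maxSynthPendingDepth 3

universe u

namespace Crest.Agent.H3.Hc

open Finset Crest.OpAlg

variable {A : Type u} [NormedRing A] [NormedAlgebra ℂ A]

/-- a (not necessarily unital) Banach bimodule structure -/
structure BM (A : Type u) [NormedRing A] [NormedAlgebra ℂ A] (X : Type u) [NormedAddCommGroup X]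
    [NormedSpace ℂ X] where
  l : A →L[ℂ] X →L[ℂ] X
  r : A →L[ℂ] X →L[ℂ] X
  l_mul : ∀ a b x, l (a * b) x = l a (l b x)
  r_mul : ∀ a b x, r (a * b) x = r b (r a x)
  lr : ∀ a b x, l a (r b x) = r b (l a x)

/-- cochains -/
abbrev Cc (A : Type u) [NormedRing A] [NormedAlgebra ℂ A] (k : ℕ) (X : Type u)
    [NormedAddCommGroup X] [NormedSpace ℂ X] := ContinuousMultilinearMap ℂ (fun _ : Fin k => A) X

variable {X : Type u} [NormedAddCommGroup X] [NormedSpace ℂ X]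

/-- the differential without its last term -/
noncomputable def d0 (B : BM A X) {k : ℕ} (f : (Fin k → A) → X) (a : Fin (k + 1) → A) : X :=
  B.l (a 0) (f fun i => a i.succ) + ∑ j : Fin k, ((-1 : ℤ) ^ (j.val + 1)) • f (mergeArgs j a)

/-- the differential -/
noncomputable def hd (B : BM A X) {k : ℕ} (f : (Fin k → A) → X) (a : Fin (k + 1) → A) : X :=
  d0 B f a + ((-1 : ℤ) ^ (k + 1)) • B.r (a (Fin.last k)) (f fun i => a i.castSucc)

/-- the shifted module -/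
noncomputable def BM.sh (B : BM A X) : BM A (A →L[ℂ] X) where
  l := (ContinuousLinearMap.compL ℂ A X X).comp B.l
  r := (ContinuousLinearMap.compL ℂ A A X).flip.comp (ContinuousLinearMap.mul ℂ A) -
    ((ContinuousLinearMap.compL ℂ (A →L[ℂ] X) X (A →L[ℂ] X)) B.r.flip).comp
      (ContinuousLinearMap.apply ℂ X : A →L[ℂ] (A →L[ℂ] X) →L[ℂ] X)
  l_mul a b x := by ext y; simp [B.l_mul]
  r_mul a b x := by ext y; simp [B.r_mul, mul_assoc]
  lr a b x := by ext y; simp [B.lr]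

@[simp] lemma sh_l (B : BM A X) (a : A) (φ : A →L[ℂ] X) (y : A) : B.sh.l a φ y = B.l a (φ y) := rfl
@[simp] lemma sh_r (B : BM A X) (a : A) (φ : A →L[ℂ] X) (y : A) :
    B.sh.r a φ y = φ (a * y) - B.r y (φ a) := rfl

/-- append one argument -/
abbrev sn {k : ℕ} (a : Fin k → A) (y : A) : Fin (k + 1) → A := Fin.snoc (α := fun _ => A) a y

omit [NormedAlgebra ℂ A] in
lemma merge_castSucc {k : ℕ} (j : Fin k) (a : Fin (k + 1) → A) (y : A) :
    mergeArgs j.castSucc (sn a y) = sn (mergeArgs j a) y := by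
  funext i
  refine Fin.lastCases ?_ (fun i => ?_) i
  · have h1 := j.2
    simp only [mergeArgs, Fin.val_last, Fin.val_castSucc, Fin.snoc_last, Fin.succ_last]
    rw [if_neg (by omega), if_neg (by omega)]
  · simp only [mergeArgs, Fin.val_castSucc, Fin.snoc_castSucc, Fin.succ_castSucc]

omit [NormedAlgebra ℂ A] in
lemma merge_last {k : ℕ} (a : Fin (k + 1) → A) (y : A) :
    mergeArgs (Fin.last k) (sn a y) = sn (fun i => a i.castSucc) (a (Fin.last k) * y) := by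
  funext i
  refine Fin.lastCases ?_ (fun i => ?_) i
  · simp [mergeArgs]
  · simp [mergeArgs]

omit [NormedRing A] [NormedAlgebra ℂ A] in
lemma tail_sn {k : ℕ} (a : Fin (k + 1) → A) (y : A) :
    (fun i : Fin (k + 1) => sn a y i.succ) = sn (fun i => a i.succ) y := by
  funext i
  refine Fin.lastCases ?_ (fun i => ?_) i
  · simp
  · simp only [Fin.succ_castSucc, Fin.snoc_castSucc]

omit [NormedRing A] [NormedAlgebra ℂ A] in
lemma sn_init {k : ℕ} (a : Fin (k + 1) → A) : sn (fun i => a i.castSucc) (a (Fin.last k)) = a :=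
  Fin.snoc_init_self a

/-- the key lemma -/
lemma hd_sh (B : BM A X) {k : ℕ} {f : (Fin (k + 1) → A) → X} {F : (Fin k → A) → A →L[ℂ] X}
    (h : ∀ x y, F x y = f (sn x y)) (a : Fin (k + 1) → A) (y : A) :
    hd B.sh F a y = hd B f (sn a y) := by
  have h0 : sn a y 0 = a 0 := Fin.snoc_castSucc (α := fun _ => A) y a 0
  simp only [hd, d0, Fin.sum_univ_castSucc, merge_castSucc, merge_last, tail_sn, h0,
    Fin.snoc_last, Fin.snoc_castSucc, add_apply, _root_.sum_apply,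
    smul_apply, sh_l, sh_r, h, sn_init, Fin.val_castSucc, Fin.val_last,
    smul_sub, pow_succ (-1 : ℤ) (k + 1), mul_neg, mul_one, neg_smul]
  abel

/-- currying -/
noncomputable def cu {k : ℕ} (f : Cc A (k + 1) X) : Cc A k (A →L[ℂ] X) :=
  continuousMultilinearCurryRightEquiv' ℂ k A X f

/-- uncurrying -/
noncomputable def uc {k : ℕ} (f : Cc A k (A →L[ℂ] X)) : Cc A (k + 1) X :=
  (continuousMultilinearCurryRightEquiv' ℂ k A X).symm f

lemma norm_cu {k : ℕ} (f : Cc A (k + 1) X) : ‖cu f‖ = ‖f‖ := LinearIsometryEquiv.norm_map _ _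
lemma norm_uc {k : ℕ} (f : Cc A k (A →L[ℂ] X)) : ‖uc f‖ = ‖f‖ := LinearIsometryEquiv.norm_map _ _

lemma cu_apply {k : ℕ} (f : Cc A (k + 1) X) (x : Fin k → A) (y : A) : cu f x y = f (sn x y) := rfl

lemma cu_symm_apply {k : ℕ} (F : Cc A k (A →L[ℂ] X)) (x : Fin k → A) (y : A) :
    F x y = uc F (sn x y) := by
  rw [← cu_apply, cu, uc, LinearIsometryEquiv.apply_symm_apply]

lemma hd_cu (B : BM A X) {k : ℕ} (f : Cc A (k + 1) X) (a : Fin (k + 1) → A) (y : A) :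
    hd B.sh (cu f) a y = hd B f (sn a y) := hd_sh B (cu_apply f) a y

lemma cocycle_cu (B : BM A X) {k : ℕ} {f : Cc A (k + 1) X} (hf : ∀ a, hd B f a = 0)
    (a : Fin (k + 1) → A) : hd B.sh (cu f) a = 0 := by
  ext y; rw [hd_cu, hf]; rfl

lemma hd_add (B : BM A X) {k : ℕ} (f g : (Fin k → A) → X) (a : Fin (k + 1) → A) :
    hd B (fun x => f x + g x) a = hd B f a + hd B g a := by
  simp only [hd, d0, map_add, smul_add, sum_add_distrib]
  abel

lemma hd_sub (B : BM A X) {k : ℕ} (f g : (Fin k → A) → X) (a : Fin (k + 1) → A) :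
    hd B (fun x => f x - g x) a = hd B f a - hd B g a := by
  simp only [hd, d0, map_sub, smul_sub, sum_sub_distrib]
  abel

lemma hd_zsmul (B : BM A X) {k : ℕ} (n : ℤ) (f : (Fin k → A) → X) (a : Fin (k + 1) → A) :
    hd B (fun x => n • f x) a = n • hd B f a := by
  simp only [hd, d0, map_zsmul, smul_add, smul_sum, smul_comm n]

/-- the differential is bounded and squares to zero -/
lemma exists_D (k : ℕ) : ∀ (X : Type u) [NormedAddCommGroup X] [NormedSpace ℂ X] (B : BM A X),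
    ∃ C : ℝ, 0 ≤ C ∧ ∀ g : Cc A k X, ∃ G : Cc A (k + 1) X, ‖G‖ ≤ C * ‖g‖ ∧
      (∀ a, G a = hd B g a) ∧ ∀ a, hd B G a = 0 := by
  induction k with
  | zero =>
    intro X _ _ B
    refine ⟨‖(B.l - B.r).flip‖, norm_nonneg _, fun g => ?_⟩
    have h1 : ∀ a : Fin 1 → A, uc (ContinuousMultilinearMap.uncurry0 ℂ A
        ((B.l - B.r).flip (g 0))) a = B.l (a 0) (g 0) - B.r (a 0) (g 0) := fun a => rfl
    refine ⟨uc (ContinuousMultilinearMap.uncurry0 ℂ A ((B.l - B.r).flip (g 0))), ?_,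
      fun a => ?_, fun a => ?_⟩
    · rw [norm_uc, ContinuousMultilinearMap.uncurry0_norm,
        ← ContinuousMultilinearMap.fin0_apply_norm g (x := 0)]
      exact ContinuousLinearMap.le_opNorm _ _
    · have e : ∀ x : Fin 0 → A, g x = g 0 := fun x => congrArg g (Subsingleton.elim _ _)
      rw [h1]
      simp [hd, d0, e, sub_eq_add_neg]
    · simp only [hd, d0, h1, mergeArgs]
      simp [B.l_mul, B.r_mul, B.lr]
  | succ k ih =>
    intro X _ _ B
    obtain ⟨C, hC, h⟩ := ih (A →L[ℂ] X) B.sh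
    refine ⟨C, hC, fun g => ?_⟩
    obtain ⟨G, h1, h2, h3⟩ := h (cu g)
    refine ⟨uc G, by rwa [norm_uc, ← norm_cu g], fun a => ?_, fun a => ?_⟩
    · rw [← sn_init a, ← cu_symm_apply, h2, hd_cu]
    · rw [← sn_init a, ← hd_sh B (cu_symm_apply G), h3]; rfl

/-- an averaging operator on bounded bilinear maps -/
structure IsAv (B : BM A X) (S : Set A) (Av : (A →L[ℂ] A →L[ℂ] X) →ₗ[ℂ] X) : Prop where
  le : ∀ β, ‖Av β‖ ≤ ‖β‖
  left : ∀ a β β', (∀ x y, β' x y = B.l a (β x y)) → Av β' = B.l a (Av β)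
  right : ∀ a β β', (∀ x y, β' x y = B.r a (β x y)) → Av β' = B.r a (Av β)
  one : ∀ (ψ : A →L[ℂ] X) β, (∀ x y, β x y = ψ (x * y)) → Av β = ψ 1
  comm : ∀ s ∈ S, ∀ (γ β β' : A →L[ℂ] A →L[ℂ] X), (∀ x y, β x y = γ (s * x) y) →
    (∀ x y, β' x y = γ x (y * s)) → Av β = Av β'

/-- evaluation of a trilinear map in its last variable -/
noncomputable def ev (y : A) (β : A →L[ℂ] A →L[ℂ] A →L[ℂ] X) : A →L[ℂ] A →L[ℂ] X :=
  ((ContinuousLinearMap.compL ℂ A (A →L[ℂ] X) X) (ContinuousLinearMap.apply ℂ X y)).comp β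

@[simp] lemma ev_apply (y : A) (β : A →L[ℂ] A →L[ℂ] A →L[ℂ] X) (a b : A) :
    ev y β a b = β a b y := rfl

lemma norm_ev (y : A) (β : A →L[ℂ] A →L[ℂ] A →L[ℂ] X) : ‖ev y β‖ ≤ ‖β‖ * ‖y‖ := by
  refine ContinuousLinearMap.opNorm_le_bound₂ _ (by positivity) fun a b => ?_
  rw [ev_apply]
  calc ‖β a b y‖ ≤ ‖β a b‖ * ‖y‖ := (β a b).le_opNorm y
    _ ≤ ‖β‖ * ‖a‖ * ‖b‖ * ‖y‖ := mul_le_mul_of_nonneg_right (β.le_opNorm₂ a b) (norm_nonneg _)
    _ = _ := by ring

lemma IsAv.sh {B : BM A X} {S : Set A} {Av : (A →L[ℂ] A →L[ℂ] X) →ₗ[ℂ] X} (h : IsAv B S Av) :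
    ∃ Av', IsAv B.sh S Av' := by
  let F : (A →L[ℂ] A →L[ℂ] A →L[ℂ] X) → A →L[ℂ] X := fun β => LinearMap.mkContinuous
    { toFun := fun y => Av (ev y β)
      map_add' := fun y y' => by rw [← map_add]; congr 1; ext; simp
      map_smul' := fun c y => by rw [RingHom.id_apply, ← map_smul]; congr 1; ext; simp } ‖β‖
    fun y => (h.le _).trans (norm_ev y β)
  have hF : ∀ β y, F β y = Av (ev y β) := fun _ _ => rfl
  let Av' : (A →L[ℂ] A →L[ℂ] A →L[ℂ] X) →ₗ[ℂ] A →L[ℂ] X :=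
    { toFun := F
      map_add' := fun β β' => by
        ext y; rw [add_apply, hF, hF, hF, ← map_add]; rfl
      map_smul' := fun c β => by
        ext y; rw [RingHom.id_apply, smul_apply, hF, hF, ← map_smul]; rfl }
  have hA : ∀ β y, Av' β y = Av (ev y β) := fun _ _ => rfl
  refine ⟨Av', fun β => ContinuousLinearMap.opNorm_le_bound _ (norm_nonneg _) fun y =>
    (h.le _).trans (norm_ev y β), fun a β β' hβ => ?_,
    fun a β β' hβ => ?_, fun ψ β hβ => ?_, fun s hs γ β β' h1 h2 => ?_⟩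
  · ext y
    rw [sh_l, hA, hA]
    exact h.left a _ _ fun x z => by simp [hβ]
  · ext y
    rw [sh_r, hA, hA, hA, ← h.right y (ev a β) (ev (a * y) β - ev y β') fun x z => by simp [hβ],
      map_sub, sub_sub_cancel]
  · ext y
    rw [hA]
    exact h.one ((ContinuousLinearMap.apply ℂ X y).comp ψ) _ fun x z => by simp [hβ]
  · ext y
    rw [hA, hA]
    exact h.comm s hs (ev y γ) _ _ (fun x z => by simp [h1]) fun x z => by simp [h2]

lemma d0_map {Y : Type u} [NormedAddCommGroup Y] [NormedSpace ℂ Y] (B : BM A X) (B' : BM A Y)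
    {k : ℕ} (F : (Fin k → A) → Y) (Λ : Y →ₗ[ℂ] X)
    (h : ∀ a x, Λ (B'.l a (F x)) = B.l a (Λ (F x))) (a : Fin (k + 1) → A) :
    d0 B (fun x => Λ (F x)) a = Λ (d0 B' F a) := by
  simp only [d0, map_add, map_sum, map_zsmul, h]

lemma d0_eq {B : BM A X} {k : ℕ} {F : (Fin k → A) → X} {a : Fin (k + 1) → A}
    (h : hd B F a = 0) :
    ((-1 : ℤ) ^ (k + 1)) • d0 B F a = -B.r (a (Fin.last k)) (F fun i => a i.castSucc) := by
  rw [hd, add_eq_zero_iff_eq_neg] at h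
  rw [h, smul_neg, smul_smul, ← mul_pow]
  simp

/-- one averaging step -/
lemma step (B : BM A X) (k : ℕ) : ∃ C : ℝ, 0 ≤ C ∧ ∀ (S : Set A) Av, IsAv B S Av →
    ∀ f : Cc A (k + 1) X, (∀ a, hd B f a = 0) → ∃ g : Cc A k X, ‖g‖ ≤ C * ‖f‖ ∧
      ∀ (x : Fin k → A) (y : A), (cu f x = 0 ∨ y ∈ S) → f (sn x y) = hd B g (sn x y) := by
  refine ⟨‖B.r‖ + ‖(1 : A)‖ + ‖B.r‖ * ‖(1 : A)‖ * ‖(1 : A)‖, by positivity,
    fun S Av h f hf => ?_⟩
  let β : (A →L[ℂ] X) →L[ℂ] A →L[ℂ] A →L[ℂ] X :=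
    ContinuousLinearMap.compL ℂ A X (A →L[ℂ] X) B.r.flip
  have hβ : ∀ φ a b, β φ a b = B.r b (φ a) := fun _ _ _ => rfl
  let Λ₀ : (A →L[ℂ] X) →ₗ[ℂ] X := Av ∘ₗ β.toLinearMap -
    (ContinuousLinearMap.apply ℂ X (1 : A)).toLinearMap +
    (B.r 1).toLinearMap ∘ₗ (ContinuousLinearMap.apply ℂ X (1 : A)).toLinearMap
  have hΛ₀ : ∀ φ, Λ₀ φ = Av (β φ) - φ 1 + B.r 1 (φ 1) := fun _ => rfl
  have hb : ∀ φ, ‖Λ₀ φ‖ ≤ (‖B.r‖ + ‖(1 : A)‖ + ‖B.r‖ * ‖(1 : A)‖ * ‖(1 : A)‖) * ‖φ‖ := by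
    intro φ
    have h1 : ‖Av (β φ)‖ ≤ ‖B.r‖ * ‖φ‖ := by
      refine (h.le _).trans ?_
      have := B.r.flip.opNorm_comp_le φ
      rwa [ContinuousLinearMap.opNorm_flip] at this
    have h2 := φ.le_opNorm 1
    have h3 : ‖B.r 1 (φ 1)‖ ≤ ‖B.r‖ * ‖(1 : A)‖ * (‖φ‖ * ‖(1 : A)‖) :=
      (B.r.le_opNorm₂ _ _).trans (mul_le_mul_of_nonneg_left h2 (by positivity))
    have h4 := norm_add_le (Av (β φ) - φ 1) (B.r 1 (φ 1))
    have h5 := norm_sub_le (Av (β φ)) (φ 1)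
    rw [hΛ₀]
    nlinarith
  let Λ : (A →L[ℂ] X) →L[ℂ] X := Λ₀.mkContinuous _ hb
  refine ⟨((-1 : ℤ) ^ (k + 1)) • Λ.compContinuousMultilinearMap (cu f), ?_, fun x y hxy => ?_⟩
  · have h1 : ‖((-1 : ℤ) ^ (k + 1)) • Λ.compContinuousMultilinearMap (cu f)‖ =
        ‖Λ.compContinuousMultilinearMap (cu f)‖ := by
      rcases neg_one_pow_eq_or ℤ (k + 1) with h | h <;> simp [h]
    rw [h1]
    refine (Λ.norm_compContinuousMultilinearMap_le _).trans ?_
    rw [norm_cu]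
    exact mul_le_mul_of_nonneg_right (LinearMap.mkContinuous_norm_le _ (by positivity) hb)
      (norm_nonneg _)
  have hl : ∀ a φ, Λ₀ (B.sh.l a φ) = B.l a (Λ₀ φ) := by
    intro a φ
    rw [hΛ₀, hΛ₀, h.left a (β φ) _ fun x y => by rw [hβ, hβ, sh_l, B.lr]]
    simp only [map_add, map_sub, sh_l, B.lr]
  have e : (((-1 : ℤ) ^ (k + 1)) • Λ.compContinuousMultilinearMap (cu f) : (Fin k → A) → X) =
      fun x => ((-1 : ℤ) ^ (k + 1)) • Λ₀ (cu f x) := rfl
  have e' : hd B (((-1 : ℤ) ^ (k + 1)) • Λ.compContinuousMultilinearMap (cu f) : Cc A k X)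
      (sn x y) = hd B (fun x => ((-1 : ℤ) ^ (k + 1)) • Λ₀ (cu f x)) (sn x y) := rfl
  rw [e', hd_zsmul, hd, d0_map B B.sh _ Λ₀ (fun a x => hl a _), smul_add, ← map_zsmul,
    d0_eq (cocycle_cu B hf _), smul_smul, ← mul_pow]
  simp only [Fin.snoc_last, Fin.snoc_castSucc, ← cu_apply]
  generalize cu f x = φ at hxy ⊢
  have h1 : Av (β (B.sh.r y φ)) = Av (β (φ.comp (ContinuousLinearMap.mul ℂ A y))) - B.r 1 (φ y) := by
    have := h.one (B.r.flip (φ y)) (β (φ.comp (ContinuousLinearMap.mul ℂ A y)) - β (B.sh.r y φ))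
      fun a b => by simp [hβ, B.r_mul]
    rw [map_sub] at this
    rw [← sub_sub_cancel (Av (β (φ.comp (ContinuousLinearMap.mul ℂ A y)))) (Av _), this]
    rfl
  have h2 : Av (β (φ.comp (ContinuousLinearMap.mul ℂ A y))) = B.r y (Av (β φ)) := by
    rcases hxy with rfl | hy
    · simp
    · rw [← h.right y (β φ) ((β φ).flip.comp ((ContinuousLinearMap.mul ℂ A).flip y)).flip
        fun a b => by simp [hβ, B.r_mul]]
      exact h.comm y hy (β φ) _ _ (fun a b => by simp [hβ]) fun a b => by simp [hβ]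
  rw [map_neg, hΛ₀, hΛ₀, h1, h2]
  simp only [map_add, map_sub, sh_r, mul_one, ← B.r_mul, one_mul, neg_mul, neg_neg, one_pow,
    one_smul]
  abel

/-- the averaged cocycle vanishes on `S` -/
lemma exists_van (k : ℕ) : ∀ (X : Type u) [NormedAddCommGroup X] [NormedSpace ℂ X] (B : BM A X),
    ∃ C : ℝ, 0 ≤ C ∧ ∀ (S : Set A) Av, IsAv B S Av →
    ∀ f : Cc A (k + 1) X, (∀ a, hd B f a = 0) → ∃ g : Cc A k X, ‖g‖ ≤ C * ‖f‖ ∧
      ∀ a, (∃ i, a i ∈ S) → f a = hd B g a := by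
  induction k with
  | zero =>
    intro X _ _ B
    obtain ⟨C, hC, h⟩ := step B 0
    refine ⟨C, hC, fun S Av hA f hf => ?_⟩
    obtain ⟨g, h1, h2⟩ := h S Av hA f hf
    refine ⟨g, h1, fun a ⟨i, hi⟩ => ?_⟩
    rw [← sn_init a]
    exact h2 _ _ (Or.inr (by rwa [Fin.eq_zero i] at hi))
  | succ k ih =>
    intro X _ _ B
    obtain ⟨C, hC, h⟩ := step B (k + 1)
    obtain ⟨C', hC', h'⟩ := ih (A →L[ℂ] X) B.sh
    obtain ⟨D, hD, hDD⟩ := exists_D (k + 1) X B
    refine ⟨C' + C * (1 + D * C'), by positivity, fun S Av hA f hf => ?_⟩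
    obtain ⟨Av', hA'⟩ := hA.sh
    obtain ⟨g₁, h1, h2⟩ := h' S Av' hA' (cu f) (cocycle_cu B hf)
    rw [norm_cu] at h1
    obtain ⟨G, h3, h4, h5⟩ := hDD (uc g₁)
    rw [norm_uc] at h3
    obtain ⟨g₂, h6, h7⟩ := h S Av hA (f - G) fun a => by
      have := hd_sub B f G a
      rw [hf, h5, sub_zero] at this
      exact this
    refine ⟨uc g₁ + g₂, ?_, fun a ⟨i, hi⟩ => ?_⟩
    · have h8 := norm_add_le (uc g₁) g₂
      rw [norm_uc] at h8
      have h9 := norm_sub_le f G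
      have h10 := mul_le_mul_of_nonneg_left h1 hD
      have h11 : C * ‖f - G‖ ≤ C * (‖f‖ + D * (C' * ‖f‖)) :=
        mul_le_mul_of_nonneg_left (by linarith) hC
      nlinarith
    · have h8 : hd B (uc g₁ + g₂ : Cc A (k + 1) X) a = hd B (uc g₁) a + hd B g₂ a :=
        hd_add B (uc g₁) g₂ a
      rw [h8, ← h4, ← sub_eq_iff_eq_add', ← sub_apply, ← sn_init a]
      refine h7 _ _ ?_
      revert hi
      refine Fin.lastCases (fun hi => Or.inr hi) (fun i hi => Or.inl ?_) i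
      ext y
      rw [cu_apply, sub_apply, h4, ← hd_sh B (cu_symm_apply g₁),
        ← h2 _ ⟨i, hi⟩, cu_apply, sub_self]
      rfl

lemma right_mod (B : BM A X) {k : ℕ} {S : Set A} {f : Cc A (k + 1) X} (hf : ∀ a, hd B f a = 0)
    (hS : ∀ a, (∃ i, a i ∈ S) → f a = 0) {s : A} (hs : s ∈ S) (x : Fin k → A) (y : A) :
    f (sn x (y * s)) = B.r s (f (sn x y)) := by
  have h0 : ∀ x, cu f x s = 0 := fun x => hS _ ⟨Fin.last k, by simpa using hs⟩
  have := hf (sn (sn x y) s)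
  rw [← hd_cu] at this
  simp only [hd, d0, add_apply, _root_.sum_apply,
    smul_apply, sh_l, sh_r, h0, map_zero, smul_zero, sum_const_zero, zero_add,
    Fin.snoc_last, Fin.snoc_castSucc] at this
  rcases neg_one_pow_eq_or ℤ (k + 1) with h | h
  · rw [h, one_smul, sub_eq_zero] at this; exact this
  · rw [h, neg_smul, one_smul, neg_eq_zero, sub_eq_zero] at this; exact this

lemma left_of (B : BM A X) {k : ℕ} {S : Set A} {f : Cc A (k + 1) X}
    (hS : ∀ a, (∃ i, a i ∈ S) → f a = 0) {s : A} (hs : s ∈ S) {x x' : Fin k → A}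
    (h : B.sh.r s (cu f x) = B.sh.l s (cu f x')) (y : A) :
    f (sn x (s * y)) = B.l s (f (sn x' y)) := by
  have h0 : f (sn x s) = 0 := hS _ ⟨Fin.last k, by simpa using hs⟩
  have := congrArg (fun φ => φ y) h
  simpa only [sh_l, sh_r, h0, map_zero, sub_zero, cu_apply] using this

lemma van_cu {k : ℕ} {S : Set A} {f : Cc A (k + 1) X} (hS : ∀ a, (∃ i, a i ∈ S) → f a = 0)
    (a : Fin k → A) (ha : ∃ i, a i ∈ S) : cu f a = 0 := by
  obtain ⟨i, hi⟩ := ha
  ext y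
  exact hS _ ⟨i.castSucc, by simpa using hi⟩

lemma claim (k : ℕ) : ∀ (X : Type u) [NormedAddCommGroup X] [NormedSpace ℂ X] (B : BM A X)
    (S : Set A) (f : Cc A k X), (∀ a, hd B f a = 0) → (∀ a, (∃ i, a i ∈ S) → f a = 0) →
    ∀ s ∈ S, ∀ x x' : Fin k → A, (∀ i, x i * s = s * x' i) → B.r s (f x) = B.l s (f x') := by
  induction k with
  | zero =>
    intro X _ _ B S f hf _ s _ x x' _
    have := hf fun _ => s
    have e : ∀ z : Fin 0 → A, f z = f x := fun z => congrArg f (Subsingleton.elim _ _)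
    simp only [hd, d0, e, univ_eq_empty, sum_empty, add_zero, zero_add, pow_one, neg_smul,
      one_smul, add_neg_eq_zero] at this
    rw [e x', this]
  | succ k ih =>
    intro X _ _ B S f hf hS s hs x x' hx
    have h1 := ih _ B.sh S (cu f) (cocycle_cu B hf) (van_cu hS) s hs (fun i => x i.castSucc)
      (fun i => x' i.castSucc) fun i => hx _
    rw [← sn_init x, ← right_mod B hf hS hs, hx, left_of B hS hs h1, sn_init]

theorem shift (B : BM A X) (k : ℕ) : ∃ C : ℝ, 0 ≤ C ∧ ∀ (S : Set A) Av, IsAv B S Av →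
    ∀ f : Cc A (k + 1) X, (∀ a, hd B f a = 0) →
    ∃ (g : Cc A k X) (f' : Cc A (k + 1) X), ‖g‖ ≤ C * ‖f‖ ∧ ‖f'‖ ≤ C * ‖f‖ ∧
      (∀ a, f' a = f a - hd B g a) ∧ (∀ a, hd B f' a = 0) ∧
      (∀ s ∈ S, ∀ (x : Fin k → A) (y : A), f' (sn x (y * s)) = B.r s (f' (sn x y))) ∧
      ∀ s ∈ S, ∀ x x' : Fin k → A, (∀ i, x i * s = s * x' i) →
        ∀ y, f' (sn x (s * y)) = B.l s (f' (sn x' y)) := by
  obtain ⟨C, hC, h⟩ := exists_van k X B
  obtain ⟨D, hD, hDD⟩ := exists_D k X B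
  refine ⟨C + (1 + D * C), by positivity, fun S Av hA f hf => ?_⟩
  obtain ⟨g, h1, h2⟩ := h S Av hA f hf
  obtain ⟨G, h3, h4, h5⟩ := hDD g
  have hc : ∀ a, hd B (f - G : Cc A (k + 1) X) a = 0 := fun a => by
    have := hd_sub B f G a
    rw [hf, h5, sub_zero] at this
    exact this
  have hv : ∀ a, (∃ i, a i ∈ S) → (f - G) a = 0 := fun a ha => by
    rw [sub_apply, h4, h2 a ha, sub_self]
  have h0 := norm_nonneg f
  have h6 := mul_le_mul_of_nonneg_left h1 hD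
  have h7 := mul_nonneg (mul_nonneg hD hC) h0
  refine ⟨g, f - G, by nlinarith, ?_, fun a => by rw [sub_apply, h4], hc,
    fun s hs x y => right_mod B hc hv hs x y, fun s hs x x' hx y => left_of B hv hs
      (claim k _ B.sh S _ (cocycle_cu B hc) (van_cu hv) s hs x x' hx) y⟩
  have h8 := norm_sub_le f G
  nlinarith [mul_nonneg hC h0]

end Crest.Agent.H3.Hc
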