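import Crest.Agent.Lead.HcI
import Crest.Agent.H3.HcA

/-! Row 121: the statements `ShiftStmt` and `FinalStmt`. -/

set_option autoImplicit false
set_option maxSynthPendingDepth 3

universe u

namespace Crest.Agent.H3.Hc

open Finset Filter Topology Crest.OpAlg Crest.Agent.Lead.Hc
open scoped TensorProduct

variable {A : Type u} [NormedRing A] [NormedAlgebra ℂ A]

/-- the algebra as a bimodule -/
noncomputable def B0 (A : Type u) [NormedRing A] [NormedAlgebra ℂ A] : BM A A where
  l := ContinuousLinearMap.mul ℂ A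
  r := (ContinuousLinearMap.mul ℂ A).flip
  l_mul a b x := by simp [mul_assoc]
  r_mul a b x := by simp [mul_assoc]
  lr a b x := by simp [mul_assoc]

lemma hd_B0 {k : ℕ} (f : (Fin k → A) → A) (a : Fin (k + 1) → A) :
    hd (B0 A) f a = hochschildDiff f a := rfl

lemma norm_lift_le (β : A →L[ℂ] A →L[ℂ] A) {c : ℝ} {t : A ⊗[ℂ] A} (h : Small c t) :
    ‖TensorProduct.lift β.toLinearMap₁₂ t‖ ≤ ‖β‖ * c := by
  obtain ⟨ι, _, a, b, rfl, hs⟩ := h
  rw [map_sum]
  refine (norm_sum_le _ _).trans ?_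
  calc ∑ i, ‖TensorProduct.lift β.toLinearMap₁₂ (a i ⊗ₜ[ℂ] b i)‖
      ≤ ∑ i, ‖β‖ * (‖a i‖ * ‖b i‖) := sum_le_sum fun i _ => by
        rw [TensorProduct.lift.tmul, ← mul_assoc]; exact β.le_opNorm₂ _ _
    _ ≤ ‖β‖ * c := by rw [← mul_sum]; exact mul_le_mul_of_nonneg_left hs (norm_nonneg _)

lemma lift_eq {β β' : A →L[ℂ] A →L[ℂ] A} (T : A →ₗ[ℂ] A) (U : A ⊗[ℂ] A →ₗ[ℂ] A ⊗[ℂ] A)
    (h : ∀ x y, β' x y = T (TensorProduct.lift β.toLinearMap₁₂ (U (x ⊗ₜ[ℂ] y)))) (t : A ⊗[ℂ] A) :
    TensorProduct.lift β'.toLinearMap₁₂ t = T (TensorProduct.lift β.toLinearMap₁₂ (U t)) := by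
  induction t using TensorProduct.induction_on with
  | zero => simp
  | tmul x y => rw [TensorProduct.lift.tmul]; exact h x y
  | add x y hx hy => simp only [map_add, hx, hy]

lemma exists_av {L : (ℕ → A) → A} (hL : IsLim L) {S : Set A} {m : ℕ → A ⊗[ℂ] A} (hm : Diag S m) :
    ∃ Av, IsAv (B0 A) S Av := by
  have hb : ∀ (β : A →L[ℂ] A →L[ℂ] A) n, ‖TensorProduct.lift β.toLinearMap₁₂ (m n)‖ ≤ ‖β‖ :=
    fun β n => by simpa using norm_lift_le β (hm.small n)
  have hB : ∀ β : A →L[ℂ] A →L[ℂ] A, Bdd fun n => TensorProduct.lift β.toLinearMap₁₂ (m n) :=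
    fun β => ⟨_, hb β⟩
  let Av : (A →L[ℂ] A →L[ℂ] A) →ₗ[ℂ] A :=
    { toFun := fun β => L fun n => TensorProduct.lift β.toLinearMap₁₂ (m n)
      map_add' := fun β β' => by
        rw [← hL.add _ _ (hB β) (hB β')]
        congr 1; funext n
        induction m n using TensorProduct.induction_on with
        | zero => simp
        | tmul x y => simp
        | add x y hx hy => simp only [map_add] at hx hy ⊢; rw [hx, hy]; abel
      map_smul' := fun c β => by
        rw [RingHom.id_apply, ← hL.smul c _ (hB β)]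
        congr 1; funext n
        induction m n using TensorProduct.induction_on with
        | zero => simp
        | tmul x y => simp
        | add x y hx hy => rw [map_add, map_add, hx, hy, smul_add] }
  have hA : ∀ β, Av β = L fun n => TensorProduct.lift β.toLinearMap₁₂ (m n) := fun _ => rfl
  refine ⟨Av, fun β => hL.le _ _ (hB β) (Eventually.of_forall (hb β)), fun a β β' h => ?_,
    fun a β β' h => ?_, fun ψ β h => ?_, fun s hs γ β β' h h' => ?_⟩
  · rw [hA, hA]
    refine Eq.trans ?_ (hL.left a _ (hB β))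
    congr 1; funext n
    exact lift_eq (LinearMap.mulLeft ℂ a) LinearMap.id (fun x y => h x y) _
  · rw [hA, hA]
    refine Eq.trans ?_ (hL.right a _ (hB β))
    congr 1; funext n
    exact lift_eq (LinearMap.mulRight ℂ a) LinearMap.id (fun x y => h x y) _
  · rw [hA, ← hL.const (ψ 1)]
    congr 1; funext n
    rw [← hm.one n]
    induction m n using TensorProduct.induction_on with
    | zero => simp
    | tmul x y => simp [h]
    | add x y hx hy => simp only [map_add, hx, hy]
  · obtain ⟨ε, hε, hsm⟩ := hm.comm s hs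
    rw [← sub_eq_zero, ← map_sub, ← norm_le_zero_iff]
    refine le_of_forall_pos_le_add fun δ hδ => ?_
    rw [zero_add, hA]
    refine hL.le _ _ (hB _) ?_
    have h1 := hε.const_mul ‖γ‖
    rw [mul_zero] at h1
    filter_upwards [h1.eventually (gt_mem_nhds hδ)] with n hn
    refine le_trans (le_of_eq ?_) ((norm_lift_le γ (hsm n)).trans hn.le)
    congr 1
    exact lift_eq (β := γ) (β' := β - β') LinearMap.id
      (TensorProduct.map (LinearMap.mulLeft ℂ s) LinearMap.id -
        TensorProduct.map LinearMap.id (LinearMap.mulRight ℂ s))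
      (fun x y => by simp [h, h']) _

theorem shiftStmt : ShiftStmt.{u} := by
  intro A _ _ k
  obtain ⟨C, hC, h⟩ := shift (B0 A) k
  refine ⟨C, hC, fun L hL S m hm f hf => ?_⟩
  obtain ⟨Av, hA⟩ := exists_av hL hm
  exact h S Av hA f hf

theorem finalStmt : FinalStmt.{u} := by
  intro A _ _ k f hf z Λ C hC h1 h2 h3 h4
  let g₀ : MultilinearMap ℂ (fun _ : Fin k => A) A :=
    Λ.compMultilinearMap (cu f).toMultilinearMap
  have hg₀ : ∀ x, g₀ x = Λ (slice f x) := fun _ => rfl
  let g₁ : Co A k := g₀.mkContinuous C h4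
  refine ⟨((-1 : ℤ) ^ (k + 1)) • g₁, ?_, fun a => ?_⟩
  · have h1 : ‖((-1 : ℤ) ^ (k + 1)) • g₁‖ = ‖g₁‖ := by
      rcases neg_one_pow_eq_or ℤ (k + 1) with h | h <;> simp [h]
    rw [h1]
    exact MultilinearMap.mkContinuous_norm_le _ hC h4
  · have e' : hochschildDiff (((-1 : ℤ) ^ (k + 1)) • g₁ : Co A k) a =
        hd (B0 A) (fun x => ((-1 : ℤ) ^ (k + 1)) • Λ (cu f x)) a := rfl
    rw [e', hd_zsmul, hd, d0_map (B0 A) (B0 A).sh (cu f) Λ (fun a x => h2 x a), smul_add, ← map_zsmul,
      d0_eq (cocycle_cu (B0 A) hf _), smul_smul, ← mul_pow]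
    have e : (B0 A).sh.r (a (Fin.last k)) (cu f fun i => a i.castSucc) =
        (slice f fun i => a i.castSucc).comp (Lm (a (Fin.last k))) - Lm (f a) := by
      ext y
      rw [sh_r, cu_apply f _ (a (Fin.last k)), sn_init]
      rfl
    rw [e, map_neg, map_sub, h3, h1]
    have e2 : ((-1 : ℤ) * -1) ^ (k + 1) = 1 := by norm_num
    rw [e2, one_smul, neg_sub]
    exact sub_add_cancel (f a * z) (Λ (slice f fun i => a i.castSucc) * a (Fin.last k))

end Crest.Agent.H3.Hc
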