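import Crest.Agent.Lead.HcI

/-! Row 121: the finite type I core. -/

set_option autoImplicit false

universe u

namespace Crest.Agent.H3.Hc

open Finset Crest.Agent.H5.KS Crest.Agent.Lead.Hc Crest.Agent.H9.VN

section
variable {H : Type*} [NormedAddCommGroup H] [InnerProductSpace ℂ H] [CompleteSpace H]

lemma part_mul_left {M : VonNeumannAlgebra H} {r : H →L[ℂ] H} {ι : Type} [Fintype ι]
    {ρ : ι → H →L[ℂ] H} (h : Part M r ρ) (w : ι) : r * ρ w = ρ w := by
  classical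
  rw [← h.sum, sum_mul, sum_eq_single w (fun b _ hb => h.orth b w hb) (by simp)]
  exact (h.proj w).isIdempotentElem

lemma part_mul_right {M : VonNeumannAlgebra H} {r : H →L[ℂ] H} {ι : Type} [Fintype ι]
    {ρ : ι → H →L[ℂ] H} (h : Part M r ρ) (w : ι) : ρ w * r = ρ w := by
  classical
  rw [← h.sum, mul_sum, sum_eq_single w (fun b _ hb => h.orth w b hb.symm) (by simp)]
  exact (h.proj w).isIdempotentElem

/-- elements captured by a refinement of any partition -/
def Ref (M : VonNeumannAlgebra H) (r s : H →L[ℂ] H) : Prop :=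
  ∀ (ι : Type) [Fintype ι] (ρ : ι → H →L[ℂ] H), Part M r ρ →
    ∃ (κ : Type) (_ : Fintype κ) (σ : κ → H →L[ℂ] H), Part M r σ ∧
      Submodule.span ℂ (Set.range ρ) ≤ Submodule.span ℂ (Set.range σ) ∧
      s ∈ Submodule.span ℂ (Set.range σ)

lemma Ref.zero {M : VonNeumannAlgebra H} {r : H →L[ℂ] H} : Ref M r 0 :=
  fun ι _ ρ h => ⟨ι, inferInstance, ρ, h, le_rfl, zero_mem _⟩

lemma Ref.add {M : VonNeumannAlgebra H} {r s t : H →L[ℂ] H} (hs : Ref M r s) (ht : Ref M r t) :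
    Ref M r (s + t) := by
  intro ι _ ρ h
  obtain ⟨κ, _, σ, h1, h2, h3⟩ := hs ι ρ h
  obtain ⟨κ', _, σ', h1', h2', h3'⟩ := ht κ σ h1
  exact ⟨κ', inferInstance, σ', h1', h2.trans h2', add_mem (h2' h3) h3'⟩

lemma Ref.smul {M : VonNeumannAlgebra H} {r s : H →L[ℂ] H} (c : ℂ) (hs : Ref M r s) :
    Ref M r (c • s) := by
  intro ι _ ρ h
  obtain ⟨κ, _, σ, h1, h2, h3⟩ := hs ι ρ h
  exact ⟨κ, inferInstance, σ, h1, h2, Submodule.smul_mem _ c h3⟩

lemma Ref.sum {M : VonNeumannAlgebra H} {r : H →L[ℂ] H} {α : Type*} (S : Finset α)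
    (f : α → H →L[ℂ] H) (h : ∀ i ∈ S, Ref M r (f i)) : Ref M r (∑ i ∈ S, f i) :=
  Finset.sum_induction f (Ref M r) (fun _ _ => Ref.add) Ref.zero h

lemma Ref.proj {M : VonNeumannAlgebra H} {r π : H →L[ℂ] H} (hr : H9.VN.Ab M r) (hπM : π ∈ M)
    (hπ : IsStarProjection π) (h1 : r * π = π) : Ref M r π := by
  classical
  intro ι _ ρ h
  have h2 : π * r = π := by
    have := star_right_eq hr.2.1 h1
    rwa [hπ.isSelfAdjoint.star_eq] at this
  have hc : ∀ w, Commute (ρ w) π := fun w =>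
    hr.2.2 _ (h.mem w) _ hπM (part_mul_left h w) (part_mul_right h w) h1 h2
  let q : Bool → H →L[ℂ] H := fun b => if b then π else 1 - π
  have hq : ∀ b, IsStarProjection (q b) := by
    intro b; cases b
    · exact hπ.one_sub
    · exact hπ
  have hqc : ∀ w b, Commute (ρ w) (q b) := by
    intro w b; cases b
    · exact (Commute.one_right _).sub_right (hc w)
    · exact hc w
  have hqM : ∀ b, q b ∈ M := by
    intro b; cases b
    · exact sub_mem (one_mem _) hπM
    · exact hπM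
  have hqo : ∀ b b', b ≠ b' → q b * q b' = 0 := by
    intro b b' hb
    cases b <;> cases b'
    · exact absurd rfl hb
    · exact hπ.one_sub_mul_self
    · exact hπ.mul_one_sub_self
    · exact absurd rfl hb
  have hsum : ∀ w, ∑ b, ρ w * q b = ρ w := by
    intro w
    rw [← mul_sum, Fintype.sum_bool]
    simp [q]
  refine ⟨ι × Bool, inferInstance, fun x => ρ x.1 * q x.2, ⟨fun x => mul_mem (h.mem _) (hqM _),
    fun x => (h.proj _).mul (hq _) (hqc _ _), ?_, ?_⟩, ?_, ?_⟩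
  · rintro ⟨w, b⟩ ⟨w', b'⟩ hne
    have e : ρ w * q b * (ρ w' * q b') = ρ w * ρ w' * (q b * q b') := by
      rw [mul_assoc, ← mul_assoc (q b), ← (hqc w' b).eq, mul_assoc, mul_assoc]
    simp only
    rw [e]
    by_cases hw : w = w'
    · have hb : b ≠ b' := fun hb => hne (by rw [hw, hb])
      rw [hqo b b' hb, mul_zero]
    · rw [h.orth w w' hw, zero_mul]
  · rw [Fintype.sum_prod_type, ← h.sum]
    exact sum_congr rfl fun w _ => hsum w
  · rw [Submodule.span_le]
    rintro _ ⟨w, rfl⟩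
    rw [← hsum w]
    exact Submodule.sum_mem _ fun b _ => Submodule.subset_span ⟨(w, b), rfl⟩
  · have : π = ∑ w, ρ w * q true := by
      rw [← sum_mul, h.sum]; exact h1.symm
    rw [this]
    exact Submodule.sum_mem _ fun w _ => Submodule.subset_span ⟨(w, true), rfl⟩

lemma approx_pos {M : VonNeumannAlgebra H} {r a : H →L[ℂ] H} (hr : H9.VN.Ab M r) (haM : a ∈ M)
    (ha : 0 ≤ a) (h1 : r * a = a) {δ : ℝ} (hδ : 0 < δ) : ∃ s, Ref M r s ∧ ‖a - s‖ ≤ δ := by
  obtain ⟨N, hN⟩ := exists_nat_ge (‖a‖ / δ)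
  have hN' : ‖a‖ ≤ N * δ := by rwa [div_le_iff₀ hδ] at hN
  refine ⟨δ • ∑ i ∈ Finset.range N, sp a ((i + 1 : ℕ) * δ), ?_, riemann_norm ha δ hδ N hN'⟩
  rw [← Complex.coe_smul]
  refine Ref.smul _ (Ref.sum _ _ fun i _ => Ref.proj hr (sp_mem M haM _) (sp_proj _ _) ?_)
  exact mul_sp_eq_self ha.isSelfAdjoint h1 (by positivity)

lemma approx_sa {M : VonNeumannAlgebra H} {r a : H →L[ℂ] H} (hr : H9.VN.Ab M r) (haM : a ∈ M)
    (ha : IsSelfAdjoint a) (h1 : r * a = a) {δ : ℝ} (hδ : 0 < δ) :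
    ∃ s, Ref M r s ∧ ‖a - s‖ ≤ δ := by
  have hrs := hr.2.1.isSelfAdjoint
  have hrr : r * r = r := hr.2.1.isIdempotentElem
  have h2 : a * r = a := by
    have := star_right_eq hr.2.1 h1
    rwa [ha.star_eq] at this
  have hp : 0 ≤ a + algebraMap ℝ _ ‖a‖ := by
    have := ha.neg_algebraMap_norm_le_self
    rwa [neg_le_iff_add_nonneg] at this
  have hp2 : 0 ≤ star r * (a + algebraMap ℝ _ ‖a‖) * r := star_left_conjugate_nonneg hp r
  have e : star r * (a + algebraMap ℝ _ ‖a‖) * r = a + ‖a‖ • r := by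
    rw [hrs.star_eq, Algebra.algebraMap_eq_smul_one, mul_add, add_mul, h1, h2, mul_smul_comm,
      mul_one, smul_mul_assoc, hrr]
  rw [e] at hp2
  obtain ⟨s, hs, hs2⟩ := approx_pos hr (add_mem haM (rsmul_mem M _ hr.1)) hp2
    (by rw [mul_add, h1, mul_smul_comm, hrr]) hδ
  refine ⟨s + (-(‖a‖ : ℂ)) • r, hs.add (Ref.smul _ (Ref.proj hr hr.1 hr.2.1 hrr)), ?_⟩
  have : a - (s + (-(‖a‖ : ℂ)) • r) = a + ‖a‖ • r - s := by
    rw [neg_smul, Complex.coe_smul]; abel
  rwa [this]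

lemma approx_gen {M : VonNeumannAlgebra H} {r a : H →L[ℂ] H} (hr : H9.VN.Ab M r) (haM : a ∈ M)
    (h1 : r * a = a) (h2 : a * r = a) {δ : ℝ} (hδ : 0 < δ) :
    ∃ s, Ref M r s ∧ ‖a - s‖ ≤ δ := by
  have h3 : r * star a = star a := star_left_eq hr.2.1 h2
  obtain ⟨s, hs, hs2⟩ := approx_sa hr (add_mem haM (star_mem haM)) (IsSelfAdjoint.add_star_self a)
    (by rw [mul_add, h1, h3]) hδ
  have hb : IsSelfAdjoint (Complex.I • (star a - a)) := by
    rw [IsSelfAdjoint, star_smul, star_sub, star_star]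
    simp only [Complex.star_def, Complex.conj_I, neg_smul]
    rw [← smul_neg, neg_sub]
  obtain ⟨t, ht, ht2⟩ := approx_sa hr (smul_mem' M _ (sub_mem (star_mem haM) haM)) hb
    (by rw [mul_smul_comm, mul_sub, h1, h3]) hδ
  refine ⟨(1 / 2 : ℂ) • s + ((1 / 2 : ℂ) * Complex.I) • t, (hs.smul _).add (ht.smul _), ?_⟩
  have e : a - ((1 / 2 : ℂ) • s + ((1 / 2 : ℂ) * Complex.I) • t) =
      (1 / 2 : ℂ) • (a + star a - s) +
        ((1 / 2 : ℂ) * Complex.I) • (Complex.I • (star a - a) - t) := by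
    rw [smul_sub ((1 / 2 : ℂ) * Complex.I), smul_smul, mul_assoc, Complex.I_mul_I]
    module
  rw [e]
  refine (norm_add_le _ _).trans ?_
  rw [norm_smul, norm_smul, norm_mul, Complex.norm_I]
  have : ‖(1 / 2 : ℂ)‖ = 1 / 2 := by simp
  rw [this]
  linarith

lemma exists_part {M : VonNeumannAlgebra H} {r : H →L[ℂ] H} (hr : H9.VN.Ab M r)
    (S : Finset (H →L[ℂ] H)) (hS : ∀ a ∈ S, a ∈ M ∧ r * a = a ∧ a * r = a) {δ : ℝ} (hδ : 0 < δ) :
    ∃ (κ : Type) (_ : Fintype κ) (σ : κ → H →L[ℂ] H), Part M r σ ∧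
      ∀ a ∈ S, ∃ s ∈ Submodule.span ℂ (Set.range σ), ‖a - s‖ ≤ δ := by
  classical
  induction S using Finset.induction_on with
  | empty =>
    exact ⟨Unit, inferInstance, fun _ => r, ⟨fun _ => hr.1, fun _ => hr.2.1,
      fun i j h => absurd (Subsingleton.elim i j) h, by simp⟩, by simp⟩
  | insert a S _ ih =>
    obtain ⟨κ, _, σ, h1, h2⟩ := ih fun b hb => hS b (mem_insert_of_mem hb)
    obtain ⟨ha, ha1, ha2⟩ := hS a (mem_insert_self _ _)
    obtain ⟨s, hs, hs2⟩ := approx_gen hr ha ha1 ha2 hδ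
    obtain ⟨κ', _, σ', h1', h2', h3'⟩ := hs κ σ h1
    refine ⟨κ', inferInstance, σ', h1', fun b hb => ?_⟩
    rcases mem_insert.1 hb with rfl | hb
    · exact ⟨s, h3', hs2⟩
    · obtain ⟨t, ht, ht2⟩ := h2 b hb
      exact ⟨t, h2' ht, ht2⟩

lemma pin_mod {M : VonNeumannAlgebra H} {r : H →L[ℂ] H} {ι : Type} [Fintype ι]
    {ρ : ι → H →L[ℂ] H} (h : Part M r ρ) (T : (H →L[ℂ] H) →ₗ[ℂ] (H →L[ℂ] H)) (x : H →L[ℂ] H)
    {s : H →L[ℂ] H} (hs : s ∈ Submodule.span ℂ (Set.range ρ)) :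
    pin ρ T (x * s) = pin ρ T x * s := by
  classical
  induction hs using Submodule.span_induction with
  | mem s hs =>
    obtain ⟨u, rfl⟩ := hs
    have hu : ρ u * ρ u = ρ u := (h.proj u).isIdempotentElem
    rw [pin_apply, pin_apply, sum_mul, sum_eq_single u, sum_eq_single u]
    · rw [mul_assoc x, mul_assoc _ (ρ u), hu]
    · intro b _ hb
      rw [mul_assoc, h.orth b u hb, mul_zero]
    · simp
    · intro b _ hb
      rw [mul_assoc, h.orth u b hb.symm, mul_zero, map_zero, zero_mul]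
    · simp
  | zero => simp
  | add s t _ _ hs ht => rw [mul_add, map_add, hs, ht, mul_add]
  | smul c s _ hs => rw [mul_smul_comm, map_smul, hs, mul_smul_comm]

lemma pin_norm {M : VonNeumannAlgebra H} {r : H →L[ℂ] H} {ι : Type} [Fintype ι]
    {ρ : ι → H →L[ℂ] H} (h : Part M r ρ) {T : (H →L[ℂ] H) →ₗ[ℂ] (H →L[ℂ] H)} (hT : RB M T)
    {x : H →L[ℂ] H} (hx : x ∈ M) : ‖pin ρ T x‖ ≤ ‖x‖ := by
  have hrow : Row (fun w => x * ρ w) ‖x‖ := by
    intro ξ
    have h1 := bessel_proj ρ h.proj h.orth Finset.univ (star x ξ)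
    have h2 : ‖star x ξ‖ ≤ ‖x‖ * ‖ξ‖ := by
      have := (star x).le_opNorm ξ
      rwa [norm_star] at this
    calc ∑ w, ‖star (x * ρ w) ξ‖ ^ 2 = ∑ w, ‖ρ w (star x ξ)‖ ^ 2 := by
          refine sum_congr rfl fun w _ => ?_
          rw [star_mul, (h.proj w).isSelfAdjoint.star_eq]; rfl
      _ ≤ ‖star x ξ‖ ^ 2 := h1
      _ ≤ (‖x‖ * ‖ξ‖) ^ 2 := by gcongr
      _ = _ := by ring
  have hrow2 := hT.row ι _ _ (fun w => mul_mem hx (h.mem w)) hrow
  rw [← norm_star]
  refine ContinuousLinearMap.opNorm_le_bound _ (norm_nonneg _) fun ξ => ?_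
  have e : star (pin ρ T x) ξ = ∑ w, ρ w (star (T (x * ρ w)) ξ) := by
    rw [pin_apply, star_sum, _root_.sum_apply]
    refine sum_congr rfl fun w _ => ?_
    rw [star_mul, (h.proj w).isSelfAdjoint.star_eq]; rfl
  have h3 : ‖star (pin ρ T x) ξ‖ ^ 2 ≤ (‖x‖ * ‖ξ‖) ^ 2 := by
    rw [e, norm_sq_sum_orth]
    · calc ∑ w, ‖ρ w (star (T (x * ρ w)) ξ)‖ ^ 2 ≤ ∑ w, ‖star (T (x * ρ w)) ξ‖ ^ 2 := by
            refine sum_le_sum fun w _ => ?_
            have h4 := (ρ w).le_opNorm (star (T (x * ρ w)) ξ)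
            have h5 : ‖ρ w‖ ≤ 1 := (h.proj w).norm_le
            have h6 : ‖ρ w (star (T (x * ρ w)) ξ)‖ ≤ ‖star (T (x * ρ w)) ξ‖ :=
              h4.trans (mul_le_of_le_one_left (norm_nonneg _) h5)
            gcongr
        _ ≤ ‖x‖ ^ 2 * ‖ξ‖ ^ 2 := hrow2 ξ
        _ = _ := by ring
    · intro i j hij
      have h7 : ∀ y, ρ i (ρ j y) = 0 := fun y =>
        congrArg (fun S : H →L[ℂ] H => S y) (h.orth i j hij)
      have h8 := H9.VN.inner_star_left (ρ i) (star (T (x * ρ i)) ξ) (ρ j (star (T (x * ρ j)) ξ))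
      rw [(h.proj i).isSelfAdjoint.star_eq, h7, inner_zero_right] at h8
      exact h8
  exact (pow_le_pow_iff_left₀ (norm_nonneg _) (by positivity) two_ne_zero).1 h3

end

theorem coreIStmt : CoreIStmt.{u} := by
  classical
  intro H _ _ _ M z r k ζ ι _ v hz hr hv hvr hζ F hF ε hε
  set C : ℝ := ∑ b, ∑ a, 2 * ‖v b‖ * ‖v a‖ with hC
  have hC0 : 0 ≤ C := by positivity
  set δ : ℝ := √ε / (C + 1) with hδ
  have hδ0 : 0 < δ := by positivity
  have hrv : ∀ i, r * star (v i) = star (v i) := fun i => star_left_eq hr.2.1 (hvr i)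
  obtain ⟨κ, _, σ, hσ, happ⟩ := exists_part hr
    ((F ×ˢ (univ : Finset ι) ×ˢ (univ : Finset ι)).image fun x => star (v x.2.1) * x.1 * v x.2.2)
    (by
      intro a ha
      obtain ⟨⟨p, b, a⟩, hx, rfl⟩ := mem_image.1 ha
      have hp : p ∈ F := (mem_product.1 hx).1
      refine ⟨mul_mem (mul_mem (star_mem (hv.mem _)) (hF p hp).1) (hv.mem _), ?_, ?_⟩
      · simp only
        rw [← mul_assoc, ← mul_assoc, hrv]
      · simp only
        rw [mul_assoc, hvr]) hδ0
  have hσs : ∀ w, star (σ w) = σ w := fun w => (hσ.proj w).isSelfAdjoint.star_eq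
  have hσσ : ∀ w, σ w * σ w = σ w := fun w => (hσ.proj w).isIdempotentElem
  refine ⟨ι × κ, inferInstance, fun x => v x.1 * σ x.2, ⟨fun x => mul_mem (hv.mem _) (hσ.mem _),
    fun x => ?_, ?_⟩, fun T hT p hp => ?_⟩
  · rw [mul_assoc, ← hz.comm _ (hσ.mem _), ← mul_assoc, hv.cut]
  · rw [Fintype.sum_prod_type, ← hv.sum]
    refine sum_congr rfl fun a _ => ?_
    simp only [star_mul, hσs]
    calc ∑ w, v a * σ w * (σ w * star (v a)) = v a * (∑ w, σ w) * star (v a) := by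
          rw [mul_sum, sum_mul]
          refine sum_congr rfl fun w _ => ?_
          rw [mul_assoc, ← mul_assoc (σ w), hσσ, mul_assoc]
      _ = _ := by rw [hσ.sum, hvr]
  · obtain ⟨hpM, hpp, hzp⟩ := hF p hp
    have hpz : p * z = p := by rw [← hz.comm p hpM, hzp]
    have e1 : ∀ q : H →L[ℂ] H, ∑ x : ι × κ, T (q * (v x.1 * σ x.2)) * star (v x.1 * σ x.2) =
        ∑ a, pin σ T (q * v a) * star (v a) := by
      intro q
      rw [Fintype.sum_prod_type]
      refine sum_congr rfl fun a _ => ?_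
      rw [pin_apply, sum_mul]
      refine sum_congr rfl fun w _ => ?_
      simp only [star_mul, hσs, mul_assoc]
    have e2 := e1 1
    simp only [one_mul] at e2
    choose s hs hs2 using fun b a : ι => happ (star (v b) * p * v a)
      (mem_image.2 ⟨(p, b, a), by simp [hp], rfl⟩)
    have e3 : ∀ a, p * v a = ∑ b, v b * (star (v b) * p * v a) := by
      intro a
      conv_lhs => rw [← hzp, ← hv.sum, sum_mul, sum_mul]
      exact sum_congr rfl fun b _ => by simp only [mul_assoc]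
    have e4 : ∀ b, star (v b) * p = ∑ a, (star (v b) * p * v a) * star (v a) := by
      intro b
      conv_lhs => rw [← hpz, ← hv.sum, mul_sum, mul_sum]
      exact sum_congr rfl fun b _ => by simp only [mul_assoc]
    set D := ∑ x : ι × κ, T (p * (v x.1 * σ x.2)) * star (v x.1 * σ x.2) -
      (∑ x : ι × κ, T (v x.1 * σ x.2) * star (v x.1 * σ x.2)) * p with hD
    have e5 : D = ∑ b, ∑ a, (pin σ T (v b * (star (v b) * p * v a - s b a)) -
        pin σ T (v b) * (star (v b) * p * v a - s b a)) * star (v a) := by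
      rw [hD, e1, e2, sum_mul]
      have f1 : ∑ a, pin σ T (p * v a) * star (v a) =
          ∑ b, ∑ a, pin σ T (v b * (star (v b) * p * v a)) * star (v a) := by
        rw [sum_comm]
        refine sum_congr rfl fun a _ => ?_
        rw [← sum_mul, ← map_sum, ← e3]
      have f2 : ∑ b, pin σ T (v b) * star (v b) * p =
          ∑ b, ∑ a, pin σ T (v b) * (star (v b) * p * v a) * star (v a) := by
        refine sum_congr rfl fun b _ => ?_
        rw [mul_assoc, e4 b, mul_sum]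
        refine sum_congr rfl fun a _ => ?_
        rw [← e4 b, mul_assoc (pin σ T (v b))]
      rw [f1, f2, ← sum_sub_distrib]
      refine sum_congr rfl fun b _ => ?_
      rw [← sum_sub_distrib]
      refine sum_congr rfl fun a _ => ?_
      rw [mul_sub (v b), map_sub, pin_mod hσ T _ (hs b a), mul_sub, ← sub_mul]
      congr 1
      abel
    have hsM : ∀ b a, s b a ∈ M := by
      intro b a
      have : Submodule.span ℂ (Set.range σ) ≤ M.toStarSubalgebra.toSubalgebra.toSubmodule := by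
        rw [Submodule.span_le]
        rintro _ ⟨w, rfl⟩
        exact hσ.mem w
      exact this (hs b a)
    have hDn : ‖D‖ ≤ C * δ := by
      rw [e5, hC, sum_mul]
      refine (norm_sum_le _ _).trans (sum_le_sum fun b _ => ?_)
      rw [sum_mul]
      refine (norm_sum_le _ _).trans (sum_le_sum fun a _ => ?_)
      set d := star (v b) * p * v a - s b a
      have hd : d ∈ M :=
        sub_mem (mul_mem (mul_mem (star_mem (hv.mem _)) hpM) (hv.mem _)) (hsM b a)
      have hd2 : ‖d‖ ≤ δ := hs2 b a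
      have g1 : ‖pin σ T (v b * d)‖ ≤ ‖v b‖ * δ :=
        (pin_norm hσ hT (mul_mem (hv.mem b) hd)).trans ((norm_mul_le _ _).trans (by gcongr))
      have g2 : ‖pin σ T (v b) * d‖ ≤ ‖v b‖ * δ :=
        (norm_mul_le _ _).trans (by gcongr; exact pin_norm hσ hT (hv.mem b))
      calc _ ≤ ‖pin σ T (v b * d) - pin σ T (v b) * d‖ * ‖star (v a)‖ := norm_mul_le _ _
        _ ≤ (‖v b‖ * δ + ‖v b‖ * δ) * ‖v a‖ := by
          rw [norm_star]
          gcongr
          exact (norm_sub_le _ _).trans (add_le_add g1 g2)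
        _ = _ := by ring
    have hDn2 : ‖D‖ ≤ √ε := by
      refine hDn.trans ?_
      rw [hδ, mul_div_assoc', div_le_iff₀ (by positivity)]
      nlinarith [Real.sqrt_nonneg ε]
    calc ∑ a, ‖D (ζ a)‖ ^ 2 ≤ ∑ a, (√ε * ‖ζ a‖) ^ 2 := by
          refine sum_le_sum fun a _ => ?_
          have := (D.le_opNorm (ζ a)).trans (mul_le_mul_of_nonneg_right hDn2 (norm_nonneg _))
          gcongr
      _ = ε * ∑ a, ‖ζ a‖ ^ 2 := by
          rw [mul_sum]
          refine sum_congr rfl fun a _ => ?_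
          rw [mul_pow, Real.sq_sqrt hε.le]
      _ ≤ ε := mul_le_of_le_one_right hε.le hζ

end Crest.Agent.H3.Hc
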