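import Mathlib
import Crest.Agent.H3.Bary

/-! Lipschitz stability of semi-discrete potentials with respect to the atoms. -/

set_option autoImplicit false
set_option linter.unusedSectionVars false

namespace Crest.Agent.H3.OT

open MeasureTheory Filter Topology Set
open scoped ENNReal NNReal RealInnerProductSpace

variable {E : Type*} [NormedAddCommGroup E] [InnerProductSpace ℝ E] [FiniteDimensional ℝ E]
  [MeasurableSpace E] [BorelSpace E]

variable {ρ : Measure E} {K : Set E} {R : ℝ}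

variable {ι : Type*} [Fintype ι] [Nonempty ι]

lemma Src.val_step (hs : Src ρ K R) (y v : ι → E) {m : ι → ℝ} {t t' : ℝ} {a a' : ι → ℝ}
    (ht : Function.Injective fun i => y i + t • v i)
    (ht' : Function.Injective fun i => y i + t' • v i)
    (ha : ∀ i, mass ρ (fun i => y i + t • v i) a i = m i)
    (ha' : ∀ i, mass ρ (fun i => y i + t' • v i) a' i = m i) :
    val ρ (fun i => y i + t • v i) a + (t' - t) * ∑ i, mom ρ (fun i => y i + t • v i) a i (v i) ≤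
      val ρ (fun i => y i + t' • v i) a' := by
  have h := hs.weak_duality ht ht' a a'
  simp only [ha, ha', sub_self, zero_mul, Finset.sum_const_zero, add_zero] at h
  refine le_trans (le_of_eq ?_) h
  rw [val, Finset.mul_sum, ← Finset.sum_add_distrib]
  refine Finset.sum_congr rfl fun i _ => ?_
  rw [← hs.mom_add_smul]; congr 1
  rw [sub_smul]; abel

lemma Src.potential_bound (hs : Src ρ K R) (y v : ι → E)
    (hinj : ∀ t ∈ Icc (0 : ℝ) 1, Function.Injective fun i => y i + t • v i) {m : ι → ℝ}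
    (hm0 : ∀ i, 0 < m i) (hm1 : ∑ i, m i = 1) {ψ₀ ψ₁ : ι → ℝ}
    (h₀ : ∀ i, mass ρ (fun i => y i + (0 : ℝ) • v i) ψ₀ i = m i) {s : ℝ} (hs0 : 0 < s)
    (h₁ : ∀ i, mass ρ (fun i => y i + (1 : ℝ) • v i) ψ₁ i = m i * (1 + s * (ψ₁ i - ψ₀ i)))
    (hsf : ∀ i, |s * (ψ₁ i - ψ₀ i)| ≤ 1 / 2) :
    ∑ i, m i * (ψ₁ i - ψ₀ i) ^ 2 ≤ 147840 * R ^ 2 * ∑ i, m i * ‖v i‖ ^ 2 := by
  classical
  set m' : ι → ℝ := fun i => m i * (1 + s * (ψ₁ i - ψ₀ i)) with hm'
  have c1 : ∀ i, m i ≤ 2 * m' i := fun i => by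
    have := (abs_le.1 (hsf i)).1
    simp only [hm']; nlinarith [hm0 i]
  have c2 : ∀ i, m' i ≤ 2 * m i := fun i => by
    have := (abs_le.1 (hsf i)).2
    simp only [hm']; nlinarith [hm0 i]
  have hm0' : ∀ i, 0 < m' i := fun i => by linarith [c1 i, hm0 i]
  have hm1' : ∑ i, m' i = 1 := by
    rw [← hs.sum_mass (hinj 1 (by simp)) ψ₁]
    exact Finset.sum_congr rfl fun i _ => (h₁ i).symm
  let Y : ℝ → ι → E := fun t i => y i + t • v i
  have ea : ∀ t, ∃ a : ι → ℝ, (t = 0 → a = ψ₀) ∧ (t ∈ Icc (0 : ℝ) 1 → ∀ i, mass ρ (Y t) a i = m i) := by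
    intro t
    by_cases h0 : t = 0
    · subst h0; exact ⟨ψ₀, fun _ => rfl, fun _ => h₀⟩
    by_cases ht : t ∈ Icc (0 : ℝ) 1
    · obtain ⟨a, ha⟩ := hs.exists_balanced' (hinj t ht) hm0 hm1
      exact ⟨a, fun h => absurd h h0, fun _ => ha⟩
    · exact ⟨ψ₀, fun _ => rfl, fun h => absurd h ht⟩
  have eb : ∀ t, ∃ b : ι → ℝ, (t = 1 → b = ψ₁) ∧ (t ∈ Icc (0 : ℝ) 1 → ∀ i, mass ρ (Y t) b i = m' i) := by
    intro t
    by_cases h0 : t = 1
    · subst h0; exact ⟨ψ₁, fun _ => rfl, fun _ => h₁⟩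
    by_cases ht : t ∈ Icc (0 : ℝ) 1
    · obtain ⟨a, ha⟩ := hs.exists_balanced' (hinj t ht) hm0' hm1'
      exact ⟨a, fun h => absurd h h0, fun _ => ha⟩
    · exact ⟨ψ₁, fun _ => rfl, fun h => absurd h ht⟩
  choose a ha0 ha using ea
  choose b hb1 hb using eb
  set F := ∑ i, m i * (ψ₁ i - ψ₀ i) ^ 2 with hF
  set W := ∑ i, m i * ‖v i‖ ^ 2 with hW
  set G : ℝ := s * (F / 2 + 73920 * R ^ 2 * W) with hG
  let β₀ : ℝ → ℝ := fun t => ∑ i, mom ρ (Y t) (a t) i (v i)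
  let β₁ : ℝ → ℝ := fun t => ∑ i, mom ρ (Y t) (b t) i (v i)
  let D : ℝ → ℝ := fun t => val ρ (Y t) (b t) - val ρ (Y t) (a t)
  have hβ : ∀ t ∈ Icc (0 : ℝ) 1, β₁ t - β₀ t ≤ G := fun t ht => by
    have h := hs.bary (hinj t ht) (a t) (b t) (ha t ht) (hb t ht) hm0 c1 c2 v (32 * s)
    have e1 : ∑ i, (m' i - m i) ^ 2 / m i = s ^ 2 * F := by
      rw [hF, Finset.mul_sum]
      refine Finset.sum_congr rfl fun i _ => ?_
      have := (hm0 i).ne'
      simp only [hm']; field_simp; ring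
    rw [e1, Finset.sum_sub_distrib, ← hW] at h
    refine le_of_mul_le_mul_left (a := 32 * s) (le_trans h (le_of_eq ?_)) (by positivity)
    rw [hG]; ring
  have hD : ∀ n : ℕ, 0 < n → D 1 - D 0 ≤ G + (β₁ 1 - β₁ 0) / n := by
    intro n hn
    have hn' : (0 : ℝ) < n := by exact_mod_cast hn
    have key : ∀ k : ℕ, k ≤ n → D (k / n) - β₁ (k / n) / n ≤ D 0 - β₁ 0 / n + k / n * G := by
      intro k
      induction k with
      | zero => simp
      | succ k ih =>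
        intro hk
        have hk' : ((k + 1 : ℕ) : ℝ) ≤ n := by exact_mod_cast hk
        have t1 : ((k : ℝ) / n) ∈ Icc (0 : ℝ) 1 :=
          ⟨by positivity, (div_le_one hn').2 (by push_cast at hk'; linarith)⟩
        have t2 : (((k + 1 : ℕ) : ℝ) / n) ∈ Icc (0 : ℝ) 1 := ⟨by positivity, (div_le_one hn').2 hk'⟩
        have s1 := hs.val_step y v (hinj _ t1) (hinj _ t2) (ha _ t1) (ha _ t2)
        have s2 := hs.val_step y v (hinj _ t2) (hinj _ t1) (hb _ t2) (hb _ t1)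
        have s3 := hβ _ t1
        have s4 := ih (Nat.le_of_succ_le hk)
        have e1 : ((k + 1 : ℕ) : ℝ) / n - k / n = 1 / n := by push_cast; ring
        have e2 : (k : ℝ) / n - ((k + 1 : ℕ) : ℝ) / n = -(1 / n) := by push_cast; ring
        rw [e1] at s1
        rw [e2] at s2
        change val ρ (Y _) _ + 1 / n * β₀ _ ≤ val ρ (Y _) _ at s1
        change val ρ (Y _) _ + -(1 / n) * β₁ _ ≤ val ρ (Y _) _ at s2
        have s5 := mul_le_mul_of_nonneg_left s3 (show (0 : ℝ) ≤ 1 / n by positivity)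
        have e3 : ((k + 1 : ℕ) : ℝ) / n * G = k / n * G + 1 / n * G := by push_cast; ring
        simp only [D] at s4 ⊢
        rw [e3]
        simp only [div_eq_mul_inv, one_mul] at *
        linarith
    have := key n le_rfl
    rw [div_self hn'.ne'] at this
    rw [sub_div]; linarith
  have hD' : D 1 - D 0 ≤ G := by
    have ht : Tendsto (fun n : ℕ => G + (β₁ 1 - β₁ 0) / n) atTop (𝓝 (G + 0)) :=
      tendsto_const_nhds.add (tendsto_const_div_atTop_nhds_zero_nat _)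
    rw [add_zero] at ht
    exact ge_of_tendsto ht ((eventually_gt_atTop 0).mono hD)
  have l1 := hs.weak_duality (hinj 1 (by simp)) (hinj 1 (by simp)) (a 1) (b 1)
  have l0 := hs.weak_duality (hinj 0 (by simp)) (hinj 0 (by simp)) (b 0) (a 0)
  change val ρ (Y 1) (a 1) + ∑ i, (mass ρ (Y 1) (b 1) i - mass ρ (Y 1) (a 1) i) * b 1 i ≤
    val ρ (Y 1) (b 1) at l1
  change val ρ (Y 0) (b 0) + ∑ i, (mass ρ (Y 0) (a 0) i - mass ρ (Y 0) (b 0) i) * a 0 i ≤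
    val ρ (Y 0) (a 0) at l0
  simp only [ha 1 (by simp), hb 1 (by simp), ha 0 (by simp), hb 0 (by simp)] at l1 l0
  rw [hb1 1 rfl] at l1
  rw [ha0 0 rfl] at l0
  have e : ∑ i, (m' i - m i) * ψ₁ i + ∑ i, (m i - m' i) * ψ₀ i = s * F := by
    rw [hF, Finset.mul_sum, ← Finset.sum_add_distrib]
    refine Finset.sum_congr rfl fun i _ => ?_
    simp only [hm']; ring
  have e' : s * F ≤ G := by
    simp only [D, hb1 1 rfl, ha0 0 rfl] at hD'
    linarith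
  rw [hG] at e'
  have := le_of_mul_le_mul_left e' hs0
  linarith

lemma Src.pos_part_bound (hs : Src ρ K R) {y z : ι → E} (hy : Function.Injective y)
    (ψ₀ ψ₁ : ι → ℝ) :
    ∫ x, (max (Phi y ψ₀ x - Phi z ψ₁ x) 0) ^ 2 ∂ρ ≤
      ∑ i, mass ρ y ψ₀ i * (2 * (R ^ 2 * ‖z i - y i‖ ^ 2) + 2 * (ψ₁ i - ψ₀ i) ^ 2) := by
  have := hs.prob
  have hc : Continuous fun x => (max (Phi y ψ₀ x - Phi z ψ₁ x) 0) ^ 2 :=
    (((continuous_Phi y ψ₀).sub (continuous_Phi z ψ₁)).max continuous_const).pow 2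
  rw [hs.integral_eq_sum hy ψ₀ (hs.integrable hc)]
  refine Finset.sum_le_sum fun i _ => ?_
  have : ∫ x in cell y ψ₀ i, (max (Phi y ψ₀ x - Phi z ψ₁ x) 0) ^ 2 ∂ρ ≤
      ∫ _ in cell y ψ₀ i, (2 * (R ^ 2 * ‖z i - y i‖ ^ 2) + 2 * (ψ₁ i - ψ₀ i) ^ 2) ∂ρ := by
    refine setIntegral_mono_on_ae (hs.integrable hc).integrableOn (integrable_const _)
      (measurableSet_cell _ _ _) ?_
    filter_upwards [hs.aeK] with x hx hxi
    have h1 := le_Phi z ψ₁ x i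
    have h2 : |⟪x, z i - y i⟫| ≤ R * ‖z i - y i‖ := (abs_real_inner_le_norm _ _).trans
      (mul_le_mul_of_nonneg_right (hs.bdd x hx) (norm_nonneg _))
    rw [inner_sub_right] at h2
    rw [Phi_eq_of_mem hxi]
    have h3 : max (⟪x, y i⟫ - ψ₀ i - Phi z ψ₁ x) 0 ≤ R * ‖z i - y i‖ + |ψ₁ i - ψ₀ i| := by
      refine max_le ?_ (add_nonneg (mul_nonneg hs.pos.le (norm_nonneg _)) (abs_nonneg _))
      linarith [(abs_le.1 h2).1, le_abs_self (ψ₁ i - ψ₀ i)]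
    calc _ ≤ (R * ‖z i - y i‖ + |ψ₁ i - ψ₀ i|) ^ 2 := by gcongr
      _ ≤ 2 * (R * ‖z i - y i‖) ^ 2 + 2 * |ψ₁ i - ψ₀ i| ^ 2 := by
        nlinarith [sq_nonneg (R * ‖z i - y i‖ - |ψ₁ i - ψ₀ i|)]
      _ = _ := by rw [sq_abs]; ring
  simpa [mass] using this

/-- The main semi-discrete estimate. -/
theorem Src.exists_close_potentials (hs : Src ρ K R) (y z : ι → E)
    (hinj : ∀ t ∈ Icc (0 : ℝ) 1, Function.Injective fun i => y i + t • (z i - y i)) {m : ι → ℝ}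
    (hm0 : ∀ i, 0 < m i) (hm1 : ∑ i, m i = 1) {η : ℝ} (hη : 0 < η) :
    ∃ ψ₀ ψ₁ : ι → ℝ, (∀ i, mass ρ y ψ₀ i = m i) ∧ (∀ i, |mass ρ z ψ₁ i - m i| ≤ η * m i) ∧
      ∫ x, (Phi y ψ₀ x - Phi z ψ₁ x) ^ 2 ∂ρ ≤ 887046 * R ^ 2 * ∑ i, m i * ‖z i - y i‖ ^ 2 := by
  have ey : (fun i => y i + (0 : ℝ) • (z i - y i)) = y := by ext i; simp
  have ez : (fun i => y i + (1 : ℝ) • (z i - y i)) = z := by ext i; simp
  have hy : Function.Injective y := ey ▸ hinj 0 (by simp)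
  have hz : Function.Injective z := ez ▸ hinj 1 (by simp)
  obtain ⟨ψ₀, h₀⟩ := hs.exists_balanced' hy hm0 hm1
  obtain ⟨A, hA, h⟩ := hs.exists_balanced hz hm0 hm1 ψ₀
  set s : ℝ := min η (1 / 2) / (A + 1) with hs'
  have hmin : 0 < min η (1 / 2) := lt_min hη (by norm_num)
  have hs0 : 0 < s := by positivity
  obtain ⟨ψ₁, h1, h₁⟩ := h s hs0.le
  have hsf : ∀ i, |s * (ψ₁ i - ψ₀ i)| ≤ min η (1 / 2) := fun i => by
    rw [abs_mul, abs_of_pos hs0]
    calc s * |ψ₁ i - ψ₀ i| ≤ s * (A + 1) := by gcongr; linarith [h1 i]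
      _ = _ := by rw [hs']; field_simp
  have hb := hs.potential_bound y (fun i => z i - y i) hinj hm0 hm1 (ψ₀ := ψ₀) (ψ₁ := ψ₁)
    (by rw [ey]; exact h₀) hs0 (by rw [ez]; exact h₁) fun i => (hsf i).trans (min_le_right _ _)
  refine ⟨ψ₀, ψ₁, h₀, fun i => ?_, ?_⟩
  · rw [h₁, show m i * (1 + s * (ψ₁ i - ψ₀ i)) - m i = s * (ψ₁ i - ψ₀ i) * m i by ring, abs_mul,
      abs_of_pos (hm0 i)]
    exact mul_le_mul_of_nonneg_right ((hsf i).trans (min_le_left _ _)) (hm0 i).le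
  have p1 := hs.pos_part_bound (z := z) hy ψ₀ ψ₁
  have p2 := hs.pos_part_bound (z := y) hz ψ₁ ψ₀
  have hc1 : Continuous fun x => (max (Phi y ψ₀ x - Phi z ψ₁ x) 0) ^ 2 :=
    (((continuous_Phi y ψ₀).sub (continuous_Phi z ψ₁)).max continuous_const).pow 2
  have hc2 : Continuous fun x => (max (Phi z ψ₁ x - Phi y ψ₀ x) 0) ^ 2 :=
    (((continuous_Phi z ψ₁).sub (continuous_Phi y ψ₀)).max continuous_const).pow 2
  have e : ∫ x, (Phi y ψ₀ x - Phi z ψ₁ x) ^ 2 ∂ρ =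
      ∫ x, (max (Phi y ψ₀ x - Phi z ψ₁ x) 0) ^ 2 ∂ρ +
        ∫ x, (max (Phi z ψ₁ x - Phi y ψ₀ x) 0) ^ 2 ∂ρ := by
    rw [← integral_add (hs.integrable hc1) (hs.integrable hc2)]
    congr 1; ext x
    rcases le_total (Phi y ψ₀ x) (Phi z ψ₁ x) with h | h
    · rw [max_eq_right (by linarith), max_eq_left (by linarith)]; ring
    · rw [max_eq_left (by linarith), max_eq_right (by linarith)]; ring
  set S := ∑ i, m i * (2 * (R ^ 2 * ‖z i - y i‖ ^ 2) + 2 * (ψ₁ i - ψ₀ i) ^ 2) with hS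
  have p1' : ∫ x, (max (Phi y ψ₀ x - Phi z ψ₁ x) 0) ^ 2 ∂ρ ≤ S := by simpa only [h₀] using p1
  have p2' : ∫ x, (max (Phi z ψ₁ x - Phi y ψ₀ x) 0) ^ 2 ∂ρ ≤ 2 * S := by
    refine p2.trans ?_
    rw [hS, Finset.mul_sum]
    refine Finset.sum_le_sum fun i _ => ?_
    rw [norm_sub_rev (y i), show (ψ₀ i - ψ₁ i) ^ 2 = (ψ₁ i - ψ₀ i) ^ 2 by ring, ← mul_assoc 2 (m i)]
    refine mul_le_mul_of_nonneg_right ?_ (by positivity)
    have := (abs_le.1 ((hsf i).trans (min_le_right _ _))).2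
    rw [h₁]; nlinarith [hm0 i]
  have eS : S = 2 * R ^ 2 * ∑ i, m i * ‖z i - y i‖ ^ 2 + 2 * ∑ i, m i * (ψ₁ i - ψ₀ i) ^ 2 := by
    rw [hS, Finset.mul_sum, Finset.mul_sum, ← Finset.sum_add_distrib]
    exact Finset.sum_congr rfl fun i _ => by ring
  rw [e]; linarith

end Crest.Agent.H3.OT
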