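import Mathlib
import Crest.Prelude.Def_QuadraticTransport
import Crest.Agent.H3.SemiDisc

/-! Subgradient maps are optimal, and are the only optimal maps. -/

set_option autoImplicit false
set_option linter.unusedSectionVars false

namespace Crest.Agent.H3.OT

open MeasureTheory Filter Topology Set Crest.AnalysisR.OT
open scoped ENNReal NNReal RealInnerProductSpace

variable {E : Type*} [NormedAddCommGroup E] [InnerProductSpace ℝ E] [FiniteDimensional ℝ E]
  [MeasurableSpace E] [BorelSpace E]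

variable {ρ : Measure E} {K : Set E} {R : ℝ}

lemma fderiv_eq_of_subgrad {φ : E → ℝ} {x p : E} (hx : K ∈ 𝓝 x) (hd : DifferentiableAt ℝ φ x)
    (h : ∀ x' ∈ K, φ x + ⟪x' - x, p⟫ ≤ φ x') : fderiv ℝ φ x = innerSL ℝ p := by
  have h1 : IsLocalMin (fun x' => φ x' - innerSL ℝ p x') x := by
    filter_upwards [hx] with x' hx'
    have := h x' hx'
    rw [inner_sub_left] at this
    simp only [innerSL_apply_apply, real_inner_comm x', real_inner_comm x]
    linarith
  have h2 := h1.hasFDerivAt_eq_zero (hd.hasFDerivAt.sub (innerSL ℝ p).hasFDerivAt)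
  exact sub_eq_zero.1 h2

lemma subgrad_unique {φ : E → ℝ} {x p q : E} (hx : K ∈ 𝓝 x) (hd : DifferentiableAt ℝ φ x)
    (hp : ∀ x' ∈ K, φ x + ⟪x' - x, p⟫ ≤ φ x') (hq : ∀ x' ∈ K, φ x + ⟪x' - x, q⟫ ≤ φ x') :
    p = q := by
  have := (fderiv_eq_of_subgrad hx hd hp).symm.trans (fderiv_eq_of_subgrad hx hd hq)
  exact innerSL_inj.1 this

lemma lintegral_enorm_sq {X : Type*} [MeasurableSpace X] {μ : Measure X} {f : X → E}
    (hf : Integrable (fun x => ‖f x‖ ^ 2) μ) :
    ∫⁻ x, ‖f x‖ₑ ^ 2 ∂μ = ENNReal.ofReal (∫ x, ‖f x‖ ^ 2 ∂μ) := by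
  rw [ofReal_integral_eq_lintegral_ofReal hf (ae_of_all _ fun x => sq_nonneg _)]
  congr 1; ext x
  rw [ENNReal.ofReal_pow (norm_nonneg _), ofReal_norm]

theorem Src.optimal_and_unique (hs : Src ρ K R) (hint : ∀ᵐ x ∂ρ, K ∈ 𝓝 x) {φ : E → ℝ} {L : ℝ≥0}
    (hφ : LipschitzWith L φ) {T₀ : E → E} (hT₀ : Measurable T₀) {M : ℝ} (hM : ∀ᵐ x ∂ρ, ‖T₀ x‖ ≤ M)
    (hsub : ∀ᵐ x ∂ρ, ∀ x' ∈ K, φ x + ⟪x' - x, T₀ x⟫ ≤ φ x') :
    IsOptimalMap ρ (ρ.map T₀) T₀ ∧ ∀ T, IsOptimalMap ρ (ρ.map T₀) T → T =ᵐ[ρ] T₀ := by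
  have := hs.prob
  obtain ⟨x₁, hx₁⟩ := hs.aeK.exists
  have : Nonempty K := ⟨⟨x₁, hx₁⟩⟩
  let ψ : E → ℝ := fun y => ⨆ x : K, (⟪(x : E), y⟫ - φ x)
  have hbdd : ∀ y, BddAbove (range fun x : K => ⟪(x : E), y⟫ - φ x) := fun y => by
    refine ⟨R * ‖y‖ + (|φ 0| + L * R), ?_⟩
    rintro _ ⟨x, rfl⟩
    have h1 : ⟪(x : E), y⟫ ≤ R * ‖y‖ := (real_inner_le_norm _ _).trans
      (mul_le_mul_of_nonneg_right (hs.bdd x x.2) (norm_nonneg _))
    have h2 := hφ.dist_le_mul x 0
    rw [Real.dist_eq, dist_zero_right, abs_le] at h2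
    have h3 : (L : ℝ) * ‖(x : E)‖ ≤ L * R := mul_le_mul_of_nonneg_left (hs.bdd x x.2) L.2
    simp only
    linarith [neg_abs_le (φ 0), h2.1]
  have hle : ∀ x ∈ K, ∀ y, ⟪x, y⟫ - φ x ≤ ψ y := fun x hx y => le_ciSup (hbdd y) ⟨x, hx⟩
  have hψc : Continuous ψ := by
    refine (LipschitzWith.of_le_add_mul ⟨R, hs.pos.le⟩ fun y y' => ?_).continuous
    refine ciSup_le fun x => ?_
    have h1 := hle x x.2 y'
    have h2 : ⟪(x : E), y - y'⟫ ≤ R * dist y y' := by
      rw [dist_eq_norm]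
      exact (real_inner_le_norm _ _).trans
        (mul_le_mul_of_nonneg_right (hs.bdd x x.2) (norm_nonneg _))
    rw [inner_sub_right] at h2
    change _ ≤ ψ y' + R * dist y y'
    linarith
  let F : E → ℝ := fun y => ‖y‖ ^ 2 - 2 * ψ y
  let G : E → ℝ := fun x => ‖x‖ ^ 2 - 2 * φ x
  have hF : Continuous F := by fun_prop
  have hG : Continuous G := by have := hφ.continuous; fun_prop
  let gap : E → E → ℝ := fun x y => φ x + ψ y - ⟪x, y⟫
  have hid : ∀ x y : E, ‖x - y‖ ^ 2 = G x + F y + 2 * gap x y := fun x y => by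
    simp only [F, G, gap]; rw [norm_sub_sq_real]; ring
  have main : ∀ S : E → E, Measurable S → ρ.map S = ρ.map T₀ →
      Integrable (fun x => ‖x - S x‖ ^ 2) ρ ∧ Integrable (fun x => gap x (S x)) ρ ∧
      ∫ x, ‖x - S x‖ ^ 2 ∂ρ = ∫ x, G x ∂ρ + ∫ y, F y ∂(ρ.map T₀) + 2 * ∫ x, gap x (S x) ∂ρ := by
    intro S hS hSμ
    have hm : MeasurableSet {y : E | ‖y‖ ≤ M} := (isClosed_le continuous_norm continuous_const).measurableSet
    have hSM : ∀ᵐ x ∂ρ, ‖S x‖ ≤ M := by
      have : ∀ᵐ y ∂(ρ.map T₀), ‖y‖ ≤ M := (ae_map_iff hT₀.aemeasurable hm).2 hM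
      rw [← hSμ] at this
      exact (ae_map_iff hS.aemeasurable hm).1 this
    have hI : ∀ c : E × E → ℝ, Continuous c → Integrable (fun x => c (x, S x)) ρ := fun c hc => by
      obtain ⟨C, hC⟩ := ((isCompact_closedBall (0 : E) R).prod
        (isCompact_closedBall (0 : E) M)).exists_bound_of_continuousOn hc.continuousOn
      refine Integrable.of_bound
        (hc.measurable.comp (measurable_id.prodMk hS)).aestronglyMeasurable C ?_
      filter_upwards [hs.aeK, hSM] with x hx hx'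
      exact hC _ ⟨by simpa using hs.bdd x hx, by simpa using hx'⟩
    have i1 : Integrable (fun x => ‖x - S x‖ ^ 2) ρ := hI (fun p => ‖p.1 - p.2‖ ^ 2) (by fun_prop)
    have i2 : Integrable (fun x => gap x (S x)) ρ :=
      hI (fun p => gap p.1 p.2) (by have := hφ.continuous; fun_prop)
    have i3 : Integrable (fun x => F (S x)) ρ := hI (fun p => F p.2) (by fun_prop)
    have i4 : Integrable (fun x => G x + F (S x)) ρ := (hs.integrable hG).add i3
    refine ⟨i1, i2, ?_⟩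
    simp only [hid]
    rw [integral_add i4 (i2.const_mul 2), integral_add (hs.integrable hG) i3,
      integral_const_mul, ← hSμ, integral_map hS.aemeasurable hF.aestronglyMeasurable]
  have hgap : ∀ S : E → E, 0 ≤ᵐ[ρ] fun x => gap x (S x) := fun S => by
    filter_upwards [hs.aeK] with x hx
    have := hle x hx (S x)
    simp only [gap, Pi.zero_apply]; linarith
  have hgap0 : ∫ x, gap x (T₀ x) ∂ρ = 0 := by
    refine integral_eq_zero_of_ae ?_
    filter_upwards [hsub, hgap T₀] with x hx hx'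
    refine le_antisymm ?_ hx'
    have : ψ (T₀ x) ≤ ⟪x, T₀ x⟫ - φ x := ciSup_le fun x' => by
      have := hx x' x'.2
      rw [inner_sub_left] at this; linarith
    simp only [gap, Pi.zero_apply]; linarith
  obtain ⟨j1, -, j3⟩ := main T₀ hT₀ rfl
  refine ⟨⟨hT₀, rfl, fun S hS hSμ => ?_⟩, fun T ⟨hT, hTμ, hopt⟩ => ?_⟩
  · obtain ⟨k1, -, k3⟩ := main S hS hSμ
    rw [lintegral_enorm_sq j1, lintegral_enorm_sq k1]
    refine ENNReal.ofReal_le_ofReal ?_
    rw [j3, k3, hgap0]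
    linarith [integral_nonneg_of_ae (hgap S)]
  · obtain ⟨k1, k2, k3⟩ := main T hT hTμ
    have h := hopt T₀ hT₀ rfl
    rw [lintegral_enorm_sq j1, lintegral_enorm_sq k1,
      ENNReal.ofReal_le_ofReal_iff (integral_nonneg fun x => sq_nonneg _), j3, k3, hgap0] at h
    have h0 : ∫ x, gap x (T x) ∂ρ = 0 := le_antisymm (by linarith) (integral_nonneg_of_ae (hgap T))
    rw [integral_eq_zero_iff_of_nonneg_ae (hgap T) k2] at h0
    filter_upwards [h0, hsub, hint, hs.ac.ae_le (hφ.ae_differentiableAt (μ := volume))]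
      with x h1 h2 h3 h4
    refine subgrad_unique h3 h4 (fun x' hx' => ?_) h2
    have := hle x' hx' (T x)
    simp only [gap, Pi.zero_apply] at h1
    rw [inner_sub_left]; linarith

variable {ι : Type*} [Fintype ι] [Nonempty ι]

/-- the transport map of a configuration -/
noncomputable def tmap (y : ι → E) (ψ : ι → ℝ) (x : E) : E :=
  ∑ i, (cell y ψ i).indicator (fun _ => y i) x

lemma measurable_tmap (y : ι → E) (ψ : ι → ℝ) : Measurable (tmap y ψ) :=
  Finset.measurable_sum _ fun i _ => measurable_const.indicator (measurableSet_cell y ψ i)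

lemma tmap_of_mem {y : ι → E} {ψ : ι → ℝ} {i : ι} {x : E} (hx : x ∈ cell y ψ i) :
    tmap y ψ x = y i := by
  rw [tmap, Finset.sum_eq_single i, indicator_of_mem hx]
  · intro j _ hj
    exact indicator_of_notMem (Set.disjoint_left.1 (disjoint_cell y ψ hj.symm) hx) _
  · simp

lemma norm_tmap_le {y : ι → E} {L : ℝ} (hy : ∀ i, ‖y i‖ ≤ L) (ψ : ι → ℝ) (x : E) :
    ‖tmap y ψ x‖ ≤ L := by
  by_cases h : ∃ i, x ∈ cell y ψ i
  · obtain ⟨i, hi⟩ := h
    rw [tmap_of_mem hi]; exact hy i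
  · push Not at h
    rw [tmap, Finset.sum_eq_zero fun i _ => indicator_of_notMem (h i) _, norm_zero]
    exact (norm_nonneg _).trans (hy (Classical.arbitrary ι))

lemma Src.tmap_subgrad (hs : Src ρ K R) {y : ι → E} (hy : Function.Injective y) (ψ : ι → ℝ) :
    ∀ᵐ x ∂ρ, ∀ x', Phi y ψ x + ⟪x' - x, tmap y ψ x⟫ ≤ Phi y ψ x' := by
  filter_upwards [hs.ae_mem_cell hy ψ] with x ⟨i, hi⟩ x'
  rw [tmap_of_mem hi, Phi_eq_of_mem hi, inner_sub_left]
  linarith [le_Phi y ψ x' i]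

lemma Src.integral_tmap (hs : Src ρ K R) {y : ι → E} (hy : Function.Injective y) (ψ : ι → ℝ)
    {g : E → ℝ} (hg : Continuous g) :
    ∫ x, g (tmap y ψ x) ∂ρ = ∑ i, mass ρ y ψ i * g (y i) := by
  have := hs.prob
  obtain ⟨C, hC⟩ := (isCompact_closedBall (0 : E) ‖y‖).exists_bound_of_continuousOn hg.continuousOn
  have hi : Integrable (fun x => g (tmap y ψ x)) ρ :=
    Integrable.of_bound (hg.measurable.comp (measurable_tmap y ψ)).aestronglyMeasurable C
      (ae_of_all _ fun x => hC _ (by simpa using norm_tmap_le (norm_le_pi_norm y) ψ x))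
  rw [hs.integral_eq_sum hy ψ hi]
  refine Finset.sum_congr rfl fun i _ => ?_
  rw [setIntegral_congr_fun (measurableSet_cell y ψ i) (g := fun _ => g (y i))
    fun x hx => by simp only [tmap_of_mem hx]]
  simp [mass]

end Crest.Agent.H3.OT
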