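import Mathlib
import Crest.Prelude.Def_QuadraticTransport
import Crest.Agent.H3.SemiDisc

/-! The uniform measure on a convex body; a reverse Poincaré inequality for subgradients. -/

set_option autoImplicit false
set_option linter.unusedSectionVars false

namespace Crest.Agent.H3.OT

open MeasureTheory Filter Topology Set Crest.AnalysisR.OT
open scoped ENNReal NNReal RealInnerProductSpace

variable {E : Type*} [NormedAddCommGroup E] [InnerProductSpace ℝ E] [FiniteDimensional ℝ E]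
  [MeasurableSpace E] [BorelSpace E]

lemma src_uniform (hPL : HasPL (volume : Measure E)) {K : Set E} (hKc : IsCompact K)
    (hKv : Convex ℝ K) (hKi : (interior K).Nonempty) {R : ℝ} (hR : 0 < R)
    (hKR : ∀ x ∈ K, ‖x‖ ≤ R) : Src (uniformProbOn K) K R := by
  have h0 : volume K ≠ 0 := (Measure.measure_pos_of_nonempty_interior _ hKi).ne'
  have h1 : volume K ≠ ⊤ := hKc.measure_lt_top.ne
  have hm := hKc.measurableSet
  refine ⟨⟨?_⟩, ?_, hKv, ?_, hR, hKR, fun f g h hf hg hh H => ?_⟩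
  · simp [uniformProbOn, ENNReal.inv_mul_cancel h0 h1]
  · exact (Measure.smul_absolutelyContinuous).trans Measure.absolutelyContinuous_restrict
  · exact Measure.ae_smul_measure (ae_restrict_mem hm) _
  · simp only [uniformProbOn, lintegral_smul_measure, smul_eq_mul]
    rw [mul_mul_mul_comm, mul_pow, ← sq]
    refine mul_le_mul_right ?_ _
    rw [← lintegral_indicator hm, ← lintegral_indicator hm, ← lintegral_indicator hm]
    refine hPL _ _ _ (hf.indicator hm) (hg.indicator hm) (hh.indicator hm) fun x y => ?_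
    by_cases hx : x ∈ K
    swap
    · simp [indicator_of_notMem hx]
    by_cases hy : y ∈ K
    swap
    · simp [indicator_of_notMem hy]
    have : (2 : ℝ)⁻¹ • (x + y) ∈ K := by
      have := hKv hx hy (a := 2⁻¹) (b := 2⁻¹) (by norm_num) (by norm_num) (by norm_num)
      rwa [← smul_add] at this
    rw [indicator_of_mem hx, indicator_of_mem hy, indicator_of_mem this]
    exact H x hx y hy

lemma uniform_shift {K A : Set E} (hKc : IsCompact K) (hA : MeasurableSet A) (hAK : A ⊆ K) {a : E}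
    (ha : ∀ x ∈ A, x + a ∈ K) {g : E → ℝ} (hg : Continuous g) (hg0 : ∀ x, 0 ≤ g x) :
    ∫ x in A, g (x + a) ∂(uniformProbOn K) ≤ ∫ x, g x ∂(uniformProbOn K) := by
  simp only [uniformProbOn, Measure.restrict_smul, integral_smul_measure, smul_eq_mul,
    Measure.restrict_restrict_of_subset hAK]
  refine mul_le_mul_of_nonneg_left ?_ ENNReal.toReal_nonneg
  have hA' : MeasurableSet ((fun x => x - a) ⁻¹' A) := hA.preimage (by fun_prop)
  have e1 : ∫ x in A, g (x + a) = ∫ x in (fun x => x - a) ⁻¹' A, g x := by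
    rw [← integral_indicator hA, ← integral_indicator hA',
      ← integral_add_right_eq_self (((fun x => x - a) ⁻¹' A).indicator g) a]
    congr 1; ext x
    by_cases hx : x ∈ A
    · rw [indicator_of_mem hx, indicator_of_mem (by simpa using hx)]
    · rw [indicator_of_notMem hx, indicator_of_notMem (by simpa using hx)]
  rw [e1]
  refine setIntegral_mono_set (hg.continuousOn.integrableOn_compact hKc) (ae_of_all _ hg0)
    (LE.le.eventuallyLE fun x hx => ?_)
  simpa using ha _ hx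

lemma exists_core {K : Set E} (hKc : IsCompact K) (hKv : Convex ℝ K) {x₀ : E} {r : ℝ} (hr : 0 < r)
    (hB : Metric.closedBall x₀ r ⊆ K) {h : ℝ} (hh : 0 < h) (hhr : h ≤ r) :
    ∃ A : Set E, MeasurableSet A ∧ (∀ x ∈ A, ∀ a : E, ‖a‖ ≤ h → x + a ∈ K) ∧
      (uniformProbOn K).real Aᶜ ≤ Module.finrank ℝ E * (h / r) := by
  have hKi : (interior K).Nonempty :=
    ⟨x₀, interior_mono hB (Metric.ball_subset_interior_closedBall (Metric.mem_ball_self hr))⟩
  have h0 : volume K ≠ 0 := (Measure.measure_pos_of_nonempty_interior _ hKi).ne'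
  have h1 : volume K ≠ ⊤ := hKc.measure_lt_top.ne
  set s := h / r with hs
  have hs0 : 0 < s := by positivity
  have hs1 : s ≤ 1 := (div_le_one hr).2 hhr
  have hAc : IsCompact (AffineMap.homothety x₀ (1 - s) '' K) :=
    hKc.image (AffineMap.homothety_continuous _ _)
  have hin : ∀ x ∈ AffineMap.homothety x₀ (1 - s) '' K, ∀ a : E, ‖a‖ ≤ h → x + a ∈ K := by
    rintro _ ⟨x, hx, rfl⟩ a ha
    have hb : x₀ + s⁻¹ • a ∈ K := hB (by
      rw [Metric.mem_closedBall, dist_eq_norm, add_sub_cancel_left, norm_smul, Real.norm_eq_abs,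
        abs_of_pos (inv_pos.2 hs0), inv_mul_le_iff₀ hs0, hs, div_mul_cancel₀ _ hr.ne']
      exact ha)
    have := hKv hx hb (a := 1 - s) (b := s) (by linarith) hs0.le (by ring)
    convert this using 1
    rw [AffineMap.homothety_apply, smul_add, smul_smul, mul_inv_cancel₀ hs0.ne', one_smul,
      vsub_eq_sub, vadd_eq_add, smul_sub, sub_smul, sub_smul, one_smul, one_smul]
    abel
  refine ⟨_, hAc.measurableSet, hin, ?_⟩
  have hsub : AffineMap.homothety x₀ (1 - s) '' K ⊆ K := fun x hx => by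
    simpa using hin x hx 0 (by simpa using hh.le)
  have hP : IsProbabilityMeasure (uniformProbOn K) :=
    ⟨by simp [uniformProbOn, ENNReal.inv_mul_cancel h0 h1]⟩
  rw [probReal_compl_eq_one_sub hAc.measurableSet]
  have : (uniformProbOn K).real (AffineMap.homothety x₀ (1 - s) '' K) =
      (1 - s) ^ Module.finrank ℝ E := by
    rw [Measure.real, uniformProbOn, Measure.smul_apply, Measure.restrict_apply hAc.measurableSet,
      inter_eq_left.2 hsub, Measure.addHaar_image_homothety, smul_eq_mul, mul_comm, mul_assoc,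
      ENNReal.mul_inv_cancel h0 h1, mul_one, ENNReal.toReal_ofReal (abs_nonneg _),
      abs_of_nonneg (pow_nonneg (by linarith) _)]
  rw [this]
  have := one_add_mul_le_pow (a := -s) (by linarith) (Module.finrank ℝ E)
  rw [← sub_eq_add_neg] at this
  linarith

lemma rev_dir {K : Set E} {R : ℝ} (hs : Src (uniformProbOn K) K R) (hKc : IsCompact K) {A : Set E}
    (hA : MeasurableSet A) {h : ℝ} (hh : 0 < h) (hAK : ∀ x ∈ A, ∀ a : E, ‖a‖ ≤ h → x + a ∈ K)
    {φ φ' : E → ℝ} {L : ℝ≥0} (hφ : Continuous φ) (hφ' : LipschitzWith L φ') {T T' : E → E}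
    (hD : Integrable (fun x => ‖T x - T' x‖ ^ 2) (uniformProbOn K))
    (hDm : AEStronglyMeasurable (fun x => T x - T' x) (uniformProbOn K))
    (hT : ∀ᵐ x ∂(uniformProbOn K), ∀ x', φ x + ⟪x' - x, T x⟫ ≤ φ x')
    (hT' : ∀ᵐ x ∂(uniformProbOn K), ∀ x', φ' x + ⟪x' - x, T' x⟫ ≤ φ' x') {e : E} (he : ‖e‖ = 1) :
    h ^ 2 * ∫ x in A, ⟪e, T x - T' x⟫ ^ 2 ∂(uniformProbOn K) ≤
      9 * ∫ x, (φ x - φ' x) ^ 2 ∂(uniformProbOn K) +
        12 * L ^ 2 * h ^ 2 * (uniformProbOn K).real Aᶜ := by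
  have := hs.prob
  set ρ := uniformProbOn K with hρ
  have hc' := hφ'.continuous
  have hAK' : A ⊆ K := fun x hx => by simpa using hAK x hx 0 (by simpa using hh.le)
  have hhe : ‖h • e‖ = h := by rw [norm_smul, he, mul_one, Real.norm_eq_abs, abs_of_pos hh]
  let u : E → ℝ := fun x => (φ x - φ' x) ^ 2
  let g : E → ℝ := fun x => φ' x - φ' (x + -(h • e)) + L * h
  have cu : Continuous u := by fun_prop
  have cg : Continuous g := by fun_prop
  have hg : ∀ x, 0 ≤ g x ∧ g x ≤ 2 * L * h := fun x => by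
    have := hφ'.dist_le_mul x (x + -(h • e))
    rw [Real.dist_eq, dist_eq_norm, show x - (x + -(h • e)) = h • e by abel, hhe, abs_le] at this
    simp only [g]; constructor <;> linarith [this.1, this.2]
  have i1 := uniform_shift hKc hA hAK' (a := h • e) (fun x hx => hAK x hx _ hhe.le) cu
    fun x => sq_nonneg _
  have i2 := uniform_shift hKc hA hAK' (a := -(h • e))
    (fun x hx => hAK x hx _ (by rw [norm_neg, hhe])) cu fun x => sq_nonneg _
  have i3 : ∫ x in A, u x ∂ρ ≤ ∫ x, u x ∂ρ :=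
    setIntegral_le_integral (hs.integrable cu) (ae_of_all _ fun x => sq_nonneg _)
  have i4 := uniform_shift hKc hA hAK' (a := h • e) (fun x hx => hAK x hx _ hhe.le) cg
    fun x => (hg x).1
  have i5 := integral_add_compl hA (hs.integrable cg)
  have i6 : ∫ x in Aᶜ, g x ∂ρ ≤ 2 * L * h * ρ.real Aᶜ := by
    have : ∫ x in Aᶜ, g x ∂ρ ≤ ∫ _ in Aᶜ, 2 * L * h ∂ρ :=
      integral_mono (hs.integrable cg).integrableOn (integrable_const _) fun x => (hg x).2
    simpa [mul_comm] using this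
  have hint : Integrable (fun x => ⟪e, T x - T' x⟫ ^ 2) ρ := by
    refine hD.mono' ((aestronglyMeasurable_const.inner hDm).pow 2) (ae_of_all _ fun x => ?_)
    rw [Real.norm_eq_abs, abs_of_nonneg (sq_nonneg _), ← sq_abs]
    gcongr
    simpa [he] using abs_real_inner_le_norm e (T x - T' x)
  have key : ∫ x in A, h ^ 2 * ⟪e, T x - T' x⟫ ^ 2 ∂ρ ≤
      ∫ x in A, (3 * (u (x + h • e) + u (x + -(h • e)) + u x) +
        6 * L * h * (g (x + h • e) - g x)) ∂ρ := by
    refine integral_mono_ae (hint.const_mul _).integrableOn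
      (hs.integrable (by fun_prop)).integrableOn (ae_restrict_of_ae ?_)
    filter_upwards [hT, hT'] with x hx hx'
    have a1 := hx (x + h • e)
    have a2 := hx (x + -(h • e))
    have a3 := hx' (x + h • e)
    have a4 := hx' (x + -(h • e))
    simp only [add_sub_cancel_left, inner_neg_left, inner_smul_left, conj_trivial] at a1 a2 a3 a4
    have b1 := hg (x + h • e)
    have b2 := hg x
    simp only [g, add_neg_cancel_right] at b1 b2
    simp only [u, g, add_neg_cancel_right, inner_sub_right]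
    set S := φ' (x + h • e) - φ' x + L * h - (φ' x - φ' (x + -(h • e)) + L * h) with hS
    have S0 : 0 ≤ S := by linarith
    have S1 : S ≤ 2 * L * h := by linarith [b1.2, b2.1]
    have S2 : S ^ 2 ≤ 2 * L * h * S := by nlinarith
    set a := h * (⟪e, T x⟫ - ⟪e, T' x⟫) with ha
    set b := φ (x + h • e) - φ' (x + h • e) with hb
    set b' := φ (x + -(h • e)) - φ' (x + -(h • e)) with hb'
    set c := φ x - φ' x with hc
    have c1 : a ≤ b - c + S := by linarith
    have c2 : -a ≤ b' - c + S := by linarith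
    have c3 : a ^ 2 ≤ 3 * (b ^ 2 + b' ^ 2 + c ^ 2 + S ^ 2) := by
      rcases le_total 0 a with h0 | h0
      · have : a ^ 2 ≤ (b - c + S) ^ 2 := by gcongr
        nlinarith [sq_nonneg (b + c), sq_nonneg (b - S), sq_nonneg (c + S), sq_nonneg b']
      · have : (-a) ^ 2 ≤ (b' - c + S) ^ 2 := by gcongr; linarith
        nlinarith [sq_nonneg (b' + c), sq_nonneg (b' - S), sq_nonneg (c + S), sq_nonneg b]
    have : h ^ 2 * (⟪e, T x⟫ - ⟪e, T' x⟫) ^ 2 = a ^ 2 := by rw [ha]; ring
    rw [this]; linarith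
  rw [integral_const_mul, integral_add (hs.integrable (by fun_prop)).integrableOn
    (hs.integrable (by fun_prop)).integrableOn, integral_const_mul, integral_const_mul,
    integral_add (hs.integrable (by fun_prop)).integrableOn
    (hs.integrable (by fun_prop)).integrableOn, integral_add
    (hs.integrable (by fun_prop)).integrableOn (hs.integrable (by fun_prop)).integrableOn,
    integral_sub (hs.integrable (by fun_prop)).integrableOn
    (hs.integrable (by fun_prop)).integrableOn] at key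
  have i7 : ∫ x in A, g (x + h • e) ∂ρ - ∫ x in A, g x ∂ρ ≤ 2 * L * h * ρ.real Aᶜ := by linarith
  have i8 := mul_le_mul_of_nonneg_left i7 (show (0 : ℝ) ≤ 6 * L * h by positivity)
  change _ ≤ 9 * ∫ x, u x ∂ρ + _
  linarith

theorem rev_poincare {K : Set E} {R : ℝ} (hs : Src (uniformProbOn K) K R) (hKc : IsCompact K)
    {x₀ : E} {r : ℝ} (hr : 0 < r) (hB : Metric.closedBall x₀ r ⊆ K) {h : ℝ} (hh : 0 < h)
    (hhr : h ≤ r) {φ φ' : E → ℝ} {L : ℝ≥0} (hφ : Continuous φ) (hφ' : LipschitzWith L φ')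
    {T T' : E → E} (hTm : Measurable T) (hTm' : Measurable T') (hTL : ∀ x, ‖T x‖ ≤ L)
    (hTL' : ∀ x, ‖T' x‖ ≤ L)
    (hT : ∀ᵐ x ∂(uniformProbOn K), ∀ x', φ x + ⟪x' - x, T x⟫ ≤ φ x')
    (hT' : ∀ᵐ x ∂(uniformProbOn K), ∀ x', φ' x + ⟪x' - x, T' x⟫ ≤ φ' x') :
    ∫ x, ‖T x - T' x‖ ^ 2 ∂(uniformProbOn K) ≤
      9 * Module.finrank ℝ E * (∫ x, (φ x - φ' x) ^ 2 ∂(uniformProbOn K)) / h ^ 2 +
        (12 * Module.finrank ℝ E + 4) * L ^ 2 * (Module.finrank ℝ E * (h / r)) := by
  have := hs.prob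
  obtain ⟨A, hA, hAK, hAm⟩ := exists_core hKc hs.conv hr hB hh hhr
  set ρ := uniformProbOn K with hρ
  have hb : ∀ x, ‖T x - T' x‖ ^ 2 ≤ 4 * L ^ 2 := fun x => by
    have : ‖T x - T' x‖ ≤ 2 * L := by linarith [norm_sub_le (T x) (T' x), hTL x, hTL' x]
    calc _ ≤ (2 * (L : ℝ)) ^ 2 := by gcongr
      _ = _ := by ring
  have hDm : AEStronglyMeasurable (fun x => T x - T' x) ρ := (hTm.sub hTm').aestronglyMeasurable
  have hD : Integrable (fun x => ‖T x - T' x‖ ^ 2) ρ :=
    Integrable.of_bound (hDm.norm.pow 2) (4 * L ^ 2) (ae_of_all _ fun x => by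
      rw [Real.norm_eq_abs, abs_of_nonneg (sq_nonneg _)]; exact hb x)
  rw [← integral_add_compl hA hD]
  have i1 : ∫ x in Aᶜ, ‖T x - T' x‖ ^ 2 ∂ρ ≤ 4 * L ^ 2 * ρ.real Aᶜ := by
    have : ∫ x in Aᶜ, ‖T x - T' x‖ ^ 2 ∂ρ ≤ ∫ _ in Aᶜ, 4 * (L : ℝ) ^ 2 ∂ρ :=
      integral_mono hD.integrableOn (integrable_const _) hb
    simpa [mul_comm] using this
  let b := stdOrthonormalBasis ℝ E
  have hint : ∀ j, Integrable (fun x => ⟪b j, T x - T' x⟫ ^ 2) ρ := fun j => by
    refine hD.mono' ((aestronglyMeasurable_const.inner hDm).pow 2) (ae_of_all _ fun x => ?_)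
    rw [Real.norm_eq_abs, abs_of_nonneg (sq_nonneg _), ← sq_abs]
    gcongr
    simpa [b.orthonormal.1 j] using abs_real_inner_le_norm (b j) (T x - T' x)
  have i2 : ∫ x in A, ‖T x - T' x‖ ^ 2 ∂ρ = ∑ j, ∫ x in A, ⟪b j, T x - T' x⟫ ^ 2 ∂ρ := by
    rw [← integral_finsetSum _ fun j _ => (hint j).integrableOn]
    simp only [b.sum_sq_inner_right]
  set U := ∫ x, (φ x - φ' x) ^ 2 ∂ρ with hU
  have i3 : ∀ j, ∫ x in A, ⟪b j, T x - T' x⟫ ^ 2 ∂ρ ≤ 9 * U / h ^ 2 + 12 * L ^ 2 * ρ.real Aᶜ :=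
    fun j => by
      have := rev_dir hs hKc hA hh hAK hφ hφ' hD hDm hT hT' (b.orthonormal.1 j)
      refine le_of_mul_le_mul_left (a := h ^ 2) (this.trans (le_of_eq ?_)) (by positivity)
      rw [← hρ, ← hU]
      field_simp
  have i4 : ∑ j, ∫ x in A, ⟪b j, T x - T' x⟫ ^ 2 ∂ρ ≤
      Module.finrank ℝ E * (9 * U / h ^ 2 + 12 * L ^ 2 * ρ.real Aᶜ) := by
    simpa [mul_add] using Finset.sum_le_card_nsmul Finset.univ _ _ fun j _ => i3 j
  have i5 : (12 * Module.finrank ℝ E + 4) * (L : ℝ) ^ 2 * ρ.real Aᶜ ≤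
      (12 * Module.finrank ℝ E + 4) * L ^ 2 * (Module.finrank ℝ E * (h / r)) := by gcongr
  rw [i2]
  have e : (Module.finrank ℝ E : ℝ) * (9 * U / h ^ 2) = 9 * Module.finrank ℝ E * U / h ^ 2 := by
    ring
  nlinarith

end Crest.Agent.H3.OT
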