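import Mathlib
import Crest.Agent.H3.OTDual
import Crest.Agent.H3.Interp
import Crest.Agent.H3.RevPoin

/-! Passing from semi-discrete targets to general targets. -/

set_option autoImplicit false
set_option linter.unusedSectionVars false

namespace Crest.Agent.H3.OT

open MeasureTheory Filter Topology Set Crest.AnalysisR.OT
open scoped ENNReal NNReal RealInnerProductSpace BoundedContinuousFunction

variable {E : Type*} [NormedAddCommGroup E] [InnerProductSpace ℝ E] [FiniteDimensional ℝ E]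
  [MeasurableSpace E] [BorelSpace E]

variable {ρ : Measure E} {K : Set E} {R : ℝ}

lemma exists_subseq_lip (g : ℕ → E → ℝ) {L : ℝ≥0} (hg : ∀ n, LipschitzWith L (g n))
    (h0 : ∀ n, g n 0 = 0) : ∃ (φ : E → ℝ) (σ : ℕ → ℕ), StrictMono σ ∧ LipschitzWith L φ ∧
      ∀ x, Tendsto (fun n => g (σ n) x) atTop (𝓝 (φ x)) := by
  have hc : IsCompact (Set.pi univ fun x : E => Icc (-(L * ‖x‖)) (L * ‖x‖)) :=
    isCompact_univ_pi fun x => isCompact_Icc
  have hc' := hc.inter_right (isClosed_setOfPred_lipschitzWith (α := E) (β := ℝ) L)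
  obtain ⟨φ, hφ, hcl⟩ := hc'.exists_mapClusterPt_of_frequently (l := atTop) (f := g)
    (Frequently.of_forall fun n => ⟨fun x _ => by
      have := (hg n).dist_le_mul x 0
      rw [Real.dist_eq, h0, sub_zero, dist_zero_right] at this
      exact abs_le.1 this, hg n⟩)
  obtain ⟨D, hDc, hDd⟩ := TopologicalSpace.exists_countable_dense E
  have : Countable D := hDc
  have hr : Continuous fun (f : E → ℝ) (x : D) => f x := by fun_prop
  obtain ⟨σ, hσ, hlim⟩ := (hcl.continuousAt_comp hr.continuousAt).tendsto_subseq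
  refine ⟨φ, σ, hσ, hφ.2, fun x => ?_⟩
  have he := (LipschitzWith.uniformEquicontinuous (fun n => g (σ n)) L
    fun n => hg (σ n)).equicontinuous
  refine (he x).tendsto_of_mem_closure (s := D) (f := φ)
    (hφ.2.continuous.continuousAt.tendsto.mono_left nhdsWithin_le_nhds) (fun y hy => ?_) (hDd x)
  exact tendsto_pi_nhds.1 hlim ⟨y, hy⟩

/-- subgradient maps whose images converge weakly converge a.e. along a subsequence to the
optimal map -/
lemma Src.tendsto_optimal (hs : Src ρ K R) (hint : ∀ᵐ x ∂ρ, K ∈ 𝓝 x) {L : ℝ≥0}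
    (φ : ℕ → E → ℝ) (T : ℕ → E → E) (hφ : ∀ n, LipschitzWith L (φ n))
    (hTm : ∀ n, Measurable (T n)) (hTL : ∀ n x, ‖T n x‖ ≤ L)
    (hsub : ∀ n, ∀ᵐ x ∂ρ, ∀ x', φ n x + ⟪x' - x, T n x⟫ ≤ φ n x') {μ : Measure E}
    (hμ : ∀ g : E →ᵇ ℝ, Tendsto (fun n => ∫ x, g (T n x) ∂ρ) atTop (𝓝 (∫ y, g y ∂μ)))
    {S : E → E} (hS : IsOptimalMap ρ μ S) :
    ∃ σ : ℕ → ℕ, StrictMono σ ∧ ∀ᵐ x ∂ρ, Tendsto (fun n => T (σ n) x) atTop (𝓝 (S x)) := by
  have := hs.prob
  obtain ⟨f, σ, hσ, hf, hlim⟩ := exists_subseq_lip (fun n x => φ n x - φ n 0) (L := L)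
    (fun n => by simpa using (hφ n).sub (LipschitzWith.const (φ n 0))) (fun n => sub_self _)
  let T₀ : E → E := fun x => (InnerProductSpace.toDual ℝ E).symm (fderiv ℝ f x)
  have hT₀ : Measurable T₀ :=
    (InnerProductSpace.toDual ℝ E).symm.continuous.measurable.comp (measurable_fderiv ℝ f)
  have key : ∀ᵐ x ∂ρ, (∀ x', f x + ⟪x' - x, T₀ x⟫ ≤ f x') ∧
      Tendsto (fun n => T (σ n) x) atTop (𝓝 (T₀ x)) := by
    filter_upwards [ae_all_iff.2 hsub, hs.ac.ae_le (hf.ae_differentiableAt (μ := volume))]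
      with x h1 h2
    have hcl : ∀ p, MapClusterPt p atTop (fun n => T (σ n) x) →
        (∀ x', f x + ⟪x' - x, p⟫ ≤ f x') ∧ p = T₀ x := by
      intro p hp
      obtain ⟨τ, hτ, hp'⟩ := hp.tendsto_subseq
      have hsub' : ∀ x', f x + ⟪x' - x, p⟫ ≤ f x' := fun x' => by
        refine le_of_tendsto_of_tendsto' (((hlim x).comp hτ.tendsto_atTop).add
          (tendsto_const_nhds.inner hp')) ((hlim x').comp hτ.tendsto_atTop) fun n => ?_
        have := h1 (σ (τ n)) x'
        simp only [Function.comp]; linarith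
      refine ⟨hsub', ?_⟩
      have := fderiv_eq_of_subgrad (K := univ) univ_mem h2 fun x' _ => hsub' x'
      simp only [T₀, this]
      rw [eq_comm, LinearIsometryEquiv.symm_apply_eq]
      ext v; simp
    have hmem : ∀ n, T (σ n) x ∈ Metric.closedBall (0 : E) L := fun n => by simpa using hTL _ x
    obtain ⟨p, -, hp⟩ := (isCompact_closedBall (0 : E) L).exists_mapClusterPt_of_frequently
      (l := atTop) (Frequently.of_forall hmem)
    exact ⟨(hcl p hp).2 ▸ (hcl p hp).1, (isCompact_closedBall (0 : E) L).tendsto_nhds_of_unique_mapClusterPt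
      (Eventually.of_forall hmem) fun q _ hq => (hcl q hq).2⟩
  have hmap : ρ.map T₀ = μ := by
    have : IsFiniteMeasure μ := hS.2.1 ▸ inferInstance
    refine ext_of_forall_integral_eq_of_IsFiniteMeasure fun g => ?_
    rw [integral_map hT₀.aemeasurable g.continuous.aestronglyMeasurable]
    refine tendsto_nhds_unique ?_ ((hμ g).comp hσ.tendsto_atTop)
    refine tendsto_integral_of_dominated_convergence (fun _ => ‖g‖)
      (fun n => (g.continuous.measurable.comp (hTm _)).aestronglyMeasurable) (integrable_const _)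
      (fun n => ae_of_all _ fun x => g.norm_coe_le_norm _) ?_
    filter_upwards [key] with x hx
    exact (g.continuous.tendsto _).comp hx.2
  have hb : ∀ᵐ x ∂ρ, ‖T₀ x‖ ≤ L := ae_of_all _ fun x => by
    simp only [T₀, LinearIsometryEquiv.norm_map]
    exact norm_fderiv_le_of_lipschitz ℝ hf
  have := (hs.optimal_and_unique hint hf hT₀ hb
    (key.mono fun x hx x' _ => hx.1 x')).2 S (hmap ▸ hS)
  refine ⟨σ, hσ, ?_⟩
  filter_upwards [key, this] with x h1 h2
  rw [h2]; exact h1.2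

lemma exists_perturb (hd : 2 ≤ Module.finrank ℝ E) {A : Set (E × E)} (hA : A.Countable) {ε : ℝ}
    (hε : 0 < ε) : ∃ U : E × E → E, (∀ a, ‖U a‖ ≤ ε) ∧
      ∀ t : ℝ, InjOn (fun a : E × E => a.1 + U a + t • (a.2 - a.1)) A := by
  obtain ⟨f, hf⟩ := Set.countable_iff_exists_injOn.1 hA
  let κ : E × E → ℝ := fun a => 1 / ((f a : ℝ) + 1)
  have hκ : InjOn κ A := fun a ha b hb h => by
    refine hf ha hb ?_
    simp only [κ, one_div, inv_inj, add_left_inj, Nat.cast_inj] at h
    exact h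
  let ℓ : E × E → E × E → AffineSubspace ℝ E := fun a b =>
    AffineSubspace.mk' ((κ a - κ b)⁻¹ • (b.1 - a.1)) (ℝ ∙ ((b.2 - b.1) - (a.2 - a.1)))
  have hℓ : ∀ a b, volume (ℓ a b : Set E) = 0 := fun a b => by
    refine Measure.addHaar_affineSubspace _ _ fun h => ?_
    have h1 := congrArg AffineSubspace.direction h
    rw [AffineSubspace.direction_mk', AffineSubspace.direction_top] at h1
    have h2 := finrank_span_le_card (R := ℝ) ({(b.2 - b.1) - (a.2 - a.1)} : Set E)
    rw [h1, finrank_top] at h2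
    simp at h2; omega
  have hae : ∀ᵐ w ∂(volume : Measure E), ∀ a ∈ A, ∀ b ∈ A, w ∉ ℓ a b := by
    refine (ae_ball_iff hA).2 fun a _ => (ae_ball_iff hA).2 fun b _ => ?_
    exact measure_eq_zero_iff_ae_notMem.1 (hℓ a b)
  obtain ⟨w, hw, hw'⟩ := Measure.exists_mem_of_measure_ne_zero_of_ae
    (Metric.measure_ball_pos volume (0 : E) hε).ne' (ae_restrict_of_ae hae)
  refine ⟨fun a => κ a • w, fun a => ?_, fun t a ha b hb h => ?_⟩
  · rw [norm_smul]
    have h1 : ‖κ a‖ ≤ 1 := by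
      rw [Real.norm_eq_abs, abs_of_nonneg (by positivity)]
      exact div_le_one_of_le₀ (by simp) (by positivity)
    have h2 : ‖w‖ ≤ ε := by simpa using (mem_ball_zero_iff.1 hw).le
    nlinarith [norm_nonneg w]
  · by_contra hab
    have hk : κ a - κ b ≠ 0 := sub_ne_zero.2 fun h' => hab (hκ ha hb h')
    refine hw' a ha b hb ?_
    simp only [ℓ, AffineSubspace.mem_mk', vsub_eq_sub, Submodule.mem_span_singleton]
    refine ⟨(κ a - κ b)⁻¹ * t, ?_⟩
    have h' : (κ a - κ b) • w = (b.1 - a.1) + t • ((b.2 - b.1) - (a.2 - a.1)) := by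
      simp only at h
      linear_combination (norm := module) h
    rw [eq_sub_iff_add_eq, mul_smul, ← smul_add, add_comm, ← h', smul_smul, inv_mul_cancel₀ hk,
      one_smul]

lemma integral_simple {X Y : Type*} [MeasurableSpace X] {π : Measure X} [IsFiniteMeasure π]
    (s : SimpleFunc X Y) (G : Y → ℝ) :
    ∫ p, G (s p) ∂π = ∑ a : {a // a ∈ s.range.filter fun a => π.real (s ⁻¹' {a}) ≠ 0},
      π.real (s ⁻¹' {a.1}) * G a := by
  classical
  rw [Finset.sum_coe_sort _ (fun a => π.real (s ⁻¹' {a}) * G a),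
    Finset.sum_filter_of_ne fun a _ h => left_ne_zero_of_mul h]
  have : ∀ p, G (s p) = ∑ a ∈ s.range, (s ⁻¹' {a}).indicator (fun _ => G a) p := fun p => by
    rw [Finset.sum_eq_single (s p), indicator_of_mem (by simp)]
    · intro b _ hb
      exact indicator_of_notMem (by simpa using hb.symm) _
    · intro h; exact absurd (s.mem_range_self p) h
  simp only [this]
  rw [integral_finsetSum _ fun a _ => (integrable_const _).indicator (s.measurableSet_fiber a)]
  refine Finset.sum_congr rfl fun a _ => ?_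
  rw [integral_indicator_const _ (s.measurableSet_fiber a), smul_eq_mul]

lemma Src.discrete_step (hs : Src ρ K R) (hd : 2 ≤ Module.finrank ℝ E) {π : Measure (E × E)}
    [IsProbabilityMeasure π] (s : SimpleFunc (E × E) (E × E)) {M : ℝ≥0}
    (hM : ∀ p, ‖(s p).1‖ ≤ M ∧ ‖(s p).2‖ ≤ M) {ε : ℝ} (hε : 0 < ε) (hε1 : ε ≤ 1) :
    ∃ (U : E × E → E) (φ φ' : E → ℝ) (T T' : E → E), (∀ a, ‖U a‖ ≤ ε) ∧
      LipschitzWith (M + 1) φ ∧ LipschitzWith (M + 1) φ' ∧ Measurable T ∧ Measurable T' ∧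
      (∀ x, ‖T x‖ ≤ (M + 1 : ℝ≥0)) ∧ (∀ x, ‖T' x‖ ≤ (M + 1 : ℝ≥0)) ∧
      (∀ᵐ x ∂ρ, ∀ x', φ x + ⟪x' - x, T x⟫ ≤ φ x') ∧
      (∀ᵐ x ∂ρ, ∀ x', φ' x + ⟪x' - x, T' x⟫ ≤ φ' x') ∧
      ∫ x, (φ x - φ' x) ^ 2 ∂ρ ≤ 887046 * R ^ 2 * ∫ p, ‖(s p).2 - (s p).1‖ ^ 2 ∂π ∧
      (∀ g : E →ᵇ ℝ, ∫ x, g (T x) ∂ρ = ∫ p, g ((s p).1 + U (s p)) ∂π) ∧
      ∀ g : E →ᵇ ℝ, |∫ x, g (T' x) ∂ρ - ∫ p, g ((s p).2 + U (s p)) ∂π| ≤ ε * ‖g‖ := by
  obtain ⟨U, hU, hinj⟩ := exists_perturb hd (A := (s.range : Set (E × E)))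
    s.range.countable_toSet hε
  let ι := {a // a ∈ s.range.filter fun a => π.real (s ⁻¹' {a}) ≠ 0}
  let m : ι → ℝ := fun a => π.real (s ⁻¹' {a.1})
  have hm1 : ∑ a, m a = 1 := by
    have := integral_simple (π := π) s fun _ => 1
    simp only [mul_one, integral_const, probReal_univ, smul_eq_mul] at this
    exact this.symm
  have : Nonempty ι := by
    by_contra h
    rw [not_nonempty_iff] at h
    simp at hm1
  have hm0 : ∀ a, 0 < m a := fun a =>
    lt_of_le_of_ne measureReal_nonneg (Finset.mem_filter.1 a.2).2.symm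
  have hr : ∀ a : ι, a.1 ∈ (s.range : Set (E × E)) := fun a => (Finset.mem_filter.1 a.2).1
  let y : ι → E := fun a => a.1.1 + U a.1
  let z : ι → E := fun a => a.1.2 + U a.1
  have hzy : ∀ a, z a - y a = a.1.2 - a.1.1 := fun a => by simp [y, z]
  have hi : ∀ t : ℝ, Function.Injective fun i => y i + t • (z i - y i) := fun t a b h => by
    simp only [hzy] at h
    exact Subtype.ext (hinj t (hr a) (hr b) h)
  have hy : Function.Injective y := by simpa using hi 0
  have hz : Function.Injective z := by simpa using hi 1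
  have hb : ∀ a : ι, ‖y a‖ ≤ (M + 1 : ℝ≥0) ∧ ‖z a‖ ≤ (M + 1 : ℝ≥0) := fun a => by
    obtain ⟨p, hp⟩ := SimpleFunc.mem_range.1 (hr a)
    have h := hM p
    rw [hp] at h
    push_cast
    exact ⟨(norm_add_le _ _).trans (add_le_add h.1 ((hU _).trans hε1)),
      (norm_add_le _ _).trans (add_le_add h.2 ((hU _).trans hε1))⟩
  obtain ⟨ψ₀, ψ₁, h₀, h₁, h₂⟩ := hs.exists_close_potentials y z (fun t _ => hi t) hm0 hm1 hε
  refine ⟨U, Phi y ψ₀, Phi z ψ₁, tmap y ψ₀, tmap z ψ₁, hU, lipschitz_Phi (fun a => (hb a).1) _,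
    lipschitz_Phi (fun a => (hb a).2) _, measurable_tmap _ _, measurable_tmap _ _,
    norm_tmap_le (fun a => (hb a).1) _, norm_tmap_le (fun a => (hb a).2) _,
    hs.tmap_subgrad hy _, hs.tmap_subgrad hz _, ?_, fun g => ?_, fun g => ?_⟩
  · rw [integral_simple s fun a => ‖a.2 - a.1‖ ^ 2]
    simpa only [hzy] using h₂
  · rw [integral_simple s fun a => g (a.1 + U a), hs.integral_tmap hy _ g.continuous]
    simp only [h₀]; rfl
  · rw [integral_simple s fun a => g (a.2 + U a), hs.integral_tmap hz _ g.continuous,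
      ← Finset.sum_sub_distrib]
    refine (Finset.abs_sum_le_sum_abs _ _).trans ?_
    calc _ ≤ ∑ a, ε * m a * ‖g‖ := Finset.sum_le_sum fun a _ => by
          change |mass ρ z ψ₁ a * g (z a) - m a * g (z a)| ≤ _
          rw [← sub_mul, abs_mul]
          exact mul_le_mul (h₁ a) (g.norm_coe_le_norm _) (abs_nonneg _) (mul_pos hε (hm0 a)).le
      _ = _ := by rw [← Finset.sum_mul, ← Finset.mul_sum, hm1, mul_one]

lemma ae_nhds_uniform (hKc : IsCompact K) (hKv : Convex ℝ K) :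
    ∀ᵐ x ∂(uniformProbOn K), K ∈ 𝓝 x := by
  refine Measure.ae_smul_measure ?_ _
  filter_upwards [ae_restrict_mem hKc.measurableSet, ae_restrict_of_ae
    (measure_eq_zero_iff_ae_notMem.1 (hKv.addHaar_frontier (volume : Measure E)))] with x h1 h2
  rw [← mem_interior_iff_mem_nhds]
  by_contra h
  exact h2 ⟨subset_closure h1, h⟩

theorem stability_real (hs : Src (uniformProbOn K) K R) (hKc : IsCompact K)
    (hd : 2 ≤ Module.finrank ℝ E) {x₀ : E} {r : ℝ} (hr : 0 < r) (hB : Metric.closedBall x₀ r ⊆ K)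
    {M : ℝ≥0} {π : Measure (E × E)} [IsProbabilityMeasure π]
    (hπ : ∀ᵐ p ∂π, ‖p.1‖ ≤ M ∧ ‖p.2‖ ≤ M) {S S' : E → E}
    (hS : IsOptimalMap (uniformProbOn K) (π.map Prod.fst) S)
    (hS' : IsOptimalMap (uniformProbOn K) (π.map Prod.snd) S') {h : ℝ} (hh : 0 < h) (hhr : h ≤ r) :
    ∫ x, ‖S x - S' x‖ ^ 2 ∂(uniformProbOn K) ≤
      9 * Module.finrank ℝ E * (887046 * R ^ 2 * ∫ p, ‖p.2 - p.1‖ ^ 2 ∂π) / h ^ 2 +
        (12 * Module.finrank ℝ E + 4) * (M + 1 : ℝ≥0) ^ 2 * (Module.finrank ℝ E * (h / r)) := by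
  have := hs.prob
  set ρ := uniformProbOn K with hρ
  let B : Set (E × E) := Metric.closedBall 0 M ×ˢ Metric.closedBall 0 M
  have h0 : (0 : E × E) ∈ B := ⟨by simp, by simp⟩
  let s : ℕ → SimpleFunc (E × E) (E × E) := SimpleFunc.approxOn id measurable_id B 0 h0
  have hsB : ∀ n p, ‖(s n p).1‖ ≤ M ∧ ‖(s n p).2‖ ≤ M := fun n p => by
    simpa [B] using SimpleFunc.approxOn_mem measurable_id h0 n p
  have hst : ∀ᵐ p ∂π, Tendsto (fun n => s n p) atTop (𝓝 p) := by
    filter_upwards [hπ] with p hp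
    exact SimpleFunc.tendsto_approxOn measurable_id h0 (subset_closure (by simpa [B] using hp))
  have hε : ∀ n : ℕ, (0 : ℝ) < 1 / ((n : ℝ) + 1) := fun n => by positivity
  have hε1 : ∀ n : ℕ, 1 / ((n : ℝ) + 1) ≤ 1 := fun n => div_le_one_of_le₀ (by simp) (by positivity)
  choose U φ φ' T T' hU hφ hφ' hT hT' hTL hTL' hsub hsub' hW hg hg' using
    fun n : ℕ => hs.discrete_step hd (π := π) (s n) (hsB n) (hε n) (hε1 n)
  have hU0 : ∀ p, Tendsto (fun n => U n (s n p)) atTop (𝓝 0) := fun p =>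
    squeeze_zero_norm (fun n => hU n _) tendsto_one_div_add_atTop_nhds_zero_nat
  have hconv : ∀ f : E × E → E, Continuous f → ∀ g : E →ᵇ ℝ,
      Tendsto (fun n => ∫ p, g (f (s n p) + U n (s n p)) ∂π) atTop (𝓝 (∫ y, g y ∂(π.map f))) := by
    intro f hf g
    rw [integral_map hf.aemeasurable g.continuous.aestronglyMeasurable]
    refine tendsto_integral_of_dominated_convergence (fun _ => ‖g‖)
      (fun n => ((s n).map fun a => g (f a + U n a)).aestronglyMeasurable) (integrable_const _)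
      (fun n => ae_of_all _ fun x => g.norm_coe_le_norm _) ?_
    filter_upwards [hst] with p hp
    refine (g.continuous.tendsto _).comp ?_
    simpa using ((hf.tendsto _).comp hp).add (hU0 p)
  have hint := ae_nhds_uniform hKc hs.conv
  obtain ⟨σ, hσ, hlim⟩ := hs.tendsto_optimal hint φ T hφ hT hTL hsub
    (fun g => by simpa only [hg] using hconv _ continuous_fst g) hS
  obtain ⟨τ, hτ, hlim'⟩ := hs.tendsto_optimal hint (fun n => φ' (σ n)) (fun n => T' (σ n))
    (fun n => hφ' _) (fun n => hT' _) (fun n => hTL' _) (fun n => hsub' _)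
    (fun g => by
      have h1 : Tendsto (fun n => ∫ x, g (T' n x) ∂ρ - ∫ p, g ((s n p).2 + U n (s n p)) ∂π) atTop
          (𝓝 0) := squeeze_zero_norm (fun n => hg' n g)
            (by simpa using tendsto_one_div_add_atTop_nhds_zero_nat.mul_const ‖g‖)
      have h2 := (h1.add (hconv _ continuous_snd g)).comp hσ.tendsto_atTop
      simpa [Function.comp_def] using h2) hS'
  have hστ := (hσ.comp hτ).tendsto_atTop
  have l1 : Tendsto (fun n => ∫ x, ‖T (σ (τ n)) x - T' (σ (τ n)) x‖ ^ 2 ∂ρ) atTop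
      (𝓝 (∫ x, ‖S x - S' x‖ ^ 2 ∂ρ)) := by
    refine tendsto_integral_of_dominated_convergence (fun _ => (2 * ((M + 1 : ℝ≥0) : ℝ)) ^ 2)
      (fun n => (((hT _).sub (hT' _)).norm.pow_const 2).aestronglyMeasurable) (integrable_const _)
      (fun n => ae_of_all _ fun x => ?_) ?_
    · rw [Real.norm_eq_abs, abs_of_nonneg (sq_nonneg _)]
      gcongr
      linarith [norm_sub_le (T (σ (τ n)) x) (T' (σ (τ n)) x), hTL (σ (τ n)) x, hTL' (σ (τ n)) x]
    · filter_upwards [hlim, hlim'] with x h1 h2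
      exact ((h1.comp hτ.tendsto_atTop).sub h2).norm.pow 2
  have l2 : Tendsto (fun n => ∫ p, ‖(s n p).2 - (s n p).1‖ ^ 2 ∂π) atTop
      (𝓝 (∫ p, ‖p.2 - p.1‖ ^ 2 ∂π)) := by
    refine tendsto_integral_of_dominated_convergence (fun _ => (2 * (M : ℝ)) ^ 2)
      (fun n => (((s n).measurable.snd.sub (s n).measurable.fst).norm.pow_const 2).aestronglyMeasurable) (integrable_const _)
      (fun n => ae_of_all _ fun p => ?_) ?_
    · rw [Real.norm_eq_abs, abs_of_nonneg (sq_nonneg _)]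
      gcongr
      linarith [norm_sub_le (s n p).2 (s n p).1, (hsB n p).1, (hsB n p).2]
    · filter_upwards [hst] with p hp
      exact (((continuous_snd.tendsto _).comp hp).sub ((continuous_fst.tendsto _).comp hp)).norm.pow 2
  refine le_of_tendsto_of_tendsto' l1
    (((((l2.comp hστ).const_mul _).const_mul _).div_const _).add_const _) fun n => ?_
  refine (rev_poincare hs hKc hr hB hh hhr (hφ _).continuous (hφ' _) (hT _) (hT' _) (hTL _)
    (hTL' _) (hsub _) (hsub' _)).trans ?_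
  gcongr
  exact hW _

end Crest.Agent.H3.OT
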