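import Mathlib
import Crest.Prelude.Def_ModularData

/-! Basic facts on the bounded continuous functional calculus of `Def_ModularData`. -/

set_option autoImplicit false

namespace Crest.Agent.H3.Mod

open MeasureTheory Filter Topology Crest.OpAlg
open scoped BoundedContinuousFunction InnerProductSpace

variable {H : Type*} [NormedAddCommGroup H] [InnerProductSpace ℂ H] [CompleteSpace H]

/-- A continuous compactly supported function as a bounded continuous function. -/
noncomputable def ofCpt (f : ℝ → ℂ) (hf : Continuous f) (hc : HasCompactSupport f) : ℝ →ᵇ ℂ :=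
  BoundedContinuousFunction.ofNormedAddCommGroup f hf
    (Classical.choose (hc.exists_bound_of_continuous hf))
    (Classical.choose_spec (hc.exists_bound_of_continuous hf))

@[simp] lemma ofCpt_apply (f : ℝ → ℂ) (hf : Continuous f) (hc : HasCompactSupport f) (u : ℝ) :
    ofCpt f hf hc u = f u := rfl

lemma norm_app_le (D : LineCalculus H) (f : ℝ →ᵇ ℂ) : ‖D.apply f‖ ≤ ‖f‖ :=
  NonUnitalStarAlgHom.norm_apply_le D.apply f

lemma norm_app_apply_le (D : LineCalculus H) (f : ℝ →ᵇ ℂ) (x : H) : ‖D.apply f x‖ ≤ ‖f‖ * ‖x‖ :=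
  ((D.apply f).le_opNorm x).trans (mul_le_mul_of_nonneg_right (norm_app_le D f) (norm_nonneg _))

lemma app_app (D : LineCalculus H) (f g : ℝ →ᵇ ℂ) (x : H) :
    D.apply f (D.apply g x) = D.apply (f * g) x := by
  rw [map_mul]; rfl

lemma app_comm (D : LineCalculus H) (f g : ℝ →ᵇ ℂ) (x : H) :
    D.apply f (D.apply g x) = D.apply g (D.apply f x) := by
  rw [app_app, app_app, mul_comm]

lemma inner_app_left (D : LineCalculus H) (f : ℝ →ᵇ ℂ) (x y : H) :
    ⟪D.apply f x, y⟫_ℂ = ⟪x, D.apply (star f) y⟫_ℂ := by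
  rw [map_star, ContinuousLinearMap.star_eq_adjoint, ContinuousLinearMap.adjoint_inner_right]

@[simp] lemma character_apply (t u : ℝ) :
    LineCalculus.character t u = Complex.exp (Complex.I * ((t * u : ℝ) : ℂ)) := rfl

lemma character_add (s t : ℝ) :
    LineCalculus.character (s + t) = LineCalculus.character s * LineCalculus.character t := by
  ext u
  simp only [character_apply, BoundedContinuousFunction.coe_mul, Pi.mul_apply]
  rw [← Complex.exp_add]; congr 1; push_cast; ring

lemma character_zero : LineCalculus.character 0 = 1 := by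
  ext u; simp

lemma star_character (t : ℝ) : star (LineCalculus.character t) = LineCalculus.character (-t) := by
  ext u
  simp only [character_apply, BoundedContinuousFunction.coe_star, Pi.star_apply]
  rw [RCLike.star_def, ← Complex.exp_conj]; congr 1
  simp [Complex.conj_ofReal]

lemma norm_character_apply (t u : ℝ) : ‖LineCalculus.character t u‖ = 1 := by
  rw [character_apply, mul_comm, Complex.norm_exp_ofReal_mul_I]

lemma wave_add (D : LineCalculus H) (s t : ℝ) : D.wave (s + t) = D.wave s * D.wave t := by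
  simp only [LineCalculus.wave, character_add, map_mul]

lemma wave_zero (D : LineCalculus H) : D.wave 0 = 1 := by
  simp only [LineCalculus.wave, character_zero, map_one]

lemma star_wave (D : LineCalculus H) (t : ℝ) : star (D.wave t) = D.wave (-t) := by
  simp only [LineCalculus.wave, ← star_character, map_star]

lemma wave_wave (D : LineCalculus H) (s t : ℝ) (x : H) :
    D.wave s (D.wave t x) = D.wave (s + t) x := by
  rw [wave_add]; rfl

lemma wave_neg_wave (D : LineCalculus H) (t : ℝ) (x : H) : D.wave (-t) (D.wave t x) = x := by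
  rw [wave_wave, neg_add_cancel, wave_zero]; rfl

lemma wave_wave_neg (D : LineCalculus H) (t : ℝ) (x : H) : D.wave t (D.wave (-t) x) = x := by
  rw [wave_wave, add_neg_cancel, wave_zero]; rfl

lemma inner_wave_left (D : LineCalculus H) (t : ℝ) (x y : H) :
    ⟪D.wave t x, y⟫_ℂ = ⟪x, D.wave (-t) y⟫_ℂ := by
  rw [← star_wave, ContinuousLinearMap.star_eq_adjoint, ContinuousLinearMap.adjoint_inner_right]

lemma inner_wave_right (D : LineCalculus H) (t : ℝ) (x y : H) :
    ⟪x, D.wave t y⟫_ℂ = ⟪D.wave (-t) x, y⟫_ℂ := by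
  rw [inner_wave_left, neg_neg]

lemma norm_wave (D : LineCalculus H) (t : ℝ) (x : H) : ‖D.wave t x‖ = ‖x‖ := by
  have h : ⟪D.wave t x, D.wave t x⟫_ℂ = ⟪x, x⟫_ℂ := by
    rw [inner_wave_left, wave_neg_wave]
  rw [norm_eq_sqrt_re_inner (𝕜 := ℂ), h, ← norm_eq_sqrt_re_inner (𝕜 := ℂ)]

lemma app_wave (D : LineCalculus H) (f : ℝ →ᵇ ℂ) (t : ℝ) (x : H) :
    D.apply f (D.wave t x) = D.wave t (D.apply f x) := app_comm D _ _ x

/-- cut-offs of norm at most one approximate every vector -/
lemma exists_cutoff (D : LineCalculus H) (x : H) (ε : ℝ) (hε : 0 < ε) :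
    ∃ χ : ℝ →ᵇ ℂ, HasCompactSupport (χ : ℝ → ℂ) ∧ ‖χ‖ ≤ 1 ∧ ‖D.apply χ x - x‖ < ε := by
  obtain ⟨f, hf, hfx⟩ := D.window x ε hε
  obtain ⟨g, hg1, -, hgc, hg⟩ := exists_continuous_one_zero_of_isCompact (X := ℝ)
    (s := tsupport (f : ℝ → ℂ)) (t := ∅) hf isClosed_empty (Set.disjoint_empty _)
  have hgc' : HasCompactSupport (fun u => ((g u : ℝ) : ℂ)) :=
    hgc.comp_left (g := fun r : ℝ => (r : ℂ)) (by simp)
  refine ⟨ofCpt (fun u => ((g u : ℝ) : ℂ)) (by fun_prop) hgc', hgc', ?_, ?_⟩
  · refine (BoundedContinuousFunction.norm_le zero_le_one).2 fun u => ?_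
    simp only [ofCpt_apply, Complex.norm_real, Real.norm_eq_abs]
    rw [abs_of_nonneg (hg u).1]; exact (hg u).2
  · set χ := ofCpt (fun u => ((g u : ℝ) : ℂ)) (by fun_prop) hgc'
    have h1 : (χ - 1) * f = 0 := by
      ext u
      simp only [BoundedContinuousFunction.coe_mul, BoundedContinuousFunction.coe_sub, Pi.mul_apply,
        Pi.sub_apply, BoundedContinuousFunction.coe_one, Pi.one_apply, χ, ofCpt_apply,
        BoundedContinuousFunction.coe_zero, Pi.zero_apply]
      by_cases hu : u ∈ tsupport (f : ℝ → ℂ)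
      · rw [hg1 hu]; simp
      · rw [image_eq_zero_of_notMem_tsupport hu]; simp
    have h2 : ‖χ - 1‖ ≤ 1 := by
      refine (BoundedContinuousFunction.norm_le zero_le_one).2 fun u => ?_
      simp only [BoundedContinuousFunction.coe_sub, Pi.sub_apply, BoundedContinuousFunction.coe_one,
        Pi.one_apply, χ, ofCpt_apply]
      rw [← Complex.ofReal_one, ← Complex.ofReal_sub, Complex.norm_real, Real.norm_eq_abs, abs_le]
      constructor <;> linarith [(hg u).1, (hg u).2]
    have h3 : D.apply χ x - x = - D.apply (χ - 1) (D.apply f x - x) := by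
      rw [map_sub (D.apply (χ - 1)), app_app, h1, map_zero, map_sub, map_one]; simp
    rw [h3, norm_neg]
    calc _ ≤ ‖χ - 1‖ * ‖D.apply f x - x‖ := norm_app_apply_le D _ _
      _ ≤ 1 * ‖D.apply f x - x‖ := by gcongr
      _ < ε := by rwa [one_mul]

lemma norm_le_of_cutoff (D : LineCalculus H) (y : H) (C : ℝ)
    (h : ∀ χ : ℝ →ᵇ ℂ, HasCompactSupport (χ : ℝ → ℂ) → ‖χ‖ ≤ 1 → ‖D.apply χ y‖ ≤ C) : ‖y‖ ≤ C := by
  refine le_of_forall_pos_le_add fun ε hε => ?_
  obtain ⟨χ, h1, h2, h3⟩ := exists_cutoff D y ε hε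
  calc ‖y‖ = ‖D.apply χ y - (D.apply χ y - y)‖ := by simp
    _ ≤ ‖D.apply χ y‖ + ‖D.apply χ y - y‖ := norm_sub_le _ _
    _ ≤ C + ε := add_le_add (h χ h1 h2) h3.le

lemma eq_of_cutoff (D : LineCalculus H) (y z : H)
    (h : ∀ χ : ℝ →ᵇ ℂ, HasCompactSupport (χ : ℝ → ℂ) → D.apply χ y = D.apply χ z) : y = z := by
  rw [← sub_eq_zero, ← norm_le_zero_iff]
  refine norm_le_of_cutoff D _ 0 fun χ h1 _ => ?_
  rw [map_sub, h χ h1, sub_self, norm_zero]

lemma continuous_character_mul (χ : ℝ →ᵇ ℂ) (hχ : HasCompactSupport (χ : ℝ → ℂ)) :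
    Continuous fun t : ℝ => χ * LineCalculus.character t := by
  obtain ⟨R, hR⟩ := hχ.isCompact.isBounded.subset_closedBall 0
  have hR' : ∀ u, χ u ≠ 0 → |u| ≤ max R 0 := fun u hu => by
    have := hR (subset_tsupport _ hu)
    rw [Metric.mem_closedBall, dist_zero_right, Real.norm_eq_abs] at this
    exact this.trans (le_max_left _ _)
  refine (LipschitzWith.of_dist_le_mul (K := ⟨‖χ‖ * max R 0, by positivity⟩) fun s t => ?_).continuous
  rw [dist_eq_norm]
  refine (BoundedContinuousFunction.norm_le (by positivity)).2 fun u => ?_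
  simp only [BoundedContinuousFunction.coe_sub, BoundedContinuousFunction.coe_mul, Pi.sub_apply,
    Pi.mul_apply]
  by_cases hu : χ u = 0
  · rw [hu]; simp only [zero_mul, sub_self, norm_zero]; positivity
  · have h1 : LineCalculus.character s u - LineCalculus.character t u =
        LineCalculus.character t u * (Complex.exp (Complex.I * (((s - t) * u : ℝ) : ℂ)) - 1) := by
      rw [mul_sub, mul_one, character_apply, character_apply, ← Complex.exp_add]
      congr 2; push_cast; ring
    rw [← mul_sub, h1, norm_mul, norm_mul, norm_character_apply, one_mul]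
    have h2 := Real.norm_exp_I_mul_ofReal_sub_one_le (x := (s - t) * u)
    rw [norm_mul, Real.norm_eq_abs, Real.norm_eq_abs] at h2
    calc ‖χ u‖ * _ ≤ ‖χ‖ * (|s - t| * max R 0) := by
          refine mul_le_mul (χ.norm_coe_le_norm u) (h2.trans ?_) (norm_nonneg _) (norm_nonneg _)
          exact mul_le_mul_of_nonneg_left (hR' u hu) (abs_nonneg _)
      _ = ‖χ‖ * max R 0 * dist s t := by rw [Real.dist_eq]; ring

/-- evaluation of the calculus at a vector, as a continuous linear map -/
noncomputable def appAt (D : LineCalculus H) (x : H) : (ℝ →ᵇ ℂ) →L[ℂ] H :=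
  LinearMap.mkContinuous
    { toFun := fun f => D.apply f x
      map_add' := fun f g => by simp
      map_smul' := fun c f => by simp } ‖x‖
    (fun f => by rw [mul_comm]; exact norm_app_apply_le D f x)

@[simp] lemma appAt_apply (D : LineCalculus H) (x : H) (f : ℝ →ᵇ ℂ) : appAt D x f = D.apply f x := rfl

lemma continuous_wave (D : LineCalculus H) (x : H) : Continuous fun t => D.wave t x := by
  refine continuous_of_uniform_approx_of_continuous fun u hu => ?_
  obtain ⟨ε, hε, hεu⟩ := Metric.mem_uniformity_dist.1 hu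
  obtain ⟨χ, h1, -, h3⟩ := exists_cutoff D x ε hε
  refine ⟨fun t => appAt D x (χ * LineCalculus.character t),
    (appAt D x).continuous.comp (continuous_character_mul χ h1), fun t => hεu ?_⟩
  beta_reduce
  rw [dist_eq_norm, appAt_apply, ← app_app, ← LineCalculus.wave, app_wave, ← map_sub, norm_wave,
    norm_sub_rev]
  exact h3

lemma continuous_wave₂ (D : LineCalculus H) :
    Continuous fun p : ℝ × H => D.wave p.1 p.2 := by
  refine continuous_prod_of_continuous_lipschitzWith' (fun p : ℝ × H => D.wave p.1 p.2) 1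
    (fun t => ?_) (fun x => continuous_wave D x)
  refine LipschitzWith.of_dist_le_mul fun x y => ?_
  rw [dist_eq_norm, ← map_sub, norm_wave, dist_eq_norm]; simp

/-- Fourier representation of the calculus -/
lemma integral_wave (D : LineCalculus H) (μ : Measure ℝ) (f : ℝ → ℂ) (hf : Integrable f μ)
    (τ : ℝ → ℝ) (hτ : Continuous τ) (g : ℝ →ᵇ ℂ)
    (hg : ∀ u, g u = ∫ w, f w * LineCalculus.character (τ w) u ∂μ) (y : H) :
    ∫ w, f w • D.wave (τ w) y ∂μ = D.apply g y := by
  have hint : Integrable (fun w => f w • D.wave (τ w) y) μ := by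
    refine hf.smul_of_top_left (memLp_top_of_bound
      ((continuous_wave D y).comp hτ).aestronglyMeasurable ‖y‖ (ae_of_all _ fun w => ?_))
    rw [norm_wave]
  refine eq_of_cutoff D _ _ fun χ hχ => ?_
  have hint2 : Integrable (fun w => f w • (χ * LineCalculus.character (τ w))) μ := by
    refine hf.smul_of_top_left (memLp_top_of_bound
      ((continuous_character_mul χ hχ).comp hτ).aestronglyMeasurable ‖χ‖ (ae_of_all _ fun w => ?_))
    refine (BoundedContinuousFunction.norm_le (norm_nonneg _)).2 fun u => ?_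
    simp only [BoundedContinuousFunction.coe_mul, Pi.mul_apply, norm_mul,
      norm_character_apply, mul_one]
    exact χ.norm_coe_le_norm u
  have h1 : ∫ w, f w • (χ * LineCalculus.character (τ w)) ∂μ = χ * g := by
    ext u
    have := (BoundedContinuousFunction.evalCLM ℂ u).integral_comp_comm hint2
    simp only [BoundedContinuousFunction.evalCLM_apply] at this
    rw [← this, BoundedContinuousFunction.coe_mul, Pi.mul_apply, hg, ← integral_const_mul]
    congr 1; ext w
    simp only [BoundedContinuousFunction.coe_smul, BoundedContinuousFunction.coe_mul, Pi.mul_apply,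
      smul_eq_mul]
    ring
  rw [← (D.apply χ).integral_comp_comm hint, app_app, ← h1, ← appAt_apply,
    ← (appAt D y).integral_comp_comm hint2]
  congr 1; ext w
  rw [map_smul, map_smul, appAt_apply, ← app_app]; rfl

/-! ### spectral supports -/

lemma supp_add {D : LineCalculus H} {K : Set ℝ} {x y : H} (hx : D.SupportedIn K x)
    (hy : D.SupportedIn K y) : D.SupportedIn K (x + y) := fun f hf => by
  rw [map_add, hx f hf, hy f hf, add_zero]

lemma supp_smul {D : LineCalculus H} {K : Set ℝ} {x : H} (c : ℂ) (hx : D.SupportedIn K x) :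
    D.SupportedIn K (c • x) := fun f hf => by
  rw [map_smul, hx f hf, smul_zero]

lemma supp_zero {D : LineCalculus H} {K : Set ℝ} : D.SupportedIn K (0 : H) := fun f _ => by
  rw [map_zero]

lemma supp_wave {D : LineCalculus H} {K : Set ℝ} {x : H} (t : ℝ) (hx : D.SupportedIn K x) :
    D.SupportedIn K (D.wave t x) := fun f hf => by
  rw [app_wave, hx f hf, map_zero]

lemma supp_app {D : LineCalculus H} {K : Set ℝ} (ψ : ℝ →ᵇ ℂ) (hψ : ∀ u, u ∉ K → ψ u = 0) (x : H) :
    D.SupportedIn K (D.apply ψ x) := fun f hf => by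
  have : f * ψ = 0 := by
    ext u
    by_cases hu : u ∈ K
    · simp [hf u hu]
    · simp [hψ u hu]
  rw [app_app, this, map_zero]; rfl

lemma app_eq_of_supp {D : LineCalculus H} {K : Set ℝ} {x : H} (hx : D.SupportedIn K x)
    (f g : ℝ →ᵇ ℂ) (h : ∀ u ∈ K, f u = g u) : D.apply f x = D.apply g x := by
  have := hx (f - g) (fun u hu => by simp [h u hu])
  rwa [map_sub, _root_.sub_apply, sub_eq_zero] at this

lemma norm_app_le_of_supp {D : LineCalculus H} {K : Set ℝ} {x : H} (hx : D.SupportedIn K x)
    (g : ℝ →ᵇ ℂ) (C : ℝ) (hC : 0 < C) (h : ∀ u ∈ K, ‖g u‖ ≤ C) : ‖D.apply g x‖ ≤ C * ‖x‖ := by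
  have hb : ∀ u, ‖(((C / max C ‖g u‖ : ℝ) : ℂ) * g u)‖ ≤ C := fun u => by
    have h0 : 0 < max C ‖g u‖ := lt_max_of_lt_left hC
    rw [norm_mul, Complex.norm_real, Real.norm_eq_abs, abs_of_pos (div_pos hC h0),
      div_mul_eq_mul_div, div_le_iff₀ h0]
    exact mul_le_mul_of_nonneg_left (le_max_right _ _) hC.le
  have hcont : Continuous fun u => (((C / max C ‖g u‖ : ℝ) : ℂ) * g u) := by
    refine Continuous.mul (Complex.continuous_ofReal.comp ?_) g.continuous
    exact continuous_const.div (by fun_prop) fun u => (lt_max_of_lt_left hC).ne'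
  let g' : ℝ →ᵇ ℂ := BoundedContinuousFunction.ofNormedAddCommGroup _ hcont C hb
  have h1 : D.apply g x = D.apply g' x := app_eq_of_supp hx g g' fun u hu => by
    simp only [g', BoundedContinuousFunction.coe_ofNormedAddCommGroup]
    rw [max_eq_left (h u hu), div_self hC.ne']; simp
  rw [h1]
  refine (norm_app_apply_le D g' x).trans (mul_le_mul_of_nonneg_right ?_ (norm_nonneg _))
  exact (BoundedContinuousFunction.norm_le hC.le).2 hb

end Crest.Agent.H3.Mod
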