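import Mathlib
import Crest.Prelude.Def_ModularData
import Crest.Agent.H3.ModCalc

/-! Modular flow: invariance of the vacuum, smearing, ergodic means. -/

set_option autoImplicit false

namespace Crest.Agent.H3.Mod

open MeasureTheory Filter Topology Crest.OpAlg
open scoped BoundedContinuousFunction InnerProductSpace

variable {H : Type*} [NormedAddCommGroup H] [InnerProductSpace ℂ H] [CompleteSpace H]

lemma halfExp_of_mem (S : ModularDatum H) {a : H →L[ℂ] H} (ha : a ∈ S.M) :
    S.D.HalfExp (a S.vac) (S.J (star a S.vac)) := by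
  have : (a S.vac, star a S.vac) ∈ closure (Set.range fun a : S.M =>
      ((a : H →L[ℂ] H) S.vac, star (a : H →L[ℂ] H) S.vac)) := subset_closure ⟨⟨a, ha⟩, rfl⟩
  rw [S.tomita] at this
  exact this

lemma inner_conjIso (J : H ≃ₗᵢ⋆[ℂ] H) (x y : H) : ⟪J x, J y⟫_ℂ = ⟪y, x⟫_ℂ := by
  have hre : ∀ x y : H, RCLike.re ⟪J x, J y⟫_ℂ = RCLike.re ⟪y, x⟫_ℂ := fun x y => by
    rw [re_inner_eq_norm_add_mul_self_sub_norm_mul_self_sub_norm_mul_self_div_two,
      re_inner_eq_norm_add_mul_self_sub_norm_mul_self_sub_norm_mul_self_div_two, ← map_add,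
      J.norm_map, J.norm_map, J.norm_map, add_comm y x]
    ring
  apply Complex.ext
  · exact hre x y
  · have := hre x (Complex.I • y)
    rw [LinearIsometryEquiv.map_smulₛₗ, inner_smul_right, inner_smul_left] at this
    simpa using this

lemma inner_of_halfExp (S : ModularDatum H) {p r : H} (h : S.D.HalfExp p r) :
    ⟪S.J S.vac, r⟫_ℂ = ⟪S.vac, p⟫_ℂ := by
  have h1 : (p, S.J r) ∈ closure (Set.range fun a : S.M =>
      ((a : H →L[ℂ] H) S.vac, star (a : H →L[ℂ] H) S.vac)) := by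
    rw [S.tomita]; simpa [S.J_J] using h
  have h2 : IsClosed {q : H × H | ⟪q.2, S.vac⟫_ℂ = ⟪S.vac, q.1⟫_ℂ} :=
    isClosed_eq (by fun_prop) (by fun_prop)
  have h3 := closure_minimal (s := Set.range fun a : S.M =>
      ((a : H →L[ℂ] H) S.vac, star (a : H →L[ℂ] H) S.vac)) (by
    rintro _ ⟨a, rfl⟩
    simp only [Set.mem_ofPred_eq, ContinuousLinearMap.star_eq_adjoint,
      ContinuousLinearMap.adjoint_inner_left]) h2 h1
  simp only [Set.mem_ofPred_eq] at h3
  rw [← h3]
  conv_rhs => rw [← S.J_J S.vac]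
  rw [inner_conjIso]

lemma cpt_mul_exp (f : ℝ →ᵇ ℂ) (hf : HasCompactSupport (f : ℝ → ℂ)) :
    ∃ g : ℝ →ᵇ ℂ, HasCompactSupport (g : ℝ → ℂ) ∧
      ∀ u : ℝ, g u = f u * ((Real.exp (u / 2) : ℝ) : ℂ) := by
  have hc : HasCompactSupport fun u : ℝ => f u * ((Real.exp (u / 2) : ℝ) : ℂ) := hf.mul_right
  exact ⟨ofCpt _ (by fun_prop) hc, hc, fun u => rfl⟩

lemma app_exp_vac (S : ModularDatum H) (f g : ℝ →ᵇ ℂ) (hf : HasCompactSupport (f : ℝ → ℂ))
    (hg : ∀ u : ℝ, g u = f u * ((Real.exp u : ℝ) : ℂ)) :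
    S.D.apply g S.vac = S.D.apply f S.vac := by
  obtain ⟨k, hkc, hk⟩ := cpt_mul_exp f hf
  have hvac : S.D.HalfExp S.vac (S.J S.vac) := by
    simpa using halfExp_of_mem S (one_mem S.M)
  have h1 : S.D.apply k (S.J S.vac) = S.D.apply g S.vac := hvac k g fun u => by
    rw [hk, hg, mul_assoc, ← Complex.ofReal_mul, ← Real.exp_add, add_halves]
  rw [← h1]
  refine ext_inner_right ℂ fun z => ?_
  rw [inner_app_left, inner_app_left]
  refine inner_of_halfExp S fun f' g' hfg => ?_
  rw [app_app, app_app]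
  congr 2
  ext u
  simp only [BoundedContinuousFunction.coe_mul, Pi.mul_apply, BoundedContinuousFunction.coe_star,
    Pi.star_apply, hk, hfg, star_mul', RCLike.star_def, Complex.conj_ofReal]
  ring

lemma wave_vac (S : ModularDatum H) (t : ℝ) : S.D.wave t S.vac = S.vac := by
  refine eq_of_cutoff S.D _ _ fun χ hχ => ?_
  -- the quotient (e^{itu} - 1) / (e^u - 1)
  let A : ℝ → ℂ := fun u => LineCalculus.character t u
  let B : ℝ → ℂ := fun u => ((Real.exp u : ℝ) : ℂ)
  have hA : Differentiable ℝ A := by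
    simp only [A, character_apply]; fun_prop
  have hB : Differentiable ℝ B := by
    have : B = Complex.ofRealCLM ∘ Real.exp := rfl
    rw [this]; fun_prop
  have hAc : Continuous (dslope A 0) := by
    rw [← continuousOn_univ, continuousOn_dslope univ_mem]
    exact ⟨hA.continuous.continuousOn, hA 0⟩
  have hBc : Continuous (dslope B 0) := by
    rw [← continuousOn_univ, continuousOn_dslope univ_mem]
    exact ⟨hB.continuous.continuousOn, hB 0⟩
  have hA1 : ∀ u : ℝ, (u : ℂ) * dslope A 0 u = A u - 1 := fun u => by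
    have := sub_smul_dslope A 0 u
    simpa [A] using this
  have hB1 : ∀ u : ℝ, (u : ℂ) * dslope B 0 u = B u - 1 := fun u => by
    have := sub_smul_dslope B 0 u
    simpa [B] using this
  have hB0 : ∀ u, dslope B 0 u ≠ 0 := fun u => by
    by_cases hu : u = 0
    · subst hu
      rw [dslope_same]
      have : HasDerivAt B ((Real.exp 0 : ℝ) : ℂ) 0 := (Real.hasDerivAt_exp 0).ofReal_comp
      rw [this.deriv]; simp
    · intro h0
      have := hB1 u
      rw [h0, mul_zero, eq_comm, sub_eq_zero] at this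
      apply hu
      simp only [B] at this
      have h2 : Real.exp u = 1 := by exact_mod_cast this
      exact Real.exp_eq_one_iff u |>.1 h2
  have hfc : HasCompactSupport fun u => χ u * (dslope A 0 u / dslope B 0 u) := hχ.mul_right
  let f : ℝ →ᵇ ℂ := ofCpt _ (χ.continuous.mul (hAc.div hBc hB0)) hfc
  have hgc : HasCompactSupport fun u => f u * B u := hfc.mul_right
  let g : ℝ →ᵇ ℂ := ofCpt _ (f.continuous.mul hB.continuous) hgc
  have h := app_exp_vac S f g hfc fun u => rfl
  have hgf : g - f = χ * LineCalculus.character t - χ := by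
    ext u
    simp only [BoundedContinuousFunction.coe_sub, Pi.sub_apply, g, f, ofCpt_apply,
      BoundedContinuousFunction.coe_mul, Pi.mul_apply]
    have e1 := hA1 u
    have e2 := hB1 u
    have e3 := hB0 u
    change χ u * (dslope A 0 u / dslope B 0 u) * B u - χ u * (dslope A 0 u / dslope B 0 u) =
      χ u * A u - χ u
    have e4 : B u = 1 + u * dslope B 0 u := by rw [e2]; ring
    have e5 : A u = 1 + u * dslope A 0 u := by rw [e1]; ring
    rw [e4, e5]; field_simp; ring
  rw [← sub_eq_zero, ← _root_.sub_apply, ← map_sub, hgf, map_sub, _root_.sub_apply,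
    sub_eq_zero] at h
  rw [← h, LineCalculus.wave, app_app]

lemma norm_star_vac_le (S : ModularDatum H) {a : H →L[ℂ] H} (ha : a ∈ S.M) {lo hi : ℝ}
    (hs : S.D.SupportedIn (Set.Icc lo hi) (a S.vac)) :
    ‖star a S.vac‖ ≤ Real.exp (hi / 2) * ‖a S.vac‖ := by
  rw [← S.J.norm_map]
  refine norm_le_of_cutoff S.D _ _ fun χ hχ hχ1 => ?_
  obtain ⟨g, -, hg⟩ := cpt_mul_exp χ hχ
  rw [halfExp_of_mem S ha χ g hg]
  refine norm_app_le_of_supp hs g _ (Real.exp_pos _) fun u hu => ?_
  rw [hg, norm_mul, Complex.norm_real, Real.norm_eq_abs, abs_of_pos (Real.exp_pos _)]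
  calc ‖χ u‖ * Real.exp (u / 2) ≤ 1 * Real.exp (hi / 2) := by
        refine mul_le_mul ((χ.norm_coe_le_norm u).trans hχ1) ?_ (Real.exp_pos _).le zero_le_one
        exact Real.exp_le_exp.2 (by linarith [hu.2])
    _ = _ := one_mul _

/-! ### the flow -/

lemma flow_apply (S : ModularDatum H) (t : ℝ) (a : H →L[ℂ] H) (z : H) :
    S.flow t a z = S.D.wave t (a (S.D.wave (-t) z)) := rfl

lemma flow_mem (S : ModularDatum H) (t : ℝ) {a : H →L[ℂ] H} (ha : a ∈ S.M) : S.flow t a ∈ S.M :=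
  S.flow_mem t a ha

lemma flow_vac (S : ModularDatum H) (t : ℝ) (a : H →L[ℂ] H) :
    S.flow t a S.vac = S.D.wave t (a S.vac) := by rw [flow_apply, wave_vac]

lemma norm_flow_apply_le (S : ModularDatum H) (t : ℝ) (a : H →L[ℂ] H) (z : H) :
    ‖S.flow t a z‖ ≤ ‖a‖ * ‖z‖ := by
  rw [flow_apply, norm_wave]
  simpa [norm_wave] using a.le_opNorm (S.D.wave (-t) z)

lemma continuous_flow (S : ModularDatum H) (a : H →L[ℂ] H) (z : H) :
    Continuous fun t => S.flow t a z := by
  simp only [flow_apply]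
  exact (continuous_wave₂ S.D).comp (continuous_id.prodMk
    (a.continuous.comp ((continuous_wave S.D z).comp continuous_neg)))

lemma star_flow (S : ModularDatum H) (t : ℝ) (a : H →L[ℂ] H) :
    star (S.flow t a) = S.flow t (star a) := by
  simp only [ModularDatum.flow, star_mul, star_wave, neg_neg, mul_assoc]

lemma flow_mul (S : ModularDatum H) (t : ℝ) (a b : H →L[ℂ] H) :
    S.flow t (a * b) = S.flow t a * S.flow t b := by
  ext z
  simp only [flow_apply, mul_apply_eq_comp, wave_neg_wave]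

lemma mem_of_commute (M : VonNeumannAlgebra H) {a : H →L[ℂ] H}
    (h : ∀ b ∈ M.commutant, b * a = a * b) : a ∈ M := by
  rw [← M.commutant_commutant, VonNeumannAlgebra.mem_commutant_iff]; exact h

lemma commute_of_mem (M : VonNeumannAlgebra H) {a b : H →L[ℂ] H} (ha : a ∈ M)
    (hb : b ∈ M.commutant) (z : H) : b (a z) = a (b z) := by
  have := VonNeumannAlgebra.mem_commutant_iff.1 hb a ha
  exact (congrArg (fun c : H →L[ℂ] H => c z) this).symm

/-! ### smearing -/

lemma integrable_smear (S : ModularDatum H) {μ : Measure ℝ} {f : ℝ → ℂ} (hf : Integrable f μ)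
    {τ : ℝ → ℝ} (hτ : Continuous τ) (a : H →L[ℂ] H) (z : H) :
    Integrable (fun w => f w • S.flow (τ w) a z) μ :=
  hf.smul_of_top_left (memLp_top_of_bound
    ((continuous_flow S a z).comp hτ).aestronglyMeasurable (‖a‖ * ‖z‖)
    (ae_of_all _ fun w => norm_flow_apply_le S (τ w) a z))

lemma norm_integral_smear_le (S : ModularDatum H) {μ : Measure ℝ} {f : ℝ → ℂ} (hf : Integrable f μ)
    (τ : ℝ → ℝ) (a : H →L[ℂ] H) (z : H) :
    ‖∫ w, f w • S.flow (τ w) a z ∂μ‖ ≤ (∫ w, ‖f w‖ ∂μ) * ‖a‖ * ‖z‖ := by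
  rw [mul_assoc, ← integral_mul_const]
  refine norm_integral_le_of_norm_le (hf.norm.mul_const _) (ae_of_all _ fun w => ?_)
  rw [norm_smul]
  exact mul_le_mul_of_nonneg_left (norm_flow_apply_le S _ a z) (norm_nonneg _)

/-- the operator `∫ f(w) σ_{τ w}(a) dμ(w)` -/
noncomputable def smear (S : ModularDatum H) {μ : Measure ℝ} {f : ℝ → ℂ} (hf : Integrable f μ)
    {τ : ℝ → ℝ} (hτ : Continuous τ) (a : H →L[ℂ] H) : H →L[ℂ] H :=
  LinearMap.mkContinuous
    { toFun := fun z => ∫ w, f w • S.flow (τ w) a z ∂μ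
      map_add' := fun y z => by
        rw [← integral_add (integrable_smear S hf hτ a y) (integrable_smear S hf hτ a z)]
        simp only [map_add, smul_add]
      map_smul' := fun c z => by
        rw [RingHom.id_apply, ← integral_smul]
        simp only [map_smul, smul_comm c] }
    ((∫ w, ‖f w‖ ∂μ) * ‖a‖) (norm_integral_smear_le S hf τ a)

lemma smear_apply (S : ModularDatum H) {μ : Measure ℝ} {f : ℝ → ℂ} (hf : Integrable f μ)
    {τ : ℝ → ℝ} (hτ : Continuous τ) (a : H →L[ℂ] H) (z : H) :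
    smear S hf hτ a z = ∫ w, f w • S.flow (τ w) a z ∂μ := rfl

lemma norm_smear_le (S : ModularDatum H) {μ : Measure ℝ} {f : ℝ → ℂ} (hf : Integrable f μ)
    {τ : ℝ → ℝ} (hτ : Continuous τ) (a : H →L[ℂ] H) :
    ‖smear S hf hτ a‖ ≤ (∫ w, ‖f w‖ ∂μ) * ‖a‖ :=
  LinearMap.mkContinuous_norm_le _
    (mul_nonneg (integral_nonneg fun _ => norm_nonneg _) (norm_nonneg _)) _

lemma smear_mem (S : ModularDatum H) {μ : Measure ℝ} {f : ℝ → ℂ} (hf : Integrable f μ)
    {τ : ℝ → ℝ} (hτ : Continuous τ) {a : H →L[ℂ] H} (ha : a ∈ S.M) : smear S hf hτ a ∈ S.M := by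
  refine mem_of_commute S.M fun b hb => ?_
  ext z
  simp only [mul_apply_eq_comp, smear_apply]
  rw [← b.integral_comp_comm (integrable_smear S hf hτ a z)]
  congr 1; ext w
  rw [map_smul, commute_of_mem S.M (flow_mem S _ ha) hb]

lemma smear_vac (S : ModularDatum H) {μ : Measure ℝ} {f : ℝ → ℂ} (hf : Integrable f μ)
    {τ : ℝ → ℝ} (hτ : Continuous τ) (a : H →L[ℂ] H) (g : ℝ →ᵇ ℂ)
    (hg : ∀ u, g u = ∫ w, f w * LineCalculus.character (τ w) u ∂μ) :
    smear S hf hτ a S.vac = S.D.apply g (a S.vac) := by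
  rw [smear_apply, ← integral_wave S.D μ f hf τ hτ g hg]
  simp only [flow_vac]

end Crest.Agent.H3.Mod
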