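import Mathlib
import Crest.Prelude.Def_ModularData
import Crest.Agent.H3.ModFlow

/-! Window means of the modular flow along an ultrafilter. -/

set_option autoImplicit false

namespace Crest.Agent.H3.Mod

open MeasureTheory Filter Topology Crest.OpAlg
open scoped BoundedContinuousFunction InnerProductSpace

section avg

variable {E : Type*} [NormedAddCommGroup E] [NormedSpace ℝ E]

/-- average over the window `[-k,k]` -/
noncomputable def avg (k : ℕ) (F : ℝ → E) : E := (2 * (k : ℝ))⁻¹ • ∫ t in (-(k : ℝ))..k, F t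

lemma windowMean_eq (F : ℝ → ℝ) (k : ℕ) : windowMean F k = avg k F := by
  have hk : (-(k : ℝ)) ≤ k := by
    have : (0 : ℝ) ≤ k := Nat.cast_nonneg k
    linarith
  rw [windowMean, setAverage_eq, avg, intervalIntegral.integral_of_le hk,
    integral_Icc_eq_integral_Ioc, Real.volume_real_Icc_of_le hk]
  congr 2; ring

lemma avg_neg (k : ℕ) (F : ℝ → E) : avg k (fun t => F (-t)) = avg k F := by
  simp only [avg]
  rw [intervalIntegral.integral_comp_neg, neg_neg]

lemma avg_add (k : ℕ) {F G : ℝ → E} (hF : Continuous F) (hG : Continuous G) :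
    avg k (fun t => F t + G t) = avg k F + avg k G := by
  simp only [avg]
  rw [intervalIntegral.integral_add (hF.intervalIntegrable _ _) (hG.intervalIntegrable _ _),
    smul_add]

lemma avg_sub (k : ℕ) {F G : ℝ → E} (hF : Continuous F) (hG : Continuous G) :
    avg k (fun t => F t - G t) = avg k F - avg k G := by
  simp only [avg]
  rw [intervalIntegral.integral_sub (hF.intervalIntegrable _ _) (hG.intervalIntegrable _ _),
    smul_sub]

lemma avg_const_mul (k : ℕ) (c : ℝ) (F : ℝ → ℝ) :
    avg k (fun t => c * F t) = c * avg k F := by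
  simp only [avg]
  rw [intervalIntegral.integral_const_mul, smul_eq_mul, smul_eq_mul]; ring

lemma avg_const [CompleteSpace E] {k : ℕ} (hk : 0 < k) (c : E) : avg k (fun _ => c) = c := by
  have : (0 : ℝ) < k := by exact_mod_cast hk
  simp only [avg, intervalIntegral.integral_const, smul_smul]
  rw [show (2 * (k : ℝ))⁻¹ * (k - -k) = 1 by field_simp; ring, one_smul]

lemma avg_re (k : ℕ) {F : ℝ → ℂ} (hF : Continuous F) :
    avg k (fun t => (F t).re) = (avg k F).re := by
  simp only [avg]
  have := Complex.reCLM.intervalIntegral_comp_comm (hF.intervalIntegrable (μ := volume) (-(k : ℝ)) k)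
  simp only [Complex.reCLM_apply] at this
  rw [this]; simp

lemma avg_mono (k : ℕ) {F G : ℝ → ℝ} (hF : Continuous F) (hG : Continuous G) (h : ∀ t, F t ≤ G t) :
    avg k F ≤ avg k G := by
  have hk : (0 : ℝ) ≤ k := Nat.cast_nonneg k
  simp only [avg, smul_eq_mul]
  refine mul_le_mul_of_nonneg_left ?_ (by positivity)
  exact intervalIntegral.integral_mono_on (by linarith) (hF.intervalIntegrable _ _)
    (hG.intervalIntegrable _ _) fun t _ => h t

lemma exists_avg_le (k : ℕ) (hk : 0 < k) {F : ℝ → ℝ} (hF : Continuous F) : ∃ t, avg k F ≤ F t := by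
  have : (0 : ℝ) < k := by exact_mod_cast hk
  rw [← windowMean_eq, windowMean]
  obtain ⟨t, -, ht⟩ := exists_setAverage_le (μ := volume) (s := Set.Icc (-(k : ℝ)) k) (f := F)
    (by simp; linarith) (by simp) (hF.continuousOn.integrableOn_Icc)
  exact ⟨t, ht⟩

lemma norm_avg_le (k : ℕ) {F : ℝ → E} {C : ℝ} (hC : ∀ t, ‖F t‖ ≤ C) : ‖avg k F‖ ≤ C := by
  have hC0 : 0 ≤ C := (norm_nonneg _).trans (hC 0)
  rcases Nat.eq_zero_or_pos k with rfl | hk
  · simpa [avg] using hC0
  have : (0 : ℝ) < k := by exact_mod_cast hk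
  rw [avg, norm_smul, Real.norm_eq_abs, abs_of_pos (by positivity)]
  have h := intervalIntegral.norm_integral_le_of_norm_le_const (a := -(k : ℝ)) (b := k) (f := F)
    (C := C) fun t _ => hC t
  rw [abs_of_pos (by linarith)] at h
  calc _ ≤ (2 * (k : ℝ))⁻¹ * (C * (k - -k)) := by gcongr
    _ = C := by field_simp; ring

lemma tendsto_avg_shift {F : ℝ → E} (hF : Continuous F) {C : ℝ} (hC : ∀ t, ‖F t‖ ≤ C) (s : ℝ) :
    Tendsto (fun k : ℕ => avg k (fun t => F (t + s)) - avg k F) atTop (𝓝 0) := by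
  have hC0 : 0 ≤ C := (norm_nonneg _).trans (hC 0)
  have hb : ∀ k : ℕ, ‖avg k (fun t => F (t + s)) - avg k F‖ ≤ C * |s| / k := fun k => by
    rcases Nat.eq_zero_or_pos k with rfl | hk
    · simp [avg]
    have : (0 : ℝ) < k := by exact_mod_cast hk
    rw [avg, avg, ← smul_sub, intervalIntegral.integral_comp_add_right,
      intervalIntegral.integral_interval_sub_interval_comm' (hF.intervalIntegrable _ _)
        (hF.intervalIntegrable _ _) (hF.intervalIntegrable _ _), norm_smul, Real.norm_eq_abs,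
      abs_of_pos (by positivity)]
    have h1 := intervalIntegral.norm_integral_le_of_norm_le_const (a := (k : ℝ)) (b := k + s)
      (f := F) (C := C) fun t _ => hC t
    have h2 := intervalIntegral.norm_integral_le_of_norm_le_const (a := -(k : ℝ)) (b := -k + s)
      (f := F) (C := C) fun t _ => hC t
    rw [add_sub_cancel_left] at h1 h2
    calc _ ≤ (2 * (k : ℝ))⁻¹ * (C * |s| + C * |s|) := by
          gcongr
          exact (norm_sub_le _ _).trans (add_le_add h1 h2)
      _ = _ := by field_simp; ring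
  exact squeeze_zero_norm hb (tendsto_const_div_atTop_nhds_zero_nat _)

lemma exists_tendsto_ultra {X : Type*} [NormedAddCommGroup X] [ProperSpace X] (ω : Ultrafilter ℕ)
    (f : ℕ → X) (C : ℝ) (hf : ∀ k, ‖f k‖ ≤ C) : ∃ x, Tendsto f ω (𝓝 x) := by
  obtain ⟨x, -, hx⟩ := (isCompact_closedBall (0 : X) C).ultrafilter_le_nhds (ω.map f) (by
    rw [le_principal_iff, Ultrafilter.coe_map, mem_map]
    exact univ_mem' fun k => by simpa using hf k)
  exact ⟨x, hx⟩

end avg

variable {H : Type*} [NormedAddCommGroup H] [InnerProductSpace ℂ H] [CompleteSpace H]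

/-- weak operator limits along an ultrafilter -/
lemma exists_wot_limit (ω : Ultrafilter ℕ) (A : ℕ → H →L[ℂ] H) (C : ℝ) (hA : ∀ k, ‖A k‖ ≤ C) :
    ∃ Y : H →L[ℂ] H, ∀ z w, Tendsto (fun k => ⟪z, A k w⟫_ℂ) ω (𝓝 ⟪z, Y w⟫_ℂ) := by
  have hb : ∀ z w k, ‖⟪z, A k w⟫_ℂ‖ ≤ C * ‖z‖ * ‖w‖ := fun z w k =>
    calc _ ≤ ‖z‖ * ‖A k w‖ := norm_inner_le_norm _ _
      _ ≤ ‖z‖ * (C * ‖w‖) := by
        gcongr
        exact ((A k).le_opNorm w).trans (mul_le_mul_of_nonneg_right (hA k) (norm_nonneg _))
      _ = _ := by ring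
  choose B hB using fun z w => exists_tendsto_ultra ω (fun k => ⟪z, A k w⟫_ℂ) _ (hb z w)
  let B₁ : H →ₛₗ[starRingEnd ℂ] H →ₗ[ℂ] ℂ := LinearMap.mk₂'ₛₗ (starRingEnd ℂ) (RingHom.id ℂ) B
    (fun z₁ z₂ w => tendsto_nhds_unique (hB _ _) (by
      simpa only [inner_add_left] using (hB z₁ w).add (hB z₂ w)))
    (fun c z w => tendsto_nhds_unique (hB _ _) (by
      simpa only [inner_smul_left, smul_eq_mul] using (hB z w).const_mul (starRingEnd ℂ c)))
    (fun z w₁ w₂ => tendsto_nhds_unique (hB _ _) (by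
      simpa only [map_add, inner_add_right] using (hB z w₁).add (hB z w₂)))
    (fun c z w => tendsto_nhds_unique (hB _ _) (by
      simpa only [map_smul, inner_smul_right, smul_eq_mul, RingHom.id_apply]
        using (hB z w).const_mul c))
  let B₂ : H →L⋆[ℂ] H →L[ℂ] ℂ := LinearMap.mkContinuous₂ B₁ C fun z w =>
    le_of_tendsto' (hB z w).norm (hb z w)
  refine ⟨ContinuousLinearMap.adjoint (InnerProductSpace.continuousLinearMapOfBilin B₂),
    fun z w => ?_⟩
  rw [ContinuousLinearMap.adjoint_inner_right, InnerProductSpace.continuousLinearMapOfBilin_apply]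
  exact hB z w

lemma continuous_inner_flow (S : ModularDatum H) (y : H →L[ℂ] H) (z w : H) :
    Continuous fun t => ⟪z, S.flow t y w⟫_ℂ :=
  continuous_const.inner (continuous_flow S y w)

lemma ergodic_mean (S : ModularDatum H) (herg : S.Ergodic) (ω : Ultrafilter ℕ)
    (hω : (ω : Filter ℕ) ≤ atTop) {y : H →L[ℂ] H} (hy : y ∈ S.M) (z w : H) :
    Tendsto (fun k => avg k fun t => ⟪z, S.flow t y w⟫_ℂ) ω
      (𝓝 (⟪S.vac, y S.vac⟫_ℂ * ⟪z, w⟫_ℂ)) := by
  have hint : ∀ k : ℕ, Integrable (fun _ : ℝ => (((2 * (k : ℝ))⁻¹ : ℝ) : ℂ))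
      (volume.restrict (Set.Ioc (-(k : ℝ)) k)) := fun k => integrable_const _
  let A : ℕ → H →L[ℂ] H := fun k => smear S (hint k) continuous_id y
  have hA : ∀ k z w, ⟪z, A k w⟫_ℂ = avg k fun t => ⟪z, S.flow t y w⟫_ℂ := fun k z w => by
    have hk : (-(k : ℝ)) ≤ k := by
      have : (0 : ℝ) ≤ k := Nat.cast_nonneg k
      linarith
    simp only [A, smear_apply]
    rw [← integral_inner (integrable_smear S (hint k) continuous_id y w), avg,
      intervalIntegral.integral_of_le hk, ← integral_smul]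
    congr 1; ext t
    rw [inner_smul_right]; simp
  have hAn : ∀ k, ‖A k‖ ≤ ‖y‖ := fun k => by
    refine ContinuousLinearMap.opNorm_le_bound _ (norm_nonneg _) fun w => ?_
    have h1 : ‖A k w‖ ^ 2 ≤ ‖A k w‖ * (‖y‖ * ‖w‖) := by
      rw [← inner_self_eq_norm_sq (𝕜 := ℂ)]
      refine (RCLike.re_le_norm _).trans ?_
      rw [hA]
      refine norm_avg_le k fun t => (norm_inner_le_norm _ _).trans ?_
      exact mul_le_mul_of_nonneg_left (norm_flow_apply_le S t y w) (norm_nonneg _)
    by_cases h0 : ‖A k w‖ = 0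
    · rw [h0]; positivity
    · have : 0 < ‖A k w‖ := lt_of_le_of_ne (norm_nonneg _) (Ne.symm h0)
      nlinarith
  obtain ⟨Y, hY⟩ := exists_wot_limit ω A ‖y‖ hAn
  have hAM : ∀ k, A k ∈ S.M := fun k => smear_mem S _ _ hy
  have hYM : Y ∈ S.M := by
    refine mem_of_commute S.M fun b hb => ?_
    ext w
    refine ext_inner_left ℂ fun z => ?_
    simp only [mul_apply_eq_comp]
    refine tendsto_nhds_unique ?_ (hY z (b w))
    have := hY (ContinuousLinearMap.adjoint b z) w
    simp only [ContinuousLinearMap.adjoint_inner_left] at this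
    simpa only [commute_of_mem S.M (hAM _) hb] using this
  have hYf : ∀ s, S.flow s Y = Y := fun s => by
    ext w
    refine ext_inner_left ℂ fun z => ?_
    rw [flow_apply, inner_wave_right]
    refine tendsto_nhds_unique (hY _ _) ?_
    have h1 := (tendsto_avg_shift (continuous_inner_flow S y z w) (C := ‖z‖ * (‖y‖ * ‖w‖))
      (fun t => (norm_inner_le_norm _ _).trans
        (mul_le_mul_of_nonneg_left (norm_flow_apply_le S t y w) (norm_nonneg _))) s).mono_left hω
    have h2 := h1.add (hY z w)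
    simp only [hA, sub_add_cancel, zero_add] at h2 ⊢
    convert h2 using 3 with k
    ext t
    rw [← inner_wave_right, flow_apply, flow_apply, wave_wave, wave_wave, add_comm s t, neg_add]
  obtain ⟨c, hc⟩ := herg Y hYM hYf
  have hc' : c = ⟪S.vac, y S.vac⟫_ℂ := by
    have h1 := hY S.vac S.vac
    have h2 : Tendsto (fun k => ⟪S.vac, A k S.vac⟫_ℂ) ω (𝓝 ⟪S.vac, y S.vac⟫_ℂ) := by
      refine tendsto_const_nhds.congr' ?_
      filter_upwards [hω (eventually_gt_atTop 0)] with k hk
      rw [hA]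
      simp only [flow_vac, inner_wave_right, wave_vac]
      exact (avg_const hk _).symm
    have h3 := tendsto_nhds_unique h1 h2
    rw [← h3, hc]
    simp [inner_self_eq_norm_sq_to_K, S.norm_vac]
  have := hY z w
  simp only [hA, hc] at this
  simpa [hc', inner_smul_right] using this

end Crest.Agent.H3.Mod
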