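import Mathlib
import Crest.Prelude.Def_ModularData
import Crest.Agent.H3.ModMean

/-! Greedy construction of elements with controlled fourth moment, and truncation. -/

set_option autoImplicit false

namespace Crest.Agent.H3.Mod

open MeasureTheory Filter Topology Crest.OpAlg
open scoped BoundedContinuousFunction InnerProductSpace

variable {H : Type*} [NormedAddCommGroup H] [InnerProductSpace ℂ H] [CompleteSpace H]

omit [CompleteSpace H] in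
lemma four_roots (p q r : H) :
    ‖p + (1 : ℂ) • q + star (1 : ℂ) • r‖ ^ 2 + ‖p + (-1 : ℂ) • q + star (-1 : ℂ) • r‖ ^ 2 +
      ‖p + Complex.I • q + star Complex.I • r‖ ^ 2 +
      ‖p + (-Complex.I) • q + star (-Complex.I) • r‖ ^ 2 = 4 * (‖p‖ ^ 2 + ‖q‖ ^ 2 + ‖r‖ ^ 2) := by
  have h1 := parallelogram_law_with_norm ℂ p (q + r)
  have h2 := parallelogram_law_with_norm ℂ p (Complex.I • (q - r))
  have h3 := parallelogram_law_with_norm ℂ q r
  rw [norm_smul, Complex.norm_I, one_mul] at h2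
  have e1 : p + (1 : ℂ) • q + star (1 : ℂ) • r = p + (q + r) := by simp [add_assoc]
  have e2 : p + (-1 : ℂ) • q + star (-1 : ℂ) • r = p - (q + r) := by simp; abel
  have e3 : p + Complex.I • q + star Complex.I • r = p + Complex.I • (q - r) := by
    simp [smul_sub]; abel
  have e4 : p + (-Complex.I) • q + star (-Complex.I) • r = p - Complex.I • (q - r) := by
    simp [smul_sub]; abel
  rw [e1, e2, e3, e4]
  nlinarith

omit [CompleteSpace H] in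
lemma four_roots' (p q : H) :
    ‖p + (1 : ℂ) • q‖ ^ 2 + ‖p + (-1 : ℂ) • q‖ ^ 2 + ‖p + Complex.I • q‖ ^ 2 +
      ‖p + (-Complex.I) • q‖ ^ 2 = 4 * (‖p‖ ^ 2 + ‖q‖ ^ 2) := by
  simpa using four_roots p q 0

lemma exists_root (Φ : ℂ → ℝ) : ∃ ε : ℂ, star ε * ε = 1 ∧
    (Φ 1 + Φ (-1) + Φ Complex.I + Φ (-Complex.I)) / 4 ≤ Φ ε := by
  by_contra h
  push Not at h
  have h1 := h 1 (by simp)
  have h2 := h (-1) (by simp)
  have h3 := h Complex.I (by simp)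
  have h4 := h (-Complex.I) (by simp)
  linarith

lemma star_mul_self_add (V X : H →L[ℂ] H) (ε : ℂ) (hε : star ε * ε = 1) (ξ : H) :
    (star (V + ε • X) * (V + ε • X)) ξ =
      ((star V * V) ξ + (star X * X) ξ) + ε • (star V * X) ξ + star ε • (star X * V) ξ := by
  have : star (V + ε • X) * (V + ε • X) =
      (star V * V + star X * X) + ε • (star V * X) + star ε • (star X * V) := by
    simp only [star_add, star_smul, add_mul, mul_add, smul_mul_assoc, mul_smul_comm, smul_smul,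
      mul_comm ε, hε, one_smul, smul_add]
    abel
  rw [this]; simp

lemma re_inner_star_mul (a : H →L[ℂ] H) (z : H) : (⟪z, (star a * a) z⟫_ℂ).re = ‖a z‖ ^ 2 := by
  rw [mul_apply_eq_comp, ContinuousLinearMap.star_eq_adjoint,
    ContinuousLinearMap.adjoint_inner_right]
  exact inner_self_eq_norm_sq (𝕜 := ℂ) _

lemma inner_star_mul (a : H →L[ℂ] H) (z : H) :
    ⟪z, (star a * a) z⟫_ℂ = ((‖a z‖ ^ 2 : ℝ) : ℂ) := by
  rw [mul_apply_eq_comp, ContinuousLinearMap.star_eq_adjoint,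
    ContinuousLinearMap.adjoint_inner_right, inner_self_eq_norm_sq_to_K]
  simp

lemma smul_mem' (M : VonNeumannAlgebra H) (c : ℂ) {a : H →L[ℂ] H} (ha : a ∈ M) : c • a ∈ M :=
  M.toStarSubalgebra.smul_mem ha c

lemma greedy_step (S : ModularDatum H) (herg : S.Ergodic) (ω : Ultrafilter ℕ)
    (hω : (ω : Filter ℕ) ≤ atTop) (T : H →L[ℂ] H) {x : H →L[ℂ] H} (hx : x ∈ S.M) {lo hi : ℝ}
    (hxs : S.D.SupportedIn (Set.Icc lo hi) (x S.vac)) (m : ℝ)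
    (hm : ∀ᶠ k in (ω : Filter ℕ), m ≤ avg k fun t => ‖T (S.D.wave t (x S.vac))‖ ^ 2)
    {l : ℝ} (hl : 0 ≤ l) (μ : ℝ) {η : ℝ} (hη : 0 < η) {V : H →L[ℂ] H} (hV : V ∈ S.M)
    (hVs : S.D.SupportedIn (Set.Icc lo hi) (V S.vac)) :
    ∃ W ∈ S.M, S.D.SupportedIn (Set.Icc lo hi) (W S.vac) ∧
      ‖T (V S.vac)‖ ^ 2 - l * ‖(star V * V) S.vac‖ ^ 2 - μ * ‖V S.vac‖ ^ 2 + m -
          l * (‖(star x * x) S.vac‖ ^ 2 + (2 + 2 * Real.exp hi) * ‖x S.vac‖ ^ 2 * ‖V S.vac‖ ^ 2) -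
          μ * ‖x S.vac‖ ^ 2 - η ≤
        ‖T (W S.vac)‖ ^ 2 - l * ‖(star W * W) S.vac‖ ^ 2 - μ * ‖W S.vac‖ ^ 2 := by
  set ξ := S.vac with hξ
  let G : ℝ → ℝ := fun t => ‖T (S.D.wave t (x ξ))‖ ^ 2
  let F₁ : ℝ → ℂ := fun t => ⟪(star V * V) ξ, S.flow t (star x * x) ξ⟫_ℂ
  let F₂ : ℝ → ℂ := fun t => ⟪x ξ, S.flow t (V * star V) (x ξ)⟫_ℂ
  let F₃ : ℝ → ℂ := fun t => ⟪V ξ, S.flow t (x * star x) (V ξ)⟫_ℂ
  have cG : Continuous G := (T.continuous.comp (continuous_wave S.D _)).norm.pow 2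
  have c₁ : Continuous F₁ := continuous_inner_flow S _ _ _
  have c₂ : Continuous F₂ := continuous_inner_flow S _ _ _
  have c₃ : Continuous F₃ := continuous_inner_flow S _ _ _
  have t₁ := ergodic_mean S herg ω hω (mul_mem (star_mem hx) hx) ((star V * V) ξ) ξ
  have t₂ := ergodic_mean S herg ω hω (mul_mem hV (star_mem hV)) (x ξ) (x ξ)
  have t₃ := ergodic_mean S herg ω hω (mul_mem hx (star_mem hx)) (V ξ) (V ξ)
  have v₁ : ⟪ξ, (star x * x) ξ⟫_ℂ * ⟪(star V * V) ξ, ξ⟫_ℂ =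
      ((‖x ξ‖ ^ 2 * ‖V ξ‖ ^ 2 : ℝ) : ℂ) := by
    rw [inner_star_mul, ← inner_conj_symm, inner_star_mul]; simp
  have v₂ : ⟪ξ, (V * star V) ξ⟫_ℂ * ⟪x ξ, x ξ⟫_ℂ = ((‖star V ξ‖ ^ 2 * ‖x ξ‖ ^ 2 : ℝ) : ℂ) := by
    have := inner_star_mul (star V) ξ
    rw [star_star] at this
    rw [this, inner_self_eq_norm_sq_to_K]; simp
  have v₃ : ⟪ξ, (x * star x) ξ⟫_ℂ * ⟪V ξ, V ξ⟫_ℂ = ((‖star x ξ‖ ^ 2 * ‖V ξ‖ ^ 2 : ℝ) : ℂ) := by
    have := inner_star_mul (star x) ξ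
    rw [star_star] at this
    rw [this, inner_self_eq_norm_sq_to_K]; simp
  rw [← hξ, v₁] at t₁
  rw [← hξ, v₂] at t₂
  rw [← hξ, v₃] at t₃
  have b₂ : ‖star V ξ‖ ^ 2 ≤ Real.exp hi * ‖V ξ‖ ^ 2 := by
    have := norm_star_vac_le S hV hVs
    calc _ ≤ (Real.exp (hi / 2) * ‖V ξ‖) ^ 2 := by gcongr
      _ = _ := by rw [mul_pow, sq (Real.exp _), ← Real.exp_add, add_halves]
  have b₃ : ‖star x ξ‖ ^ 2 ≤ Real.exp hi * ‖x ξ‖ ^ 2 := by
    have := norm_star_vac_le S hx hxs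
    calc _ ≤ (Real.exp (hi / 2) * ‖x ξ‖) ^ 2 := by gcongr
      _ = _ := by rw [mul_pow, sq (Real.exp _), ← Real.exp_add, add_halves]
  have tall : Tendsto (fun k => l * (2 * (avg k F₁).re + (avg k F₂).re + (avg k F₃).re)) ω
      (𝓝 (l * (2 * (‖x ξ‖ ^ 2 * ‖V ξ‖ ^ 2) + ‖star V ξ‖ ^ 2 * ‖x ξ‖ ^ 2 +
        ‖star x ξ‖ ^ 2 * ‖V ξ‖ ^ 2))) := by
    have r₁ := (Complex.continuous_re.tendsto _).comp t₁
    have r₂ := (Complex.continuous_re.tendsto _).comp t₂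
    have r₃ := (Complex.continuous_re.tendsto _).comp t₃
    rw [Complex.ofReal_re] at r₁ r₂ r₃
    exact (((r₁.const_mul 2).add r₂).add r₃).const_mul l
  have hlt : l * (2 * (‖x ξ‖ ^ 2 * ‖V ξ‖ ^ 2) + ‖star V ξ‖ ^ 2 * ‖x ξ‖ ^ 2 +
        ‖star x ξ‖ ^ 2 * ‖V ξ‖ ^ 2) <
      l * ((2 + 2 * Real.exp hi) * ‖x ξ‖ ^ 2 * ‖V ξ‖ ^ 2) + η := by
    have : 2 * (‖x ξ‖ ^ 2 * ‖V ξ‖ ^ 2) + ‖star V ξ‖ ^ 2 * ‖x ξ‖ ^ 2 +
        ‖star x ξ‖ ^ 2 * ‖V ξ‖ ^ 2 ≤ (2 + 2 * Real.exp hi) * ‖x ξ‖ ^ 2 * ‖V ξ‖ ^ 2 := by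
      nlinarith [mul_le_mul_of_nonneg_right b₂ (sq_nonneg ‖x ξ‖),
        mul_le_mul_of_nonneg_right b₃ (sq_nonneg ‖V ξ‖)]
    linarith [mul_le_mul_of_nonneg_left this hl]
  obtain ⟨k, hk1, hk2, hk3⟩ := (hm.and ((tall.eventually (gt_mem_nhds hlt)).and
    (hω (eventually_gt_atTop 0)))).exists
  let Ψ : ℝ → ℝ := fun t => G t - l * (2 * (F₁ t).re + (F₂ (-t)).re + (F₃ t).re)
  have cΨ : Continuous Ψ := by simp only [Ψ]; fun_prop
  obtain ⟨t, ht⟩ := exists_avg_le k hk3 cΨ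
  have hΨ : avg k Ψ = avg k G - l * (2 * (avg k F₁).re + (avg k F₂).re + (avg k F₃).re) := by
    simp only [Ψ]
    rw [avg_sub k cG (by fun_prop), avg_const_mul, avg_add k (by fun_prop) (by fun_prop),
      avg_add k (by fun_prop) (by fun_prop), avg_const_mul, avg_re k c₁,
      avg_neg k (fun t => (F₂ t).re), avg_re k c₂, avg_re k c₃]
  set X := S.flow t x with hX
  have hXξ : X ξ = S.D.wave t (x ξ) := flow_vac S t x
  obtain ⟨ε, hε1, hε⟩ := exists_root fun ε => ‖T ((V + ε • X) ξ)‖ ^ 2 -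
    l * ‖(star (V + ε • X) * (V + ε • X)) ξ‖ ^ 2 - μ * ‖(V + ε • X) ξ‖ ^ 2
  refine ⟨V + ε • X, add_mem hV (smul_mem' _ _ (flow_mem S t hx)), ?_, le_trans ?_ hε⟩
  · rw [_root_.add_apply, _root_.smul_apply, hXξ]
    exact supp_add hVs (supp_smul _ (supp_wave t hxs))
  rw [star_mul_self_add V X 1 (by simp), star_mul_self_add V X (-1) (by simp),
    star_mul_self_add V X Complex.I (by simp), star_mul_self_add V X (-Complex.I) (by simp)]
  simp only [_root_.add_apply, _root_.smul_apply, map_add, map_smul]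
  have f1 := four_roots ((star V * V) ξ + (star X * X) ξ) ((star V * X) ξ) ((star X * V) ξ)
  have f2 := four_roots' (T (V ξ)) (T (X ξ))
  have f3 := four_roots' (V ξ) (X ξ)
  have e0 : ‖T (X ξ)‖ ^ 2 = G t := by rw [hXξ]
  have e1 : ‖X ξ‖ = ‖x ξ‖ := by rw [hXξ, norm_wave]
  have hXX : star X * X = S.flow t (star x * x) := by rw [flow_mul, ← star_flow]
  have hXX' : X * star X = S.flow t (x * star x) := by rw [flow_mul, ← star_flow]
  have e2 : ‖(star V * V) ξ + (star X * X) ξ‖ ^ 2 =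
      ‖(star V * V) ξ‖ ^ 2 + 2 * (F₁ t).re + ‖(star x * x) ξ‖ ^ 2 := by
    rw [@norm_add_sq ℂ, hXX, flow_vac, norm_wave, ← flow_vac]; rfl
  have e3 : ‖(star V * X) ξ‖ ^ 2 = (F₂ (-t)).re := by
    have := re_inner_star_mul (star V) (X ξ)
    rw [star_star] at this
    rw [mul_apply_eq_comp, ← this, hXξ, inner_wave_left]
    simp only [F₂, flow_apply, neg_neg]
  have e4 : ‖(star X * V) ξ‖ ^ 2 = (F₃ t).re := by
    have := re_inner_star_mul (star X) (V ξ)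
    rw [star_star] at this
    rw [mul_apply_eq_comp, ← this, hXX']
  rw [e2, e3, e4] at f1
  rw [e0] at f2
  rw [e1] at f3
  have ht' : avg k Ψ ≤ G t - l * (2 * (F₁ t).re + (F₂ (-t)).re + (F₃ t).re) := ht
  have hk1' : m ≤ avg k G := hk1
  rw [hΨ] at ht'
  have g1 := congrArg (fun r => l * r) f1
  have g3 := congrArg (fun r => μ * r) f3
  linarith

lemma greedy (S : ModularDatum H) (herg : S.Ergodic) (ω : Ultrafilter ℕ)
    (hω : (ω : Filter ℕ) ≤ atTop) (T : H →L[ℂ] H) {x : H →L[ℂ] H} (hx : x ∈ S.M) {lo hi : ℝ}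
    (hxs : S.D.SupportedIn (Set.Icc lo hi) (x S.vac)) (m : ℝ)
    (hm : ∀ᶠ k in (ω : Filter ℕ), m ≤ avg k fun t => ‖T (S.D.wave t (x S.vac))‖ ^ 2)
    {l : ℝ} (hl : 0 ≤ l) {η : ℝ} (hη : 0 < η) :
    ∃ v ∈ S.M, m - l * ((2 + 2 * Real.exp hi) * ‖x S.vac‖ ^ 4 + 1) - η ≤
      ‖T (v S.vac)‖ ^ 2 - l * ‖(star v * v) S.vac‖ ^ 2 := by
  set ξ := S.vac with hξ
  set L := ‖(star x * x) ξ‖ ^ 2 with hL
  set a := ‖x ξ‖ ^ 2 with ha
  set B := (2 + 2 * Real.exp hi) * a with hB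
  have hL0 : 0 ≤ L := sq_nonneg _
  have ha0 : 0 ≤ a := sq_nonneg _
  have hB0 : 0 ≤ B := by positivity
  obtain ⟨N, hN⟩ := exists_nat_gt L
  have hN0 : (0 : ℝ) < N := lt_of_le_of_lt hL0 hN
  set γ := m - l * (B * a + 1) - η with hγ
  have key : ∀ j : ℕ, j ≤ N → ∃ V ∈ S.M, S.D.SupportedIn (Set.Icc lo hi) (V ξ) ∧
      j * γ ≤ ‖T (V ξ)‖ ^ 2 - l / N * ‖(star V * V) ξ‖ ^ 2 - l / N * (N - j) * B * ‖V ξ‖ ^ 2 := by
    intro j
    induction j with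
    | zero => exact fun _ => ⟨0, zero_mem _, by simpa using supp_zero, by simp⟩
    | succ j ih =>
      intro hj
      obtain ⟨V, hV, hVs, hVe⟩ := ih (Nat.le_of_succ_le hj)
      obtain ⟨W, hW, hWs, hWe⟩ := greedy_step S herg ω hω T hx hxs m hm (l := l / N)
        (by positivity) (l / N * (N - (j + 1 : ℕ)) * B) hη hV hVs
      refine ⟨W, hW, hWs, le_trans ?_ hWe⟩
      rw [← hξ, ← hL, ← ha, ← hB]
      have hj' : ((j + 1 : ℕ) : ℝ) ≤ N := by exact_mod_cast hj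
      rw [Nat.cast_succ] at hj' ⊢
      have h1 : l / N * L ≤ l := by
        rw [div_mul_eq_mul_div, div_le_iff₀ hN0]; exact mul_le_mul_of_nonneg_left hN.le hl
      have h2 : l / N * (N - (j + 1)) * B * a ≤ l * (B * a) := by
        have : l / N * (N - (j + 1)) ≤ l := by
          rw [div_mul_eq_mul_div, div_le_iff₀ hN0]
          refine mul_le_mul_of_nonneg_left ?_ hl
          have : (0 : ℝ) ≤ j := Nat.cast_nonneg j
          linarith
        rw [mul_assoc _ B a]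
        exact mul_le_mul_of_nonneg_right this (by positivity)
      rw [hγ] at hVe ⊢
      linarith
  obtain ⟨V, hV, -, hVe⟩ := key N le_rfl
  rw [sub_self, mul_zero, zero_mul, zero_mul, sub_zero] at hVe
  set c : ℝ := (Real.sqrt N)⁻¹ with hc
  have hc2 : c ^ 2 = (N : ℝ)⁻¹ := by rw [hc, inv_pow, Real.sq_sqrt hN0.le]
  refine ⟨(c : ℂ) • V, smul_mem' _ _ hV, ?_⟩
  have e1 : ‖T (((c : ℂ) • V) ξ)‖ ^ 2 = (N : ℝ)⁻¹ * ‖T (V ξ)‖ ^ 2 := by
    rw [_root_.smul_apply, map_smul, norm_smul, mul_pow, Complex.norm_real, Real.norm_eq_abs,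
      sq_abs, hc2]
  have e2 : ‖(star ((c : ℂ) • V) * ((c : ℂ) • V)) ξ‖ ^ 2 =
      (N : ℝ)⁻¹ * (N : ℝ)⁻¹ * ‖(star V * V) ξ‖ ^ 2 := by
    rw [star_smul, smul_mul_smul_comm, _root_.smul_apply, norm_smul, norm_mul, norm_star, mul_pow,
      mul_pow, Complex.norm_real, Real.norm_eq_abs, sq_abs, hc2]
  rw [e1, e2]
  have e3 : m - l * ((2 + 2 * Real.exp hi) * ‖x ξ‖ ^ 4 + 1) - η = γ := by
    rw [hγ, hB, ha]; ring
  rw [e3]
  have := mul_le_mul_of_nonneg_left hVe (inv_nonneg.2 hN0.le)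
  rw [← mul_assoc, inv_mul_cancel₀ hN0.ne', one_mul] at this
  calc γ ≤ _ := this
    _ = _ := by ring

/-- truncation of an element with bounded fourth moment -/
lemma exists_trunc (M : VonNeumannAlgebra H) {v : H →L[ℂ] H} (hv : v ∈ M) {R : ℝ} (hR : 0 < R) :
    ∃ w ∈ M, ‖w‖ ≤ R ∧ ∀ ξ : H, R * ‖v ξ - w ξ‖ ≤ ‖(star v * v) ξ‖ := by
  set p := star v * v with hp
  have hp0 : 0 ≤ p := star_mul_self_nonneg v
  have hu : IsUnit (algebraMap ℝ (H →L[ℂ] H) (R ^ 2) + p) := by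
    have : (-(R ^ 2) : ℝ) ∉ spectrum ℝ p := fun h => by
      have := spectrum_nonneg_of_nonneg hp0 h
      nlinarith
    rw [spectrum.notMem_iff] at this
    have h2 := this.neg
    rwa [map_neg, neg_sub, sub_neg_eq_add, add_comm] at h2
  obtain ⟨u, hu⟩ := hu
  have hu' : (u : H →L[ℂ] H) = ((R ^ 2 : ℝ) : ℂ) • 1 + p := by
    rw [hu, Algebra.algebraMap_eq_smul_one]; rfl
  have huM : (u : H →L[ℂ] H) ∈ M := by
    rw [hu']; exact add_mem (smul_mem' _ _ (one_mem _)) (mul_mem (star_mem hv) hv)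
  have hrM : (↑u⁻¹ : H →L[ℂ] H) ∈ M := mem_of_commute M fun b hb => by
    have : Commute b (u : H →L[ℂ] H) := (VonNeumannAlgebra.mem_commutant_iff.1 hb _ huM).symm
    exact this.units_inv_right
  set r : H →L[ℂ] H := ↑u⁻¹ with hr
  have hur : ∀ y, ((R ^ 2 : ℝ) : ℂ) • r y + p (r y) = y := fun y => by
    have := congrArg (fun c : H →L[ℂ] H => c y) u.mul_inv
    simp only [mul_apply_eq_comp, hu'] at this
    simpa using this
  have hru : ∀ y, ((R ^ 2 : ℝ) : ℂ) • r y + r (p y) = y := fun y => by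
    have := congrArg (fun c : H →L[ℂ] H => c y) u.inv_mul
    simp only [mul_apply_eq_comp, hu'] at this
    simpa using this
  have hb : ∀ y, R * ‖v (r y)‖ ≤ ‖y‖ := fun y => by
    have h1 : ‖y‖ ^ 2 = ‖((R ^ 2 : ℝ) : ℂ) • r y‖ ^ 2 + 2 * (R ^ 2 * ‖v (r y)‖ ^ 2) +
        ‖p (r y)‖ ^ 2 := by
      conv_lhs => rw [← hur y]
      rw [@norm_add_sq ℂ, inner_smul_left, hp, inner_star_mul]
      simp only [Complex.conj_ofReal, ← Complex.ofReal_mul, RCLike.re_to_complex, Complex.ofReal_re]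
    refine abs_le_of_sq_le_sq' ?_ (norm_nonneg _) |>.2
    nlinarith [sq_nonneg ‖((R ^ 2 : ℝ) : ℂ) • r y‖, sq_nonneg ‖p (r y)‖, sq_nonneg (R * ‖v (r y)‖)]
  refine ⟨((R ^ 2 : ℝ) : ℂ) • (v * r), smul_mem' _ _ (mul_mem hv hrM), ?_, fun ξ => ?_⟩
  · refine ContinuousLinearMap.opNorm_le_bound _ hR.le fun y => ?_
    rw [_root_.smul_apply, norm_smul, Complex.norm_real, Real.norm_eq_abs,
      abs_of_pos (by positivity), mul_apply_eq_comp, sq, mul_assoc]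
    exact mul_le_mul_of_nonneg_left (hb y) hR.le
  · have : v ξ - (((R ^ 2 : ℝ) : ℂ) • (v * r)) ξ = v (r (p ξ)) := by
      have h := congrArg v (hru ξ)
      rw [map_add, map_smul] at h
      rw [_root_.smul_apply, mul_apply_eq_comp, sub_eq_iff_eq_add, add_comm]
      exact h.symm
    rw [this]
    exact hb _

end Crest.Agent.H3.Mod
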