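import Crest.Agent.Lead.P3I

/-! Row 40, P3: thin, trans. -/

set_option autoImplicit false

namespace Crest.Agent.H3.P3
open MeasureTheory Metric Set Filter Topology
open Crest.Agent.H2.Gm Crest.Agent.Lead.P3

lemma norm_e (t : ℝ) : ‖e t‖ = 1 := by simp [e]

lemma e_add (s t : ℝ) : e (s + t) = e s * e t := by
  simp [e, add_mul, Complex.exp_add]

lemma e_pi : e Real.pi = -1 := by simp [e]

lemma e_add_pi (s : ℝ) : e (s + Real.pi) = -e s := by rw [e_add, e_pi]; ring

lemma e_eq (t : ℝ) : e t = Real.cos t + Real.sin t * Complex.I := by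
  rw [e, Complex.exp_mul_I]; simp

lemma norm_e_add_sq (s t : ℝ) : ‖e s + e t‖ ^ 2 = 2 + 2 * Real.cos (s - t) := by
  rw [Complex.sq_norm, Complex.normSq_apply, e_eq, e_eq, Real.cos_sub]
  simp only [Complex.add_re, Complex.ofReal_re, Complex.mul_re, Complex.I_re, mul_zero,
    Complex.ofReal_im, Complex.I_im, mul_one, sub_self, add_zero, Complex.add_im, Complex.mul_im,
    zero_add]
  nlinarith [Real.sin_sq_add_cos_sq s, Real.sin_sq_add_cos_sq t]

lemma norm_e_add {s t : ℝ} (h : Real.sin (s - t) ≠ 0) : 0 < ‖e s + e t‖ ∧ ‖e s + e t‖ < 2 := by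
  have h1 := norm_e_add_sq s t
  have h2 := Real.sin_sq_add_cos_sq (s - t)
  have h3 : 0 < Real.sin (s - t) ^ 2 := by positivity
  have h4 : |Real.cos (s - t)| < 1 := by
    rw [← sq_lt_one_iff_abs_lt_one]; linarith
  obtain ⟨h5, h6⟩ := abs_lt.1 h4
  have h0 := norm_nonneg (e s + e t)
  constructor
  · rcases h0.lt_or_eq with h | h
    · exact h
    · rw [← h] at h1; linarith
  · nlinarith

lemma norm_e_sub_le (s t : ℝ) : ‖e s - e t‖ ≤ |s - t| := by
  have h : e s - e t = e t * (e (s - t) - 1) := by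
    rw [mul_sub, ← e_add, mul_one]; congr 2; ring
  rw [h, norm_mul, norm_e, one_mul, e]
  rw [mul_comm]
  exact Real.norm_exp_I_mul_ofReal_sub_one_le

lemma tendsto_mul_nhdsGT {L : ℝ} (hL : 0 < L) :
    Tendsto (fun r : ℝ => L * r) (𝓝[>] 0) (𝓝[>] 0) := by
  refine tendsto_nhdsWithin_iff.2 ⟨?_, ?_⟩
  · have : Tendsto (fun r : ℝ => L * r) (𝓝 0) (𝓝 (L * 0)) := (continuous_const.mul continuous_id).tendsto 0
    rw [mul_zero] at this
    exact this.mono_left nhdsWithin_le_nhds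
  · filter_upwards [self_mem_nhdsWithin] with r hr using mul_pos hL hr

theorem thinStmt (hG : GeoStmt) : ThinStmt := by
  intro C x P j s t hs hst ε hε
  obtain ⟨L, hL, r₀, hr₀, H⟩ := hG.2 _ (abs_pos.2 hst)
  obtain ⟨-, hsplit, -⟩ := H s t le_rfl
  obtain ⟨n0, n2⟩ := norm_e_add hst
  have hL0 : 0 < L := by linarith
  have h1 := (tendsto_mul_nhdsGT hL0).eventually (hs (ε / (2 * L ^ 2)) (by positivity))
  filter_upwards [h1, Ioo_mem_nhdsGT hr₀, Ioo_mem_nhdsGT n0, Ioo_mem_nhdsGT (sub_pos.2 n2)]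
    with ρ h1 h2 h3 h4
  set T : Set (ℝ × ℝ) := (Icc (s - L * ρ) (s + L * ρ) \ P.S j) ×ˢ Icc (t - L * ρ) (t + L * ρ)
  have hT : MeasurableSet T := (measurableSet_Icc.diff (P.meas j)).prod measurableSet_Icc
  have hsub : C.A j ∩ ball (x + e s + e t) ρ ⊆ (fun y => -x + y) ⁻¹' (Xi '' T) := by
    rintro y ⟨hy, hb⟩
    have hq : ‖(y - x) - (e s + e t)‖ < ρ := by
      rw [mem_ball, dist_eq_norm] at hb
      rwa [show y - x - (e s + e t) = y - (x + e s + e t) by ring]
    obtain ⟨s', t', e1, e2, e3⟩ := hsplit (y - x) (hq.le.trans h2.2.le)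
    have e2' : |s' - s| ≤ L * ρ := e2.trans (by gcongr)
    have e3' : |t' - t| ≤ L * ρ := e3.trans (by gcongr)
    refine ⟨(s', t'), ⟨⟨?_, fun hS => ?_⟩, ?_⟩, ?_⟩
    · rw [abs_le] at e2'; constructor <;> linarith [e2'.1, e2'.2]
    · have hd : dist y (x + e s') = 1 := by
        rw [dist_eq_norm, show y - (x + e s') = e t' by linear_combination e1, norm_e]
      rcases P.L3 j s' hS y hy hd with h | h
      · rw [h, sub_self, zero_sub, norm_neg] at hq
        linarith [h3.2]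
      · have : ‖y - x‖ = 2 := by
          rw [h, add_sub_cancel_left, norm_mul, norm_e]; simp
        have h5 := norm_sub_norm_le (y - x) (e s + e t)
        linarith [h4.2]
    · rw [abs_le] at e3'; constructor <;> linarith [e3'.1, e3'.2]
    · simp only [Xi]
      linear_combination -e1
  calc volume (C.A j ∩ ball (x + e s + e t) ρ) ≤ volume (Xi '' T) := by
        refine (measure_mono hsub).trans ?_
        rw [measure_preimage_add]
    _ ≤ volume T := hG.1 T hT
    _ = volume (Icc (s - L * ρ) (s + L * ρ) \ P.S j) * ENNReal.ofReal (2 * (L * ρ)) := by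
        rw [Measure.volume_eq_prod, Measure.prod_prod, Real.volume_Icc]
        congr 2; ring
    _ ≤ ENNReal.ofReal (ε / (2 * L ^ 2) * (L * ρ)) * ENNReal.ofReal (2 * (L * ρ)) := by gcongr
    _ = _ := by
        rw [← ENNReal.ofReal_mul (by have := h2.1; positivity)]
        congr 1; field_simp

theorem transStmt : TransStmt := by
  classical
  intro C ι _ y B hB
  set n : ℝ := (Fintype.card ι : ℝ)
  have hn : 0 ≤ n := Nat.cast_nonneg _
  set γ : ℝ := 1 / (5 * n + 1)
  have hγ : 0 < γ := by positivity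
  have h1 : ∀ᶠ ρ : ℝ in 𝓝[>] 0, ∀ p : ι × Fin 5, B p.1 p.2 →
      volume (C.A p.2 ∩ ball (y p.1) ρ) ≤ ENNReal.ofReal (γ * ρ ^ 2) := by
    refine eventually_all.2 fun p => ?_
    by_cases h : B p.1 p.2
    · filter_upwards [hB _ _ h γ hγ] with ρ hρ _ using hρ
    · exact Eventually.of_forall fun _ h' => absurd h' h
  obtain ⟨ρ, hρ, hρ0⟩ := (h1.and self_mem_nhdsWithin).exists
  have hρ0' : 0 < ρ := hρ0
  set N : ι × Fin 5 → Set ℂ := fun p =>
    if B p.1 p.2 then (fun τ => y p.1 + τ) ⁻¹' (C.A p.2 ∩ ball (y p.1) ρ) else ∅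
  have hN : ∀ p, volume (N p) ≤ ENNReal.ofReal (γ * ρ ^ 2) := by
    intro p
    simp only [N]
    split_ifs with h
    · rw [measure_preimage_add]; exact hρ p h
    · simp
  have h2 : volume (⋃ p, N p) < volume (ball (0 : ℂ) ρ) := by
    refine (measure_iUnion_fintype_le _ _).trans_lt ?_
    refine (Finset.sum_le_card_nsmul _ _ _ fun p _ => hN p).trans_lt ?_
    rw [vol_ball _ hρ0'.le, nsmul_eq_mul, ← ENNReal.ofReal_natCast, ← ENNReal.ofReal_mul (by positivity)]
    refine (ENNReal.ofReal_lt_ofReal_iff (by positivity)).2 ?_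
    rw [← mul_assoc]
    gcongr
    have : ((Finset.univ : Finset (ι × Fin 5)).card : ℝ) = 5 * n := by
      simp [n]; ring
    rw [this, mul_one_div, div_lt_iff₀ (by positivity)]
    nlinarith [Real.pi_gt_three]
  have h3 : ∀ᵐ τ : ℂ, ∀ v, ∃ i, y v + τ ∈ C.A i :=
    ae_all_iff.2 fun v => (measurePreserving_add_left volume (y v)).quasiMeasurePreserving.ae C.cover
  have h4 : ∃ τ ∈ ball (0 : ℂ) ρ, τ ∉ ⋃ p, N p ∧ ∀ v, ∃ i, y v + τ ∈ C.A i := by
    by_contra hc
    push Not at hc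
    refine absurd h2 (not_lt.2 (measure_mono_ae ?_))
    filter_upwards [h3] with τ hτ hb
    by_contra h
    obtain ⟨v, hv⟩ := hc τ hb h
    obtain ⟨i, hi⟩ := hτ v
    exact hv i hi
  obtain ⟨τ, hτ, hτN, hτc⟩ := h4
  choose col hcol using hτc
  refine ⟨col, fun v hv => hτN (mem_iUnion.2 ⟨(v, col v), ?_⟩), fun v w hd hc => ?_⟩
  · simp only [N, hv, if_true]
    exact ⟨hcol v, by simpa using hτ⟩
  · refine C.proper (col v) _ (hcol v) _ (hc ▸ hcol w) ?_
    rwa [dist_add_right]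

end Crest.Agent.H3.P3
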