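import Crest.Agent.H3.P3A

/-! Row 40, P3: the jump lemma and the triangle lemma. -/

set_option autoImplicit false

namespace Crest.Agent.H3.P3
open MeasureTheory Metric Set Filter Topology
open Crest.Agent.H2.Gm Crest.Agent.Lead.P3

lemma Dens.mono_ae {S S' : Set ℝ} {s : ℝ} (h : Dens S s) (hS : ∀ᵐ t : ℝ, t ∈ S → t ∈ S') :
    Dens S' s := by
  intro γ hγ
  filter_upwards [h γ hγ] with r hr
  refine le_trans (measure_mono_ae ?_) hr
  filter_upwards [hS] with t ht h1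
  exact ⟨h1.1, fun h2 => h1.2 (ht h2)⟩

lemma Dens.mono {S S' : Set ℝ} {s : ℝ} (h : Dens S s) (hS : S ⊆ S') : Dens S' s :=
  Dens.mono_ae h (Eventually.of_forall fun _ ht => hS ht)

lemma Dens.shift {S : Set ℝ} {s c : ℝ} (h : Dens {t | t + c ∈ S} s) : Dens S (s + c) := by
  intro γ hγ
  filter_upwards [h γ hγ] with r hr
  rw [← measure_preimage_add_right volume c]
  refine le_trans (measure_mono ?_) hr
  rintro t ⟨⟨h1, h2⟩, h3⟩
  exact ⟨⟨by linarith, by linarith⟩, h3⟩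

lemma ae_shift {p : ℝ → Prop} (h : ∀ᵐ t : ℝ, p t) (c : ℝ) : ∀ᵐ t : ℝ, p (t + c) :=
  (measurePreserving_add_right volume c).quasiMeasurePreserving.ae h

lemma ae_sin_ne (c : ℝ) : ∀ᵐ t : ℝ, Real.sin (c - t) ≠ 0 := by
  have : {t : ℝ | ¬ Real.sin (c - t) ≠ 0} ⊆ range fun n : ℤ => c - n * Real.pi := by
    intro t ht
    obtain ⟨n, hn⟩ := Real.sin_eq_zero_iff.1 (not_not.1 ht)
    exact ⟨n, by simp only [hn]; ring⟩
  exact measure_mono_null this ((countable_range _).measure_zero _)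

lemma exists_of_ae {T : Set ℝ} (hT : volume T ≠ 0) {p : ℝ → Prop} (h : ∀ᵐ t : ℝ, p t) :
    ∃ t ∈ T, p t := by
  by_contra hc
  push Not at hc
  exact hT (measure_mono_null (fun t ht => hc t ht) h)

lemma sin_near {α : ℝ} (h : Real.sin α ≠ 0) : ∃ δ > 0, ∀ β, |β - α| ≤ δ → Real.sin β ≠ 0 := by
  obtain ⟨δ, hδ, H⟩ := Metric.eventually_nhds_iff.1 (Real.continuous_sin.continuousAt.eventually_ne h)
  exact ⟨δ / 2, by positivity, fun β hβ => H (by rw [Real.dist_eq]; linarith)⟩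

lemma e_third (s : ℝ) : e s - e (s + Real.pi / 3) = e (s - Real.pi / 3) := by
  rw [sub_eq_add_neg s, e_add, e_add, e_eq (Real.pi / 3), e_eq (-(Real.pi / 3)), Real.cos_neg,
    Real.sin_neg, Real.cos_pi_div_three]
  push_cast
  ring

theorem jStmt (hB : BasicStmt) (hG : GeoStmt) : JStmt := by
  intro S S' T s₀ hT hT0 hS hS'
  set v₀ := s₀ - Real.pi / 3 with hv₀
  have hd := hB.1 T hT
  obtain ⟨t₀, ht₀T, ht₀, n1, n2, n3⟩ := exists_of_ae hT0
    (hd.and ((ae_sin_ne s₀).and ((ae_sin_ne (s₀ + Real.pi / 3)).and (ae_sin_ne v₀))))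
  have ht₀' := ht₀ ht₀T
  have n4 : Real.sin (t₀ - v₀) ≠ 0 := by
    rw [← neg_sub, Real.sin_neg]; exact neg_ne_zero.2 n3
  obtain ⟨L, hL, r₀, hr₀, H⟩ := hG.2 _ (abs_pos.2 n4)
  obtain ⟨-, hsplit, -⟩ := H t₀ v₀ le_rfl
  obtain ⟨hinv, -, -⟩ := H t₀ (v₀ + Real.pi) (by
    rw [← sub_sub, Real.sin_sub_pi, abs_neg])
  obtain ⟨δ₁, hδ₁, H1⟩ := sin_near n1
  obtain ⟨δ₂, hδ₂, H2⟩ := sin_near n2
  have hL0 : 0 < L := by linarith
  set T' : Set ℝ := {t | Dens T t}
  have hT' : Dens T' t₀ := Dens.mono_ae ht₀' hd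
  set γ : ℝ := 1 / (2 * L * (1 + L)) with hγ
  have h1 := (tendsto_mul_nhdsGT (L := 2 * L) (by positivity)).eventually (hT' γ (by positivity))
  have q2 : ∀ᶠ r in 𝓝[>] (0:ℝ), r ∈ Ioo 0 (r₀ / (2 * L)) := Ioo_mem_nhdsGT (by positivity)
  have q3 : ∀ᶠ r in 𝓝[>] (0:ℝ), r ∈ Ioo 0 (δ₁ / 2) := Ioo_mem_nhdsGT (by positivity)
  have q4 : ∀ᶠ r in 𝓝[>] (0:ℝ), r ∈ Ioo 0 (δ₂ / (2 * L + 1)) := Ioo_mem_nhdsGT (by positivity)
  obtain ⟨r, h1, h2, h3, h4⟩ := (h1.and (q2.and (q3.and q4))).exists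
  have hr : 0 < r := h2.1
  have h2' : 2 * L * r ≤ r₀ := by
    have := h2.2; rw [lt_div_iff₀ (by positivity)] at this; linarith
  have h4' : (2 * L + 1) * r ≤ δ₂ := by
    have := h4.2; rw [lt_div_iff₀ (by positivity)] at this; linarith
  have hrL : 2 * r ≤ 2 * L * r := by nlinarith
  obtain ⟨a, ha, haS⟩ := hS (r / 2) (by positivity)
  obtain ⟨b, hb, hbS⟩ := hS' (r / 2) (by positivity)
  set D := e a - e b with hD
  have hDn : ‖D - e v₀‖ ≤ r := by
    rw [← e_third, show D - (e s₀ - e (s₀ + Real.pi / 3)) =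
      (e a - e s₀) - (e b - e (s₀ + Real.pi / 3)) by rw [hD]; ring]
    refine (norm_sub_le _ _).trans ?_
    linarith [norm_e_sub_le a s₀, norm_e_sub_le b (s₀ + Real.pi / 3)]
  set R : ℝ → ℝ → Prop := fun t t' => |t - t₀| ≤ r ∧ ∃ v, |v - v₀| ≤ 2 * L * r ∧ D + e t = e t' + e v
  set N : Set ℝ := Icc (t₀ - 2 * L * r) (t₀ + 2 * L * r) \ T'
  have hR := hB.2.1 R L N hL0.le (by
    rintro t₁ u₁ t₂ u₂ ⟨a1, v₁, b1, c1⟩ ⟨a2, v₂, b2, c2⟩
    have := (hinv t₁ (v₁ + Real.pi) t₂ (v₂ + Real.pi) (by linarith) (by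
      rw [add_sub_add_right_eq_sub]; linarith) (by linarith) (by
      rw [add_sub_add_right_eq_sub]; linarith)).1
    rw [e_add_pi, e_add_pi, show e t₁ + -e v₁ - (e t₂ + -e v₂) = e u₁ - e u₂ by
      linear_combination c1 - c2] at this
    exact this.trans (by gcongr; exact norm_e_sub_le _ _))
  have hlt : volume (N ∪ {t | ∃ u ∈ N, R t u}) < volume (Icc (t₀ - r) (t₀ + r)) := by
    refine (measure_union_le _ _).trans_lt ?_
    have : volume N + volume {t | ∃ u ∈ N, R t u} ≤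
        ENNReal.ofReal (γ * (2 * L * r)) + ENNReal.ofReal L * ENNReal.ofReal (γ * (2 * L * r)) :=
      add_le_add h1 (hR.trans (by gcongr))
    refine this.trans_lt ?_
    rw [← ENNReal.ofReal_mul hL0.le, ← ENNReal.ofReal_add (by positivity) (by positivity),
      Real.volume_Icc]
    refine (ENNReal.ofReal_lt_ofReal_iff (by linarith)).2 ?_
    have : γ * (2 * L * r) + L * (γ * (2 * L * r)) = r := by rw [hγ]; field_simp
    linarith
  obtain ⟨t, ht, htn⟩ : ∃ t ∈ Icc (t₀ - r) (t₀ + r), t ∉ N ∪ {t | ∃ u ∈ N, R t u} := by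
    by_contra hc
    push Not at hc
    exact absurd hlt (not_lt.2 (measure_mono hc))
  have htt : |t - t₀| ≤ r := abs_le.2 ⟨by linarith [ht.1], by linarith [ht.2]⟩
  have hq : ‖D + e t - (e t₀ + e v₀)‖ ≤ 2 * r := by
    rw [show D + e t - (e t₀ + e v₀) = (D - e v₀) + (e t - e t₀) by ring]
    refine (norm_add_le _ _).trans ?_
    linarith [norm_e_sub_le t t₀]
  obtain ⟨t', v, e1, e2, e3⟩ := hsplit (D + e t) (by linarith)
  have e2' : |t' - t₀| ≤ 2 * L * r := e2.trans (by nlinarith)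
  have e3' : |v - v₀| ≤ 2 * L * r := e3.trans (by nlinarith)
  have g1 : Dens T t := by
    by_contra hc
    exact htn (Or.inl ⟨⟨by linarith [ht.1], by linarith [ht.2]⟩, hc⟩)
  have g2 : Dens T t' := by
    by_contra hc
    rw [abs_le] at e2'
    exact htn (Or.inr ⟨t', ⟨⟨by linarith [e2'.1], by linarith [e2'.2]⟩, hc⟩, htt, v, e3', e1⟩)
  refine ⟨a, b, t, t', haS, hbS, g1, g2, H1 _ ?_, H2 _ ?_, ?_⟩
  · rw [abs_le] at htt ⊢
    rw [abs_lt] at ha
    constructor <;> linarith [h3.2, ha.1, ha.2, htt.1, htt.2]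
  · rw [abs_le] at e2' ⊢
    rw [abs_lt] at hb
    constructor <;> linarith [hb.1, hb.2, e2'.1, e2'.2]
  · rw [show e a + e t - (e b + e t') = e v by linear_combination e1 - hD, norm_e]

lemma not_all_D0 (hT : TransStmt) (C : Col) (y : ℂ) : ¬ ∀ j, D0 (C.A j) y := by
  intro h
  obtain ⟨col, h1, -⟩ := hT C Unit (fun _ => y) (fun _ _ => True) fun _ j _ => h j
  exact h1 () trivial

lemma five_cases : ∀ a b c d f j : Fin 5, [a, b, c, d, f].Nodup →
    j = a ∨ j = b ∨ j = c ∨ j = d ∨ j = f := by decide +kernel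

lemma k5_prop {a b c d f a' b' c' d' f' : Prop} (s1 : c ∨ d ∨ f) (s2 : a ∨ d ∨ f)
    (s3 : b ∨ d ∨ f) (s4 : a ∨ b ∨ c ∨ f) (t1 : c' ∨ d' ∨ f') (t2 : a' ∨ d' ∨ f')
    (t3 : b' ∨ d' ∨ f') (t4 : a' ∨ b' ∨ c' ∨ f') (la : ¬ (a ∧ a')) (lb : ¬ (b ∧ b'))
    (lc : ¬ (c ∧ c')) (ld : ¬ (d ∧ d')) : f ∨ f' := by
  by_contra hc
  obtain ⟨hf, hf'⟩ := not_or.1 hc
  simp only [hf, hf', or_false] at *
  by_cases hd : d
  · have hd' : ¬ d' := fun h => ld ⟨hd, h⟩
    simp only [hd', or_false] at t1 t2 t3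
    rcases s4 with h | h | h
    exacts [la ⟨h, t2⟩, lb ⟨h, t3⟩, lc ⟨h, t1⟩]
  · simp only [hd, or_false] at s1 s2 s3
    rcases t4 with h | h | h
    exacts [la ⟨s2, h⟩, lb ⟨s3, h⟩, lc ⟨s1, h⟩]

theorem tStmt (hB : BasicStmt) (hTh : ThinStmt) (hTr : TransStmt) (hJ : JStmt) : TStmt := by
  intro C x P a b c d f hn hf h1 h2 h3
  by_contra hc
  have hcase := fun j => five_cases a b c d f j hn
  set T : Set ℝ := P.S a ∩ P.S b ∩ P.S c with hTdef
  have hTm : MeasurableSet T := ((P.meas a).inter (P.meas b)).inter (P.meas c)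
  have k1 : ∀ᵐ s : ℝ, s ∈ P.S c ∨ s ∈ P.S d ∨ s ∈ P.S f := by
    filter_upwards [P.L1 _ h1] with s ⟨j, hj, hs⟩
    rcases hcase j with rfl | rfl | rfl | rfl | rfl <;> simp_all
  have k2 : ∀ᵐ s : ℝ, s ∈ P.S a ∨ s ∈ P.S d ∨ s ∈ P.S f := by
    filter_upwards [P.L1 _ h2] with s ⟨j, hj, hs⟩
    rcases hcase j with rfl | rfl | rfl | rfl | rfl <;> simp_all
  have k3 : ∀ᵐ s : ℝ, s ∈ P.S b ∨ s ∈ P.S d ∨ s ∈ P.S f := by
    filter_upwards [P.L1 _ h3] with s ⟨j, hj, hs⟩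
    rcases hcase j with rfl | rfl | rfl | rfl | rfl <;> simp_all
  have hT0 : volume T ≠ 0 := by
    intro h0
    apply hc
    filter_upwards [k1, k2, k3, measure_eq_zero_iff_ae_notMem.1 h0] with s s1 s2 s3 s4
    simp only [hTdef, mem_inter_iff] at s4
    tauto
  have hDT : ∀ t s, Dens T t → Real.sin (t - s) ≠ 0 →
      D0 (C.A a) (x + e t + e s) ∧ D0 (C.A b) (x + e t + e s) ∧ D0 (C.A c) (x + e t + e s) :=
    fun t s ht hs => ⟨hTh C x P a t s (Dens.mono ht fun _ h => h.1.1) hs,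
      hTh C x P b t s (Dens.mono ht fun _ h => h.1.2) hs,
      hTh C x P c t s (Dens.mono ht fun _ h => h.2) hs⟩
  have hd : x ∈ closure (C.A d) := by
    obtain ⟨α, hαT, hα⟩ := exists_of_ae hT0 (hB.1 T hTm)
    obtain ⟨r, hr, hrf⟩ := Metric.isOpen_iff.1 isClosed_closure.isOpen_compl x hf
    rw [← closure_closure, Metric.mem_closure_iff]
    intro η hη
    set β : ℝ := min 1 (min r η) / 2 with hβ
    have hβ0 : 0 < β := by positivity
    have hβ1 : β < 1 := by have := min_le_left 1 (min r η); linarith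
    have hβr : β < r := by
      have := (min_le_right 1 (min r η)).trans (min_le_left r η); linarith
    have hβη : β < η := by
      have := (min_le_right 1 (min r η)).trans (min_le_right r η); linarith
    have hy : dist (x + e α + e (α - β + Real.pi)) x ≤ β := by
      rw [dist_eq_norm, e_add_pi, show x + e α + -e (α - β) - x = e α - e (α - β) by ring]
      refine (norm_e_sub_le _ _).trans ?_
      rw [sub_sub_cancel, abs_of_pos hβ0]
    have hsin : Real.sin (α - (α - β + Real.pi)) ≠ 0 := by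
      rw [show α - (α - β + Real.pi) = β - Real.pi by ring, Real.sin_sub_pi, neg_ne_zero]
      exact (Real.sin_pos_of_pos_of_lt_pi hβ0 (by linarith [Real.pi_gt_three])).ne'
    refine ⟨_, ?_, by rw [dist_comm]; exact hy.trans_lt hβη⟩
    by_contra hyd
    obtain ⟨d1, d2, d3⟩ := hDT α _ (hα hαT) hsin
    refine not_all_D0 hTr C (x + e α + e (α - β + Real.pi)) fun j => ?_
    rcases hcase j with rfl | rfl | rfl | rfl | rfl
    exacts [d1, d2, d3, D0.of_notMem hyd, D0.of_notMem (hrf (hy.trans_lt hβr))]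
  have k4 : ∀ᵐ s : ℝ, s ∈ P.S a ∨ s ∈ P.S b ∨ s ∈ P.S c ∨ s ∈ P.S f := by
    filter_upwards [P.L1 _ (hB.2.2.2.2.2.2.1 C x d hd)] with s ⟨j, hj, hs⟩
    rcases hcase j with rfl | rfl | rfl | rfl | rfl <;> simp_all
  have k5 : ∀ᵐ s : ℝ, s ∈ P.S f ∨ s + Real.pi / 3 ∈ P.S f := by
    filter_upwards [k1, k2, k3, k4, ae_shift k1 (Real.pi / 3), ae_shift k2 (Real.pi / 3),
      ae_shift k3 (Real.pi / 3), ae_shift k4 (Real.pi / 3), P.L2 a, P.L2 b, P.L2 c, P.L2 d]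
      with s s1 s2 s3 s4 t1 t2 t3 t4 la lb lc ld
    exact k5_prop s1 s2 s3 s4 t1 t2 t3 t4 la lb lc ld
  have hE0 : volume (P.S f) ≠ 0 := by
    intro h0
    have h0' := measure_eq_zero_iff_ae_notMem.1 h0
    have : ∀ᵐ s : ℝ, False := by
      filter_upwards [k5, h0', ae_shift h0' (Real.pi / 3)] with s s1 s2 s3
      tauto
    exact this.exists.elim fun _ h => h
  have hE1 : volume (P.S f)ᶜ ≠ 0 := by
    intro h0
    have h0' := measure_eq_zero_iff_ae_notMem.1 h0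
    have : ∀ᵐ s : ℝ, False := by
      filter_upwards [P.L2 f, h0', ae_shift h0' (Real.pi / 3)] with s s1 s2 s3
      simp only [mem_compl_iff, not_not] at s2 s3
      tauto
    exact this.exists.elim fun _ h => h
  obtain ⟨s₀, a1, a2⟩ := hB.2.2.2.2.2.2.2.2.2.1 (P.S f) (P.S f)ᶜ (P.meas f) (P.meas f).compl
    (Eventually.of_forall fun s => em _) hE0 hE1
  have a3 : Acc (P.S f) (s₀ + Real.pi / 3) := by
    intro η hη
    obtain ⟨u, hu, hu'⟩ := a2 η hη
    refine ⟨u + Real.pi / 3, by rwa [add_sub_add_right_eq_sub], Dens.shift (Dens.mono_ae hu' ?_)⟩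
    filter_upwards [k5] with s s1 s2
    exact s1.resolve_left s2
  obtain ⟨α, β, t, t', g1, g2, g3, g4, g5, g6, g7⟩ := hJ (P.S f) (P.S f) T s₀ hTm hT0 a1 a3
  have key : ∀ u w, Dens (P.S f) u → Dens T w → Real.sin (u - w) ≠ 0 → ∀ j, j ≠ d →
      D0 (C.A j) (x + e u + e w) := by
    intro u w hu hw hs j hj
    have hs' : Real.sin (w - u) ≠ 0 := by
      rw [← neg_sub, Real.sin_neg]; exact neg_ne_zero.2 hs
    obtain ⟨d1, d2, d3⟩ := hDT w u hw hs'
    rw [add_right_comm] at d1 d2 d3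
    rcases hcase j with rfl | rfl | rfl | rfl | rfl
    exacts [d1, d2, d3, absurd rfl hj, hTh C x P j u w hu hs]
  obtain ⟨col, c1, c2⟩ := hTr C Bool (fun v => if v then x + e α + e t else x + e β + e t')
    (fun _ j => j ≠ d) (by
      intro v j hj
      cases v
      · exact key β t' g2 g4 g6 j hj
      · exact key α t g1 g3 g5 j hj)
  refine c2 true false ?_ ((not_not.1 (c1 true)).trans (not_not.1 (c1 false)).symm)
  rw [dist_eq_norm, ← g7]
  congr 1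
  simp only [if_true, Bool.false_eq_true, if_false]
  ring

end Crest.Agent.H3.P3
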