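import Mathlib

/-! Row 92 (permanence): the combinatorial "wall state" construction. -/

set_option autoImplicit false

namespace Crest.Agent.H3.Perm

open Finset

/-- Parameters of the construction. -/
structure Par (n : ℕ) where
  Nb : ℕ → ℤ
  Q : ℝ
  K : (ℕ → Bool) → ℕ → ℝ
  L : ℝ
  Δ : ℝ
  Km : ℝ
  Nb_pos : ∀ j, 1 ≤ Nb j
  Nb_step : ∀ j < n, 2 * Nb (j + 1) ^ 2 ≤ Nb j
  Nb_le : ∀ j, (Nb j : ℝ) ≤ Q
  K_congr : ∀ h h' k, (∀ i < k, h i = h' i) → K h k = K h' k
  K_true : ∀ h k j, k < j → j < n → h k = true → L * K h k ≤ K h j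
  K_false : ∀ h k j, k < j → j < n → h k = false → L * K h j ≤ K h k
  K_ge : ∀ h k, k < n → L * Δ ≤ K h k
  K_le : ∀ h k, k < n → K h k ≤ Km
  hL : Q ^ (n + 1) * (2 * n + 2) ≤ L
  hΔ : 2 * n + 2 ≤ Δ
  hKm : 2 * (n + 2) ^ 2 * Km ≤ Δ ^ 2
  hKm' : Δ ≤ Km

namespace Par

variable {n : ℕ} (P : Par n)

lemma one_le_Q : 1 ≤ P.Q := le_trans (by exact_mod_cast P.Nb_pos 0) (P.Nb_le 0)

lemma two_le_Δ : 2 ≤ P.Δ := le_trans (by have : (0 : ℝ) ≤ n := Nat.cast_nonneg _; linarith) P.hΔ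

lemma two_mul_le_L : 2 * P.Q ^ (n + 1) ≤ P.L := by
  have h1 : 0 ≤ P.Q ^ (n + 1) := pow_nonneg (by linarith [P.one_le_Q]) _
  have h2 : (0 : ℝ) ≤ n := Nat.cast_nonneg _
  nlinarith [P.hL]

lemma one_le_L : 1 ≤ P.L := by
  have := one_le_pow₀ (n := n + 1) P.one_le_Q
  linarith [P.two_mul_le_L]

lemma Δ_le_K (h : ℕ → Bool) {k : ℕ} (hk : k < n) : P.Δ ≤ P.K h k := by
  have := P.K_ge h k hk
  nlinarith [P.one_le_L, P.two_le_Δ]

/-- Wall positions at level `k`. -/
def T (ω : ℕ → ℝ) (k : ℕ) : Set ℝ :=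
  {τ | ∃ a : ℕ → ℤ, (∀ i, |a i| ≤ P.Nb (k + 1)) ∧ a k ≠ 0 ∧
    ∑ i ∈ range k, (a i : ℝ) * ω i + a k * τ = 0}

/-- The condition on a state at level `k`. -/
def Lev (h : ℕ → Bool) (ω : ℕ → ℝ) (k : ℕ) : Prop :=
  (∀ i < k, ω k ≤ ω i) ∧ (h k = true → ω k ∈ P.T ω k) ∧
    (h k = false → ∀ τ ∈ P.T ω k, P.K h k ≤ |ω k - τ|)

/-- The cost exponent discount at level `k`. -/
def disc (h : ℕ → Bool) (k : ℕ) : ℝ := if h k then P.K h k else 0

/-- The cost at level `k`. -/
noncomputable def cst (h : ℕ → Bool) (ω : ℕ → ℝ) (k : ℕ) : ℝ := Real.exp (ω k - P.disc h k)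

/-- States. -/
def State (h : ℕ → Bool) (ω : ℕ → ℝ) : Prop := ∀ k < n, P.Lev h ω k

/-- The value of a state. -/
noncomputable def J (u : ℕ → ℝ) (h : ℕ → Bool) (ω : ℕ → ℝ) : ℝ :=
  ∑ k ∈ range n, (Real.exp (u k) * ω k - P.cst h ω k)

lemma T_congr {ω ω' : ℕ → ℝ} {k : ℕ} (h : ∀ i < k, ω i = ω' i) : P.T ω k = P.T ω' k := by
  have : ∀ a : ℕ → ℤ, ∑ i ∈ range k, (a i : ℝ) * ω i = ∑ i ∈ range k, (a i : ℝ) * ω' i :=
    fun a => Finset.sum_congr rfl fun i hi => by rw [h i (Finset.mem_range.1 hi)]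
  simp only [T, this]

lemma Lev_congr {h h' : ℕ → Bool} {ω ω' : ℕ → ℝ} {k : ℕ} (h1 : ∀ i ≤ k, h i = h' i)
    (h2 : ∀ i ≤ k, ω i = ω' i) (hl : P.Lev h ω k) : P.Lev h' ω' k := by
  unfold Lev
  rw [← P.T_congr (fun i hi => h2 i hi.le), ← P.K_congr h h' k (fun i hi => h1 i hi.le),
    ← h1 k le_rfl, ← h2 k le_rfl]
  exact ⟨fun i hi => by rw [← h2 i hi.le]; exact hl.1 i hi, hl.2⟩

lemma disc_congr {h h' : ℕ → Bool} {k : ℕ} (h1 : ∀ i ≤ k, h i = h' i) :
    P.disc h k = P.disc h' k := by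
  unfold disc
  rw [P.K_congr h h' k (fun i hi => h1 i hi.le), h1 k le_rfl]

lemma cst_congr {h h' : ℕ → Bool} {ω ω' : ℕ → ℝ} {k : ℕ} (h1 : ∀ i ≤ k, h i = h' i)
    (h2 : ω k = ω' k) : P.cst h ω k = P.cst h' ω' k := by
  unfold cst
  rw [P.disc_congr h1, h2]

lemma disc_nonneg (h : ℕ → Bool) {k : ℕ} (hk : k < n) : 0 ≤ P.disc h k := by
  unfold disc
  split_ifs
  · linarith [P.Δ_le_K h hk, P.two_le_Δ]
  · exact le_rfl

lemma disc_le (h : ℕ → Bool) {k : ℕ} (hk : k < n) : P.disc h k ≤ P.Km := by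
  unfold disc
  split_ifs
  · exact P.K_le h k hk
  · linarith [P.hKm', P.two_le_Δ]

lemma zero_mem_T (ω : ℕ → ℝ) (k : ℕ) : (0 : ℝ) ∈ P.T ω k := by
  refine ⟨fun i => if i = k then 1 else 0, fun i => ?_, by simp, ?_⟩
  · have := P.Nb_pos (k + 1)
    dsimp only
    split_ifs <;> simp <;> omega
  · rw [Finset.sum_eq_zero]
    · simp
    · intro i hi
      simp [(Finset.mem_range.1 hi).ne]

lemma mem_T (ω : ℕ → ℝ) {k j : ℕ} (hj : j < k) : ω j ∈ P.T ω k := by
  refine ⟨fun i => if i = k then -1 else if i = j then 1 else 0, fun i => ?_, by simp, ?_⟩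
  · have := P.Nb_pos (k + 1)
    dsimp only
    split_ifs <;> simp <;> omega
  · rw [Finset.sum_eq_single j]
    · simp [hj.ne]
    · intro i hi hij
      simp [(Finset.mem_range.1 hi).ne, hij]
    · intro h
      exact absurd (Finset.mem_range.2 hj) h

/-- The gap lemma. -/
lemma gap {h : ℕ → Bool} {ω : ℕ → ℝ} {G : ℝ} (j : ℕ) (hj : j ≤ n)
    (hs : ∀ k < j, P.Lev h ω k) (hG : ∀ k < j, h k = false → G ≤ P.K h k) :
    ∀ r : ℕ → ℤ, (∀ i, |r i| ≤ P.Nb j) →
      ∑ i ∈ range j, (r i : ℝ) * ω i = 0 ∨ G ≤ P.Q ^ j * |∑ i ∈ range j, (r i : ℝ) * ω i| := by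
  induction j with
  | zero => intro r _; simp
  | succ j ih =>
    intro r hr
    have ih' := ih (by omega) (fun k hk => hs k (by omega)) (fun k hk => hG k (by omega))
    have hQ := P.one_le_Q
    have hQj : 1 ≤ P.Q ^ j := one_le_pow₀ hQ
    have hN := P.Nb_step j (by omega)
    have hN1 := P.Nb_pos (j + 1)
    rw [Finset.sum_range_succ]
    cases hh : h j with
    | false =>
      by_cases hr0 : r j = 0
      · rcases ih' r (fun i => (hr i).trans (by nlinarith)) with h0 | h0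
        · left; simp [h0, hr0]
        · right
          simp only [hr0, Int.cast_zero, zero_mul, add_zero]
          refine h0.trans ?_
          rw [pow_succ]
          gcongr
          nlinarith
      · right
        have hr0' : (r j : ℝ) ≠ 0 := by exact_mod_cast hr0
        have hτ : -(∑ i ∈ range j, (r i : ℝ) * ω i) / r j ∈ P.T ω j :=
          ⟨r, hr, hr0, by field_simp; ring⟩
        have h1 := (hs j (by omega)).2.2 hh _ hτ
        have h2 : ∑ i ∈ range j, (r i : ℝ) * ω i + r j * ω j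
            = r j * (ω j - -(∑ i ∈ range j, (r i : ℝ) * ω i) / r j) := by field_simp; ring
        rw [h2, abs_mul]
        have h3 : (1 : ℝ) ≤ |(r j : ℝ)| := by
          have : 1 ≤ |r j| := Int.one_le_abs hr0
          exact_mod_cast this
        have h4 := hG j (by omega) hh
        have h5 : 1 ≤ P.Q ^ (j + 1) := one_le_pow₀ hQ
        calc G ≤ 1 * (1 * |ω j - -(∑ i ∈ range j, (r i : ℝ) * ω i) / r j|) := by linarith
          _ ≤ _ := by gcongr
    | true =>
      obtain ⟨a, ha, ha0, hw⟩ := (hs j (by omega)).2.1 hh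
      have ha0' : (a j : ℝ) ≠ 0 := by exact_mod_cast ha0
      have h1 : ∑ i ∈ range j, ((a j * r i - r j * a i : ℤ) : ℝ) * ω i
          = a j * (∑ i ∈ range j, (r i : ℝ) * ω i + r j * ω j) := by
        have : ∑ i ∈ range j, ((a j * r i - r j * a i : ℤ) : ℝ) * ω i
            = a j * ∑ i ∈ range j, (r i : ℝ) * ω i - r j * ∑ i ∈ range j, (a i : ℝ) * ω i := by
          rw [Finset.mul_sum, Finset.mul_sum, ← Finset.sum_sub_distrib]
          refine Finset.sum_congr rfl fun i _ => ?_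
          push_cast; ring
        rw [this]
        linear_combination (-(r j : ℝ)) * hw
      rcases ih' (fun i => a j * r i - r j * a i) (fun i => by
        refine (abs_sub _ _).trans ?_
        rw [abs_mul, abs_mul]
        have e1 : |a j| * |r i| ≤ P.Nb (j + 1) * P.Nb (j + 1) :=
          mul_le_mul (ha j) (hr i) (abs_nonneg _) (by omega)
        have e2 : |r j| * |a i| ≤ P.Nb (j + 1) * P.Nb (j + 1) :=
          mul_le_mul (hr j) (ha i) (abs_nonneg _) (by omega)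
        nlinarith) with h0 | h0
      · left
        rw [h1] at h0
        exact (mul_eq_zero.1 h0).resolve_left ha0'
      · right
        rw [h1, abs_mul] at h0
        refine h0.trans ?_
        have h3 : |(a j : ℝ)| ≤ P.Q := by
          refine le_trans ?_ (P.Nb_le (j + 1))
          exact_mod_cast ha j
        rw [pow_succ, mul_assoc]
        gcongr

/-- At a pivot level the other walls are far. -/
lemma wall_gap {h : ℕ → Bool} {ω : ℕ → ℝ} {k : ℕ} (hk : k < n) (hs : P.State h ω)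
    (hh : h k = true) {τ : ℝ} (hτ : τ ∈ P.T ω k) : τ = ω k ∨ 2 * P.K h k ≤ |ω k - τ| := by
  obtain ⟨b, hb, hb0, hw⟩ := hτ
  have hK : 0 ≤ P.K h k := by linarith [P.Δ_le_K h hk, P.two_le_Δ]
  have hb0' : (b k : ℝ) ≠ 0 := by exact_mod_cast hb0
  have h1 : ∑ i ∈ range (k + 1), (b i : ℝ) * ω i = b k * (ω k - τ) := by
    rw [Finset.sum_range_succ]; linear_combination hw
  rcases P.gap (G := P.L * P.K h k) (k + 1) hk
    (fun i hi => hs i (by omega)) (fun i hi hf => by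
      have : i ≠ k := fun e => by rw [e, hh] at hf; exact absurd hf (by simp)
      exact P.K_false h i k (by omega) hk hf) b hb with h0 | h0
  · left
    rw [h1] at h0
    linarith [(mul_eq_zero.1 h0).resolve_left hb0']
  · right
    rw [h1, abs_mul] at h0
    have hQ := P.one_le_Q
    have h3 : |(b k : ℝ)| ≤ P.Q := by
      refine le_trans ?_ (P.Nb_le (k + 1))
      exact_mod_cast hb k
    have h4 : P.Q ^ (k + 1) * (|(b k : ℝ)| * |ω k - τ|) ≤ P.Q ^ (n + 1) * |ω k - τ| := by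
      calc _ ≤ P.Q ^ n * (P.Q * |ω k - τ|) := by gcongr; omega
        _ = _ := by ring
    have h5 : 0 < P.Q ^ (n + 1) := by positivity
    have h6 : P.Q ^ (n + 1) * (2 * P.K h k) ≤ P.L * P.K h k := by
      nlinarith [P.two_mul_le_L]
    exact le_of_mul_le_mul_left (h6.trans (h0.trans h4)) h5

/-- Snapping a target value to an admissible position. -/
lemma snap (h : ℕ → Bool) (ω : ℕ → ℝ) {k : ℕ} (hk : k < n) (m : ℝ) (hm : ∀ i < k, m ≤ ω i) :
    ∃ (b : Bool) (τ : ℝ), P.Lev (Function.update h k b) (Function.update ω k τ) k ∧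
      m - P.K h k ≤ τ ∧ τ - P.disc (Function.update h k b) k ≤ m ∧ (b = false → τ = m) ∧
      (b = true → τ ∈ P.T ω k ∧ m - P.K h k < τ) := by
  have hK : 0 ≤ P.K h k := by linarith [P.Δ_le_K h hk, P.two_le_Δ]
  have hT : ∀ τ, P.T (Function.update ω k τ) k = P.T ω k := fun τ =>
    P.T_congr fun i hi => Function.update_of_ne hi.ne _ _
  have hKc : ∀ b, P.K (Function.update h k b) k = P.K h k := fun b =>
    P.K_congr _ _ _ fun i hi => Function.update_of_ne hi.ne _ _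
  by_cases hc : ∀ τ ∈ P.T ω k, P.K h k ≤ |m - τ|
  · refine ⟨false, m, ⟨fun i hi => ?_, by simp, fun _ => ?_⟩, by linarith, by simp [disc],
      fun _ => rfl, by simp⟩
    · rw [Function.update_self, Function.update_of_ne hi.ne]; exact hm i hi
    · rw [hT, hKc, Function.update_self]; exact hc
  push Not at hc
  obtain ⟨τ₀, hτ₀, hd⟩ := hc
  obtain ⟨hd1, hd2⟩ := abs_lt.1 hd
  obtain ⟨τ, hτ, h1, h2, h3⟩ : ∃ τ ∈ P.T ω k, (∀ i < k, τ ≤ ω i) ∧ m - P.K h k < τ ∧ τ ≤ τ₀ := by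
    by_cases hall : ∀ i < k, τ₀ ≤ ω i
    · exact ⟨τ₀, hτ₀, hall, by linarith, le_rfl⟩
    · push Not at hall
      obtain ⟨i, hi, hlt⟩ := hall
      obtain ⟨j, hj, hmin⟩ := Finset.exists_min_image (range k) ω ⟨i, Finset.mem_range.2 hi⟩
      have hj' := Finset.mem_range.1 hj
      have hpos : 0 < P.K h k := (abs_nonneg _).trans_lt hd
      refine ⟨ω j, P.mem_T ω hj', fun l hl => hmin l (Finset.mem_range.2 hl), ?_, ?_⟩
      · linarith [hm j hj']
      · linarith [hmin i (Finset.mem_range.2 hi)]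
  refine ⟨true, τ, ⟨fun i hi => ?_, fun _ => ?_, by simp⟩, h2.le, ?_, by simp, fun _ => ⟨hτ, h2⟩⟩
  · rw [Function.update_self, Function.update_of_ne hi.ne]; exact h1 i hi
  · rw [hT, Function.update_self]; exact hτ
  · simp only [disc, Function.update_self, if_true, hKc]; linarith

lemma J_split (u : ℕ → ℝ) (h : ℕ → Bool) (ω : ℕ → ℝ) {k : ℕ} (hk : k ≤ n) :
    P.J u h ω = ∑ i ∈ range k, (Real.exp (u i) * ω i - P.cst h ω i) +
      ∑ i ∈ Ico k n, (Real.exp (u i) * ω i - P.cst h ω i) := by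
  unfold J
  rw [Finset.sum_range_add_sum_Ico _ hk]

/-- Near-optimality restricted to the levels `≥ k`. -/
lemma tail_le {u : ℕ → ℝ} {h h' : ℕ → Bool} {ω ω' : ℕ → ℝ} {ε : ℝ} {k : ℕ} (hk : k ≤ n)
    (hopt : P.J u h' ω' ≤ P.J u h ω + ε) (h1 : ∀ i < k, h' i = h i) (h2 : ∀ i < k, ω' i = ω i) :
    ∑ i ∈ Ico k n, (Real.exp (u i) * ω' i - P.cst h' ω' i) ≤
      ∑ i ∈ Ico k n, (Real.exp (u i) * ω i - P.cst h ω i) + ε := by
  rw [P.J_split u h ω hk, P.J_split u h' ω' hk] at hopt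
  have : ∑ i ∈ range k, (Real.exp (u i) * ω' i - P.cst h' ω' i)
      = ∑ i ∈ range k, (Real.exp (u i) * ω i - P.cst h ω i) := by
    refine Finset.sum_congr rfl fun i hi => ?_
    have hi' := Finset.mem_range.1 hi
    rw [h2 i hi', P.cst_congr (h' := h) (ω' := ω) (fun j hj => h1 j (by omega)) (h2 i hi')]
  linarith

/-- Near-optimal states. -/
def Opt (u : ℕ → ℝ) (h : ℕ → Bool) (ω : ℕ → ℝ) (ε : ℝ) : Prop :=
  P.State h ω ∧ (∀ h' ω', P.State h' ω' → P.J u h' ω' ≤ P.J u h ω + ε) ∧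
    (∀ k < n, 2 * ε ≤ Real.exp (u k)) ∧ ∀ i j, i ≤ j → j < n → u j ≤ u i

lemma upper_step {u : ℕ → ℝ} {h : ℕ → Bool} {ω : ℕ → ℝ} {ε : ℝ} (ho : P.Opt u h ω ε) {k : ℕ}
    (hk : k < n) {b : Bool} {τ : ℝ}
    (hl : P.Lev (Function.update h k b) (Function.update ω k τ) k) (hτ : ω k + 1 ≤ τ) :
    u k ≤ τ - P.disc (Function.update h k b) k + 2 * n := by
  obtain ⟨hs, hopt, hε, hu⟩ := ho
  obtain ⟨g, hg⟩ : ∃ g, g = τ - P.disc (Function.update h k b) k := ⟨_, rfl⟩
  let h' : ℕ → Bool := fun i => if i < k then h i else if i = k then b else true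
  let ω' : ℕ → ℝ := fun i => if i < k then ω i else τ
  have e1 : ∀ i ≤ k, Function.update h k b i = h' i := by
    intro i hi
    rcases hi.lt_or_eq with hi | rfl
    · simp [h', hi, Function.update_of_ne hi.ne]
    · simp [h']
  have e2 : ∀ i ≤ k, Function.update ω k τ i = ω' i := by
    intro i hi
    rcases hi.lt_or_eq with hi | rfl
    · simp [ω', hi, Function.update_of_ne hi.ne]
    · simp [ω']
  have hlk : P.Lev h' ω' k := P.Lev_congr e1 e2 hl
  have hω' : ∀ j, k ≤ j → ω' j = τ := fun j hj => by simp [ω', not_lt.2 hj]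
  have hs' : P.State h' ω' := by
    intro j hj
    rcases lt_trichotomy j k with hjk | rfl | hjk
    · exact P.Lev_congr (fun i hi => by simp [h', hi.trans_lt hjk])
        (fun i hi => by simp [ω', hi.trans_lt hjk]) (hs j hj)
    · exact hlk
    · refine ⟨fun i hi => ?_, fun _ => ?_, fun hf => ?_⟩
      · rw [hω' j hjk.le]
        rcases lt_or_ge i k with hik | hik
        · rw [← hω' k le_rfl]; exact hlk.1 i hik
        · rw [hω' i hik]
      · rw [hω' j hjk.le, ← hω' k le_rfl]; exact P.mem_T ω' hjk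
      · simp [h', not_lt.2 hjk.le, hjk.ne'] at hf
  have hc : ∀ j ∈ Ico k n, P.cst h' ω' j ≤ Real.exp g := by
    intro j hj
    obtain ⟨hj1, hj2⟩ := Finset.mem_Ico.1 hj
    unfold cst
    rw [Real.exp_le_exp, hω' j hj1, hg, P.disc_congr e1]
    rcases hj1.eq_or_lt with rfl | hjk
    · exact le_rfl
    · have : P.disc h' k ≤ P.disc h' j := by
        have hj' : h' j = true := by simp [h', not_lt.2 hjk.le, hjk.ne']
        unfold disc
        rw [if_pos hj']
        split_ifs with hb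
        · have := P.K_true h' k j hjk hj2 hb
          have h0 : 0 ≤ P.K h' k := by linarith [P.Δ_le_K h' hk, P.two_le_Δ]
          nlinarith [P.one_le_L]
        · linarith [P.Δ_le_K h' hj2, P.two_le_Δ]
      linarith
  have key := P.tail_le hk.le (hopt h' ω' hs') (fun i hi => by simp [h', hi])
    (fun i hi => by simp [ω', hi])
  have a1 : ∑ i ∈ Ico k n, (Real.exp (u i) * τ - Real.exp g) ≤
      ∑ i ∈ Ico k n, (Real.exp (u i) * ω' i - P.cst h' ω' i) := by
    refine Finset.sum_le_sum fun i hi => ?_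
    rw [hω' i (Finset.mem_Ico.1 hi).1]
    linarith [hc i hi]
  have a2 : ∑ i ∈ Ico k n, (Real.exp (u i) * ω i - P.cst h ω i) ≤
      ∑ i ∈ Ico k n, (Real.exp (u i) * τ - Real.exp (u i)) := by
    refine Finset.sum_le_sum fun i hi => ?_
    obtain ⟨hi1, hi2⟩ := Finset.mem_Ico.1 hi
    have : ω i ≤ ω k := by
      rcases hi1.eq_or_lt with rfl | hik
      · exact le_rfl
      · exact (hs i hi2).1 k hik
    have h0 : 0 < P.cst h ω i := Real.exp_pos _
    nlinarith [Real.exp_pos (u i)]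
  simp only [Finset.sum_sub_distrib, Finset.sum_const, Nat.card_Ico, nsmul_eq_mul] at a1 a2 key
  have a3 : Real.exp (u k) ≤ ∑ i ∈ Ico k n, Real.exp (u i) :=
    Finset.single_le_sum (f := fun i => Real.exp (u i)) (fun i _ => (Real.exp_pos _).le)
      (Finset.mem_Ico.2 ⟨le_rfl, hk⟩)
  have a4 : ((n - k : ℕ) : ℝ) ≤ n := by exact_mod_cast Nat.sub_le n k
  have a5 : ((n - k : ℕ) : ℝ) * Real.exp g ≤ n * Real.exp g := by gcongr
  have a6 : Real.exp (u k) ≤ 2 * n * Real.exp g := by linarith [hε k hk]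
  have a7 : (2 * n : ℝ) ≤ Real.exp (2 * n) := by linarith [Real.add_one_le_exp (2 * n : ℝ)]
  have a8 : Real.exp (u k) ≤ Real.exp (g + 2 * n) := by
    rw [Real.exp_add]
    calc _ ≤ 2 * n * Real.exp g := a6
      _ ≤ Real.exp (2 * n) * Real.exp g := by gcongr
      _ = _ := mul_comm _ _
  rw [← hg]
  exact Real.exp_le_exp.1 a8

/-- Upper deviation bound. -/
lemma upper {u : ℕ → ℝ} {h : ℕ → Bool} {ω : ℕ → ℝ} {ε : ℝ} (ho : P.Opt u h ω ε) {B : ℝ}
    (hB0 : 0 ≤ B) (hB : ∀ k < n, h k = true → P.K h k ≤ B) :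
    ∀ k < n, u k ≤ ω k + B + P.Δ := by
  intro k
  induction k using Nat.strong_induction_on with
  | _ k ih =>
  intro hk
  have hs := ho.1
  have hK := P.Δ_le_K h hk
  have hΔ := P.hΔ
  have hΔ2 := P.two_le_Δ
  cases hh : h k with
  | false =>
    have hfar := (hs k hk).2.2 hh
    obtain ⟨b, τ, hl, -, h2, h3, h4⟩ := P.snap h ω hk (ω k + 1) (fun i hi => by
      have a1 := hfar _ (P.mem_T ω hi)
      have a2 := (hs k hk).1 i hi
      rw [abs_of_nonpos (by linarith)] at a1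
      linarith)
    have hτ : ω k + 1 ≤ τ := by
      cases b with
      | false => exact (h3 rfl).ge
      | true =>
        obtain ⟨a1, a2⟩ := h4 rfl
        have a3 := hfar _ a1
        rcases le_abs.1 a3 with a4 | a4 <;> linarith
    have := P.upper_step ho hk hl hτ
    linarith
  | true =>
    by_cases htie : ∃ i < k, ω i = ω k
    · obtain ⟨i, hi, he⟩ := htie
      have a1 := ih i hi (by omega)
      have a2 := ho.2.2.2 i k hi.le hk
      linarith
    push Not at htie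
    have hT : P.T (Function.update ω k (ω k + P.K h k)) k = P.T ω k :=
      P.T_congr fun i hi => Function.update_of_ne hi.ne _ _
    have hKc : P.K (Function.update h k false) k = P.K h k :=
      P.K_congr _ _ _ fun i hi => Function.update_of_ne hi.ne _ _
    have hl : P.Lev (Function.update h k false) (Function.update ω k (ω k + P.K h k)) k := by
      refine ⟨fun i hi => ?_, by simp, fun _ τ hτ => ?_⟩
      · rw [Function.update_self, Function.update_of_ne hi.ne]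
        have a1 := (P.wall_gap hk hs hh (P.mem_T ω hi)).resolve_left (htie i hi)
        have a2 := (hs k hk).1 i hi
        rw [abs_of_nonpos (by linarith)] at a1
        linarith
      · rw [hT] at hτ
        rw [hKc, Function.update_self]
        rcases P.wall_gap hk hs hh hτ with rfl | a1
        · rw [add_sub_cancel_left]; exact le_abs_self _
        · rcases le_abs.1 a1 with a2 | a2
          · exact le_abs.2 (Or.inl (by linarith))
          · exact le_abs.2 (Or.inr (by linarith))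
    have := P.upper_step ho hk hl (by linarith)
    simp only [disc, Function.update_self, Bool.false_eq_true, if_false] at this
    linarith [hB k hk hh]

/-- Greedy completion of the levels `≥ k`. -/
lemma greedy {u : ℕ → ℝ} {h : ℕ → Bool} {ω : ℕ → ℝ} (hs : P.State h ω) {k : ℕ}
    (hu : ∀ i j, i ≤ j → j < n → u j ≤ u i) (hup : ∀ i < k, u i ≤ ω i + 2 * P.Km) (j : ℕ)
    (hkj : k ≤ j) (hj : j ≤ n) :
    ∃ (h' : ℕ → Bool) (ω' : ℕ → ℝ), (∀ i < k, h' i = h i) ∧ (∀ i < k, ω' i = ω i) ∧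
      (∀ i < j, P.Lev h' ω' i) ∧ (∀ i < j, u i ≤ ω' i + (j + 2) * P.Km) ∧
      ∀ i, k ≤ i → i < j → P.cst h' ω' i ≤ Real.exp (u i) := by
  have hKm : 0 ≤ P.Km := by linarith [P.hKm', P.two_le_Δ]
  induction j, hkj using Nat.le_induction with
  | base =>
    refine ⟨h, ω, fun _ _ => rfl, fun _ _ => rfl, fun i hi => hs i (by omega), fun i hi => ?_,
      fun i h1 h2 => by omega⟩
    have := hup i hi
    have : (0 : ℝ) ≤ k * P.Km := by positivity
    linarith
  | succ j hkj ih =>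
    obtain ⟨h', ω', a1, a2, a3, a4, a5⟩ := ih (by omega)
    obtain ⟨b, τ, hl, b1, b2, -, -⟩ := P.snap h' ω' (show j < n by omega)
      (u j - (j + 2) * P.Km) (fun i hi => by
        have := a4 i hi
        have := hu i j hi.le (by omega)
        linarith)
    refine ⟨Function.update h' j b, Function.update ω' j τ, fun i hi => ?_, fun i hi => ?_,
      fun i hi => ?_, fun i hi => ?_, fun i hi1 hi => ?_⟩
    · rw [Function.update_of_ne (by omega), a1 i hi]
    · rw [Function.update_of_ne (by omega), a2 i hi]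
    · rcases (Nat.lt_succ_iff.1 hi).eq_or_lt with rfl | hij
      · exact hl
      · exact P.Lev_congr (fun l hl => (Function.update_of_ne (by omega) _ _).symm)
          (fun l hl => (Function.update_of_ne (by omega) _ _).symm) (a3 i hij)
    · push_cast
      rcases (Nat.lt_succ_iff.1 hi).eq_or_lt with rfl | hij
      · rw [Function.update_self]
        linarith [P.K_le h' i (by omega)]
      · rw [Function.update_of_ne hij.ne]
        linarith [a4 i hij]
    · rcases (Nat.lt_succ_iff.1 hi).eq_or_lt with rfl | hij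
      · unfold cst
        rw [Function.update_self, Real.exp_le_exp]
        have : (0 : ℝ) ≤ (i + 2) * P.Km := by positivity
        linarith
      · rw [P.cst_congr (h' := h') (ω' := ω')
          (fun l hl => Function.update_of_ne (by omega) _ _) (Function.update_of_ne hij.ne _ _)]
        exact a5 i hi1 hij

/-- Lower deviation bound. -/
lemma lower {u : ℕ → ℝ} {h : ℕ → Bool} {ω : ℕ → ℝ} {ε : ℝ} (ho : P.Opt u h ω ε) {k : ℕ}
    (hk : k < n) : ω k ≤ u k + P.disc h k + P.Δ := by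
  have hKm : 2 ≤ P.Km := by linarith [P.hKm', P.two_le_Δ]
  have hup := P.upper ho (B := P.Km) (by linarith) (fun k hk _ => P.K_le h k hk)
  obtain ⟨hs, hopt, hε, hu⟩ := ho
  obtain ⟨h', ω', a1, a2, a3, a4, a5⟩ := P.greedy hs (k := k) hu
    (fun i hi => by linarith [hup i (by omega), P.hKm']) n hk.le le_rfl
  have key := P.tail_le hk.le (hopt h' ω' a3) a1 a2
  obtain ⟨t, ht⟩ : ∃ t, t = ω k - u k - P.disc h k := ⟨_, rfl⟩
  have hd : ∀ i ∈ Ico k n, (Real.exp (u i) * ω i - P.cst h ω i)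
      - (Real.exp (u i) * ω' i - P.cst h' ω' i) ≤ Real.exp (u k) * ((n + 3) * P.Km + 1)
        + if i = k then Real.exp (u k) * (t - Real.exp t) else 0 := by
    intro i hi
    obtain ⟨hi1, hi2⟩ := Finset.mem_Ico.1 hi
    have b1 := a4 i hi2
    have b2 := a5 i hi1 hi2
    have b3 := P.disc_le h hi2
    have b4 : Real.exp (u i) ≤ Real.exp (u k) := Real.exp_le_exp.2 (hu k i hi1 hi2)
    have b5 := Real.exp_pos (u i)
    have b6 : P.cst h ω i = Real.exp (u i) * Real.exp (ω i - u i - P.disc h i) := by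
      unfold cst; rw [← Real.exp_add]; congr 1; ring
    have b7 : (0 : ℝ) ≤ (n + 3) * P.Km + 1 := by positivity
    have b8 : Real.exp (u i) * ω i - P.cst h ω i - (Real.exp (u i) * ω' i - P.cst h' ω' i)
        ≤ Real.exp (u i) * ((n + 3) * P.Km + 1) + Real.exp (u i) *
          ((ω i - u i - P.disc h i) - Real.exp (ω i - u i - P.disc h i)) := by
      rw [b6]
      nlinarith
    refine b8.trans (add_le_add (by gcongr) ?_)
    split_ifs with hik
    · subst hik; rw [ht]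
    · have := Real.add_one_le_exp (ω i - u i - P.disc h i)
      exact mul_nonpos_of_nonneg_of_nonpos b5.le (by linarith)
  have hsum := Finset.sum_le_sum hd
  rw [Finset.sum_sub_distrib, Finset.sum_add_distrib, Finset.sum_ite_eq',
    if_pos (Finset.mem_Ico.2 ⟨le_rfl, hk⟩), Finset.sum_const, Nat.card_Ico, nsmul_eq_mul] at hsum
  have c1 : ((n - k : ℕ) : ℝ) ≤ n := by exact_mod_cast Nat.sub_le n k
  have c2 := Real.exp_pos (u k)
  have c3 : ((n - k : ℕ) : ℝ) * (Real.exp (u k) * ((n + 3) * P.Km + 1))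
      ≤ n * (Real.exp (u k) * ((n + 3) * P.Km + 1)) := by gcongr
  have c4 : Real.exp (u k) * (Real.exp t - t) ≤ Real.exp (u k) * (n * ((n + 3) * P.Km + 1) + 1) := by
    linarith [hε k hk]
  have c5 := le_of_mul_le_mul_left c4 c2
  have hn0 : (0 : ℝ) ≤ n := Nat.cast_nonneg _
  have c6 : n * ((n + 3) * P.Km + 1) + 1 ≤ (n + 2) ^ 2 * P.Km := by nlinarith
  by_contra hcon
  have c7 : P.Δ < t := by linarith
  have c8 := Real.quadratic_le_exp_of_nonneg (x := t) (by linarith [P.two_le_Δ])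
  nlinarith [P.hKm, P.two_le_Δ]

lemma dev {u : ℕ → ℝ} {h : ℕ → Bool} {ω : ℕ → ℝ} {ε : ℝ} (ho : P.Opt u h ω ε) {k : ℕ}
    (hk : k < n) : |ω k - u k| ≤ 2 * P.Km := by
  have hKm : 2 ≤ P.Km := by linarith [P.hKm', P.two_le_Δ]
  have a1 := P.upper ho (B := P.Km) (by linarith) (fun k hk _ => P.K_le h k hk) k hk
  have a2 := P.lower ho hk
  have a3 := P.disc_le h hk
  rw [abs_le]
  constructor <;> linarith [P.hKm']

lemma exists_B (h : ℕ → Bool) : ∃ B, P.Δ ≤ B ∧ (∀ k < n, h k = true → P.K h k ≤ B) ∧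
    ∀ k < n, h k = false → P.L * B ≤ P.K h k := by
  by_cases hex : ((range n).filter (fun k => h k = true)).Nonempty
  · obtain ⟨j, hj, hmax⟩ := Finset.exists_max_image _ (P.K h) hex
    obtain ⟨hj1, hj2⟩ := Finset.mem_filter.1 hj
    have hj1' := Finset.mem_range.1 hj1
    refine ⟨P.K h j, P.Δ_le_K h hj1', fun k hk hh =>
      hmax k (Finset.mem_filter.2 ⟨Finset.mem_range.2 hk, hh⟩), fun k hk hh => ?_⟩
    rcases lt_trichotomy j k with hjk | rfl | hjk
    · exact P.K_true h j k hjk hk hj2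
    · rw [hj2] at hh; exact absurd hh (by simp)
    · exact P.K_false h k j hjk hj1' hh
  · exact ⟨P.Δ, le_rfl, fun k hk hh =>
      absurd ⟨k, Finset.mem_filter.2 ⟨Finset.mem_range.2 hk, hh⟩⟩ hex,
      fun k hk _ => P.K_ge h k hk⟩

/-- Sign compatibility of a near-optimal state with `u`. -/
lemma compat {u : ℕ → ℝ} {h : ℕ → Bool} {ω : ℕ → ℝ} {ε : ℝ} (ho : P.Opt u h ω ε) (r : ℕ → ℤ)
    (hr : ∀ i, |r i| ≤ P.Nb n) (hpos : 0 < ∑ i ∈ range n, (r i : ℝ) * ω i) :
    P.Δ ≤ ∑ i ∈ range n, (r i : ℝ) * ω i ∧ P.Δ ≤ ∑ i ∈ range n, (r i : ℝ) * u i := by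
  obtain ⟨B, hB1, hB2, hB3⟩ := P.exists_B h
  have hΔ := P.two_le_Δ
  have hQ := P.one_le_Q
  have hn0 : (0 : ℝ) ≤ n := Nat.cast_nonneg _
  have h1 := (P.gap n le_rfl ho.1 hB3 r hr).resolve_left hpos.ne'
  rw [abs_of_pos hpos] at h1
  have h2 : P.Q * (2 * n + 2) * B ≤ ∑ i ∈ range n, (r i : ℝ) * ω i := by
    have hQn : 0 < P.Q ^ n := by positivity
    refine le_of_mul_le_mul_left (le_trans ?_ h1) hQn
    calc P.Q ^ n * (P.Q * (2 * n + 2) * B) = P.Q ^ (n + 1) * (2 * n + 2) * B := by ring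
      _ ≤ P.L * B := by gcongr; exacts [by linarith, P.hL]
  have h3 : ∀ i ∈ range n, (r i : ℝ) * ω i - P.Q * (2 * B) ≤ (r i : ℝ) * u i := by
    intro i hi
    have hi' := Finset.mem_range.1 hi
    have a1 := P.upper ho (B := B) (by linarith) hB2 i hi'
    have a2 := P.lower ho hi'
    have a3 : P.disc h i ≤ B := by
      unfold disc
      split_ifs with hh
      · exact hB2 i hi' hh
      · linarith
    have a4 : |ω i - u i| ≤ 2 * B := by rw [abs_le]; constructor <;> linarith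
    have a5 : |(r i : ℝ)| ≤ P.Q := by
      refine le_trans ?_ (P.Nb_le n)
      exact_mod_cast hr i
    have a6 : (r i : ℝ) * (ω i - u i) ≤ P.Q * (2 * B) := by
      refine (le_abs_self _).trans ?_
      rw [abs_mul]
      gcongr
    linarith
  have h4 := Finset.sum_le_sum h3
  rw [Finset.sum_sub_distrib, Finset.sum_const, Finset.card_range, nsmul_eq_mul] at h4
  have h5 : B ≤ P.Q * B := by nlinarith
  have h6 : 0 ≤ n * (P.Q * B) := mul_nonneg hn0 (by linarith)
  constructor <;> nlinarith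

lemma state_zero : P.State (fun _ => true) (fun _ => 0) :=
  fun k _ => ⟨fun _ _ => le_rfl, fun _ => P.zero_mem_T _ k, by simp⟩

lemma cst_of_zero {h : ℕ → Bool} {ω : ℕ → ℝ} (hs : P.State h ω) (h0 : ∀ k < n, ω k = 0) {k : ℕ}
    (hk : k < n) : P.cst h ω k = P.cst (fun _ => true) (fun _ => 0) k := by
  refine P.cst_congr (fun i hi => ?_) (h0 k hk)
  have hi' : i < n := by omega
  cases hh : h i with
  | true => rfl
  | false =>
    have := (hs i hi').2.2 hh 0 (P.zero_mem_T ω i)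
    rw [h0 i hi'] at this
    simp only [sub_self, abs_zero] at this
    linarith [P.Δ_le_K h hi', P.two_le_Δ]

end Par

/-- Lower end of the dyadic interval of a node. -/
def lo (n : ℕ) (h : ℕ → Bool) (k : ℕ) : ℕ := ∑ i ∈ range k, if h i then 2 ^ (n - i) else 0

lemma lo_mono (n : ℕ) (h : ℕ → Bool) : Monotone (lo n h) :=
  monotone_nat_of_le_succ fun k => by unfold lo; rw [Finset.sum_range_succ]; omega

lemma hi_anti (n : ℕ) (h : ℕ → Bool) {k j : ℕ} (hkj : k ≤ j) (hj : j ≤ n) :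
    lo n h j + 2 * 2 ^ (n - j) ≤ lo n h k + 2 * 2 ^ (n - k) := by
  induction j, hkj using Nat.le_induction with
  | base => exact le_rfl
  | succ j hkj ih =>
    refine le_trans ?_ (ih (by omega))
    have : 2 ^ (n - j) = 2 * 2 ^ (n - (j + 1)) := by
      rw [show n - j = n - (j + 1) + 1 by omega, pow_succ]; ring
    unfold lo
    rw [Finset.sum_range_succ]
    split_ifs <;> omega

theorem exists_par (n : ℕ) (N : ℤ) (hN : 1 ≤ N) :
    ∃ Δ₀ : ℝ, ∀ Δ, Δ₀ ≤ Δ → ∃ P : Par n, P.Δ = Δ ∧ P.Nb n = N := by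
  let f : ℤ → ℤ := fun t => 2 * t ^ 2
  have hf1 : ∀ m, 1 ≤ f^[m] N := by
    intro m
    induction m with
    | zero => exact hN
    | succ m ih => rw [Function.iterate_succ_apply']; simp only [f]; nlinarith
  have hfm : Monotone (fun m => f^[m] N) := monotone_nat_of_le_succ fun m => by
    rw [Function.iterate_succ_apply']
    have := hf1 m
    simp only [f]; nlinarith
  obtain ⟨Q, hQ⟩ : ∃ Q : ℝ, Q = ((f^[n] N : ℤ) : ℝ) := ⟨_, rfl⟩
  have hQ1 : 1 ≤ Q := by rw [hQ]; exact_mod_cast hf1 n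
  obtain ⟨L, hL⟩ : ∃ L : ℝ, L = Q ^ (n + 1) * (2 * n + 2) := ⟨_, rfl⟩
  have hn0 : (0 : ℝ) ≤ n := Nat.cast_nonneg _
  have hL1 : 1 ≤ L := by
    have := one_le_pow₀ (n := n + 1) hQ1
    rw [hL]; nlinarith
  have hLp : 1 ≤ L ^ (2 * 2 ^ n) := one_le_pow₀ hL1
  refine ⟨max (2 * n + 2) (2 * (n + 2) ^ 2 * L ^ (2 * 2 ^ n)), fun Δ hΔ => ?_⟩
  have hΔ1 := (le_max_left _ _).trans hΔ
  have hΔ2 := (le_max_right _ _).trans hΔ
  have hΔ0 : 0 ≤ Δ := by linarith
  have hpow : ∀ a b : ℕ, a + 1 ≤ b → L * (Δ * L ^ a) ≤ Δ * L ^ b := by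
    intro a b hab
    calc L * (Δ * L ^ a) = Δ * L ^ (a + 1) := by ring
      _ ≤ _ := by gcongr
  refine ⟨⟨fun j => f^[n - j] N, Q, fun h k => Δ * L ^ (lo n h k + 2 ^ (n - k)), L, Δ,
    Δ * L ^ (2 * 2 ^ n), fun j => hf1 _, fun j hj => ?_, fun j => ?_, fun h h' k hh => ?_,
    fun h k j hkj hj hh => ?_, fun h k j hkj hj hh => ?_, fun h k hk => ?_, fun h k hk => ?_,
    hL.ge, hΔ1, ?_, ?_⟩, rfl, by simp⟩
  · rw [show n - j = n - (j + 1) + 1 by omega, Function.iterate_succ_apply']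
  · rw [hQ]; exact_mod_cast hfm (Nat.sub_le n j)
  · have : lo n h k = lo n h' k :=
      Finset.sum_congr rfl fun i hi => by rw [hh i (Finset.mem_range.1 hi)]
    rw [this]
  · apply hpow
    have h1 := lo_mono n h (show k + 1 ≤ j by omega)
    have h2 : lo n h (k + 1) = lo n h k + 2 ^ (n - k) := by
      unfold lo; rw [Finset.sum_range_succ, if_pos hh]
    have h3 : 0 < 2 ^ (n - j) := by positivity
    omega
  · apply hpow
    have h1 := hi_anti n h (show k + 1 ≤ j by omega) hj.le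
    have h2 : lo n h (k + 1) = lo n h k := by
      unfold lo; rw [Finset.sum_range_succ, if_neg (by simp [hh]), add_zero]
    have h3 : 0 < 2 ^ (n - j) := by positivity
    have h4 : 2 ^ (n - k) = 2 * 2 ^ (n - (k + 1)) := by
      rw [show n - k = n - (k + 1) + 1 by omega, pow_succ]; ring
    omega
  · have h3 : 0 < 2 ^ (n - k) := by positivity
    simpa using hpow 0 (lo n h k + 2 ^ (n - k)) (by omega)
  · have h1 := hi_anti n h (Nat.zero_le k) hk.le
    have h2 : lo n h 0 = 0 := by simp [lo]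
    rw [h2, Nat.sub_zero] at h1
    gcongr
    omega
  · nlinarith
  · nlinarith

/-- The open positive orthant. -/
def pos (n : ℕ) : Set (Fin n → ℝ) := {x | ∀ i, 0 < x i}

/-- `w` is sign compatible with `log x` on integer vectors with entries bounded by `N`. -/
def Compat {n : ℕ} (N : ℤ) (Δ : ℝ) (w x : Fin n → ℝ) : Prop :=
  ∀ r : Fin n → ℤ, (∀ i, |r i| ≤ N) → 0 < ∑ i, (r i : ℝ) * w i →
    Δ ≤ ∑ i, (r i : ℝ) * w i ∧ Δ ≤ ∑ i, (r i : ℝ) * Real.log (x i)

/-- Extension of a finite vector by zero. -/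
def ext {n : ℕ} {α : Type} [Zero α] (f : Fin n → α) : ℕ → α :=
  fun k => if hk : k < n then f ⟨k, hk⟩ else 0

@[simp] lemma ext_val {n : ℕ} {α : Type} [Zero α] (f : Fin n → α) (i : Fin n) :
    ext f i = f i := by simp [ext]

namespace Par

variable {n : ℕ} (P : Par n)

/-- The family of affine functions. -/
def fam : Set ((Fin n → ℝ) × ℝ) :=
  {p | ∃ (π : Equiv.Perm (Fin n)) (h : ℕ → Bool) (ω : ℕ → ℝ), P.State h ω ∧
    (∀ i : Fin n, p.1 (π i) = ω i) ∧
    p.2 = ∑ k ∈ range n, P.cst h ω k - ∑ k ∈ range n, P.cst (fun _ => true) (fun _ => 0) k}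

lemma zero_mem_fam : ((0 : Fin n → ℝ), (0 : ℝ)) ∈ P.fam :=
  ⟨1, fun _ => true, fun _ => 0, P.state_zero, fun _ => rfl, by simp⟩

/-- For a sorting permutation, values are `J` up to a constant. -/
lemma val_le {x : Fin n → ℝ} (hx : x ∈ pos n) {σ : Equiv.Perm (Fin n)} (hσ : Antitone (x ∘ σ))
    {π : Equiv.Perm (Fin n)} {h : ℕ → Bool} {ω : ℕ → ℝ} (hs : P.State h ω) {w : Fin n → ℝ}
    (hw : ∀ i : Fin n, w (π i) = ω i) :
    w ⬝ᵥ x - ∑ k ∈ range n, P.cst h ω k ≤ P.J (ext fun i => Real.log (x (σ i))) h ω ∧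
    (π = σ → w ⬝ᵥ x - ∑ k ∈ range n, P.cst h ω k = P.J (ext fun i => Real.log (x (σ i))) h ω) := by
  have e1 : w ⬝ᵥ x = ∑ i : Fin n, ω i * x (π i) := by
    rw [dotProduct, ← Equiv.sum_comp π]
    simp only [hw]
  have e2 : P.J (ext fun i => Real.log (x (σ i))) h ω
      = ∑ i : Fin n, ω i * x (σ i) - ∑ k ∈ range n, P.cst h ω k := by
    unfold J
    rw [Finset.sum_sub_distrib,
      ← Fin.sum_univ_eq_sum_range (fun k => Real.exp (ext (fun i => Real.log (x (σ i))) k) * ω k)]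
    congr 1
    refine Finset.sum_congr rfl fun i _ => ?_
    rw [ext_val, Real.exp_log (hx _), mul_comm]
  rw [e1, e2]
  refine ⟨?_, fun e => by rw [e]⟩
  have hω : Antitone (fun i : Fin n => ω i) := by
    intro i j hij
    rcases hij.eq_or_lt with rfl | hij
    · exact le_rfl
    · exact (hs j j.2).1 i hij
  have := (hω.monovary hσ).sum_mul_comp_perm_le_sum_mul (σ := π.trans σ.symm)
  simp only [Function.comp, Equiv.trans_apply, Equiv.apply_symm_apply] at this
  linarith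

lemma exists_sort (x : Fin n → ℝ) : ∃ σ : Equiv.Perm (Fin n), Antitone (x ∘ σ) := by
  refine ⟨Tuple.sort (fun i => -x i), fun i j hij => ?_⟩
  have := Tuple.monotone_sort (fun i => -x i) hij
  simp only [Function.comp] at this ⊢
  linarith

lemma J_le (u : ℕ → ℝ) (h : ℕ → Bool) (ω : ℕ → ℝ) :
    P.J u h ω ≤ ∑ k ∈ range n, Real.exp (u k) * (u k + P.Km) := by
  refine Finset.sum_le_sum fun i hi => ?_
  have b3 := P.disc_le h (Finset.mem_range.1 hi)
  have b5 := Real.exp_pos (u i)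
  have b6 : P.cst h ω i = Real.exp (u i) * Real.exp (ω i - u i - P.disc h i) := by
    unfold cst; rw [← Real.exp_add]; congr 1; ring
  have := Real.add_one_le_exp (ω i - u i - P.disc h i)
  rw [b6]
  nlinarith

lemma bddAbove {x : Fin n → ℝ} (hx : x ∈ pos n) :
    BddAbove ((fun p : (Fin n → ℝ) × ℝ => p.1 ⬝ᵥ x - p.2) '' P.fam) := by
  obtain ⟨σ, hσ⟩ := exists_sort x
  refine ⟨∑ k ∈ range n, Real.exp (ext (fun i => Real.log (x (σ i))) k) *
    (ext (fun i => Real.log (x (σ i))) k + P.Km) +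
      ∑ k ∈ range n, P.cst (fun _ => true) (fun _ => 0) k, ?_⟩
  rintro _ ⟨p, ⟨π, h, ω, hs, hw, hp⟩, rfl⟩
  have a1 := (P.val_le hx hσ hs hw).1
  have a2 := P.J_le (ext fun i => Real.log (x (σ i))) h ω
  simp only [hp]
  linarith

/-- The Lyapunov function. -/
noncomputable def Φ (x : Fin n → ℝ) : ℝ :=
  sSup ((fun p : (Fin n → ℝ) × ℝ => p.1 ⬝ᵥ x - p.2) '' P.fam)

lemma le_Φ {x : Fin n → ℝ} (hx : x ∈ pos n) {p : (Fin n → ℝ) × ℝ} (hp : p ∈ P.fam) :
    p.1 ⬝ᵥ x - p.2 ≤ P.Φ x := le_csSup (P.bddAbove hx) ⟨p, hp, rfl⟩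

lemma Φ_le {x : Fin n → ℝ} {c : ℝ} (h : ∀ p ∈ P.fam, p.1 ⬝ᵥ x - p.2 ≤ c) : P.Φ x ≤ c := by
  refine csSup_le ⟨_, _, P.zero_mem_fam, rfl⟩ ?_
  rintro _ ⟨p, hp, rfl⟩
  exact h p hp

/-- From a near-maximiser with sorting permutation to `Opt`. -/
lemma opt_of {x : Fin n → ℝ} (hx : x ∈ pos n) {σ : Equiv.Perm (Fin n)} (hσ : Antitone (x ∘ σ))
    {h : ℕ → Bool} {ω : ℕ → ℝ} (hs : P.State h ω) {ε : ℝ} (hε : ∀ i, 2 * ε ≤ x i)
    (hopt : P.Φ x ≤ P.J (ext fun i => Real.log (x (σ i))) h ω +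
      ∑ k ∈ range n, P.cst (fun _ => true) (fun _ => 0) k + ε) :
    P.Opt (ext fun i => Real.log (x (σ i))) h ω ε := by
  refine ⟨hs, fun h' ω' hs' => ?_, fun k hk => ?_, fun i j hij hj => ?_⟩
  · have hw : ∀ i : Fin n, (fun j => ω' (σ.symm j)) (σ i) = ω' i := fun i => by simp
    have a1 := (P.val_le hx hσ hs' (w := fun j => ω' (σ.symm j)) hw).2 rfl
    have a2 := P.le_Φ hx (p := (fun j => ω' (σ.symm j), _)) ⟨σ, h', ω', hs', hw, rfl⟩
    simp only at a2
    linarith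
  · simp only [ext, dif_pos hk]
    rw [Real.exp_log (hx _)]
    exact hε _
  · simp only [ext, dif_pos hj, dif_pos (hij.trans_lt hj)]
    exact Real.log_le_log (hx _) (hσ (show (⟨i, hij.trans_lt hj⟩ : Fin n) ≤ ⟨j, hj⟩ from hij))

lemma exists_small {x : Fin n → ℝ} (hx : x ∈ pos n) {ε : ℝ} (hε : 0 < ε) :
    ∃ ε', 0 < ε' ∧ ε' ≤ ε ∧ ∀ i, 2 * ε' ≤ x i := by
  have h1 : ∀ i, ∀ᶠ e in nhdsWithin (0 : ℝ) (Set.Ioi 0), 2 * e ≤ x i := by
    intro i
    refine Filter.Eventually.filter_mono nhdsWithin_le_nhds ?_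
    filter_upwards [Iic_mem_nhds (show (0 : ℝ) < x i / 2 from half_pos (hx i))] with e he
    have : e ≤ x i / 2 := he
    linarith
  have h2 : ∀ᶠ e in nhdsWithin (0 : ℝ) (Set.Ioi 0), e ≤ ε :=
    Filter.Eventually.filter_mono nhdsWithin_le_nhds (Iic_mem_nhds hε)
  obtain ⟨e, he1, he2, he3⟩ :=
    ((show ∀ᶠ e in nhdsWithin (0 : ℝ) (Set.Ioi 0), 0 < e from self_mem_nhdsWithin).and
      (h2.and (Filter.eventually_all.2 h1))).exists
  exact ⟨e, he1, he2, he3⟩

end Par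

/-- The convex Lyapunov function with sign-compatible approximate subgradients. -/
theorem exists_lyap (n : ℕ) (N : ℤ) (hN : 1 ≤ N) :
    ∃ Δ₀ : ℝ, ∀ Δ, Δ₀ ≤ Δ → ∃ (Φ : (Fin n → ℝ) → ℝ) (D : ℝ),
      ConvexOn ℝ (pos n) Φ ∧ (∀ x ∈ pos n, 0 ≤ Φ x) ∧
      (∀ x ∈ pos n, ∀ ε > 0, ∃ w : Fin n → ℝ, (∀ i, |w i - Real.log (x i)| ≤ D) ∧
        (∀ y ∈ pos n, Φ x - ε + w ⬝ᵥ (y - x) ≤ Φ y) ∧ Compat N Δ w x ∧ (w = 0 → Φ x ≤ ε)) ∧
      (∀ x ∈ pos n, Φ x ≤ 0 → ∀ i, |Real.log (x i)| ≤ D) := by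
  obtain ⟨Δ₀, hΔ₀⟩ := exists_par n N hN
  refine ⟨Δ₀, fun Δ hΔ => ?_⟩
  obtain ⟨P, rfl, rfl⟩ := hΔ₀ Δ hΔ
  refine ⟨P.Φ, 2 * P.Km, ⟨?_, ?_⟩, fun x hx => ?_, fun x hx ε hε => ?_, fun x hx h0 i => ?_⟩
  · intro x hx y hy a b ha hb hab i
    have := hx i
    have := hy i
    simp only [Pi.add_apply, Pi.smul_apply, smul_eq_mul]
    rcases ha.eq_or_lt with rfl | ha'
    · rw [zero_add] at hab; subst hab; simpa
    · positivity
  · intro x hx y hy a b ha hb hab
    refine P.Φ_le fun p hp => ?_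
    have a1 := P.le_Φ hx hp
    have a2 := P.le_Φ hy hp
    simp only [dotProduct_add, dotProduct_smul, smul_eq_mul]
    have : p.2 = a * p.2 + b * p.2 := by rw [← add_mul, hab, one_mul]
    nlinarith
  · simpa using P.le_Φ hx P.zero_mem_fam
  · obtain ⟨ε', h1, h2, h3⟩ := Par.exists_small hx hε
    obtain ⟨σ, hσ⟩ := Par.exists_sort x
    obtain ⟨_, ⟨p, ⟨π, h, ω, hs, hw, hp⟩, rfl⟩, hlt⟩ := exists_lt_of_lt_csSup
      (s := (fun p : (Fin n → ℝ) × ℝ => p.1 ⬝ᵥ x - p.2) '' P.fam) ⟨_, _, P.zero_mem_fam, rfl⟩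
      (show P.Φ x - ε' < P.Φ x by linarith)
    have a1 := (P.val_le hx hσ hs hw).1
    simp only [hp] at hlt
    have ho := P.opt_of hx hσ hs h3 (by linarith)
    have hw' : ∀ i : Fin n, (fun j => ω (σ.symm j)) (σ i) = ω i := fun i => by simp
    have a2 := (P.val_le hx hσ hs (w := fun j => ω (σ.symm j)) hw').2 rfl
    refine ⟨fun j => ω (σ.symm j), fun i => ?_, fun y hy => ?_, fun r hr hpos => ?_, fun h0 => ?_⟩
    · simpa using P.dev ho (σ.symm i).2
    · have a3 := P.le_Φ hy (p := (fun j => ω (σ.symm j), _)) ⟨σ, h, ω, hs, hw', rfl⟩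
      simp only at a3
      rw [dotProduct_sub]
      linarith
    · have e1 : ∑ i, (r i : ℝ) * ω (σ.symm i)
          = ∑ i ∈ range n, ((ext (fun i => r (σ i)) i : ℤ) : ℝ) * ω i := by
        rw [← Fin.sum_univ_eq_sum_range (fun i => ((ext (fun i => r (σ i)) i : ℤ) : ℝ) * ω i),
          ← Equiv.sum_comp σ]
        simp
      have e2 : ∑ i, (r i : ℝ) * Real.log (x i)
          = ∑ i ∈ range n, ((ext (fun i => r (σ i)) i : ℤ) : ℝ) *
            ext (fun i => Real.log (x (σ i))) i := by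
        rw [← Fin.sum_univ_eq_sum_range (fun i => ((ext (fun i => r (σ i)) i : ℤ) : ℝ) *
            ext (fun i => Real.log (x (σ i))) i), ← Equiv.sum_comp σ]
        simp
      rw [e1] at hpos ⊢
      rw [e2]
      refine P.compat ho _ (fun i => ?_) hpos
      unfold ext
      split_ifs
      · exact hr _
      · simp only [abs_zero]; omega
    · have h00 : ∀ k < n, ω k = 0 := fun k hk => by
        simpa using congrFun h0 (σ ⟨k, hk⟩)
      have a3 : ∑ k ∈ range n, P.cst h ω k = ∑ k ∈ range n, P.cst (fun _ => true) (fun _ => 0) k :=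
        Finset.sum_congr rfl fun k hk => P.cst_of_zero hs h00 (Finset.mem_range.1 hk)
      rw [h0, zero_dotProduct] at a2
      linarith
  · obtain ⟨σ, hσ⟩ := Par.exists_sort x
    have a1 := (P.val_le hx hσ (π := σ) P.state_zero (w := 0) (fun _ => rfl)).2 rfl
    rw [zero_dotProduct] at a1
    have ho := P.opt_of hx hσ P.state_zero (ε := 0) (fun i => by simpa using (hx i).le)
      (by linarith)
    simpa using P.dev ho (σ.symm i).2

end Crest.Agent.H3.Perm
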