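import Mathlib
import Crest.Prelude.Def_MassAction
import Crest.Agent.H3.PermGeo

/-! Row 92 (permanence): reaction inequality and ODE lemmas. -/

set_option autoImplicit false

namespace Crest.Agent.H3.Perm

open Finset Crest.AnalysisR.MassAction Topology Filter

section React

variable {d : ℕ}

/-- Linear functional on complexes. -/
def lin (w : Fin d → ℝ) (y : Fin d → ℕ) : ℝ := ∑ i, (y i : ℝ) * w i

/-- Monomial. -/
def mono (x : Fin d → ℝ) (y : Fin d → ℕ) : ℝ := ∏ i, x i ^ y i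

lemma mono_pos {x : Fin d → ℝ} (hx : x ∈ pos d) (y : Fin d → ℕ) : 0 < mono x y :=
  Finset.prod_pos fun i _ => pow_pos (hx i) _

lemma mono_eq {x : Fin d → ℝ} (hx : x ∈ pos d) (y : Fin d → ℕ) :
    mono x y = Real.exp (lin (fun i => Real.log (x i)) y) := by
  unfold mono lin
  rw [Real.exp_sum]
  refine Finset.prod_congr rfl fun i _ => ?_
  rw [Real.exp_nat_mul, Real.exp_log (hx i)]

lemma dot_rv (w : Fin d → ℝ) (r : (Fin d → ℕ) × (Fin d → ℕ)) :
    w ⬝ᵥ reactionVector r = lin w r.2 - lin w r.1 := by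
  unfold lin reactionVector dotProduct
  rw [← Finset.sum_sub_distrib]
  exact Finset.sum_congr rfl fun i _ => by ring

lemma dot_field (R : Network d) (k : (Fin d → ℕ) × (Fin d → ℕ) → ℝ) (w x : Fin d → ℝ) :
    w ⬝ᵥ field R k x = ∑ r ∈ R, k r * mono x r.1 * (lin w r.2 - lin w r.1) := by
  unfold field
  rw [dotProduct_sum]
  refine Finset.sum_congr rfl fun r _ => ?_
  rw [dotProduct_smul, dot_rv, smul_eq_mul, mono]

lemma compat_lin {N : ℕ} {Δ : ℝ} {w x : Fin d → ℝ} (hc : Compat N Δ w x) {y z : Fin d → ℕ}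
    (hy : ∀ i, y i ≤ N) (hz : ∀ i, z i ≤ N) (hlt : lin w y < lin w z) :
    Δ ≤ lin w z - lin w y ∧
      Δ ≤ lin (fun i => Real.log (x i)) z - lin (fun i => Real.log (x i)) y := by
  have e : ∀ v : Fin d → ℝ, ∑ i, (((z i : ℤ) - y i : ℤ) : ℝ) * v i = lin v z - lin v y := by
    intro v
    unfold lin
    rw [← Finset.sum_sub_distrib]
    exact Finset.sum_congr rfl fun i _ => by push_cast; ring
  have := hc (fun i => (z i : ℤ) - y i) (fun i => by
    have := hy i; have := hz i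
    rw [abs_le]; omega) (by rw [e]; linarith)
  rwa [e, e] at this

/-- The total downward flux. -/
def down (R : Network d) (k : (Fin d → ℕ) × (Fin d → ℕ) → ℝ) (w x : Fin d → ℝ) : ℝ :=
  ∑ r ∈ R, k r * mono x r.1 * max (lin w r.1 - lin w r.2) 0

lemma path_bound {R : Network d} {k : (Fin d → ℕ) × (Fin d → ℕ) → ℝ} (hk : ∀ r ∈ R, 0 < k r)
    {N : ℕ} (hN : ∀ r ∈ R, ∀ i, r.1 i ≤ N) {y z : Fin d → ℕ} (hy : ∀ i, y i ≤ N)
    (hp : Relation.ReflTransGen (fun a b => (a, b) ∈ R) z y) :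
    ∃ l : ℝ, 0 ≤ l ∧ ∀ (Δ : ℝ) (w x : Fin d → ℝ), x ∈ pos d → Compat N Δ w x →
      mono x y * (lin w z - lin w y) ≤ l * Real.exp (-Δ) * down R k w x := by
  have hterm : ∀ w x, x ∈ pos d → ∀ r ∈ R, 0 ≤ k r * mono x r.1 * max (lin w r.1 - lin w r.2) 0 :=
    fun w x hx r hr => mul_nonneg (mul_nonneg (hk r hr).le (mono_pos hx _).le) (le_max_right _ _)
  induction hp using Relation.ReflTransGen.head_induction_on with
  | refl => exact ⟨0, le_rfl, fun _ _ _ _ _ => by simp⟩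
  | @head a b hab _ ih =>
    obtain ⟨l, hl, ih⟩ := ih
    have hk0 := hk _ hab
    refine ⟨l + 1 / k (a, b), by positivity, fun Δ w x hx hc => ?_⟩
    have hD : 0 ≤ down R k w x := Finset.sum_nonneg (hterm w x hx)
    have hmy := mono_pos hx y
    rcases le_or_gt (lin w a) (lin w y) with hle | hlt
    · exact le_trans (mul_nonpos_of_nonneg_of_nonpos hmy.le (by linarith)) (by positivity)
    have h1 := (compat_lin hc hy (hN _ hab) hlt).2
    have h2 : mono x y ≤ Real.exp (-Δ) * mono x a := by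
      rw [mono_eq hx, mono_eq hx, ← Real.exp_add, Real.exp_le_exp]
      linarith
    have h3 : k (a, b) * mono x a * max (lin w a - lin w b) 0 ≤ down R k w x :=
      Finset.single_le_sum (hterm w x hx) hab
    have h4 : mono x a * max (lin w a - lin w b) 0 ≤ 1 / k (a, b) * down R k w x := by
      rw [one_div, ← div_eq_inv_mul, le_div_iff₀ hk0]
      linarith
    have h5 : mono x y * (lin w a - lin w b) ≤ Real.exp (-Δ) * (1 / k (a, b) * down R k w x) := by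
      calc _ ≤ mono x y * max (lin w a - lin w b) 0 := by gcongr; exact le_max_left _ _
        _ ≤ Real.exp (-Δ) * mono x a * max (lin w a - lin w b) 0 := by gcongr
        _ = Real.exp (-Δ) * (mono x a * max (lin w a - lin w b) 0) := by ring
        _ ≤ _ := by gcongr
    have h6 := ih Δ w x hx hc
    nlinarith

/-- The key inequality for weakly reversible networks. -/
theorem react {R : Network d} (hR : IsWeaklyReversible R) {k : (Fin d → ℕ) × (Fin d → ℕ) → ℝ}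
    (hk : ∀ r ∈ R, 0 < k r) :
    ∃ N : ℕ, 1 ≤ N ∧ ∃ δ : ℝ, ∀ Δ, δ ≤ Δ → ∀ w x : Fin d → ℝ, x ∈ pos d → Compat N Δ w x →
      w ⬝ᵥ field R k x ≤ 0 ∧ ∀ r ∈ R, w ⬝ᵥ reactionVector r ≠ 0 →
        w ⬝ᵥ field R k x ≤ -(k r * mono x r.1 / 3) := by
  classical
  obtain ⟨N, hN1, hN⟩ : ∃ N : ℕ, 1 ≤ N ∧ ∀ r ∈ R, ∀ i, r.1 i ≤ N ∧ r.2 i ≤ N := by
    refine ⟨1 + ∑ r ∈ R, ∑ i, (r.1 i + r.2 i), by omega, fun r hr i => ?_⟩
    have h1 : r.1 i + r.2 i ≤ ∑ i, (r.1 i + r.2 i) :=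
      Finset.single_le_sum (f := fun i => r.1 i + r.2 i) (fun _ _ => Nat.zero_le _)
        (Finset.mem_univ i)
    have h2 : ∑ i, (r.1 i + r.2 i) ≤ ∑ r ∈ R, ∑ i, (r.1 i + r.2 i) :=
      Finset.single_le_sum (f := fun r : (Fin d → ℕ) × (Fin d → ℕ) => ∑ i, (r.1 i + r.2 i))
        (fun _ _ => Nat.zero_le _) hr
    omega
  have hl := fun r (hr : r ∈ R) =>
    path_bound hk (fun r hr i => (hN r hr i).1) (fun i => (hN r hr i).1) (hR r hr)
  choose! l hl0 hl using hl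
  obtain ⟨C, hC⟩ : ∃ C, C = ∑ r ∈ R, k r * l r := ⟨_, rfl⟩
  have hC0 : 0 ≤ C := hC ▸ Finset.sum_nonneg fun r hr => mul_nonneg (hk r hr).le (hl0 r hr)
  refine ⟨N, hN1, 2 * C + 1, fun Δ hΔ w x hx hc => ?_⟩
  have hterm : ∀ r ∈ R, 0 ≤ k r * mono x r.1 :=
    fun r hr => mul_nonneg (hk r hr).le (mono_pos hx _).le
  have hD : 0 ≤ down R k w x :=
    Finset.sum_nonneg fun r hr => mul_nonneg (hterm r hr) (le_max_right _ _)
  have he : C * Real.exp (-Δ) ≤ 1 / 2 := by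
    rw [Real.exp_neg, ← div_eq_mul_inv, div_le_iff₀ (Real.exp_pos _)]
    linarith [Real.add_one_le_exp Δ]
  obtain ⟨U, hU⟩ : ∃ U, U = ∑ r ∈ R, k r * mono x r.1 * max (lin w r.2 - lin w r.1) 0 := ⟨_, rfl⟩
  have hU1 : U ≤ down R k w x / 2 := by
    have : U ≤ ∑ r ∈ R, k r * l r * (Real.exp (-Δ) * down R k w x) := by
      rw [hU]
      refine Finset.sum_le_sum fun r hr => ?_
      have a1 := hl r hr Δ w x hx hc
      have a2 := hk r hr
      have a3 := hl0 r hr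
      have a4 : mono x r.1 * max (lin w r.2 - lin w r.1) 0
          ≤ l r * Real.exp (-Δ) * down R k w x := by
        rcases le_total (lin w r.2 - lin w r.1) 0 with h | h
        · rw [max_eq_right h, mul_zero]; positivity
        · rw [max_eq_left h]; exact a1
      calc _ = k r * (mono x r.1 * max (lin w r.2 - lin w r.1) 0) := by ring
        _ ≤ k r * (l r * Real.exp (-Δ) * down R k w x) := by gcongr
        _ = _ := by ring
    rw [← Finset.sum_mul, ← hC] at this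
    nlinarith
  have hf : w ⬝ᵥ field R k x = U - down R k w x := by
    rw [dot_field, hU, down, ← Finset.sum_sub_distrib]
    refine Finset.sum_congr rfl fun r _ => ?_
    rcases le_total (lin w r.2 - lin w r.1) 0 with h | h
    · rw [max_eq_right h, max_eq_left (by linarith)]; ring
    · rw [max_eq_left h, max_eq_right (by linarith)]; ring
  refine ⟨by linarith, fun r hr hne => ?_⟩
  rw [dot_rv] at hne
  have b1 : k r * mono x r.1 * max (lin w r.2 - lin w r.1) 0 ≤ U := hU ▸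
    Finset.single_le_sum (f := fun r => k r * mono x r.1 * max (lin w r.2 - lin w r.1) 0)
      (fun r hr => mul_nonneg (hterm r hr) (le_max_right _ _)) hr
  have b2 : k r * mono x r.1 * max (lin w r.1 - lin w r.2) 0 ≤ down R k w x :=
    Finset.single_le_sum (f := fun r => k r * mono x r.1 * max (lin w r.1 - lin w r.2) 0)
      (fun r hr => mul_nonneg (hterm r hr) (le_max_right _ _)) hr
  have b3 := hterm r hr
  rcases lt_or_gt_of_ne hne with h | h
  · have := (compat_lin hc (fun i => (hN r hr i).2) (fun i => (hN r hr i).1) (by linarith)).1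
    rw [max_eq_left (by linarith)] at b2
    nlinarith
  · have := (compat_lin hc (fun i => (hN r hr i).1) (fun i => (hN r hr i).2) (by linarith)).1
    rw [max_eq_left (by linarith)] at b1
    nlinarith

end React

/-- The properties of the Lyapunov function. -/
structure IsLyap {n : ℕ} (N : ℤ) (Δ : ℝ) (Φ : (Fin n → ℝ) → ℝ) (D : ℝ) : Prop where
  convex : ConvexOn ℝ (pos n) Φ
  nonneg : ∀ x ∈ pos n, 0 ≤ Φ x
  sub : ∀ x ∈ pos n, ∀ ε > 0, ∃ w : Fin n → ℝ, (∀ i, |w i - Real.log (x i)| ≤ D) ∧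
    (∀ y ∈ pos n, Φ x - ε + w ⬝ᵥ (y - x) ≤ Φ y) ∧ Compat N Δ w x ∧ (w = 0 → Φ x ≤ ε)
  box : ∀ x ∈ pos n, Φ x ≤ 0 → ∀ i, |Real.log (x i)| ≤ D

lemma isOpen_pos (n : ℕ) : IsOpen (pos n) := by
  have : pos n = ⋂ i, {x : Fin n → ℝ | 0 < x i} := by ext x; simp [pos]
  rw [this]
  exact isOpen_iInter_of_finite fun i => isOpen_lt continuous_const (continuous_apply i)

namespace IsLyap

variable {n : ℕ} {N : ℤ} {Δ : ℝ} {Φ : (Fin n → ℝ) → ℝ} {D : ℝ}

lemma continuousOn (hL : IsLyap N Δ Φ D) : ContinuousOn Φ (pos n) :=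
  hL.convex.continuousOn (isOpen_pos n)

lemma mem_Icc (hL : IsLyap N Δ Φ D) {x : Fin n → ℝ} (hx : x ∈ pos n) (h0 : Φ x ≤ 0) (i : Fin n) :
    Real.exp (-D) ≤ x i ∧ x i ≤ Real.exp D := by
  obtain ⟨h1, h2⟩ := abs_le.1 (hL.box x hx h0 i)
  constructor
  · rw [← Real.exp_log (hx i)]; exact Real.exp_le_exp.2 h1
  · rw [← Real.exp_log (hx i)]; exact Real.exp_le_exp.2 h2

lemma isCompact (hL : IsLyap N Δ Φ D) : IsCompact {x ∈ pos n | Φ x ≤ 0} := by
  have hsub : Set.Icc (fun _ => Real.exp (-D)) (fun _ => Real.exp D) ⊆ pos n :=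
    fun x hx i => (Real.exp_pos _).trans_le (hx.1 i)
  have : {x ∈ pos n | Φ x ≤ 0}
      = Set.Icc (fun _ => Real.exp (-D)) (fun _ => Real.exp D) ∩ Φ ⁻¹' Set.Iic 0 := by
    ext x
    constructor
    · rintro ⟨hx, h0⟩
      exact ⟨⟨fun i => (hL.mem_Icc hx h0 i).1, fun i => (hL.mem_Icc hx h0 i).2⟩, h0⟩
    · rintro ⟨hx, h0⟩
      exact ⟨hsub hx, h0⟩
  rw [this]
  exact isCompact_Icc.of_isClosed_subset
    ((hL.continuousOn.mono hsub).preimage_isClosed_of_isClosed isClosed_Icc isClosed_Iic)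
    Set.inter_subset_left

lemma decrease (hL : IsLyap N Δ Φ D) {x x' : ℝ → Fin n → ℝ} {a b ρ : ℝ} (hab : a ≤ b)
    (hc : ContinuousOn x (Set.Icc a b)) (hpos : ∀ t ∈ Set.Icc a b, x t ∈ pos n)
    (hd : ∀ t ∈ Set.Ioc a b, HasDerivAt x (x' t) t)
    (hrate : ∀ t ∈ Set.Ioc a b, ∃ ε₀ > 0, ∀ ε w, 0 < ε → ε ≤ ε₀ →
      (∀ y ∈ pos n, Φ (x t) - ε + w ⬝ᵥ (y - x t) ≤ Φ y) → Compat N Δ w (x t) → w ⬝ᵥ x' t ≤ -ρ) :
    Φ (x b) ≤ Φ (x a) - ρ * (b - a) := by
  have hneg : Set.MapsTo (fun τ : ℝ => -τ) (Set.Icc (-b) (-a)) (Set.Icc a b) :=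
    fun τ hτ => ⟨by linarith [hτ.2], by linarith [hτ.1]⟩
  have key := image_le_of_liminf_slope_right_le_deriv_boundary (f := fun τ => -Φ (x (-τ)))
    (a := -b) (b := -a) (B := fun τ => -Φ (x b) - ρ * (τ + b)) (B' := fun _ => -ρ)
    ((hL.continuousOn.comp (hc.comp continuous_neg.continuousOn hneg)
      (fun τ hτ => hpos _ (hneg hτ))).neg) (by simp) (by fun_prop)
    (fun τ _ => by
      have := ((((hasDerivAt_id' τ).add_const b).const_mul ρ).const_sub (-Φ (x b)))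
      simpa using this.hasDerivWithinAt) ?_ (x := -a) ⟨by linarith, le_rfl⟩
  · simp only [neg_neg] at key
    linarith
  intro τ hτ r hr
  obtain ⟨t, rfl⟩ : ∃ t, τ = -t := ⟨-τ, by simp⟩
  have ht : t ∈ Set.Ioc a b := ⟨by linarith [hτ.2], by linarith [hτ.1]⟩
  have hxt := hpos t ⟨ht.1.le, ht.2⟩
  obtain ⟨ε₀, hε₀, hw⟩ := hrate t ht
  obtain ⟨C, hC⟩ : ∃ C, C = ∑ i, (|Real.log (x t i)| + |D|) := ⟨_, rfl⟩
  have hC0 : 0 ≤ C := hC ▸ Finset.sum_nonneg fun i _ => by positivity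
  obtain ⟨η, hη⟩ : ∃ η, η = (r + ρ) / 3 := ⟨_, rfl⟩
  have hη0 : 0 < η := by rw [hη]; linarith
  have h1 := hasDerivAt_iff_tendsto_slope.1 (hd t ht)
  have h2 : Tendsto (fun z : ℝ => -z) (𝓝[>] (-t)) (𝓝[≠] t) := by
    refine tendsto_nhdsWithin_iff.2 ⟨?_, ?_⟩
    · have : Tendsto (fun z : ℝ => -z) (𝓝 (-t)) (𝓝 (- -t)) := continuous_neg.continuousAt
      rw [neg_neg] at this
      exact this.mono_left nhdsWithin_le_nhds
    · filter_upwards [self_mem_nhdsWithin] with z hz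
      have : -t < z := hz
      simp only [Set.mem_compl_iff, Set.mem_singleton_iff]
      intro h; linarith
  have h3 := Metric.tendsto_nhds.1 (h1.comp h2) (η / (C + 1)) (by positivity)
  refine Filter.Eventually.frequently ?_
  filter_upwards [h3, Ioo_mem_nhdsGT (show -t < -a by linarith [ht.1])] with z hz hz'
  obtain ⟨s, rfl⟩ : ∃ s, z = -s := ⟨-z, by simp⟩
  have hst : s < t := by linarith [hz'.1]
  have has : a < s := by linarith [hz'.2]
  have hxs := hpos s ⟨has.le, by linarith [ht.2]⟩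
  obtain ⟨w, hw1, hw2, hw3, -⟩ := hL.sub (x t) hxt (min ε₀ (η * (t - s)))
    (lt_min hε₀ (mul_pos hη0 (by linarith)))
  have a1 := hw _ w (lt_min hε₀ (mul_pos hη0 (by linarith))) (min_le_left _ _) hw2 hw3
  have a2 := hw2 _ hxs
  have a3 := min_le_right ε₀ (η * (t - s))
  simp only [Function.comp, neg_neg, dist_eq_norm] at hz
  have a4 : x s - x t = (s - t) • slope x t s := by
    rw [sub_smul_slope, vsub_eq_sub]
  have a5 : w ⬝ᵥ (slope x t s - x' t) ≤ η := by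
    have : w ⬝ᵥ (slope x t s - x' t) ≤ ∑ i, (|Real.log (x t i)| + |D|) * (η / (C + 1)) := by
      refine Finset.sum_le_sum fun i _ => (le_abs_self _).trans ?_
      rw [abs_mul]
      have b1 : |w i| ≤ |Real.log (x t i)| + |D| := by
        have := hw1 i
        have := abs_sub_abs_le_abs_sub (w i) (Real.log (x t i))
        linarith [le_abs_self D]
      have b2 : |(slope x t s - x' t) i| ≤ η / (C + 1) :=
        (norm_le_pi_norm (slope x t s - x' t) i).trans hz.le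
      gcongr
    rw [← Finset.sum_mul, ← hC] at this
    refine this.trans ?_
    rw [← mul_div_assoc, div_le_iff₀ (by positivity)]
    nlinarith
  rw [dotProduct_sub] at a5
  rw [a4, dotProduct_smul, smul_eq_mul] at a2
  rw [slope_def_field, div_lt_iff₀ (by linarith)]
  simp only [neg_neg]
  nlinarith

lemma invariant (hL : IsLyap N Δ Φ D) {v v' : (Fin n → ℝ) → (Fin n → ℝ)}
    (hv : ∀ x ∈ pos n, ∀ w, Compat N Δ w x → w ⬝ᵥ v x ≤ 0) {U : Set (Fin n → ℝ)} (hU : IsOpen U)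
    (hUp : U ⊆ pos n) (hMU : {x ∈ pos n | Φ x ≤ 0} ⊆ U) (heq : ∀ y ∈ U, v' y = v y)
    {x : ℝ → Fin n → ℝ} (hx : IsForwardSolution v' x) {a : ℝ} (ha : 0 ≤ a)
    (h0 : x a ∈ {x ∈ pos n | Φ x ≤ 0}) {b : ℝ} (hab : a ≤ b) : x b ∈ {x ∈ pos n | Φ x ≤ 0} := by
  have hc : ContinuousOn x (Set.Ici 0) := fun t ht => (hx t ht).continuousWithinAt
  have hsub : Set.Icc a b ⊆ Set.Ici 0 := fun t ht => ha.trans ht.1
  have hcl : IsClosed (x ⁻¹' {x ∈ pos n | Φ x ≤ 0} ∩ Set.Icc a b) := by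
    rw [Set.inter_comm]
    exact (hc.mono hsub).preimage_isClosed_of_isClosed isClosed_Icc hL.isCompact.isClosed
  refine hcl.Icc_subset_of_forall_mem_nhdsWithin h0 ?_ ⟨hab, le_rfl⟩
  rintro t ⟨ht, ht1, -⟩
  have ht0 : 0 ≤ t := ha.trans ht1
  have h1 : x ⁻¹' U ∈ 𝓝[≥] t :=
    nhdsWithin_mono t (Set.Ici_subset_Ici.2 ht0) (hc t ht0 (hU.mem_nhds (hMU ht)))
  obtain ⟨t', ht', hsub'⟩ := mem_nhdsGE_iff_exists_Icc_subset.1 h1
  filter_upwards [Ioo_mem_nhdsGT ht'] with s hs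
  have hin : ∀ r ∈ Set.Icc t s, x r ∈ U := fun r hr => hsub' ⟨hr.1, hr.2.trans hs.2.le⟩
  have := hL.decrease (x := x) (x' := fun r => v' (x r)) (ρ := 0) hs.1.le
    (hc.mono fun r hr => ht0.trans hr.1) (fun r hr => hUp (hin r hr))
    (fun r hr => (hx r (ht0.trans hr.1.le)).hasDerivAt (Ici_mem_nhds (ht0.trans_lt hr.1)))
    (fun r hr => ⟨1, one_pos, fun ε w _ _ _ hw => by
      have hr' := hin r ⟨hr.1.le, hr.2⟩
      rw [heq _ hr', neg_zero]
      exact hv _ (hUp hr') w hw⟩)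
  exact ⟨hUp (hin s ⟨hs.1.le, le_rfl⟩), by linarith [ht.2]⟩

lemma le_zero_of_small (hL : IsLyap N Δ Φ D) (hN : 1 ≤ N) {x : Fin n → ℝ} (hx : x ∈ pos n)
    (hΔ : ∀ i, |Real.log (x i)| < Δ) : Φ x ≤ 0 := by
  classical
  refine le_of_forall_pos_le_add fun ε hε => ?_
  obtain ⟨w, -, -, hc, h0⟩ := hL.sub x hx ε hε
  rw [zero_add]
  refine h0 (funext fun i => ?_)
  by_contra hne
  have hb : ∀ s : ℤ, |s| = 1 → ∀ j, |(Pi.single i s : Fin n → ℤ) j| ≤ N := by
    intro s hs j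
    by_cases hj : j = i
    · subst hj; simpa [hs] using hN
    · simp only [Pi.single_eq_of_ne hj, abs_zero]; omega
  have he : ∀ (s : ℤ) (f : Fin n → ℝ), ∑ j, ((Pi.single i s : Fin n → ℤ) j : ℝ) * f j = s * f i := by
    intro s f
    rw [Finset.sum_eq_single i]
    · simp
    · intro j _ hj; simp [Pi.single_eq_of_ne hj]
    · simp
  have := abs_lt.1 (hΔ i)
  rcases lt_or_gt_of_ne hne with h | h
  · have h1 := (hc (Pi.single i (-1)) (hb _ (by simp)) (by rw [he]; simpa using h)).2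
    rw [he (-1) (fun j => Real.log (x j))] at h1
    push_cast at h1
    linarith
  · have h1 := (hc (Pi.single i 1) (hb _ (by simp)) (by rw [he]; simpa using h)).2
    rw [he 1 (fun j => Real.log (x j))] at h1
    push_cast at h1
    linarith

end IsLyap

/-- Global solutions for a bounded Lipschitz field. -/
lemma global_exists {n : ℕ} {f : (Fin n → ℝ) → (Fin n → ℝ)} {K L : NNReal}
    (hf : LipschitzWith K f) (hb : ∀ x, ‖f x‖ ≤ L) (x₀ : Fin n → ℝ) :
    ∃ x, IsForwardSolution f x ∧ x 0 = x₀ := by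
  have h1 : ∀ m : ℕ, ∃ α : ℝ → Fin n → ℝ, α 0 = x₀ ∧
      ∀ t ∈ Set.Icc (0 : ℝ) m, HasDerivWithinAt α (f (α t)) (Set.Icc (0 : ℝ) m) t := by
    intro m
    have hm : (0 : ℝ) ≤ m := Nat.cast_nonneg _
    have := IsPicardLindelof.of_time_independent (f := f) (tmin := 0) (tmax := m)
      (t₀ := ⟨0, le_rfl, hm⟩) (x₀ := x₀) (a := L * m) (r := 0) (L := L) (K := K)
      (fun x _ => hb x) hf.lipschitzOnWith (by simp)
    exact this.exists_eq_forall_mem_Icc_hasDerivWithinAt₀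
  choose α hα0 hα using h1
  have h2 : ∀ m m' : ℕ, m ≤ m' → Set.EqOn (α m) (α m') (Set.Icc (0 : ℝ) m) := by
    intro m m' hmm
    have hmm' : (m : ℝ) ≤ m' := by exact_mod_cast hmm
    refine ODE_solution_unique (v := fun _ => f) (fun _ => hf)
      (fun t ht => (hα m t ht).continuousWithinAt) (fun t ht => ?_)
      (fun t ht => ((hα m' t ⟨ht.1, ht.2.trans hmm'⟩).continuousWithinAt).mono
        (Set.Icc_subset_Icc_right hmm')) (fun t ht => ?_) (by rw [hα0, hα0])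
    · exact (hα m t ⟨ht.1, ht.2.le⟩).mono_of_mem_nhdsWithin (Icc_mem_nhdsGE_of_mem ht)
    · exact (hα m' t ⟨ht.1, ht.2.le.trans hmm'⟩).mono_of_mem_nhdsWithin
        (Icc_mem_nhdsGE_of_mem ⟨ht.1, ht.2.trans_le hmm'⟩)
  refine ⟨fun t => α (⌊t⌋₊ + 1) t, fun t ht => ?_, hα0 _⟩
  have h3 : ∀ s ∈ Set.Icc (0 : ℝ) (⌊t⌋₊ + 1), α (⌊s⌋₊ + 1) s = α (⌊t⌋₊ + 2) s := by
    intro s hs
    refine h2 _ _ ?_ ⟨hs.1, by push_cast; exact (Nat.lt_floor_add_one s).le⟩
    have : ⌊s⌋₊ ≤ ⌊t⌋₊ + 1 := Nat.floor_le_of_le (by push_cast; exact hs.2)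
    omega
  have ht1 := Nat.lt_floor_add_one t
  have h4 := (hα (⌊t⌋₊ + 2) t ⟨ht, by push_cast; linarith⟩).mono
    (show Set.Icc (0 : ℝ) (⌊t⌋₊ + 1) ⊆ Set.Icc (0 : ℝ) ((⌊t⌋₊ + 2 : ℕ) : ℝ) from
      Set.Icc_subset_Icc_right (by push_cast; linarith))
  have h5 := h4.congr (f₁ := fun t => α (⌊t⌋₊ + 1) t) h3 (h3 t ⟨ht, ht1.le⟩)
  rw [← h3 t ⟨ht, ht1.le⟩] at h5
  refine h5.mono_of_mem_nhdsWithin ?_
  filter_upwards [self_mem_nhdsWithin, nhdsWithin_le_nhds (Iic_mem_nhds ht1)] with s h6 h7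
  exact ⟨h6, h7⟩

lemma contDiff_field {d : ℕ} (R : Network d) (k : (Fin d → ℕ) × (Fin d → ℕ) → ℝ) :
    ContDiff ℝ 1 (field R k) := by
  unfold field
  refine ContDiff.sum fun r _ => ?_
  have h : ContDiff ℝ 1 (fun x : Fin d → ℝ => k r * ∏ i, x i ^ r.1 i) :=
    contDiff_const.mul (contDiff_prod fun i _ => (contDiff_apply ℝ ℝ i).pow _)
  exact h.smul (contDiff_const (c := reactionVector r))

lemma sub_mem_stoich {d : ℕ} {R : Network d} {k : (Fin d → ℕ) × (Fin d → ℕ) → ℝ}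
    {x : ℝ → Fin d → ℝ} (hx : IsForwardSolution (field R k) x) {t : ℝ} (ht : 0 ≤ t) :
    x t - x 0 ∈ stoichSubspace R := by
  by_contra hne
  obtain ⟨f, hf, hker⟩ := Submodule.exists_le_ker_of_notMem hne
  have hmem : ∀ y, field R k y ∈ stoichSubspace R := fun y =>
    Submodule.sum_mem _ fun r hr => Submodule.smul_mem _ _ (Submodule.subset_span ⟨r, hr, rfl⟩)
  have hd : ∀ s, 0 ≤ s → HasDerivWithinAt (fun s => f (x s)) 0 (Set.Ici 0) s := by
    intro s hs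
    have := (LinearMap.toContinuousLinearMap f).hasFDerivAt.comp_hasDerivWithinAt s (hx s hs)
    have h0 : f (field R k (x s)) = 0 := hker (hmem _)
    simpa [h0, Function.comp_def] using this
  have := constant_of_has_deriv_right_zero (f := fun s => f (x s)) (a := 0) (b := t)
    (fun s hs => (hd s hs.1).continuousWithinAt.mono fun r hr => hr.1)
    (fun s hs => (hd s hs.1).mono (Set.Ici_subset_Ici.2 hs.1)) t ⟨ht, le_rfl⟩
  exact hf (by rw [map_sub, this, sub_self])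

end Crest.Agent.H3.Perm
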