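import Crest.Agent.H2.PlDefs

/-! Row 40, piece P2, part A: the abstract Hilbert space decomposition. -/

set_option autoImplicit false

namespace Crest.Agent.H3.Pl
open Crest.Agent.H2.Pl
open scoped InnerProductSpace

variable {H : Type} [NormedAddCommGroup H] [InnerProductSpace ℂ H]

/-- Continuous vectors. -/
def Cont (R : Rep H) (h : H) : Prop :=
  ∀ ε > 0, ∃ δ > 0, ∀ w : L, ‖(w : ℂ)‖ < δ → ‖R.π w h - h‖ < ε

lemma inner_π (R : Rep H) (z : L) (x y : H) : ⟪x, R.π z y⟫_ℂ = ⟪R.π (-z) x, y⟫_ℂ := by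
  rw [← (R.π z).inner_map_map (R.π (-z) x) y, ← R.add, add_neg_cancel, R.zero]

lemma Cont.π {R : Rep H} {h : H} (hh : Cont R h) (z : L) : Cont R (R.π z h) := by
  intro ε hε
  obtain ⟨δ, hδ, H⟩ := hh ε hε
  refine ⟨δ, hδ, fun w hw => ?_⟩
  rw [← R.add, add_comm, R.add, ← map_sub, LinearIsometry.norm_map]
  exact H w hw

lemma Cont.add {R : Rep H} {h k : H} (hh : Cont R h) (hk : Cont R k) : Cont R (h + k) := by
  intro ε hε
  obtain ⟨δ, hδ, H⟩ := hh _ (half_pos hε)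
  obtain ⟨δ', hδ', H'⟩ := hk _ (half_pos hε)
  refine ⟨min δ δ', lt_min hδ hδ', fun w hw => ?_⟩
  have h1 := H w (hw.trans_le (min_le_left _ _))
  have h2 := H' w (hw.trans_le (min_le_right _ _))
  rw [map_add, add_sub_add_comm]
  linarith [norm_add_le (R.π w h - h) (R.π w k - k)]

lemma Cont.neg {R : Rep H} {h : H} (hh : Cont R h) : Cont R (-h) := by
  intro ε hε
  obtain ⟨δ, hδ, H⟩ := hh _ hε
  refine ⟨δ, hδ, fun w hw => ?_⟩
  rw [map_neg, neg_sub_neg, norm_sub_rev]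
  exact H w hw

lemma cont_of_fixed {R : Rep H} {h : H} (hh : ∀ w, R.π w h = h) : Cont R h :=
  fun ε hε => ⟨1, one_pos, fun w _ => by rwa [hh, sub_self, norm_zero]⟩

lemma cont_sum {R : Rep H} {ι : Type} (s : Finset ι) {g : ι → H} (hg : ∀ i, Cont R (g i)) :
    Cont R (∑ i ∈ s, g i) :=
  Finset.sum_induction g (Cont R) (fun _ _ => Cont.add) (cont_of_fixed fun _ => map_zero _)
    fun i _ => hg i

/-- Small convex combinations of translates. -/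
def Small (R : Rep H) (ξ : H) : Prop :=
  ∀ δ > 0, ∀ ε > 0, ∃ (ι : Type) (_ : Fintype ι) (w : ι → L) (p : ι → ℝ),
    Wt δ w p ∧ ‖∑ i, (p i : ℂ) • R.π (w i) ξ‖ < ε

lemma norm_comb_sub {ι : Type} [Fintype ι] {δ ε : ℝ} {w : ι → L} {p : ι → ℝ}
    (hw : Wt δ w p) {v : ι → H} {h : H} (hv : ∀ i, ‖v i - h‖ ≤ ε) :
    ‖∑ i, (p i : ℂ) • v i - h‖ ≤ ε := by
  have e : ∑ i, (p i : ℂ) • v i - h = ∑ i, (p i : ℂ) • (v i - h) := by
    simp only [smul_sub, Finset.sum_sub_distrib]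
    rw [← Finset.sum_smul, ← Complex.ofReal_sum, hw.sum, Complex.ofReal_one, one_smul]
  rw [e]
  refine (norm_sum_le _ _).trans ?_
  calc ∑ i, ‖(p i : ℂ) • (v i - h)‖ ≤ ∑ i, p i * ε := Finset.sum_le_sum fun i _ => by
        rw [norm_smul, Complex.norm_real, Real.norm_of_nonneg (hw.nonneg i)]
        exact mul_le_mul_of_nonneg_left (hv i) (hw.nonneg i)
    _ = ε := by rw [← Finset.sum_mul, hw.sum, one_mul]

lemma small_sub {R : Rep H} {f g : H} (hg : Cont R g)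
    (hc : ∀ δ > 0, g ∈ closure (convexHull ℝ {x | ∃ w : L, ‖(w : ℂ)‖ < δ ∧ x = R.π w f})) :
    Small R (f - g) := by
  intro δ hδ ε hε
  obtain ⟨δ', hδ', H'⟩ := hg (ε / 2) (half_pos hε)
  obtain ⟨y, hy, hyg⟩ := Metric.mem_closure_iff.1 (hc _ (lt_min hδ hδ')) (ε / 2) (half_pos hε)
  obtain ⟨ι, hι, p, z, hp0, hp1, hz, rfl⟩ := mem_convexHull_iff_exists_fintype.1 hy
  choose w hw1 hw2 using hz
  have hW : Wt δ w p := ⟨hp0, hp1, fun i => (hw1 i).trans_le (min_le_left _ _)⟩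
  refine ⟨ι, hι, w, p, hW, ?_⟩
  have h1 : ‖∑ i, (p i : ℂ) • R.π (w i) g - g‖ ≤ ε / 2 :=
    norm_comb_sub hW fun i => (H' _ ((hw1 i).trans_le (min_le_right _ _))).le
  have e : ∑ i, (p i : ℂ) • R.π (w i) (f - g) =
      (∑ i, p i • z i - g) - (∑ i, (p i : ℂ) • R.π (w i) g - g) := by
    simp only [map_sub, smul_sub, Finset.sum_sub_distrib, hw2, Complex.coe_smul]
    abel
  rw [e]
  rw [dist_comm, dist_eq_norm] at hyg
  linarith [norm_sub_le (∑ i, p i • z i - g) (∑ i, (p i : ℂ) • R.π (w i) g - g)]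

lemma Small.sing {R : Rep H} {ξ : H} (h : Small R ξ) : Sing (fun z => ⟪ξ, R.π z ξ⟫_ℂ) := by
  intro δ hδ ε hε
  obtain ⟨ι, hι, w, p, hW, hn⟩ := h δ hδ (Real.sqrt ε) (Real.sqrt_pos.2 hε)
  refine ⟨ι, hι, w, p, hW, ?_⟩
  have h1 : ‖∑ i, (p i : ℂ) • R.π (w i) ξ‖ ^ 2 < ε := by
    have := pow_lt_pow_left₀ hn (norm_nonneg _) two_ne_zero
    rwa [Real.sq_sqrt hε.le] at this
  rw [← inner_self_eq_norm_sq (𝕜 := ℂ), inner_sum] at h1
  convert h1 using 1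
  rw [map_sum]
  refine Finset.sum_congr rfl fun i _ => ?_
  rw [sum_inner, map_sum]
  refine Finset.sum_congr rfl fun j _ => ?_
  beta_reduce
  rw [inner_smul_left, inner_smul_right, sub_eq_neg_add, R.add, inner_π R (-w j), neg_neg]
  simp only [Complex.conj_ofReal, RCLike.re_to_complex, Complex.re_ofReal_mul]
  ring

lemma Small.orth {R : Rep H} {ξ h : H} (hs : Small R ξ) (hh : Cont R h) : ⟪h, ξ⟫_ℂ = 0 := by
  rw [← norm_le_zero_iff]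
  refine le_of_forall_pos_le_add fun η hη => ?_
  have hpos : 0 < ‖h‖ + ‖ξ‖ + 1 := by positivity
  set ε := η / (‖h‖ + ‖ξ‖ + 1) with hε
  have hε0 : 0 < ε := by positivity
  obtain ⟨δ, hδ, H⟩ := hh ε hε0
  obtain ⟨ι, hι, w, p, hW, hn⟩ := hs δ hδ ε hε0
  have h1 : ‖∑ i, (p i : ℂ) • R.π (-w i) h - h‖ ≤ ε :=
    norm_comb_sub hW fun i => (H _ (by simpa using hW.small i)).le
  have e : ⟪h, ∑ i, (p i : ℂ) • R.π (w i) ξ⟫_ℂ = ⟪∑ i, (p i : ℂ) • R.π (-w i) h, ξ⟫_ℂ := by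
    rw [inner_sum, sum_inner]
    refine Finset.sum_congr rfl fun i _ => ?_
    rw [inner_smul_left, inner_smul_right, inner_π, Complex.conj_ofReal]
  have e2 : ⟪h, ξ⟫_ℂ = ⟪h, ∑ i, (p i : ℂ) • R.π (w i) ξ⟫_ℂ -
      ⟪∑ i, (p i : ℂ) • R.π (-w i) h - h, ξ⟫_ℂ := by
    rw [e, inner_sub_left]; ring
  have b1 := norm_inner_le_norm (𝕜 := ℂ) h (∑ i, (p i : ℂ) • R.π (w i) ξ)
  have b2 := norm_inner_le_norm (𝕜 := ℂ) (∑ i, (p i : ℂ) • R.π (-w i) h - h) ξ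
  have b3 : ‖h‖ * ‖∑ i, (p i : ℂ) • R.π (w i) ξ‖ ≤ ‖h‖ * ε :=
    mul_le_mul_of_nonneg_left hn.le (norm_nonneg _)
  have b4 : ‖∑ i, (p i : ℂ) • R.π (-w i) h - h‖ * ‖ξ‖ ≤ ε * ‖ξ‖ :=
    mul_le_mul_of_nonneg_right h1 (norm_nonneg _)
  have b5 : ε * (‖h‖ + ‖ξ‖ + 1) = η := div_mul_cancel₀ _ hpos.ne'
  rw [e2]
  refine (norm_sub_le _ _).trans ?_
  nlinarith

theorem decomp [CompleteSpace H] (hC : ContStmt) (hS : SpecStmt) (R : Rep H)
    (V : U → (H →ₗᵢ[ℂ] H)) (f : H) (hf : ∀ u, V u f = f)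
    (hV : ∀ u z x, V u (R.π z x) = R.π (u • z) (V u x)) :
    ∃ g : H, g ∈ closure (convexHull ℝ {x | ∃ w : L, ‖(w : ℂ)‖ < 1 ∧ x = R.π w f}) ∧ Cont R g ∧
      (∀ h, Cont R h → ⟪h, f - g⟫_ℂ = 0) ∧
      ∀ u : U, ⟪g, R.π (u • (1 : L)) g⟫_ℂ = ⟪f, R.π (u • (1 : L)) f⟫_ℂ := by
  obtain ⟨g, h1, h2, h3⟩ := hC H R V f hf hV
  have hs := small_sub (R := R) h2 h1
  have hinv : ∀ (u : U) (z : L), ⟪f - g, R.π (u • z) (f - g)⟫_ℂ = ⟪f - g, R.π z (f - g)⟫_ℂ := by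
    intro u z
    have : V u (f - g) = f - g := by rw [map_sub, hf, h3]
    rw [← (V u).inner_map_map (f - g) (R.π z (f - g)), hV, this]
  have h0 := hS H R (f - g) hinv hs.sing
  refine ⟨g, h1 1 one_pos, h2, fun h hh => hs.orth hh, fun u => ?_⟩
  have h4 : ⟪f - g, R.π (u • (1 : L)) (f - g)⟫_ℂ = 0 := by rw [hinv, h0]
  have h5 : ⟪g, R.π (u • (1 : L)) (f - g)⟫_ℂ = 0 := by
    rw [inner_π]; exact hs.orth (Cont.π h2 _)
  have h6 : ⟪f - g, R.π (u • (1 : L)) g⟫_ℂ = 0 := by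
    rw [inner_eq_zero_symm]; exact hs.orth (Cont.π h2 _)
  have e : f = g + (f - g) := by abel
  conv_rhs => rw [e]
  rw [map_add, inner_add_left, inner_add_right, inner_add_right, h4, h5, h6]
  ring

end Crest.Agent.H3.Pl
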