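import Crest.Agent.H2.PlDefs

/-! Row 40, piece P2, part B: an invariant measure on colourings of the algebraic plane. -/

set_option autoImplicit false

namespace Crest.Agent.H3.Pl
open Crest.Agent.H2.Pl MeasureTheory
open scoped CompactlySupported BoundedContinuousFunction

/-- Colourings of the algebraic plane. -/
abbrev Om : Type := L → Fin 5

/-- Translation. -/
noncomputable def tr (z : L) (ω : Om) : Om := fun x => ω (x + z)

/-- Rotation. -/
noncomputable def ro (u : U) (ω : Om) : Om := fun x => ω (u • x)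

lemma continuous_tr (z : L) : Continuous (tr z) :=
  continuous_pi fun x => continuous_apply (x + z)

lemma continuous_ro (u : U) : Continuous (ro u) :=
  continuous_pi fun x => continuous_apply (u • x)

lemma tr_tr (z w : L) (ω : Om) : tr z (tr w ω) = tr (z + w) ω := by
  funext x; simp [tr, add_assoc]

lemma tr_zero (ω : Om) : tr 0 ω = ω := by funext x; simp [tr]

lemma tr_ro (u : U) (z : L) (ω : Om) : tr z (ro u ω) = ro u (tr (u • z) ω) := by
  funext x; simp [tr, ro, smul_add]

lemma mean_const {G : Type} [Mul G] (M : Mean G) (c : ℝ) : M.m (fun _ => c) = c := by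
  have : (fun _ : G => c) = c • fun _ : G => (1 : ℝ) := by funext x; simp
  rw [this, map_smul, M.one, smul_eq_mul, mul_one]

lemma mean_abs_le {G : Type} [Mul G] (M : Mean G) {f : G → ℝ} {C : ℝ} (hf : ∀ x, |f x| ≤ C) :
    |M.m f| ≤ C := by
  have h1 := M.pos ((fun _ => C) - f) ⟨C + C, fun x => by
    have := abs_le.1 (hf x); simp only [Pi.sub_apply]; rw [abs_le]; constructor <;> linarith⟩
    fun x => by have := abs_le.1 (hf x); simp only [Pi.sub_apply]; linarith
  have h2 := M.pos ((fun _ => C) + f) ⟨C + C, fun x => by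
    have := abs_le.1 (hf x); simp only [Pi.add_apply]; rw [abs_le]; constructor <;> linarith⟩
    fun x => by have := abs_le.1 (hf x); simp only [Pi.add_apply]; linarith
  rw [map_sub, mean_const] at h1
  rw [map_add, mean_const] at h2
  rw [abs_le]; constructor <;> linarith

lemma cc_bdd (f : C_c(Om, ℝ)) : ∃ C, ∀ ω, |f ω| ≤ C := by
  obtain ⟨C, hC⟩ := (isCompact_range f.continuous).isBounded.exists_norm_le
  exact ⟨C, fun ω => hC _ ⟨ω, rfl⟩⟩

/-- A continuous function as a compactly supported one. -/
def toCc (f : Om → ℝ) (hf : Continuous f) : C_c(Om, ℝ) :=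
  CompactlySupportedContinuousMap.continuousMapEquiv ⟨f, hf⟩

theorem exists_measure (hM : MeanStmt) (c : ℂ → Fin 5) (hc : ∀ x y, dist x y = 1 → c x ≠ c y) :
    ∃ μ : Measure Om, IsProbabilityMeasure μ ∧ (∀ z, MeasurePreserving (tr z) μ μ) ∧
      (∀ u, MeasurePreserving (ro u) μ μ) ∧ ∀ u : U, ∀ᵐ ω ∂μ, ω 0 ≠ ω (u • (1 : L)) := by
  obtain ⟨ML⟩ := hM (Multiplicative L)
  obtain ⟨MU⟩ := hM U
  let pt : U → Multiplicative L → Om := fun u g x => c ((u • x + g.toAdd : L) : ℂ)
  let Λ₀ : C_c(Om, ℝ) →ₗ[ℝ] ℝ :=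
    { toFun := fun f => MU.m fun u => ML.m fun g => f (pt u g)
      map_add' := fun f f' => by
        rw [← map_add]; congr 1; funext u
        rw [Pi.add_apply, ← map_add]; rfl
      map_smul' := fun a f => by
        rw [RingHom.id_apply, ← map_smul]; congr 1; funext u
        rw [Pi.smul_apply, ← map_smul]; rfl }
  have hΛ : ∀ f : C_c(Om, ℝ), Λ₀ f = MU.m fun u => ML.m fun g => f (pt u g) := fun f => rfl
  have hpos : ∀ f : C_c(Om, ℝ), 0 ≤ f → 0 ≤ Λ₀ f := by
    intro f hf
    obtain ⟨C, hC⟩ := cc_bdd f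
    exact MU.pos _ ⟨C, fun u => mean_abs_le ML fun g => hC _⟩ fun u =>
      ML.pos _ ⟨C, fun g => hC _⟩ fun g => hf _
  let Λ : C_c(Om, ℝ) →ₚ[ℝ] ℝ := PositiveLinearMap.mk₀ Λ₀ hpos
  let μ : Measure Om := RealRMK.rieszMeasure Λ
  have hint : ∀ (f : Om → ℝ) (hf : Continuous f),
      ∫ ω, f ω ∂μ = MU.m fun u => ML.m fun g => f (pt u g) := fun f hf =>
    RealRMK.integral_rieszMeasure Λ (toCc f hf)
  have hprob : IsProbabilityMeasure μ := by
    have := hint (fun _ => 1) continuous_const
    simp only [integral_const, smul_eq_mul, mul_one, mean_const] at this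
    exact isProbabilityMeasure_iff_real.2 this
  have hmp : ∀ (T : Om → Om), Continuous T →
      (∀ f : Om →ᵇ ℝ, (MU.m fun u => ML.m fun g => f (T (pt u g))) =
        MU.m fun u => ML.m fun g => f (pt u g)) → MeasurePreserving T μ μ := by
    intro T hT h
    refine ⟨hT.measurable, ext_of_forall_integral_eq_of_IsFiniteMeasure fun f => ?_⟩
    rw [integral_map hT.measurable.aemeasurable f.continuous.aestronglyMeasurable,
      hint (fun x => f (T x)) (f.continuous.comp hT), hint _ f.continuous]
    exact h f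
  refine ⟨μ, hprob, fun z => hmp _ (continuous_tr z) fun f => ?_,
    fun v => hmp _ (continuous_ro v) fun f => ?_, fun v => ?_⟩
  · congr 1; funext u
    rw [← ML.inv (fun g => f (pt u g)) (Multiplicative.ofAdd (u • z))
      ⟨‖f‖, fun g => f.norm_coe_le_norm _⟩]
    congr 1; funext g
    congr 1; funext x
    simp only [tr, pt, smul_add, toAdd_mul, toAdd_ofAdd]
    congr 2
    abel
  · rw [← MU.inv (fun u => ML.m fun g => f (pt u g)) v
      ⟨‖f‖, fun u => mean_abs_le ML fun g => f.norm_coe_le_norm _⟩]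
    congr 1; funext u
    congr 1; funext g
    congr 1; funext x
    simp only [ro, pt, mul_smul]
  · have hcont : Continuous fun ω : Om => (ω 0, ω (v • (1 : L))) :=
      (continuous_apply (0 : L)).prodMk (continuous_apply (v • (1 : L)))
    have hclopen : IsClopen {ω : Om | ω 0 = ω (v • (1 : L))} :=
      (isClopen_discrete {p : Fin 5 × Fin 5 | p.1 = p.2}).preimage hcont
    have h1 := hint ({ω : Om | ω 0 = ω (v • (1 : L))}.indicator 1)
      (hclopen.continuous_indicator continuous_const)
    have h2 : ∀ u g, ({ω : Om | ω 0 = ω (v • (1 : L))}.indicator (1 : Om → ℝ)) (pt u g) = 0 := by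
      intro u g
      apply Set.indicator_of_notMem
      refine hc ((u • (0 : L) + g.toAdd : L) : ℂ) ((u • v • (1 : L) + g.toAdd : L) : ℂ) ?_
      rw [dist_eq_norm]
      push_cast
      rw [add_sub_add_right_eq_sub, coe_smul, coe_smul, coe_smul]
      simp [norm_uc]
    simp only [h2, mean_const] at h1
    rw [integral_indicator_one hclopen.isClosed.measurableSet] at h1
    rw [ae_iff]
    simpa [measureReal_eq_zero_iff] using h1

end Crest.Agent.H3.Pl
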