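import Crest.Agent.H3.PlA
import Crest.Agent.H3.PlB

/-! Row 40, piece P2, part C: the continuous parts of the colour indicators. -/

set_option autoImplicit false

namespace Crest.Agent.H3.Pl
open Crest.Agent.H2.Pl MeasureTheory Filter
open scoped InnerProductSpace Topology

/-- The data extracted from the spectral statement. -/
structure Gam (μ : Measure Om) (γ : Fin 5 → Om → ℝ) : Prop where
  meas : ∀ i, Measurable (γ i)
  nonneg : ∀ i ω, 0 ≤ γ i ω
  sum : ∀ᵐ ω ∂μ, ∑ i, γ i ω = 1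
  cont : ∀ i, ∀ ε > 0, ∃ δ > 0, ∀ w : L, ‖(w : ℂ)‖ < δ →
    eLpNorm (fun ω => γ i (tr w ω) - γ i ω) 2 μ ≤ ENNReal.ofReal ε
  orth : ∀ i (u : U), ∀ᵐ ω ∂μ, γ i ω * γ i (tr (u • (1 : L)) ω) = 0

/-- The Koopman representation. -/
noncomputable def koop {μ : Measure Om} (h : ∀ z, MeasurePreserving (tr z) μ μ) :
    H2.Pl.Rep (Lp ℂ 2 μ) where
  π z := Lp.compMeasurePreservingₗᵢ ℂ (tr z) (h z)
  zero x := by
    apply Lp.ext
    filter_upwards [Lp.coeFn_compMeasurePreserving x (h 0)] with ω hω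
    exact hω.trans (by simp [tr_zero])
  add z w x := by
    apply Lp.ext
    filter_upwards [Lp.coeFn_compMeasurePreserving x (h (z + w)),
      Lp.coeFn_compMeasurePreserving (Lp.compMeasurePreserving (tr w) (h w) x) (h z),
      (h z).quasiMeasurePreserving.ae (Lp.coeFn_compMeasurePreserving x (h w))] with ω h1 h2 h3
    refine h1.trans (Eq.trans ?_ h2.symm)
    simp only [Function.comp_apply] at h3 ⊢
    rw [h3, tr_tr, add_comm]

lemma koop_coe {μ : Measure Om} (h : ∀ z, MeasurePreserving (tr z) μ μ) (z : L) (x : Lp ℂ 2 μ) :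
    ∀ᵐ ω ∂μ, (koop h).π z x ω = x (tr z ω) := Lp.coeFn_compMeasurePreserving x (h z)

lemma isClosed_ae_mem {μ : Measure Om} {S : Set ℂ} (hS : IsClosed S) :
    IsClosed {F : Lp ℂ 2 μ | ∀ᵐ ω ∂μ, F ω ∈ S} := by
  refine IsSeqClosed.isClosed fun F G hF hG => ?_
  obtain ⟨n, -, hn⟩ := (tendstoInMeasure_of_tendsto_Lp hG).exists_seq_tendsto_ae
  filter_upwards [hn, ae_all_iff.2 hF] with ω h1 h2
  exact hS.mem_of_tendsto h1 (Eventually.of_forall fun k => h2 _)

lemma convex_ae_mem {μ : Measure Om} {S : Set ℂ} (hS : Convex ℝ S) :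
    Convex ℝ {F : Lp ℂ 2 μ | ∀ᵐ ω ∂μ, F ω ∈ S} := by
  intro F hF G hG a b ha hb hab
  filter_upwards [hF, hG, Lp.coeFn_add (a • F) (b • G), Lp.coeFn_smul a F, Lp.coeFn_smul b G]
    with ω h1 h2 h3 h4 h5
  rw [h3, Pi.add_apply, h4, h5]
  exact hS h1 h2 ha hb hab

theorem exists_gam (hC : ContStmt) (hS : SpecStmt) (μ : Measure Om) [IsProbabilityMeasure μ]
    (ht : ∀ z, MeasurePreserving (tr z) μ μ) (hr : ∀ u, MeasurePreserving (ro u) μ μ)
    (hp : ∀ u : U, ∀ᵐ ω ∂μ, ω 0 ≠ ω (u • (1 : L))) : ∃ γ, Gam μ γ := by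
  classical
  let R := koop ht
  let V : U → (Lp ℂ 2 μ →ₗᵢ[ℂ] Lp ℂ 2 μ) := fun u => Lp.compMeasurePreservingₗᵢ ℂ (ro u) (hr u)
  have hVc : ∀ u x, ∀ᵐ ω ∂μ, V u x ω = x (ro u ω) := fun u x =>
    Lp.coeFn_compMeasurePreserving x (hr u)
  have hV : ∀ u z x, V u (R.π z x) = R.π (u • z) (V u x) := by
    intro u z x
    apply Lp.ext
    filter_upwards [hVc u (R.π z x), (hr u).quasiMeasurePreserving.ae (koop_coe ht z x),
      koop_coe ht (u • z) (V u x), (ht (u • z)).quasiMeasurePreserving.ae (hVc u x)]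
      with ω h1 h2 h3 h4
    rw [h1, h2, h3, h4, tr_ro]
  let φ : Fin 5 → Om → ℂ := fun i ω => if ω 0 = i then 1 else 0
  have hφm : ∀ i, Measurable (φ i) := fun i =>
    Measurable.ite (measurableSet_eq_fun (measurable_pi_apply (0 : L)) measurable_const)
      measurable_const measurable_const
  have hφ : ∀ i, MemLp (φ i) 2 μ := fun i =>
    MemLp.of_bound (hφm i).aestronglyMeasurable 1 (Eventually.of_forall fun ω => by
      simp only [φ]; split_ifs <;> simp)
  let f : Fin 5 → Lp ℂ 2 μ := fun i => (hφ i).toLp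
  have hf : ∀ i, ∀ᵐ ω ∂μ, f i ω = φ i ω := fun i => (hφ i).coeFn_toLp
  have hfV : ∀ i u, V u (f i) = f i := by
    intro i u
    apply Lp.ext
    filter_upwards [hVc u (f i), (hr u).quasiMeasurePreserving.ae (hf i), hf i] with ω h1 h2 h3
    rw [h1, h2, h3]
    simp [φ, ro]
  choose g hg1 hg2 hg3 hg4 using fun i => decomp hC hS R V (f i) (hfV i) hV
  have hpos : ∀ i, ∀ᵐ ω ∂μ, g i ω ∈ {z : ℂ | z.im = 0 ∧ 0 ≤ z.re} := by
    intro i
    have hcl : IsClosed {z : ℂ | z.im = 0 ∧ 0 ≤ z.re} :=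
      (isClosed_eq Complex.continuous_im continuous_const).inter
        (isClosed_le continuous_const Complex.continuous_re)
    have hcv : Convex ℝ {z : ℂ | z.im = 0 ∧ 0 ≤ z.re} := by
      intro x hx y hy a b ha hb _
      refine ⟨by simp [hx.1, hy.1], ?_⟩
      have := hx.2
      have := hy.2
      simp only [Complex.add_re, Complex.real_smul, Complex.re_ofReal_mul]
      positivity
    refine closure_minimal (convexHull_min ?_ (convex_ae_mem hcv)) (isClosed_ae_mem hcl) (hg1 i)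
    rintro _ ⟨w, -, rfl⟩
    filter_upwards [koop_coe ht w (f i), (ht w).quasiMeasurePreserving.ae (hf i)] with ω h1 h2
    rw [h1, h2]
    simp only [φ]
    split_ifs <;> simp
  let γ : Fin 5 → Om → ℝ := fun i ω => max 0 (g i ω).re
  have hγ : ∀ i, ∀ᵐ ω ∂μ, g i ω = (γ i ω : ℂ) := by
    intro i
    filter_upwards [hpos i] with ω h
    apply Complex.ext
    · simp [γ, h.2]
    · simp [h.1]
  have hone : ∀ᵐ ω ∂μ, (∑ i, f i) ω = 1 := by
    filter_upwards [Lp.coeFn_fun_finsetSum Finset.univ f, ae_all_iff.2 hf] with ω h1 h2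
    rw [h1]
    simp [h2, φ]
  have hsum : ∑ i, f i = ∑ i, g i := by
    have hc1 : Cont R (∑ i, f i) := by
      refine cont_of_fixed fun w => Lp.ext ?_
      filter_upwards [koop_coe ht w (∑ i, f i), (ht w).quasiMeasurePreserving.ae hone, hone]
        with ω h1 h2 h3
      rw [h1, h2, h3]
    have hc2 : Cont R (∑ i, f i - ∑ i, g i) := by
      rw [sub_eq_add_neg]; exact hc1.add (cont_sum _ hg2).neg
    rw [← sub_eq_zero, ← inner_self_eq_zero (𝕜 := ℂ)]
    nth_rewrite 2 [← Finset.sum_sub_distrib]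
    rw [inner_sum]
    exact Finset.sum_eq_zero fun i _ => hg3 i _ hc2
  refine ⟨γ, fun i => measurable_const.max
    (Complex.measurable_re.comp (Lp.stronglyMeasurable (g i)).measurable),
    fun i ω => le_max_left _ _, ?_, fun i ε hε => ?_, fun i u => ?_⟩
  · rw [hsum] at hone
    filter_upwards [hone, Lp.coeFn_fun_finsetSum Finset.univ g, ae_all_iff.2 hγ] with ω h1 h2 h3
    rw [h2] at h1
    simp only [h3] at h1
    exact_mod_cast h1
  · obtain ⟨δ, hδ, h⟩ := hg2 i ε hε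
    refine ⟨δ, hδ, fun w hw => ?_⟩
    have e : eLpNorm (fun ω => γ i (tr w ω) - γ i ω) 2 μ = eLpNorm (R.π w (g i) - g i) 2 μ := by
      refine eLpNorm_congr_norm_ae ?_
      filter_upwards [koop_coe ht w (g i), (ht w).quasiMeasurePreserving.ae (hγ i), hγ i,
        Lp.coeFn_sub (R.π w (g i)) (g i)] with ω h1 h2 h3 h4
      rw [h4, Pi.sub_apply, h1, h2, h3, ← Complex.ofReal_sub, Complex.norm_real]
    rw [e, ← ENNReal.ofReal_toReal (Lp.eLpNorm_ne_top _), ← Lp.norm_def]
    exact ENNReal.ofReal_le_ofReal (h w hw).le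
  · have h0 : ⟪f i, R.π (u • (1 : L)) (f i)⟫_ℂ = 0 := by
      rw [L2.inner_def]
      refine integral_eq_zero_of_ae ?_
      filter_upwards [hf i, koop_coe ht (u • (1 : L)) (f i),
        (ht (u • (1 : L))).quasiMeasurePreserving.ae (hf i), hp u] with ω h1 h2 h3 h4
      rw [h1, h2, h3]
      simp only [φ, tr, zero_add, Pi.zero_apply]
      split_ifs with a b
      · exact (h4 (a.trans b.symm)).elim
      all_goals simp
    rw [← hg4, L2.inner_def] at h0
    have hint := L2.integrable_inner (𝕜 := ℂ) (g i) (R.π (u • (1 : L)) (g i))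
    have hae : ∀ᵐ ω ∂μ, ⟪g i ω, R.π (u • (1 : L)) (g i) ω⟫_ℂ =
        ((γ i ω * γ i (tr (u • (1 : L)) ω) : ℝ) : ℂ) := by
      filter_upwards [hγ i, koop_coe ht (u • (1 : L)) (g i),
        (ht (u • (1 : L))).quasiMeasurePreserving.ae (hγ i)] with ω h1 h2 h3
      rw [h1, h2, h3]
      simp [mul_comm]
    rw [integral_congr_ae hae, integral_complex_ofReal] at h0
    have hint' : Integrable (fun ω => γ i ω * γ i (tr (u • (1 : L)) ω)) μ := by
      have := (hint.congr hae).re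
      simpa using this
    exact (integral_eq_zero_iff_of_nonneg
      (fun ω => mul_nonneg (le_max_left _ _) (le_max_left _ _)) hint').1 (Complex.ofReal_eq_zero.1 h0)

end Crest.Agent.H3.Pl
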