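import Crest.Agent.H3.SCSBar

set_option autoImplicit false
set_option linter.unusedVariables false
set_option linter.deprecated false

/-! Shortest common superstring: the zigzag lemma and the geometric theorem. -/

namespace Crest.Agent.H3.SCS

variable {ι : Type}

theorem Stair.cross {f g : ℤ → ℤ} (hf : Stair f) (hg : Stair g) {σ τ : ℤ} (hst : σ ≤ τ)
    (h1 : f σ ≤ g σ) (h2 : g τ ≤ f τ) : ∃ ρ, σ ≤ ρ ∧ ρ ≤ τ ∧ f ρ = g ρ := by
  induction τ, hst using Int.le_induction with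
  | base => exact ⟨σ, le_rfl, le_rfl, by omega⟩
  | succ n hn ih =>
    by_cases h3 : g n ≤ f n
    · obtain ⟨ρ, a, b, c⟩ := ih h3; exact ⟨ρ, a, by omega, c⟩
    · have := hf n; have := hg n; exact ⟨n + 1, by omega, le_rfl, by omega⟩

def Link (C : Cfg ι) (K A : ι) : Prop :=
  ∃ (α : ℤ → ℕ) (a b r j : ℤ), PerF α (C.W K) ∧ C.V K (cl α a b) ∧ C.V A (cl α r j) ∧
    a ≤ r ∧ r ≤ a + C.W K ∧ b ≤ j ∧ j ≤ b + C.W K

theorem Per.dropLast {t : Str} {W : ℕ} (h : Per t W) : Per t.dropLast W := by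
  unfold Per at *
  apply List.ext_getElem
  · simp
  · intro n h1 h2
    have := congrArg (fun l => l[n]?) h
    simp only [List.length_drop, List.length_dropLast] at h1
    simp only [List.getElem?_drop, List.getElem?_take] at this
    rw [if_pos (by omega), List.getElem?_eq_getElem (by omega),
      List.getElem?_eq_getElem (by omega)] at this
    simpa [List.getElem_dropLast] using this

theorem Per.tail {t : Str} {W : ℕ} (h : Per t W) : Per t.tail W := by
  unfold Per at *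
  apply List.ext_getElem
  · simp; omega
  · intro n h1 h2
    have := congrArg (fun l => l[n + 1]?) h
    simp only [List.length_drop, List.length_tail] at h1
    simp only [List.getElem?_drop, List.getElem?_take] at this
    rw [if_pos (by omega), List.getElem?_eq_getElem (by omega),
      List.getElem?_eq_getElem (by omega)] at this
    simpa [List.getElem_tail, Nat.add_assoc, Nat.add_comm 1 n] using this

theorem infix_cases {m t : Str} (h : m <:+: t) (ne : m ≠ t) : m <:+: t.dropLast ∨ m <:+: t.tail := by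
  obtain ⟨p, q, rfl⟩ := h
  rcases p with _ | ⟨x, p⟩
  · rcases q.eq_nil_or_concat with rfl | ⟨q', y, rfl⟩
    · simp at ne
    · left; exact ⟨[], q', by simp [List.dropLast_append_of_ne_nil]⟩
  · right; exact ⟨p, q, by simp⟩

namespace Good

variable {C : Cfg ι} (H : Good C) {Cc : ι → Prop} (hC : ∀ K A, Cc K → Link C K A → Cc A) {u : Str}
  (hu : ∀ A v, Cc A → C.V A v → u.length + C.W A ≤ v.length)
include H hC hu

theorem zig {K : ι} (hK : Cc K) {α : ℤ → ℕ} {a b : ℤ} (hp : PerF α (C.W K))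
    (hy : C.V K (cl α a b))
    (IH : ∀ A e, Cc A → Low C A e → (e.length : ℤ) < b - a →
      (∃ v, C.V A v ∧ Rch C.Uw C.Dw u v) → Rch C.Uw C.Dw u e)
    (hQ : (∃ i, a ≤ i ∧ i ≤ a + C.W K ∧ Rch C.Uw C.Dw u (cl α i b)) ∨
      (∃ i, b ≤ i ∧ i ≤ b + C.W K ∧ Rch C.Uw C.Dw u (cl α (a + C.W K) i))) :
    Rch C.Uw C.Dw u (cl α a b) ∨ ∃ K'' ρ c, PerF α (C.W K'') ∧ C.V K'' (cl α ρ c) ∧
      Rch C.Uw C.Dw u (cl α ρ c) ∧ a ≤ ρ ∧ ρ ≤ a + C.W K ∧ b ≤ c ∧ c ≤ b + C.W K ∧
      (K'' = K → ¬ Low C K (cl α a b)) ∧ (c = b ∨ ρ = a + C.W K) := by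
  by_contra hc
  rw [not_or] at hc
  obtain ⟨nQ, n2⟩ := hc
  have ly := H.clen hy
  have wK := H.Wpos K
  have colW : (∃ i, a ≤ i ∧ i ≤ a + C.W K ∧ Rch C.Uw C.Dw u (cl α i b)) →
      ∃ (i : ℤ) (A : ι) (β : ℤ → ℕ) (L R r' : ℤ), (∀ i', a ≤ i' → i' ≤ a + C.W K →
        Rch C.Uw C.Dw u (cl α i' b) → i ≤ i') ∧
      Cc A ∧ PerF β (C.W A) ∧ α R ≠ β R ∧ (∀ k, L ≤ k → k < R → α k = β k) ∧ L ≤ i ∧
      i ≤ a + C.W K ∧ b ≤ R ∧ R < b + C.W K ∧ a + C.W K < r' ∧ C.V A (cl β r' R) ∧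
      Rch C.Uw C.Dw u (cl α (a + C.W K) (R + 1)) ∧ Rch C.Uw C.Dw u (cl β i b) := by
    intro hne
    obtain ⟨i, ⟨i1, i2, i3⟩, imin⟩ := Int.exists_least_of_bdd
      (P := fun i => a ≤ i ∧ i ≤ a + C.W K ∧ Rch C.Uw C.Dw u (cl α i b)) ⟨a, fun z hz => hz.1⟩ hne
    have i4 : a < i := lt_of_le_of_ne i1 (fun e => nQ (e ▸ i3))
    have hw : C.Uw (cl α i b) := by
      by_contra hw
      have := imin (i - 1) ⟨by omega, by omega, Rch.cdown (by omega) hw i3⟩
      omega
    rcases H.hU _ hw with h | ⟨A, v1, v2⟩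
    · exact (H.rectG hp hy h.1 i1 i2 le_rfl (by omega)).elim
    rw [cl_dropLast' α (by omega)] at v2
    have cA : Cc A := hC K A hK ⟨α, a, b, i, b, hp, hy, v1, i1, i2, le_rfl, by omega⟩
    obtain ⟨β, f, hf, -, ag⟩ := H.through0 v1
    by_cases e : α = β
    · subst e
      refine (n2 ⟨A, i, b, hf.per, v1, i3, i1, i2, le_rfl, by omega, ?_, Or.inl rfl⟩).elim
      rintro rfl hl
      exact H.low_not hl i4 (by omega) v2
    have v3 : C.V A (cl β i b) := by rwa [← cl_agree ag]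
    obtain ⟨L, R, je, r', b1, b2, b3, b4, b5, b6, b7, b8, b9, b10, LO, RO, c1, c2, c3, c4, c5⟩ :=
      H.barrier hp hy hf.per v3 ag e i1 i2 le_rfl (by omega) hf.per v3 le_rfl le_rfl
        (fun _ _ h => h)
    have nLO : ¬ LO := by
      intro h
      have l := H.clen b9.1
      have q := IH A _ cA b9 (by simp only [cl_length]; omega) ⟨_, v1, i3⟩
      have := imin (L - 1) ⟨by omega, by omega, c4 h u q b b7 (by omega)⟩
      omega
    have hr : a + C.W K < r' := (c2 rfl).resolve_left nLO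
    have l := H.clen b10.1
    have q := IH A _ cA b10 (by simp only [cl_length]; omega) ⟨_, v1, i3⟩
    refine ⟨i, A, β, L, R, r', fun i' x y z => imin i' ⟨x, y, z⟩, cA, hf.per, b6, b5, b2, i2, b3, b4,
      hr, ?_, c5 (c1.resolve_left nLO) u q _ (by omega) hr.le, by rwa [← cl_agree ag]⟩
    rw [← cl_agree (β := α) (fun k x y => b5 k (by omega) y)]; exact b10.1
  have rowW : (∃ i, b ≤ i ∧ i ≤ b + C.W K ∧ Rch C.Uw C.Dw u (cl α (a + C.W K) i)) →
      ∃ (j : ℤ) (A : ι) (β : ℤ → ℕ) (L R je : ℤ), (∀ i', b ≤ i' → i' ≤ b + C.W K →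
        Rch C.Uw C.Dw u (cl α (a + C.W K) i') → i' ≤ j) ∧
      Cc A ∧ PerF β (C.W A) ∧ (∀ k, L ≤ k → k < R → α k = β k) ∧ a < L ∧ L ≤ a + C.W K ∧
      j ≤ R ∧ b ≤ j ∧ je < b ∧ C.V A (cl β L je) ∧
      Rch C.Uw C.Dw u (cl α (L - 1) b) ∧ Rch C.Uw C.Dw u (cl β (a + C.W K) j) := by
    intro hne
    obtain ⟨i, ⟨i1, i2, i3⟩, imax⟩ := Int.exists_greatest_of_bdd
      (P := fun i => b ≤ i ∧ i ≤ b + C.W K ∧ Rch C.Uw C.Dw u (cl α (a + C.W K) i))
      ⟨b + C.W K, fun z hz => hz.2.1⟩ hne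
    have i4 : i < b + C.W K := lt_of_le_of_ne i2 (fun e => nQ (by rwa [e, hp.cl1] at i3))
    have hw : C.Dw (cl α (a + C.W K) i) := by
      by_contra hw
      have := imax (i + 1) ⟨by omega, by omega, Rch.cleft (by omega) hw i3⟩
      omega
    rcases H.hD _ hw with h | ⟨A, v1, v2⟩
    · exact (H.rectG hp hy h.1 (by omega) le_rfl i1 i2).elim
    rw [cl_tail] at v2
    have cA : Cc A := hC K A hK ⟨α, a, b, _, i, hp, hy, v1, by omega, le_rfl, i1, i2⟩
    obtain ⟨β, f, hf, -, ag⟩ := H.through0 v1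
    by_cases e : α = β
    · subst e
      refine (n2 ⟨A, _, i, hf.per, v1, i3, by omega, le_rfl, i1, i2, ?_, Or.inr rfl⟩).elim
      rintro rfl hl
      rw [← hp.cl1] at hl
      exact H.low_not hl (by omega) i4 v2
    have v3 : C.V A (cl β (a + C.W K) i) := by rwa [← cl_agree ag]
    obtain ⟨L, R, je, r', b1, b2, b3, b4, b5, b6, b7, b8, b9, b10, LO, RO, c1, c2, c3, c4, c5⟩ :=
      H.barrier hp hy hf.per v3 ag e (by omega) le_rfl i1 i2 hf.per v3 le_rfl le_rfl
        (fun _ _ h => h)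
    have nRO : ¬ RO := by
      intro h
      have l := H.clen b10.1
      have q := IH A _ cA b10 (by simp only [cl_length]; omega) ⟨_, v1, i3⟩
      have := imax (R + 1) ⟨by omega, by omega, c5 h u q _ (by omega) b8⟩
      omega
    have hr : je < b := (c3 rfl).resolve_left nRO
    have l := H.clen b9.1
    have q := IH A _ cA b9 (by simp only [cl_length]; omega) ⟨_, v1, i3⟩
    refine ⟨i, A, β, L, R, je, fun i' x y z => imax i' ⟨x, y, z⟩, cA, hf.per, b5, b1, b2, b3, i1,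
      hr, ?_, c4 (c1.resolve_right nRO) u q _ hr.le (by omega), by rwa [← cl_agree ag]⟩
    rw [← cl_agree (β := α) (fun k x y => b5 k x (by omega))]; exact b9.1
  have both : (∃ i, a ≤ i ∧ i ≤ a + C.W K ∧ Rch C.Uw C.Dw u (cl α i b)) ∧
      (∃ i, b ≤ i ∧ i ≤ b + C.W K ∧ Rch C.Uw C.Dw u (cl α (a + C.W K) i)) := by
    rcases hQ with h | h
    · obtain ⟨i, A, β, L, R, r', -, -, -, -, -, -, -, a1, a2, -, -, a3, -⟩ := colW h
      exact ⟨h, R + 1, by omega, by omega, a3⟩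
    · obtain ⟨j, A, β, L, R, je, -, -, -, -, a1, a2, -, -, -, -, a3, -⟩ := rowW h
      exact ⟨⟨L - 1, by omega, by omega, a3⟩, h⟩
  obtain ⟨i, A, β, L, R, r', a1, a2, a3, a4, a5, a6, a7, a8, a9, a10, a11, a12, a13⟩ := colW both.1
  obtain ⟨j, A', β', L', R', je, b1, b2, b3, b4, b5, b6, b7, b8, b9, b10, b11, b12⟩ := rowW both.2
  have e1 := a1 (L' - 1) (by omega) (by omega) b11
  have e2 := b1 (R + 1) (by omega) (by omega) a12
  obtain ⟨f, hf, f1⟩ := H.through a3 a11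
  obtain ⟨g, hg, g1⟩ := H.through b3 b10
  have f2 := hf.bl (fun y hy => by have := hu _ _ a2 hy; have := H.Wpos A; omega) a13 i b
    (by omega) rfl
  have g2 := hg.bl (fun y hy => by have := hu _ _ b2 hy; have := H.Wpos A'; omega) b12 _ j
    (by omega) rfl
  have m1 := hf.stair.mono (σ := L' + je) (τ := i + b)
  have m2 := hf.stair.mono (σ := i + b) (τ := L' + je)
  have m3 := hf.stair.mono (σ := a + C.W K + j) (τ := r' + R)
  have m4 := hf.stair.mono (σ := r' + R) (τ := a + C.W K + j)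
  obtain ⟨τ, t1, t2, t3⟩ := hf.stair.cross hg.stair (σ := L' + je) (τ := a + C.W K + j) (by omega)
    (by omega) (by omega)
  have m5 := hg.stair.mono t1
  have m6 := hg.stair.mono t2
  have m7 := hf.stair.mono (σ := τ) (τ := r' + R)
  have m8 := hf.stair.mono (σ := r' + R) (τ := τ)
  have ag : ∀ k, f τ ≤ k → k < τ - f τ → β k = β' k := fun k x y => by
    rw [← a5 k (by omega) (by omega), b4 k (by omega) (by omega)]
  have v1 := hf.mem τ
  have v2 := hg.mem τ
  rw [← t3, ← cl_agree ag] at v2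
  have := H.disj _ _ _ v1 v2
  subst this
  have := PerF.ext (H.Wpos A) a3 b3 (H.clen v1).le ag
  subst this
  exact a4 (b4 R (by omega) (by omega))

theorem lemP (n : ℕ) : ∀ K y, Cc K → Low C K y → y.length ≤ n →
    (∃ v, C.V K v ∧ Rch C.Uw C.Dw u v) → Rch C.Uw C.Dw u y := by
  induction n with
  | zero => intro K y hK hl hn _; have := H.len hl.1; omega
  | succ n ih =>
    intro K y hK hl hn ⟨v, hv, hq⟩
    obtain ⟨α, f0, hf0⟩ := H.st K
    obtain ⟨a, b, rfl⟩ := H.pl_cell hf0.pl hl.1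
    obtain ⟨f, hf, f1⟩ := H.through hf0.per hl.1
    have ly := H.clen hl.1
    have wK := H.Wpos K
    obtain ⟨τ, rfl⟩ := hf.all v hv
    obtain ⟨k, k1, k2⟩ := exists_shift (W := 2 * C.W K) (by omega) (a + b) (τ - 2 * C.W K)
    have s1 := hf.shk k (a + b)
    have s2 := hf.sh (a + b + 2 * (k * C.W K))
    have k3 : k * ((2 * C.W K : ℕ) : ℤ) = 2 * (k * C.W K) := by push_cast; ring
    rw [k3] at k1 k2
    push_cast at k2
    have m1 := hf.stair.mono (σ := a + b + 2 * (k * C.W K)) (τ := τ) (by omega)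
    have m2 := hf.stair.mono (σ := τ) (τ := a + b + 2 * (k * C.W K) + 2 * C.W K) (by omega)
    have h1 := hu _ _ hK hl.1
    simp only [cl_length] at h1 hn
    have hQ := cr wK hf.per (a := a) (b := b) (by omega) hq _ _ k rfl (by omega) (by omega)
    rcases H.zig hC hu hK hf.per hl.1 (fun A e x y z w => ih A e x y (by omega) w) hQ with
      h | ⟨K', ρ, c, p1, p2, p3, p4, p5, p6, p7, p8, p9⟩
    · exact h
    · exfalso
      have ne : K ≠ K' := fun e => p8 e.symm hl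
      have cK' : Cc K' := hC K K' hK ⟨α, a, b, ρ, c, hf.per, hl.1, p2, p4, p5, p6, p7⟩
      obtain ⟨g, hg, g1⟩ := H.through p1 p2
      have s3 := hf.sh (a + b)
      have m3 := hf.stair.mono (σ := a + b) (τ := ρ + c) (by omega)
      have m4 := hf.stair.mono (σ := ρ + c) (τ := a + b + 2 * C.W K) (by omega)
      have := H.nocross ne hf hg (τ0 := ρ + c) (by omega) τ
      have := hg.bl (fun y hy => by have := hu _ _ cK' hy; have := H.Wpos K'; omega) hq _ _
        (hf.le τ) rfl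
      rw [show f τ + (τ - f τ) = τ by ring] at this
      omega

omit hC hu in
/-- the target of the chain argument -/
def Tgt (C : Cfg ι) (Cc : ι → Prop) (u : Str) (K : ι) : Prop :=
  ∃ M, Cc M ∧ (∃ v, C.V M v ∧ Rch C.Uw C.Dw u v) ∧ (∀ β, Pl C K β → Pl C M β) ∧
    ∀ t, C.G t → Ab C M t → Ab C K t

theorem tgt_of_rect {K : ι} (hK : Cc K) {α : ℤ → ℕ} {a b r j : ℤ} (hp : PerF α (C.W K))
    (hy : C.V K (cl α a b)) (hq : Rch C.Uw C.Dw u (cl α r j)) (h1 : r ≤ a + C.W K) (h2 : b ≤ j) :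
    Tgt C Cc u K := by
  have h3 := hu _ _ hK hy
  have ly := H.clen hy
  simp only [cl_length] at h3
  have hQ := cr (H.Wpos K) hp (a := a) (b := b) (by omega) hq r j 0 rfl (by omega) (by omega)
  rcases H.zig hC hu hK hp hy (fun A e x y z w => H.lemP hC hu _ A e x y le_rfl w) hQ with
    h | ⟨K', ρ, c, p1, p2, p3, p4, p5, p6, p7, p8, p9⟩
  · exact ⟨K, hK, ⟨_, hy, h⟩, fun _ h => h, fun _ _ h => h⟩
  · exact ⟨K', hC K K' hK ⟨α, a, b, ρ, c, hp, hy, p2, p4, p5, p6, p7⟩, ⟨_, p2, p3⟩,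
      fun β hβ => H.pl_trans ⟨hp, _, _, hy⟩ ⟨p1, _, _, p2⟩ hβ,
      fun t g h => H.lemN hp p1 hy p2 p5 p6 g h⟩

theorem tgt_step {K A : ι} (hK : Cc K) (hl : Link C K A) (hA : Tgt C Cc u A) : Tgt C Cc u K := by
  have cA := hC K A hK hl
  obtain ⟨α, a, b, ρ, c, hp, hy, hg, h1, h2, h3, h4⟩ := hl
  obtain ⟨M, cM, ⟨v, hv, hq⟩, hpl, hH⟩ := hA
  obtain ⟨β, f, hf, f1, ag⟩ := H.through0 hg
  by_cases e : α = β
  · subst e
    exact ⟨M, cM, ⟨v, hv, hq⟩,
      fun β hβ => hpl β (H.pl_trans ⟨hp, _, _, hy⟩ ⟨hf.per, _, _, hg⟩ hβ),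
      fun t g h => H.lemN hp hf.per hy hg h2 h3 g (hH t g h)⟩
  have hg' : C.V A (cl β ρ c) := by rwa [← cl_agree ag]
  obtain ⟨g, hgM⟩ := H.pl_st (hpl β hf.pl)
  have hm : ∃ ρm cm, C.V M (cl β ρm cm) ∧ ρ ≤ ρm ∧ cm ≤ c := by
    by_cases e2 : A = M
    · subst e2; exact ⟨ρ, c, hg', le_rfl, le_rfl⟩
    · obtain ⟨τ, rfl⟩ := hgM.all v hv
      have := hf.bl (fun y hy => by have := hu _ _ cA hy; have := H.Wpos A; omega) hq _ _
        (hgM.le τ) rfl
      rw [show g τ + (τ - g τ) = τ by ring] at this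
      have := H.nocross e2 hf hgM this (ρ + c)
      exact ⟨_, _, hgM.mem (ρ + c), by omega, by omega⟩
  obtain ⟨ρm, cm, m1, m2, m3⟩ := hm
  obtain ⟨L, R, je, r', b1, b2, b3, b4, b5, b6, b7, b8, b9, b10, LO, RO, c1, c2, c3, c4, c5⟩ :=
    H.barrier hp hy hf.per hg' ag e h1 h2 h3 h4 hgM.per m1 m2 m3 hH
  have q : Rch C.Uw C.Dw u (cl α (L - 1) (R + 1)) := by
    rcases c1 with h | h
    · exact c4 h u (H.lemP hC hu _ M _ cM b9 le_rfl ⟨v, hv, hq⟩) _ (by omega) le_rfl
    · exact c5 h u (H.lemP hC hu _ M _ cM b10 le_rfl ⟨v, hv, hq⟩) _ le_rfl (by omega)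
  exact H.tgt_of_rect hC hu hK hp hy q (by omega) (by omega)

omit hC hu in
theorem geo {K0 : ι} {s : Str} (hs : C.V K0 s)
    (hmax : ∀ t, C.G t → s <:+: t → t.length ≤ s.length) :
    ∃ M u, u ≠ [] ∧ (∀ t, C.G t → ¬ Ab C M t) ∧ ∀ t, Ab C M t →
      Rch (fun v => C.Uw v ∧ ¬ Ab C M v) (fun v => C.Dw v ∧ ¬ Ab C M v) u t := by
  classical
  let Cc : ι → Prop := fun K => Relation.ReflTransGen (Link C) K0 K
  have hC : ∀ K A, Cc K → Link C K A → Cc A := fun K A h1 h2 => h1.tail h2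
  have hex : ∃ n : ℕ, ∃ K z, Cc K ∧ C.V K z ∧ z.length = n + C.W K :=
    ⟨s.length - C.W K0, K0, s, Relation.ReflTransGen.refl, hs, by have := H.len hs; omega⟩
  obtain ⟨Kz, z, cz, vz, lz⟩ := Nat.find_spec hex
  obtain ⟨α, f0, hf0⟩ := H.st Kz
  obtain ⟨a, b, rfl⟩ := H.pl_cell hf0.pl vz
  have l := H.clen vz
  simp only [cl_length] at lz
  have hu : ∀ A v, Cc A → C.V A v → (cl α (a + C.W Kz) b).length + C.W A ≤ v.length := by
    intro A v h1 h2
    have := H.len h2
    have := Nat.find_min' hex (m := v.length - C.W A) ⟨A, v, h1, h2, by omega⟩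
    simp only [cl_length]; omega
  have T0 : Tgt C Cc (cl α (a + C.W Kz) b) Kz :=
    H.tgt_of_rect hC hu cz hf0.per vz .base le_rfl le_rfl
  have T1 : ∀ K, Relation.ReflTransGen (Link C) K Kz → Cc K → Tgt C Cc (cl α (a + C.W Kz) b) K := by
    intro K hK
    induction hK using Relation.ReflTransGen.head_induction_on with
    | refl => exact fun _ => T0
    | head h1 h2 ih => exact fun h => H.tgt_step hC hu h h1 (ih (hC _ _ h h1))
  obtain ⟨M, cM, hq, -, hH⟩ := T1 K0 cz Relation.ReflTransGen.refl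
  refine ⟨M, cl α (a + C.W Kz) b, fun e => ?_, fun t g h => H.top hs hmax g (hH t g h), ?_⟩
  · have := congrArg List.length e; simp at this; omega
  · intro t
    induction' hn : t.length using Nat.strong_induction_on with n ih generalizing t
    intro ht
    by_cases hl : Low C M t
    · exact (H.lemP hC hu _ M t cM hl le_rfl hq).mono (fun _ h => h.1) (fun _ h => h.1)
    · have : ∃ m, C.V M m ∧ m <:+: t ∧ m ≠ t := by
        by_cases hv : C.V M t
        · have : ∃ v, C.V M v ∧ v <:+: t.tail.dropLast := by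
            by_contra hc; push Not at hc; exact hl ⟨hv, hc⟩
          obtain ⟨v, v1, v2⟩ := this
          refine ⟨v, v1, v2.trans ((List.dropLast_prefix _).isInfix.trans (List.tail_suffix _).isInfix),
            ?_⟩
          rintro rfl
          have := v2.length_le
          have := H.len hv
          simp only [List.length_dropLast, List.length_tail] at *
          omega
        · obtain ⟨-, m, m1, m2⟩ := ht
          exact ⟨m, m1, m2, fun e => hv (e ▸ m1)⟩
      obtain ⟨m, m1, m2, m3⟩ := this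
      have l1 := H.len m1
      have l2 := H.Wpos M
      have l3 := m2.length_le
      rcases infix_cases m2 m3 with h | h
      · have a1 : Ab C M t.dropLast := ⟨ht.1.dropLast, m, m1, h⟩
        exact .left t (by omega) (fun h => h.2 a1)
          (ih _ (by simp only [List.length_dropLast]; omega) _ rfl a1)
      · have a1 : Ab C M t.tail := ⟨ht.1.tail, m, m1, h⟩
        exact .down t (by omega) (fun h => h.2 a1)
          (ih _ (by simp only [List.length_tail]; omega) _ rfl a1)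

end Good

end Crest.Agent.H3.SCS
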