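import Crest.Agent.H3.SCSOps
import Crest.Agent.H3.SCSZig

set_option autoImplicit false
set_option linter.unusedVariables false
set_option linter.deprecated false

/-! Shortest common superstring: the raising phase. -/

namespace Crest.Agent.H3.SCS

def Val (S : List Str) (v : Str) : Prop := v = [] ∨ ∃ s ∈ S, v <:+: s
def Mx (S : List Str) (s : Str) : Prop := s ∈ S ∧ s ≠ [] ∧ ∀ s' ∈ S, s <:+: s' → s'.length ≤ s.length

def cells (S : List Str) : List Str :=
  S.flatMap (fun s => (List.range s.length).flatMap (fun i =>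
    (List.range (s.length - i)).map (fun k => (s.drop i).take (k + 1))))

def maxs (S : List Str) : List Str :=
  S.filter (fun s => !s.isEmpty && S.all (fun s' => !decide (s <:+: s') || decide (s'.length ≤ s.length)))

theorem mem_maxs {S : List Str} {s : Str} : s ∈ maxs S ↔ Mx S s := by
  simp [maxs, Mx, or_iff_not_imp_left]

theorem mem_cells {S : List Str} {v : Str} : v ∈ cells S ↔ v ≠ [] ∧ Val S v := by
  simp only [cells, List.mem_flatMap, List.mem_map, List.mem_range, Val]
  constructor
  · rintro ⟨s, h1, i, h2, k, h3, rfl⟩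
    refine ⟨fun e => ?_, Or.inr ⟨s, h1,
      (List.take_prefix _ _).isInfix.trans (List.drop_suffix _ _).isInfix⟩⟩
    have := congrArg List.length e
    simp only [List.length_take, List.length_drop, List.length_nil] at this; omega
  · rintro ⟨h1, h2 | ⟨s, h2, p, q, rfl⟩⟩
    · exact (h1 h2).elim
    · have := List.length_pos_of_ne_nil h1
      refine ⟨_, h2, p.length, by simp; omega, v.length - 1, by simp; omega, ?_⟩
      rw [List.append_assoc, List.drop_left, Nat.sub_add_cancel this, List.take_left]

theorem Val.inf {S : List Str} {v w : Str} (h : v <:+: w) (hw : Val S w) : Val S v := by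
  rcases hw with rfl | ⟨s, h1, h2⟩
  · exact Or.inl (by simpa using h)
  · exact Or.inr ⟨s, h1, h.trans h2⟩

theorem Val.len {S : List Str} {v : Str} (h : Val S v) : v.length ≤ S.flatten.length := by
  rcases h with rfl | ⟨s, h1, h2⟩
  · simp
  · exact (h2.trans (List.infix_of_mem_flatten h1)).length_le

theorem cells_closed (S : List Str) : ∀ t ∈ cells S, 2 ≤ t.length →
    t.dropLast ∈ cells S ∧ t.tail ∈ cells S := by
  intro t ht h
  rw [mem_cells] at ht
  constructor <;> rw [mem_cells]
  · exact ⟨fun e => by have := congrArg List.length e; simp at this; omega,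
      ht.2.inf (List.dropLast_prefix _).isInfix⟩
  · exact ⟨fun e => by have := congrArg List.length e; simp at this; omega,
      ht.2.inf (List.tail_suffix _).isInfix⟩

theorem exists_DP' (S : List Str) (T : Str) (hT : ∀ s ∈ S, s <:+: T) :
    ∃ l, DP (Val S) (Mx S) T.length l := by
  refine exists_DP (Or.inl rfl) (fun v w => Val.inf) (fun s hs => ⟨hs.2.1,
    Or.inr ⟨s, hs.1, List.infix_refl _⟩, fun v hv hi => ?_⟩) T (fun s hs => hT s hs.1)
  rcases hv with rfl | ⟨s', h1, h2⟩
  · simpa using hi
  · have := hs.2.2 s' h1 (hi.trans h2)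
    have := h2.length_le
    exact hi.eq_of_length_le (by omega)

theorem exists_mx {S : List Str} {s : Str} (hs : s ∈ S) (hne : s ≠ []) : ∃ m, Mx S m ∧ s <:+: m := by
  induction' hn : S.flatten.length - s.length using Nat.strong_induction_on with n ih generalizing s
  by_cases h : Mx S s
  · exact ⟨s, h, List.infix_refl _⟩
  · have : ∃ s' ∈ S, s <:+: s' ∧ s.length < s'.length := by
      by_contra hc; push Not at hc; exact h ⟨hs, hne, hc⟩
    obtain ⟨s', h1, h2, h3⟩ := this
    have := (List.infix_of_mem_flatten h1).length_le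
    obtain ⟨m, m1, m2⟩ := ih _ (by omega) h1 (by rintro rfl; simp at h3) rfl
    exact ⟨m, m1, h2.trans m2⟩

def ab (M : List Arc) (t : Str) : Bool :=
  decide (t.drop (ups M).length = t.take (t.length - (ups M).length)) &&
    (verts M).any (fun m => decide (m <:+: t))

theorem ab_iff {M : List Arc} {t : Str} :
    ab M t = true ↔ Per t (ups M).length ∧ ∃ m ∈ verts M, m <:+: t := by simp [ab, Per]

def rais (ws : List (List Arc)) (v : Str) : Bool :=
  decide (v.length = 1) || (decide (v.tail ∈ ups ws.flatten) && decide (v.dropLast ∈ dns ws.flatten))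

def cand1 (S : List Str) (ws : List (List Arc)) (v : Str) : Bool :=
  (maxs S).any (fun s => !decide (s ∈ ups ws.flatten) &&
    decide (s ∈ reach S.flatten (cells S) (ups ws.flatten) (dns ws.flatten) v))

def cand2 (S : List Str) (ws : List (List Arc)) (v : Str) : Bool :=
  ws.any (fun M => (verts M).all (fun m => decide ((ups M).length < m.length)) &&
    (verts M).all (fun m => ab M m) &&
    ws.all (fun K => (verts K).all (fun m => ab M m) || (verts K).all (fun m => !ab M m)) &&
    (cells S).all (fun t => !ab M t || decide (t ∈ reach S.flatten (cells S)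
      ((ups ws.flatten).filter (fun x => !ab M x)) ((dns ws.flatten).filter (fun x => !ab M x)) v)))

def cands (S : List Str) (ws : List (List Arc)) : List Str :=
  (cells S).filter (fun v => rais ws v && (cand1 S ws v || cand2 S ws v))

def mstep (S : List Str) (ws : List (List Arc)) : List (List Arc) :=
  cond (cands S ws).isEmpty ws (raise ws ((cands S ws).headD []))

theorem bal_flatten {ws : List (List Arc)} (h : ∀ w ∈ ws, Closed w) :
    Bal (ups ws.flatten) (dns ws.flatten) := by
  induction ws with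
  | nil => intro v _; simp [nU, nD]
  | cons w ws ih =>
    obtain ⟨x, hx⟩ := h w (by simp)
    rw [List.flatten_cons, ups_append, dns_append, ← Multiset.coe_add, ← Multiset.coe_add]
    exact hx.bal.add (ih (fun c hc => h c (by simp [hc])))

theorem Inv.of_ups {ws : List (List Arc)} (h : Inv ws) {v : Str} (hv : v ∈ ups ws.flatten) :
    ∃ K ∈ ws, v ∈ verts K ∧ v.dropLast ∈ verts K := by
  rw [mem_ups h.adj] at hv
  obtain ⟨K, K1, K2⟩ := List.mem_flatten.1 hv.2
  obtain ⟨x, hx⟩ := (h.1 K K1).2
  exact ⟨K, K1, hx.closed_snd K2, fst_mem K2⟩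

theorem Inv.of_dns {ws : List (List Arc)} (h : Inv ws) {v : Str} (hv : v ∈ dns ws.flatten) :
    ∃ K ∈ ws, v ∈ verts K ∧ v.tail ∈ verts K := by
  rw [mem_dns h.adj] at hv
  obtain ⟨K, K1, K2⟩ := List.mem_flatten.1 hv.2
  obtain ⟨x, hx⟩ := (h.1 K K1).2
  exact ⟨K, K1, fst_mem K2, hx.closed_snd K2⟩

theorem per_iff {t : Str} {W : ℕ} : Per t W ↔ ∀ i, i + W < t.length → t[i + W]? = t[i]? := by
  unfold Per
  constructor
  · intro h i hi
    have := congrArg (fun l => l[i]?) h
    simp only [List.getElem?_drop, List.getElem?_take] at this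
    rwa [if_pos (by omega), add_comm] at this
  · intro h
    apply List.ext_getElem?
    intro i
    simp only [List.getElem?_drop, List.getElem?_take]
    split_ifs with h1
    · rw [add_comm]; exact h i (by omega)
    · exact List.getElem?_eq_none (by omega)

theorem per_glue {v : Str} {W : ℕ} (h1 : Per v.dropLast W) (h2 : Per v.tail W)
    (h3 : W < v.dropLast.length) : Per v W := by
  rw [per_iff] at *
  intro i hi
  simp only [List.length_dropLast, List.length_tail, List.getElem?_dropLast,
    List.getElem?_tail] at *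
  by_cases h : i + W < v.length - 1
  · have := h1 i h
    rwa [if_pos h, if_pos (by omega)] at this
  · have := h2 (i - 1) (by omega)
    rwa [show i - 1 + W + 1 = i + W by omega, show i - 1 + 1 = i by omega] at this

theorem ups_ne_nil {w : List Arc} (h1 : w ≠ []) (h2 : Closed w) : 0 < (ups w).length := by
  obtain ⟨x, hx⟩ := h2
  have := hx.len
  have := ups_add_dns w
  have := List.length_pos_of_ne_nil h1
  omega

theorem mem_ups_flatten {ws : List (List Arc)} {K : List Arc} (hK : K ∈ ws) {v : Str}
    (hv : v ∈ ups K) : v ∈ ups ws.flatten := by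
  obtain ⟨s, t, rfl⟩ := List.append_of_mem hK; simp [hv]

theorem mem_dns_flatten {ws : List (List Arc)} {K : List Arc} (hK : K ∈ ws) {v : Str}
    (hv : v ∈ dns K) : v ∈ dns ws.flatten := by
  obtain ⟨s, t, rfl⟩ := List.append_of_mem hK; simp [hv]

theorem cand_sound {S : List Str} {ws : List (List Arc)} (h : Inv ws) {N : ℕ} {l : List Arc}
    (hl : DP (Val S) (Mx S) N l) (hle : NLe (ups ws.flatten) (ups l)) {v : Str}
    (hv : v ∈ cands S ws) : nU (ups ws.flatten) v < nU (ups l) v := by
  simp only [cands, List.mem_filter, Bool.and_eq_true, Bool.or_eq_true] at hv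
  obtain ⟨hc, -, hv | hv⟩ := hv
  · simp only [cand1, List.any_eq_true, Bool.and_eq_true, Bool.not_eq_eq_eq_not, Bool.not_true,
      decide_eq_false_iff_not, decide_eq_true_eq, mem_maxs] at hv
    obtain ⟨s, h1, h2, h3⟩ := hv
    refine prop_rch (bal_flatten (fun w hw => (h.1 w hw).2)) hl.path.bal hle
      (by simpa using reach_sound h3) (ord_suf.f1 hle (by simpa using h2) (by simpa using hl.mx s h1))
  simp only [cand2, List.any_eq_true, Bool.and_eq_true, List.all_eq_true, decide_eq_true_eq,
    Bool.or_eq_true, Bool.not_eq_eq_eq_not, Bool.not_true] at hv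
  obtain ⟨M, hM, ⟨⟨h1, h2⟩, h3⟩, h4⟩ := hv
  let p : List Arc → Bool := fun K => (verts K).all (fun m => ab M m)
  have hX := h.sub (List.filter_sublist (p := p))
  have hR := h.sub (List.filter_sublist (p := fun K => !p K))
  have e : (ups ws.flatten : Multiset Str) = ups (ws.filter p).flatten +
      ups (ws.filter (fun K => !p K)).flatten := by
    rw [Multiset.coe_add, ← ups_append, Multiset.coe_eq_coe]
    exact ups_perm (flatten_filter_perm ws p).symm
  have zX : ∀ K ∈ ws.filter p, ∀ m ∈ verts K, ab M m = true := by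
    intro K hK; simpa [p] using (List.mem_filter.1 hK).2
  have zR : ∀ K ∈ ws.filter (fun K => !p K), ∀ m ∈ verts K, ¬ ab M m = true := by
    intro K hK m hm
    rw [List.mem_filter] at hK
    rcases h3 K hK.1 with h5 | h5
    · have : p K = true := by simpa [p] using h5
      simp [this] at hK
    · simp [h5 m hm]
  have oR : OutZ (fun t => ab M t = true) (ups (ws.filter (fun K => !p K)).flatten)
      (dns (ws.filter (fun K => !p K)).flatten) :=
    ⟨fun v hv => by
      obtain ⟨K, a, b, c⟩ := hR.of_ups (Multiset.mem_coe.1 hv); exact ⟨zR K a _ b, zR K a _ c⟩,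
    fun v hv => by
      obtain ⟨K, a, b, c⟩ := hR.of_dns (Multiset.mem_coe.1 hv); exact ⟨zR K a _ b, zR K a _ c⟩⟩
  have z0 : ¬ ab M [] = true := by
    rw [ab_iff]; rintro ⟨-, m, m1, m2⟩
    have := h1 m m1; have := m2.length_le; simp at this; simp [this] at *
  rw [e] at hle ⊢
  refine dich (Z := fun t => ab M t = true) z0 (fun v a b => ?_) hl.path.bal
    (fun a b => hl.path.conn z0 a b) (bal_flatten (fun w hw => (hX.1 w hw).2))
    (bal_flatten (fun w hw => (hR.1 w hw).2)) hle ⟨fun v hv => ?_, fun v hv => ?_⟩ ?_ oR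
    (mem_cells.1 hc).1 (fun t t1 t2 => ?_)
  · rw [ab_iff] at *
    obtain ⟨a1, m, m1, m2⟩ := a
    exact ⟨per_glue a1 b.1 (lt_of_lt_of_le (h1 m m1) m2.length_le), m, m1,
      m2.trans (List.dropLast_prefix _).isInfix⟩
  · obtain ⟨K, a, b, c⟩ := hX.of_ups (Multiset.mem_coe.1 hv); exact ⟨zX K a _ b, zX K a _ c⟩
  · obtain ⟨K, a, b, c⟩ := hX.of_dns (Multiset.mem_coe.1 hv); exact ⟨zX K a _ b, zX K a _ c⟩
  · obtain ⟨x, hx⟩ := List.exists_mem_of_length_pos (ups_ne_nil (h.1 M hM).1 (h.1 M hM).2)
    have := mem_ups_flatten (List.mem_filter.2 ⟨hM, (by simpa [p] using h2 : p M = true)⟩) hx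
    intro e
    rw [Multiset.coe_eq_zero] at e
    simp [e] at this
  · obtain ⟨w, w1, w2⟩ := Multiset.countP_pos.1 t2
    have hc : t ∈ cells S := mem_cells.2 ⟨fun e => z0 (e ▸ t1), (hl.val w w1).inf w2.isInfix⟩
    refine (reach_sound ((h4 t hc).resolve_left (by simpa using t1))).mono (fun x hx => ?_)
      (fun x hx => ?_)
    · refine List.mem_filter.2 ⟨?_, by simpa using (oR.1 x hx).1⟩
      rw [← Multiset.mem_coe, e]; exact Multiset.mem_add.2 (Or.inr hx)
    · refine List.mem_filter.2 ⟨?_, by simpa using (oR.2 x hx).1⟩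
      exact (dns_perm (flatten_filter_perm ws p)).mem_iff.1 (by
        rw [dns_append]; exact List.mem_append_right _ hx)

def MI (S : List Str) (ws : List (List Arc)) : Prop :=
  Inv ws ∧ ∀ N l, DP (Val S) (Mx S) N l → NLe (ups ws.flatten) (ups l)

def mu (S : List Str) (ws : List (List Arc)) : ℕ := ∑ v ∈ (cells S).toFinset, nU (ups ws.flatten) v

theorem mstep_spec {S : List Str} {ws : List (List Arc)} (h : MI S ws) :
    MI S (mstep S ws) ∧ ((cands S ws = [] ∧ mstep S ws = ws) ∨ mu S ws < mu S (mstep S ws)) := by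
  unfold mstep
  cases hc : cands S ws with
  | nil => exact ⟨h, Or.inl ⟨rfl, rfl⟩⟩
  | cons v L =>
    have hv : v ∈ cands S ws := by simp [hc]
    have hv' := hv
    simp only [cands, List.mem_filter, Bool.and_eq_true] at hv'
    have hr : Rais (· ∈ ups ws.flatten) (· ∈ dns ws.flatten) v :=
      ⟨(mem_cells.1 hv'.1).1, by simpa [rais] using hv'.2.1⟩
    obtain ⟨a1, a2⟩ := raise_spec h.1 hr
    simp only [List.isEmpty_cons, cond_false, List.headD_cons]
    refine ⟨⟨a1, fun N l hl x hx => ?_⟩, Or.inr ?_⟩
    · rw [a2 x hx]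
      split_ifs with e
      · subst e; exact cand_sound h.1 hl (h.2 N l hl) hv
      · exact h.2 N l hl x hx
    · refine Finset.sum_lt_sum (fun x hx => ?_) ⟨v, by simpa using hv'.1, ?_⟩
      · rw [a2 x (mem_cells.1 (by simpa using hx)).1]; omega
      · rw [a2 v hr.1, if_pos rfl]; omega

theorem MI.card {S : List Str} {ws : List (List Arc)} (h : MI S ws) {T : Str}
    (hT : ∀ s ∈ S, s <:+: T) : (ups ws.flatten).length ≤ T.length := by
  obtain ⟨l, hl⟩ := exists_DP' S T hT
  have hle := h.2 _ l hl
  obtain ⟨A, a1, a2⟩ := exists_alph (ups ws.flatten) (ups l)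
  have e1 := ord_suf.split _ A a1 []
  have e2 := ord_suf.split _ A a2 []
  have c : ∀ U : List Str, (U : Multiset Str).countP (fun w => [] <:+ w) = U.length := fun U =>
    Multiset.countP_eq_card.2 (fun _ _ => List.nil_suffix)
  rw [c] at e1 e2
  rw [Multiset.count_eq_zero_of_notMem (fun hm => ((mem_ups h.1.adj).1 hm).1 rfl)] at e1
  have h1 := Finset.sum_le_sum (s := A) (fun d _ => hle [d] (by simp))
  have := hl.len
  change _ = 0 + ∑ d ∈ A, nU _ [d] at e1
  change _ = _ + ∑ d ∈ A, nU _ [d] at e2
  omega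

theorem MI.val {S : List Str} {ws : List (List Arc)} (h : MI S ws) {a : Arc} (ha : a ∈ ws.flatten) :
    Val S a.1 ∧ Val S a.2 := by
  obtain ⟨l, hl⟩ := exists_DP' S S.flatten (fun s hs => List.infix_of_mem_flatten hs)
  have key : ∀ v, v ≠ [] → 0 < nU (ups ws.flatten) v → Val S v := by
    intro v h1 h2
    obtain ⟨w, w1, w2⟩ := Multiset.countP_pos.1 (lt_of_lt_of_le h2 (h.2 _ l hl v h1))
    exact (hl.val w w1).inf w2.isInfix
  obtain ⟨x, y⟩ := a
  rcases h.1.adj _ ha with ⟨h1, h2⟩ | ⟨h1, h2⟩ <;> simp only at h1 h2 <;> subst h2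
  · have := key y h1 (Multiset.countP_pos.2 ⟨y, (mem_ups h.1.adj).2 ⟨h1, ha⟩, List.suffix_refl _⟩)
    exact ⟨this.inf (List.dropLast_prefix _).isInfix, this⟩
  · have := key x h1 (by
      rw [bal_flatten (fun w hw => (h.1.1 w hw).2) x h1]
      exact Multiset.countP_pos.2 ⟨x, (mem_dns h.1.adj).2 ⟨h1, ha⟩, List.prefix_refl _⟩)
    exact ⟨this, this.inf (List.tail_suffix _).isInfix⟩

theorem MI.mu_le {S : List Str} {ws : List (List Arc)} (h : MI S ws) :
    mu S ws ≤ (cells S).length * S.flatten.length := by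
  have := h.card (T := S.flatten) (fun s hs => List.infix_of_mem_flatten hs)
  refine (Finset.sum_le_card_nsmul _ _ S.flatten.length (fun x _ => ?_)).trans ?_
  · exact (Multiset.countP_le_card _ _).trans this
  · exact Nat.mul_le_mul_right _ (List.toFinset_card_le _)

theorem mi_iter (S : List Str) (k : ℕ) : MI S ((mstep S)^[k] []) ∧
    (cands S ((mstep S)^[k] []) = [] ∨ k ≤ mu S ((mstep S)^[k] [])) := by
  induction k with
  | zero => exact ⟨⟨⟨by simp, List.Pairwise.nil⟩, fun N l _ v _ => by simp [nU]⟩, Or.inr (by simp)⟩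
  | succ k ih =>
    rw [Function.iterate_succ_apply']
    obtain ⟨h1, h2⟩ := mstep_spec ih.1
    refine ⟨h1, ?_⟩
    rcases h2 with h2 | h2
    · rw [h2.2]; exact Or.inl h2.1
    · rcases ih.2 with h3 | h3
      · have : mstep S ((mstep S)^[k] []) = (mstep S)^[k] [] := by rw [mstep, h3]; rfl
        rw [this]; exact Or.inl h3
      · right; omega

def fuel (S : List Str) : Str := 0 :: (cells S).flatMap (fun _ => S.flatten)

def phase1 (S : List Str) : List (List Arc) := (fuel S).foldl (fun ws _ => mstep S ws) []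

theorem phase1_spec (S : List Str) : MI S (phase1 S) ∧ cands S (phase1 S) = [] := by
  rw [phase1, List.foldl_const]
  obtain ⟨h1, h2⟩ := mi_iter S (fuel S).length
  refine ⟨h1, h2.resolve_right (fun h => ?_)⟩
  have := h1.mu_le
  have e : (fuel S).length = (cells S).length * S.flatten.length + 1 := by
    simp only [fuel, List.length_cons, List.length_flatMap, List.map_const', List.sum_replicate,
      smul_eq_mul]
  omega

end Crest.Agent.H3.SCS
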