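import Crest.Agent.H3.SCSGeom

set_option autoImplicit false
set_option linter.unusedVariables false
set_option linter.deprecated false

/-! Shortest common superstring: barriers. -/

namespace Crest.Agent.H3.SCS

variable {ι : Type}

theorem IsSt.back {C : Cfg ι} {K : ι} {β : ℤ → ℕ} {a : ℤ → ℤ} (h : IsSt C K β a) {τ r : ℤ}
    (hr : r ≤ a τ) : ∃ j, j ≤ τ - a τ ∧ C.V K (cl β r j) := by
  have l1 := h.le (2 * r - 1)
  have l2 := h.le τ
  obtain ⟨σ, t1, t2, t3⟩ := h.stair.ivt (σ := 2 * r - 1) (τ := τ) (r := r) (by omega) (by omega) hr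
  have m := h.stair.mono t2
  have := h.mem σ
  rw [t3] at this
  exact ⟨_, by omega, this⟩

theorem IsSt.fwd {C : Cfg ι} {K : ι} {β : ℤ → ℕ} {a : ℤ → ℤ} (h : IsSt C K β a) {τ j : ℤ}
    (hr : τ - a τ ≤ j) : ∃ r, a τ ≤ r ∧ C.V K (cl β r j) := by
  have l1 := h.le (2 * j + 1)
  have l2 := h.le τ
  have hs : Stair (fun τ => τ - a τ) := fun τ => by have := h.stair τ; dsimp only; omega
  obtain ⟨σ, t1, t2, t3⟩ := hs.ivt (σ := τ) (τ := 2 * j + 1) (r := j) (by omega) hr (by omega)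
  have m := h.stair.mono t1
  have := h.mem σ
  rw [t3] at this
  exact ⟨_, by omega, this⟩

/-- no descent starts strictly above a staircase -/
theorem IsSt.bl {C : Cfg ι} {K : ι} {β : ℤ → ℕ} {a : ℤ → ℤ} (h : IsSt C K β a) {u : Str}
    (hu : ∀ y, C.V K y → u.length < y.length) {v : Str} (hv : Rch C.Uw C.Dw u v) :
    ∀ r j, r ≤ j → v = cl β r j → a (r + j) ≤ r := by
  induction hv with
  | base =>
    intro r j hrj e
    by_contra hc
    have := hu _ (h.mem (r + j))
    have := h.le (r + j)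
    rw [e] at *
    simp only [cl_length] at *
    omega
  | left v h1 h2 _ ih =>
    intro r j hrj e
    subst e
    simp only [cl_length] at h1
    rw [cl_dropLast' β (by omega)] at h2 ih
    have := ih r (j - 1) (by omega) rfl
    by_contra hc
    rcases h.step (r + (j - 1)) with h3 | h3
    · rw [show r + (j - 1) + 1 = r + j by ring] at h3
      apply h2
      have e : a (r + (j - 1)) = r := by omega
      rw [e, show r + (j - 1) - r = j - 1 by ring] at h3
      exact h3.2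
    · rw [show r + (j - 1) + 1 = r + j by ring] at h3; omega
  | down v h1 h2 _ ih =>
    intro r j hrj e
    subst e
    simp only [cl_length] at h1
    rw [cl_tail] at h2 ih
    have := ih (r + 1) j (by omega) rfl
    rw [show r + 1 + j = r + j + 1 by ring] at this
    by_contra hc
    rcases h.step (r + j) with h3 | h3
    · omega
    · apply h2
      have e : a (r + j) = r + 1 := by omega
      rw [e, show r + j + 1 - (r + 1) = j by ring] at h3
      exact h3.2

/-- a descent from a cell containing a corner of the zigzag meets the zigzag -/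
theorem cr {Uw Dw : Str → Prop} {u : Str} {α : ℤ → ℕ} {W : ℕ} (hW : 0 < W) (hp : PerF α W)
    {a b : ℤ} (hu : (u.length : ℤ) + W ≤ b - a) {v : Str} (hv : Rch Uw Dw u v) :
    ∀ r j k, v = cl α r j → r ≤ a + W + k * W → b + k * W ≤ j →
      (∃ i, a ≤ i ∧ i ≤ a + W ∧ Rch Uw Dw u (cl α i b)) ∨
      (∃ i, b ≤ i ∧ i ≤ b + W ∧ Rch Uw Dw u (cl α (a + W) i)) := by
  have on : ∀ r j k, Rch Uw Dw u (cl α r j) → r ≤ a + W + k * W → b + k * W ≤ j →
      ((j = b + k * W ∧ a + k * W ≤ r) ∨ (r = a + W + k * W ∧ j ≤ b + W + k * W)) →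
      (∃ i, a ≤ i ∧ i ≤ a + W ∧ Rch Uw Dw u (cl α i b)) ∨
      (∃ i, b ≤ i ∧ i ≤ b + W ∧ Rch Uw Dw u (cl α (a + W) i)) := by
    intro r j k hq h1 h2 h3
    rcases h3 with h3 | h3
    · refine Or.inl ⟨r - k * W, by omega, by omega, ?_⟩
      rw [← hp.cl k, sub_add_cancel, ← h3.1]; exact hq
    · refine Or.inr ⟨j - k * W, by omega, by omega, ?_⟩
      rw [← hp.cl k, sub_add_cancel, ← h3.1]; exact hq
  induction hv with
  | base =>
    intro r j k e h1 h2
    refine on r j k (e ▸ .base) h1 h2 ?_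
    have := congrArg List.length e
    simp only [cl_length] at this
    omega
  | left v h1 h2 h3 ih =>
    intro r j k e h4 h5
    by_cases hc : (j = b + k * W ∧ a + k * W ≤ r) ∨ (r = a + W + k * W ∧ j ≤ b + W + k * W)
    · exact on r j k (e ▸ .left v h1 h2 h3) h4 h5 hc
    · subst e
      simp only [cl_length] at h1
      rw [cl_dropLast' α (by omega)] at ih
      by_cases h6 : b + k * W < j
      · exact ih r (j - 1) k rfl h4 (by omega)
      · refine ih r (j - 1) (k - 1) rfl ?_ ?_ <;> rw [sub_mul] <;> omega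
  | down v h1 h2 h3 ih =>
    intro r j k e h4 h5
    by_cases hc : (j = b + k * W ∧ a + k * W ≤ r) ∨ (r = a + W + k * W ∧ j ≤ b + W + k * W)
    · exact on r j k (e ▸ .down v h1 h2 h3) h4 h5 hc
    · subst e
      rw [cl_tail] at ih
      by_cases h6 : r < a + W + k * W
      · exact ih (r + 1) j k rfl (by omega) h5
      · refine ih (r + 1) j (k + 1) rfl ?_ ?_ <;> rw [add_mul] <;> omega

def Low (C : Cfg ι) (K : ι) (y : Str) : Prop :=
  C.V K y ∧ ∀ v, C.V K v → ¬ v <:+: y.tail.dropLast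

namespace Good

variable {C : Cfg ι} (H : Good C)
include H

theorem low_of {K : ι} {α : ℤ → ℕ} {a b : ℤ} (hv : C.V K (cl α a b))
    (h : ∀ r j, a < r → j < b → ¬ C.V K (cl α r j)) : Low C K (cl α a b) := by
  refine ⟨hv, fun v hv' hi => ?_⟩
  have l := H.clen hv
  have := H.Wpos K
  rw [cl_tail, cl_dropLast' α (by omega)] at hi
  obtain ⟨r, j, h1, h2, h3, rfl⟩ := infix_cl (by omega) hi
  exact h r j (by omega) (by omega) hv'

theorem low_not {K : ι} {α : ℤ → ℕ} {a b r j : ℤ} (hl : Low C K (cl α a b)) (h1 : a < r)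
    (h2 : j < b) : ¬ C.V K (cl α r j) := by
  intro hv
  have l := H.clen hv
  refine hl.2 _ hv ?_
  rw [cl_tail, cl_dropLast' α (by omega)]
  exact cl_infix α (by omega) (by omega) (by omega)

theorem entry {M : ι} {β : ℤ → ℕ} (hp : PerF β (C.W M)) {ρ c L : ℤ} (hm : C.V M (cl β ρ c))
    (hL : L ≤ ρ) : ∃ je, je ≤ c ∧ C.V M (cl β L je) ∧
      ∀ r j, L ≤ r → C.V M (cl β r j) → je ≤ j := by
  have key : ∀ r j, L ≤ r → C.V M (cl β r j) → ∃ j', j' ≤ j ∧ C.V M (cl β L j') := by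
    intro r j h1 h2
    obtain ⟨a, h, ha⟩ := H.through hp h2
    obtain ⟨j', h3, h4⟩ := h.back (τ := r + j) (r := L) (by omega)
    exact ⟨j', by omega, h4⟩
  obtain ⟨j0, -, h0⟩ := key ρ c hL hm
  obtain ⟨je, h1, h2⟩ := Int.exists_least_of_bdd (P := fun j => C.V M (cl β L j))
    ⟨L, fun z hz => by have := H.clen hz; omega⟩ ⟨j0, h0⟩
  have k2 : ∀ r j, L ≤ r → C.V M (cl β r j) → je ≤ j := fun r j a b => by
    obtain ⟨j', h3, h4⟩ := key r j a b
    exact (h2 _ h4).trans h3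
  exact ⟨je, k2 _ _ hL hm, h1, k2⟩

theorem exit {M : ι} {β : ℤ → ℕ} (hp : PerF β (C.W M)) {ρ c R : ℤ} (hm : C.V M (cl β ρ c))
    (hR : c ≤ R) : ∃ r', ρ ≤ r' ∧ C.V M (cl β r' R) ∧
      ∀ r j, j ≤ R → C.V M (cl β r j) → r ≤ r' := by
  have key : ∀ r j, j ≤ R → C.V M (cl β r j) → ∃ r', r ≤ r' ∧ C.V M (cl β r' R) := by
    intro r j h1 h2
    obtain ⟨a, h, ha⟩ := H.through hp h2
    obtain ⟨j', h3, h4⟩ := h.fwd (τ := r + j) (j := R) (by omega)
    exact ⟨j', by omega, h4⟩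
  obtain ⟨j0, -, h0⟩ := key ρ c hR hm
  obtain ⟨je, h1, h2⟩ := Int.exists_greatest_of_bdd (P := fun r => C.V M (cl β r R))
    ⟨R, fun z hz => by have := H.clen hz; omega⟩ ⟨j0, h0⟩
  have k2 : ∀ r j, j ≤ R → C.V M (cl β r j) → r ≤ je := fun r j a b => by
    obtain ⟨j', h3, h4⟩ := key r j a b
    exact h3.trans (h2 _ h4)
  exact ⟨je, k2 _ _ hR hm, h1, k2⟩

/-- walls just outside the run on the left are good -/
theorem wallL {M : ι} {α β : ℤ → ℕ} (hp : PerF β (C.W M)) {L je j : ℤ} (he : C.V M (cl β L je))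
    (hj : je ≤ j) (ag : ∀ i, L ≤ i → i < j → α i = β i) (ne : α (L - 1) ≠ β (L - 1))
    (hw : C.Dw (cl α (L - 1) j)) : C.G (cl α (L - 1) j) ∧ C.G (cl β L j) := by
  have l := H.clen he
  rcases H.hD _ hw with h | ⟨B, h1, h2⟩
  · rw [cl_tail, sub_add_cancel, cl_agree ag] at h; exact h
  · exfalso
    rw [cl_tail, sub_add_cancel, cl_agree ag] at h2
    obtain ⟨β', f, hf, -, ag'⟩ := H.through0 h1
    have ag2 : ∀ i, L ≤ i → i < j → β' i = β i := fun i a b => by
      rw [← ag' i (by omega) b, ag i a b]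
    have ne2 : β' (L - 1) ≠ β (L - 1) := by rwa [← ag' _ le_rfl (by omega)]
    by_cases e : M = B
    · subst e
      exact ne2 (congrFun (PerF.ext (H.Wpos M) hf.per hp (r := L) (j := j) (by omega) ag2) _)
    · have := H.pair e he h2 le_rfl hj (fun _ _ _ => rfl)
      have := fw_left (H.Wpos B) (H.Wpos M) hf.per hp ag2 ne2
      omega

/-- walls just outside the run on the right are good -/
theorem wallR {M : ι} {α β : ℤ → ℕ} (hp : PerF β (C.W M)) {R r' r : ℤ} (he : C.V M (cl β r' R))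
    (hj : r ≤ r') (ag : ∀ i, r ≤ i → i < R → α i = β i) (ne : α R ≠ β R)
    (hw : C.Uw (cl α r (R + 1))) : C.G (cl α r (R + 1)) ∧ C.G (cl β r R) := by
  have l := H.clen he
  rcases H.hU _ hw with h | ⟨B, h1, h2⟩
  · rw [cl_dropLast α (by omega), cl_agree ag] at h; exact h
  · exfalso
    rw [cl_dropLast α (by omega), cl_agree ag] at h2
    obtain ⟨β', f, hf, -, ag'⟩ := H.through0 h1
    have ag2 : ∀ i, r ≤ i → i < R → β' i = β i := fun i a b => by
      rw [← ag' i a (by omega), ag i a b]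
    have ne2 : β' R ≠ β R := by rwa [← ag' _ (by omega) (by omega)]
    by_cases e : B = M
    · subst e
      exact ne2 (congrFun (PerF.ext (H.Wpos B) hf.per hp (r := r) (j := R) (by omega) ag2) _)
    · have := H.pair e h2 he hj le_rfl (fun _ _ _ => rfl)
      have := fw_right (H.Wpos B) (H.Wpos M) hf.per hp ag2 ne2
      omega

theorem barrier {K A M : ι} {α β : ℤ → ℕ} {a0 b0 ρ c ρm cm : ℤ} (hp : PerF α (C.W K))
    (hy : C.V K (cl α a0 b0)) (hpA : PerF β (C.W A)) (hg : C.V A (cl β ρ c))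
    (ag : ∀ i, ρ ≤ i → i < c → α i = β i) (ne : α ≠ β) (h1 : a0 ≤ ρ) (h2 : ρ ≤ a0 + C.W K)
    (h3 : b0 ≤ c) (h4 : c ≤ b0 + C.W K) (hpM : PerF β (C.W M)) (hm : C.V M (cl β ρm cm))
    (h5 : ρ ≤ ρm) (h6 : cm ≤ c) (hH : ∀ t, C.G t → Ab C M t → Ab C A t) :
    ∃ L R je r', a0 < L ∧ L ≤ ρ ∧ c ≤ R ∧ R < b0 + C.W K ∧ (∀ i, L ≤ i → i < R → α i = β i) ∧
      α R ≠ β R ∧ je ≤ cm ∧ ρm ≤ r' ∧ Low C M (cl α L je) ∧ Low C M (cl α r' R) ∧
      ∃ LO RO : Prop, (LO ∨ RO) ∧ (M = A → LO ∨ a0 + C.W K < r') ∧ (M = A → RO ∨ je < b0) ∧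
        (LO → ∀ u, Rch C.Uw C.Dw u (cl α L je) → ∀ j, je ≤ j → j ≤ R + 1 →
          Rch C.Uw C.Dw u (cl α (L - 1) j)) ∧
        (RO → ∀ u, Rch C.Uw C.Dw u (cl α r' R) → ∀ r, L - 1 ≤ r → r ≤ r' →
          Rch C.Uw C.Dw u (cl α r (R + 1))) := by
  have lg := H.clen hg
  have ly := H.clen hy
  have lm := H.clen hm
  have wK := H.Wpos K
  have wA := H.Wpos A
  have hKA : K ≠ A := by
    rintro rfl
    exact ne (PerF.ext wK hp hpA lg.le ag)
  obtain ⟨L, R, r1, r2, r3, r4, r5⟩ := exists_run wK wA hp hpA ne (by omega) ag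
  have fw := fw_right wK wA hp hpA r3 r5
  have hL : a0 < L := by
    have := H.pair hKA hy hg h1 h3 (fun i a b => ag i a (by omega))
    omega
  have hR : R < b0 + C.W K := by
    have := H.pair hKA.symm hg (hp.cl1 a0 b0 ▸ hy) h2 h4 (fun i a b => (ag i (by omega) b).symm)
    omega
  obtain ⟨je, e1, e2, e3⟩ := H.entry hpM hm (L := L) (by omega)
  obtain ⟨r', x1, x2, x3⟩ := H.exit hpM hm (R := R) (by omega)
  have le := H.clen e2
  have lx := H.clen x2
  have tri : ∀ r j, L ≤ r → j ≤ R → cl α r j = cl β r j := fun r j a b =>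
    cl_agree (fun i c d => r3 i (by omega) (by omega))
  have nLO : ¬ (∀ j, je ≤ j → j ≤ R → ¬ C.Dw (cl α (L - 1) j)) → ∃ j1 s : ℤ, j1 < b0 ∧ L ≤ j1 ∧
      b0 ≤ j1 + s ∧ j1 + s < b0 + C.W A ∧ C.G (cl β (L + s) (j1 + s)) ∧
      cl β (L + s - C.W A) (j1 + s - C.W A) = cl β (L + s) (j1 + s) ∧
      ∃ m, C.V A m ∧ m.length ≤ (cl β (L + s) (j1 + s)).length := by
    intro h
    push Not at h
    obtain ⟨j1, a, b, hw⟩ := h
    obtain ⟨g1, g2⟩ := H.wallL hpM e2 a (fun i c d => r3 i c (by omega)) r4 hw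
    obtain ⟨k, k1, k2⟩ := exists_shift wA j1 b0
    obtain ⟨-, m, m1, m2⟩ := hH _ g2 ⟨per_cl hpM _ _, _, e2, (cl_prefix β (by omega) a).isInfix⟩
    refine ⟨j1, k * C.W A, ?_, by omega, k1, k2, by rwa [hpA.cl], ?_, m, m1, ?_⟩
    · by_contra hc
      exact H.rectG hp hy g1 (by omega) (by omega) (by omega) (by omega)
    · rw [← hpA.cl1, sub_add_cancel, sub_add_cancel]
    · rw [hpA.cl]; exact m2.length_le
  have nRO : ¬ (∀ r, L ≤ r → r ≤ r' → ¬ C.Uw (cl α r (R + 1))) → ∃ q s : ℤ, a0 + C.W K < q ∧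
      q ≤ R ∧ q + s ≤ a0 + C.W K ∧ a0 + C.W K < q + s + C.W A ∧ C.G (cl β q R) ∧
      C.G (cl β (q + s + C.W A) (R + s + C.W A)) ∧
      cl β (q + s + C.W A) (R + s + C.W A) = cl β (q + s) (R + s) ∧
      ∃ m, C.V A m ∧ m.length ≤ (cl β q R).length := by
    intro h
    push Not at h
    obtain ⟨q, a, b, hw⟩ := h
    obtain ⟨g1, g2⟩ := H.wallR hpM x2 b (fun i c d => r3 i (by omega) d) r5 hw
    obtain ⟨k, k1, k2⟩ := exists_shift wA q (a0 + C.W K - C.W A + 1)
    obtain ⟨-, m, m1, m2⟩ := hH _ g2 ⟨per_cl hpM _ _, _, x2, (cl_suffix β b (by omega)).isInfix⟩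
    refine ⟨q, k * C.W A, ?_, by omega, by omega, by omega, g2, by rwa [hpA.cl1, hpA.cl],
      hpA.cl1 _ _, m, m1, m2.length_le⟩
    by_contra hc
    exact H.rectG hp hy g1 (by omega) (by omega) (by omega) (by omega)
  refine ⟨L, R, je, r', hL, r1, r2, hR, r3, r5, e1, x1, ?_, ?_,
    (∀ j, je ≤ j → j ≤ R → ¬ C.Dw (cl α (L - 1) j)),
    (∀ r, L ≤ r → r ≤ r' → ¬ C.Uw (cl α r (R + 1))), ?_, ?_, ?_, ?_, ?_⟩
  · rw [tri _ _ le_rfl (by omega)]
    exact H.low_of e2 (fun r j a b hv => by have := e3 r j a.le hv; omega)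
  · rw [tri _ _ (by omega) le_rfl]
    exact H.low_of x2 (fun r j a b hv => by have := x3 r j b.le hv; omega)
  · by_contra hc
    rw [not_or] at hc
    obtain ⟨j1, s, a1, a2, a3, a4, a5, -, m, m1, m2⟩ := nLO hc.1
    obtain ⟨q, s', b1, b2, -, -, b5, -, -, m', m1', m2'⟩ := nRO hc.2
    have f1 := H.far hpA hg a5 m1 m2
    have f2 := H.far hpA hg b5 m1' m2'
    rw [← tri _ _ (by omega) (by omega)] at a5
    exact H.rectG hp hy a5 (by omega) (by omega) (by omega) (by omega)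
  · rintro rfl
    by_contra hc
    rw [not_or] at hc
    obtain ⟨j1, s, a1, a2, a3, a4, a5, a6, m, m1, m2⟩ := nLO hc.1
    have f1 := H.far hpA x2 a5 m1 m2
    have s1 := stp_cell2 (α := α) (β := β) (a := a0) (b := b0) (r := L + s) (j := j1 + s)
      (by omega) a3 (by omega) (by omega) (fun i a b => r3 i (by omega) (by omega))
    have s2 := stp_cell β (a := L + s - C.W M) (b := j1 + s - C.W M) (r := r') (j := R)
      (by omega) (by omega) (by omega) (by omega)
    have s3 := stp_cell α (a := r') (b := R) (r := a0 + C.W K) (j := b0 + C.W K)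
      (by omega) (by omega) (by omega) (by omega)
    rw [a6] at s2
    rw [hp.cl1, tri _ _ (by omega) le_rfl] at s3
    have := H.r2 K M _ _ _ _ _ _ hKA hy x2 a5 s1 s2 s3
    omega
  · rintro rfl
    by_contra hc
    rw [not_or] at hc
    obtain ⟨q, s, b1, b2, b3, b4, b5, b6, b7, m, m1, m2⟩ := nRO hc.1
    have f1 := H.far hpA e2 b6 m1 (by simp only [cl_length] at m2 ⊢; omega)
    have s1 := stp_cell β (a := L) (b := je) (r := q + s + C.W M) (j := R + s + C.W M)
      (by omega) (by omega) (by omega) (by omega)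
    have s2 := stp_cell2 (α := β) (β := α) (a := q + s) (b := R + s) (r := a0 + C.W K)
      (j := b0 + C.W K) b3 (by omega) (by omega) (by omega)
      (fun i a b => (r3 i (by omega) (by omega)).symm)
    have s3 := stp_cell α (a := a0) (b := b0) (r := L) (j := je)
      (by omega) (by omega) (by omega) (by omega)
    rw [← b7, hp.cl1] at s2
    rw [tri L je le_rfl (by omega)] at s3
    have := H.r2 M K _ _ _ _ _ _ hKA.symm e2 hy b6 s1 s2 s3
    omega
  · intro hLO u hq j a b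
    refine Rch.row (j := je) (by omega) a (fun i c d => hLO i c (by omega)) ?_
    refine Rch.cdown (by omega) (fun hw => ?_) hq
    rw [tri _ _ le_rfl (by omega)] at hw
    rcases H.hU _ hw with h | ⟨B, b1, b2⟩
    · exact H.disjG _ _ e2 h.1
    · have := H.disj _ _ _ b1 e2
      subst this
      rw [cl_dropLast' β (by omega)] at b2
      have := e3 _ _ le_rfl b2
      omega
  · intro hRO u hq r a b
    refine Rch.col (r := r') (by omega) b (fun i c d => hRO i (by omega) d) ?_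
    refine Rch.cleft (by omega) (fun hw => ?_) hq
    rw [tri _ _ (by omega) le_rfl] at hw
    rcases H.hD _ hw with h | ⟨B, b1, b2⟩
    · exact H.disjG _ _ x2 h.1
    · have := H.disj _ _ _ b1 x2
      subst this
      rw [cl_tail] at b2
      have := x3 _ _ le_rfl b2
      omega

end Good

end Crest.Agent.H3.SCS
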