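import Mathlib

set_option autoImplicit false

/-! Shortest common superstring: strings as cells of a plane, overlaps, wall-avoiding descent. -/

namespace Crest.Agent.H3.SCS

abbrev Str := List ℕ

/-- the string read off `β` on the interval `[r, j)` -/
def cl (β : ℤ → ℕ) (r j : ℤ) : Str := (List.range (j - r).toNat).map (fun i : ℕ => β (r + i))

@[simp] theorem cl_length (β : ℤ → ℕ) (r j : ℤ) : (cl β r j).length = (j - r).toNat := by
  simp [cl]

theorem cl_congr {β β' : ℤ → ℕ} {r j r' j' : ℤ} (h : j - r = j' - r')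
    (h2 : ∀ i, r ≤ i → i < j → β i = β' (i + (r' - r))) : cl β r j = cl β' r' j' := by
  unfold cl
  rw [← h]
  refine List.map_congr_left (fun i hi => ?_)
  rw [List.mem_range] at hi
  rw [h2 _ (by omega) (by omega)]
  congr 1; ring

theorem cl_agree {β β' : ℤ → ℕ} {r j : ℤ} (h2 : ∀ i, r ≤ i → i < j → β i = β' i) :
    cl β r j = cl β' r j := cl_congr rfl (by simpa using h2)

theorem cl_inj {β β' : ℤ → ℕ} {r j r' j' : ℤ} (h1 : r ≤ j) (h1' : r' ≤ j')
    (h : cl β r j = cl β' r' j') :
    j - r = j' - r' ∧ ∀ i, r ≤ i → i < j → β i = β' (i + (r' - r)) := by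
  have hl := congrArg List.length h
  simp only [cl_length] at hl
  have e : j - r = j' - r' := by omega
  refine ⟨e, fun i hi hj => ?_⟩
  unfold cl at h
  rw [← e, List.map_inj_left] at h
  have := h (i - r).toNat (by rw [List.mem_range]; omega)
  rw [Int.toNat_of_nonneg (by omega)] at this
  rw [show r + (i - r) = i by ring] at this
  rw [this]; congr 1; ring

theorem cl_append (β : ℤ → ℕ) {r m j : ℤ} (h1 : r ≤ m) (h2 : m ≤ j) :
    cl β r m ++ cl β m j = cl β r j := by
  unfold cl
  rw [show (j - r).toNat = (m - r).toNat + (j - m).toNat by omega, List.range_add, List.map_append,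
    List.map_map]
  congr 1
  refine List.map_congr_left (fun i _ => ?_)
  simp only [Function.comp]
  congr 1
  push_cast
  rw [Int.toNat_of_nonneg (by omega)]; ring

theorem cl_nil (β : ℤ → ℕ) {r j : ℤ} (h : j ≤ r) : cl β r j = [] := by
  apply List.eq_nil_of_length_eq_zero; simp; omega

theorem cl_one (β : ℤ → ℕ) (r : ℤ) : cl β r (r + 1) = [β r] := by
  simp [cl]

theorem cl_snoc (β : ℤ → ℕ) {r j : ℤ} (h : r ≤ j) : cl β r (j + 1) = cl β r j ++ [β j] := by
  rw [← cl_one, cl_append β h (by omega)]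

theorem cl_cons (β : ℤ → ℕ) {r j : ℤ} (h : r < j) : cl β r j = β r :: cl β (r + 1) j := by
  rw [← cl_append β (show r ≤ r + 1 by omega) (show r + 1 ≤ j by omega), cl_one]; rfl

theorem cl_dropLast (β : ℤ → ℕ) {r j : ℤ} (h : r ≤ j) : (cl β r (j + 1)).dropLast = cl β r j := by
  rw [cl_snoc β h]; simp

theorem cl_dropLast' (β : ℤ → ℕ) {r j : ℤ} (h : r < j) : (cl β r j).dropLast = cl β r (j - 1) := by
  have := cl_dropLast β (show r ≤ j - 1 by omega)
  rwa [sub_add_cancel] at this

theorem cl_tail (β : ℤ → ℕ) (r j : ℤ) : (cl β r j).tail = cl β (r + 1) j := by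
  by_cases h : r < j
  · rw [cl_cons β h]; rfl
  · rw [cl_nil β (by omega), cl_nil β (by omega)]; rfl

theorem cl_prefix (β : ℤ → ℕ) {r m j : ℤ} (h1 : r ≤ m) (h2 : m ≤ j) : cl β r m <+: cl β r j :=
  ⟨_, cl_append β h1 h2⟩

theorem cl_suffix (β : ℤ → ℕ) {r m j : ℤ} (h1 : r ≤ m) (h2 : m ≤ j) : cl β m j <:+ cl β r j :=
  ⟨_, cl_append β h1 h2⟩

theorem cl_infix (β : ℤ → ℕ) {r r' j' j : ℤ} (h1 : r ≤ r') (h2 : r' ≤ j') (h3 : j' ≤ j) :
    cl β r' j' <:+: cl β r j :=
  (cl_prefix β h2 h3).isInfix.trans (cl_suffix β h1 (by omega)).isInfix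

/-- periodic planes -/
def PerF (β : ℤ → ℕ) (W : ℕ) : Prop := ∀ i, β (i + W) = β i

theorem PerF.mul {β : ℤ → ℕ} {W : ℕ} (h : PerF β W) (k i : ℤ) : β (i + k * W) = β i := by
  induction k using Int.induction_on generalizing i with
  | zero => simp
  | succ k ih => rw [show i + ((k : ℤ) + 1) * W = i + k * W + W by ring, h, ih]
  | pred k ih =>
    have := h (i + (-(k : ℤ) - 1) * W)
    rw [← this, show i + (-(k : ℤ) - 1) * W + W = i + -(k : ℤ) * W by ring, ih]

theorem PerF.cl {β : ℤ → ℕ} {W : ℕ} (h : PerF β W) (k r j : ℤ) :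
    cl β (r + k * W) (j + k * W) = cl β r j := by
  refine (cl_congr (by ring) (fun i _ _ => ?_)).symm
  rw [show i + (r + k * W - r) = i + k * W by ring, h.mul]

theorem PerF.cl1 {β : ℤ → ℕ} {W : ℕ} (h : PerF β W) (r j : ℤ) :
    SCS.cl β (r + W) (j + W) = SCS.cl β r j := by
  simpa using h.cl 1 r j

/-- two planes of the same period agreeing on a full period are equal -/
theorem PerF.ext {β β' : ℤ → ℕ} {W : ℕ} (hW : 0 < W) (h : PerF β W) (h' : PerF β' W) {r j : ℤ}
    (hl : r + W ≤ j) (e : ∀ i, r ≤ i → i < j → β i = β' i) : β = β' := by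
  funext i
  have h1 := Int.emod_add_mul_ediv (i - r) W
  have h2 := Int.emod_nonneg (i - r) (show (W : ℤ) ≠ 0 by omega)
  have h3 := Int.emod_lt_of_pos (i - r) (show (0 : ℤ) < W by omega)
  have : i = (r + (i - r) % W) + ((i - r) / W) * W := by linarith
  rw [this, h.mul, h'.mul]
  exact e _ (by omega) (by omega)

theorem fw_right {β β' : ℤ → ℕ} {W W' : ℕ} (hW : 0 < W) (hW' : 0 < W') (h : PerF β W)
    (h' : PerF β' W') {L R : ℤ} (e : ∀ i, L ≤ i → i < R → β i = β' i) (ne : β R ≠ β' R) :
    R - L < W + W' := by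
  by_contra hc
  apply ne
  have a1 := h (R - W)
  have a2 := h' (R - W - W')
  have a3 := h (R - W - W')
  have a4 := h' (R - W')
  have b1 := e (R - W) (by omega) (by omega)
  have b2 := e (R - W - W') (by omega) (by omega)
  have b3 := e (R - W') (by omega) (by omega)
  rw [show R - W + W = R by ring] at a1
  rw [show R - W - W' + W' = R - W by ring] at a2
  rw [show R - W - W' + W = R - W' by ring] at a3
  rw [show R - W' + W' = R by ring] at a4
  omega

theorem fw_left {β β' : ℤ → ℕ} {W W' : ℕ} (hW : 0 < W) (hW' : 0 < W') (h : PerF β W)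
    (h' : PerF β' W') {L R : ℤ} (e : ∀ i, L ≤ i → i < R → β i = β' i)
    (ne : β (L - 1) ≠ β' (L - 1)) : R - L < W + W' := by
  by_contra hc
  apply ne
  have a1 := h (L - 1)
  have a2 := h' (L - 1 + W)
  have a3 := h (L - 1 + W')
  have a4 := h' (L - 1)
  have b1 := e (L - 1 + W) (by omega) (by omega)
  have b2 := e (L - 1 + W + W') (by omega) (by omega)
  have b3 := e (L - 1 + W') (by omega) (by omega)
  rw [show L - 1 + W' + W = L - 1 + W + W' by ring] at a3
  omega

/-- the maximal common run of two different periodic planes around an interval of agreement -/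
theorem exists_run {α β : ℤ → ℕ} {W W' : ℕ} (hW : 0 < W) (hW' : 0 < W') (h : PerF α W)
    (h' : PerF β W') (ne : α ≠ β) {r j : ℤ} (hrj : r ≤ j) (e : ∀ i, r ≤ i → i < j → α i = β i) :
    ∃ L R, L ≤ r ∧ j ≤ R ∧ (∀ i, L ≤ i → i < R → α i = β i) ∧ α (L - 1) ≠ β (L - 1) ∧
      α R ≠ β R := by
  obtain ⟨i0, hi0⟩ := Function.ne_iff.1 ne
  have sh : ∀ k : ℤ, α (i0 + k * W * W') ≠ β (i0 + k * W * W') := by
    intro k
    have e1 := h.mul (k * W') i0
    have e2 := h'.mul (k * W) i0
    rw [show i0 + k * W' * W = i0 + k * W * W' by ring] at e1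
    rwa [e1, e2]
  have hP : (1 : ℤ) ≤ W * W' := by
    have : 1 ≤ W * W' := Nat.mul_pos hW hW'
    exact_mod_cast this
  obtain ⟨R, hR, hRm⟩ := Int.exists_least_of_bdd (P := fun i => j ≤ i ∧ α i ≠ β i)
    ⟨j, fun z hz => hz.1⟩ ⟨i0 + |j - i0| * W * W', by
      have := le_abs_self (j - i0); have := abs_nonneg (j - i0); nlinarith, sh _⟩
  obtain ⟨L, hL, hLm⟩ := Int.exists_greatest_of_bdd (P := fun i => i < r ∧ α i ≠ β i)
    ⟨r, fun z hz => hz.1.le⟩ ⟨i0 + (-(|r - i0| + 1)) * W * W', by
      have := neg_abs_le (r - i0); have := abs_nonneg (r - i0); nlinarith, sh _⟩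
  refine ⟨L + 1, R, by omega, hR.1, fun i h1 h2 => ?_, by simpa using hL.2, hR.2⟩
  by_contra hc
  by_cases h3 : i < r
  · have := hLm i ⟨h3, hc⟩; omega
  · by_cases h4 : i < j
    · exact hc (e i (by omega) h4)
    · have := hRm i ⟨by omega, hc⟩; omega

/-- `y` follows `x` after appending at most `c` letters -/
def Stp (x y : Str) (c : ℕ) : Prop := ∃ p o q : Str, x = p ++ o ∧ y = o ++ q ∧ q.length ≤ c

theorem Stp.mono {x y : Str} {c c' : ℕ} (h : Stp x y c) (hc : c ≤ c') : Stp x y c' := by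
  obtain ⟨p, o, q, h1, h2, h3⟩ := h; exact ⟨p, o, q, h1, h2, h3.trans hc⟩

theorem Stp.trans {x y z : Str} {c c' : ℕ} (h : Stp x y c) (h' : Stp y z c') : Stp x z (c + c') := by
  obtain ⟨p, o, q, rfl, rfl, h3⟩ := h
  obtain ⟨p', o', q', h1, rfl, h3'⟩ := h'
  rcases List.append_eq_append_iff.1 h1 with ⟨m, rfl, rfl⟩ | ⟨m, rfl, rfl⟩
  · exact ⟨p ++ o, [], o' ++ q', by simp, by simp, by simp at h3 ⊢; omega⟩
  · exact ⟨p ++ p', m, q ++ q', by simp, by simp, by simp; omega⟩

theorem stp_cell (β : ℤ → ℕ) {a b r j : ℤ} (h1 : a ≤ r) (h2 : b ≤ j) (h3 : a ≤ b) (h4 : r ≤ j) :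
    Stp (cl β a b) (cl β r j) (j - b).toNat := by
  by_cases h : r ≤ b
  · exact ⟨cl β a r, cl β r b, cl β b j, (cl_append β h1 h).symm, (cl_append β h h2).symm, by simp⟩
  · exact ⟨cl β a b, [], cl β r j, by simp, by simp, by simp; omega⟩

theorem stp_nil_right (x : Str) : Stp x [] 0 := ⟨x, [], [], by simp, by simp, by simp⟩
theorem stp_nil_left (x : Str) : Stp [] x x.length := ⟨[], [], x, by simp, by simp, by simp⟩

/-- descent from `v` to `u` by deleting end letters, never entering a wall -/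
inductive Rch (Uw Dw : Str → Prop) (u : Str) : Str → Prop
  | base : Rch Uw Dw u u
  | left (v : Str) : 2 ≤ v.length → ¬ Dw v.dropLast → Rch Uw Dw u v.dropLast → Rch Uw Dw u v
  | down (v : Str) : 2 ≤ v.length → ¬ Uw v.tail → Rch Uw Dw u v.tail → Rch Uw Dw u v

theorem Rch.mono {Uw Dw Uw' Dw' : Str → Prop} (hU : ∀ v, Uw' v → Uw v) (hD : ∀ v, Dw' v → Dw v)
    {u v : Str} (h : Rch Uw Dw u v) : Rch Uw' Dw' u v := by
  induction h with
  | base => exact .base
  | left v h1 h2 _ ih => exact .left v h1 (fun h => h2 (hD _ h)) ih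
  | down v h1 h2 _ ih => exact .down v h1 (fun h => h2 (hU _ h)) ih

theorem Rch.trans {Uw Dw : Str → Prop} {u v w : Str} (h : Rch Uw Dw u v) (h' : Rch Uw Dw v w) :
    Rch Uw Dw u w := by
  induction h' with
  | base => exact h
  | left v h1 h2 _ ih => exact .left v h1 h2 ih
  | down v h1 h2 _ ih => exact .down v h1 h2 ih

theorem Rch.infix {Uw Dw : Str → Prop} {u v : Str} (h : Rch Uw Dw u v) : u <:+: v := by
  induction h with
  | base => exact List.infix_refl _
  | left v _ _ _ ih => exact ih.trans (List.dropLast_prefix v).isInfix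
  | down v _ _ _ ih => exact ih.trans (List.tail_suffix v).isInfix

theorem Rch.cleft {Uw Dw : Str → Prop} {u : Str} {β : ℤ → ℕ} {r j : ℤ} (h : r < j)
    (h1 : ¬ Dw (cl β r j)) (h2 : Rch Uw Dw u (cl β r j)) : Rch Uw Dw u (cl β r (j + 1)) := by
  refine .left _ (by simp; omega) ?_ ?_ <;> rwa [cl_dropLast β h.le]

theorem Rch.cdown {Uw Dw : Str → Prop} {u : Str} {β : ℤ → ℕ} {r j : ℤ} (h : r < j)
    (h1 : ¬ Uw (cl β r j)) (h2 : Rch Uw Dw u (cl β r j)) : Rch Uw Dw u (cl β (r - 1) j) := by
  refine .down _ (by simp; omega) ?_ ?_ <;> rwa [cl_tail, sub_add_cancel]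

/-- a wall-free stretch of a row -/
theorem Rch.row {Uw Dw : Str → Prop} {u : Str} {β : ℤ → ℕ} {r j j' : ℤ} (h : r < j) (hj : j ≤ j')
    (h1 : ∀ i, j ≤ i → i < j' → ¬ Dw (cl β r i)) (h2 : Rch Uw Dw u (cl β r j)) :
    Rch Uw Dw u (cl β r j') := by
  induction j', hj using Int.le_induction with
  | base => exact h2
  | succ n hn ih => exact Rch.cleft (by omega) (h1 n hn (by omega)) (ih (fun i a b => h1 i a (by omega)))

/-- a wall-free stretch of a column -/
theorem Rch.col {Uw Dw : Str → Prop} {u : Str} {β : ℤ → ℕ} {r r' j : ℤ} (h : r < j) (hr : r' ≤ r)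
    (h1 : ∀ i, r' < i → i ≤ r → ¬ Uw (cl β i j)) (h2 : Rch Uw Dw u (cl β r j)) :
    Rch Uw Dw u (cl β r' j) := by
  induction r', hr using Int.le_induction_down with
  | base => exact h2
  | pred n hn ih => exact Rch.cdown (by omega) (h1 n (by omega) hn) (ih (fun i a b => h1 i (by omega) b))

/-- the string has period `W` -/
def Per (t : Str) (W : ℕ) : Prop := t.drop W = t.take (t.length - W)

instance (t : Str) (W : ℕ) : Decidable (Per t W) := by unfold Per; infer_instance

theorem per_cl {β : ℤ → ℕ} {W : ℕ} (h : PerF β W) (r j : ℤ) : Per (cl β r j) W := by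
  unfold Per
  apply List.ext_getElem
  · simp
  · intro n h1 h2
    simp only [cl, List.getElem_drop, List.getElem_take, List.getElem_map, List.getElem_range]
    rw [← h (r + n)]; congr 1; push_cast; ring

theorem Per.get {t : Str} {W : ℕ} (h : Per t W) {i : ℕ} (hi : i + W < t.length) :
    t.getD (i + W) 0 = t.getD i 0 := by
  have := congrArg (fun l => l.getD i 0) h
  simp only [List.getD_eq_getElem?_getD, List.getElem?_drop, List.getElem?_take] at this ⊢
  rw [if_pos (by omega), add_comm W i] at this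
  exact this

/-- a periodic string containing a long cell of a periodic plane is a cell of that plane -/
theorem Per.cell {t : Str} {W : ℕ} (hW : 0 < W) (h : Per t W) {β : ℤ → ℕ} (hβ : PerF β W)
    {r j : ℤ} (hl : r + W ≤ j) (hi : cl β r j <:+: t) :
    ∃ r' j', r' ≤ r ∧ j ≤ j' ∧ t = cl β r' j' := by
  obtain ⟨p, q, hpq⟩ := hi
  have hlen : t.length = p.length + (j - r).toNat + q.length := by rw [← hpq]; simp; omega
  let γ : ℤ → ℕ := fun i => t.getD (i - (r - p.length)).toNat 0
  have ht : t = cl γ (r - p.length) (j + q.length) := by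
    apply List.ext_getElem
    · simp; omega
    · intro n h1 h2
      simp [cl, γ, List.getD_eq_getElem?_getD, List.getElem?_eq_getElem h1]
  have hag : ∀ i, r ≤ i → i < j → γ i = β i := by
    intro i h1 h2
    simp only [γ]
    rw [← hpq, List.getD_eq_getElem?_getD, List.append_assoc, List.getElem?_append_right (by omega),
      List.getElem?_append_left (by simp; omega)]
    simp only [cl, List.getElem?_map]
    rw [List.getElem?_range (by omega)]
    simp only [Option.map_some, Option.getD_some]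
    congr 1; omega
  have hper : ∀ i, r - p.length ≤ i → i + W < j + q.length → γ (i + W) = γ i := by
    intro i h1 h2
    simp only [γ]
    rw [show (i + W - (r - p.length)).toNat = (i - (r - p.length)).toNat + W by omega]
    exact h.get (by omega)
  have up : ∀ n : ℕ, ∀ i, r ≤ i → i ≤ r + n → i < j + q.length → γ i = β i := by
    intro n
    induction n with
    | zero => intro i h1 h2 h3; exact hag i h1 (by omega)
    | succ n ih =>
      intro i h1 h2 h3
      by_cases h4 : i < j
      · exact hag i h1 h4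
      · have e1 := hper (i - W) (by omega) (by omega)
        have e2 := hβ (i - W)
        rw [sub_add_cancel] at e1 e2
        rw [e1, e2]; exact ih _ (by omega) (by push_cast at h2; omega) (by omega)
  have dn : ∀ n : ℕ, ∀ i, r - n ≤ i → i < j → r - p.length ≤ i → γ i = β i := by
    intro n
    induction n with
    | zero => intro i h1 h2 h3; exact hag i (by omega) h2
    | succ n ih =>
      intro i h1 h2 h3
      by_cases h4 : r ≤ i
      · exact hag i h4 h2
      · rw [← hper i h3 (by omega), ← hβ i]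
        exact ih _ (by push_cast at h1; omega) (by omega) (by omega)
  refine ⟨r - p.length, j + q.length, by omega, by omega, ht.trans (cl_agree fun i h1 h2 => ?_)⟩
  by_cases h4 : r ≤ i
  · exact up (i - r).toNat i h4 (by omega) h2
  · exact dn (r - i).toNat i (by omega) (by omega) h1

/-! staircase functions -/

def Stair (f : ℤ → ℤ) : Prop := ∀ τ, f τ ≤ f (τ + 1) ∧ f (τ + 1) ≤ f τ + 1

theorem Stair.mono {f : ℤ → ℤ} (h : Stair f) {σ τ : ℤ} (hst : σ ≤ τ) :
    f σ ≤ f τ ∧ f τ - f σ ≤ τ - σ := by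
  induction τ, hst using Int.le_induction with
  | base => simp
  | succ n hn ih => have := h n; omega

theorem Stair.ivt {f : ℤ → ℤ} (h : Stair f) {σ τ r : ℤ} (hst : σ ≤ τ) (h1 : f σ ≤ r)
    (h2 : r ≤ f τ) : ∃ ρ, σ ≤ ρ ∧ ρ ≤ τ ∧ f ρ = r := by
  induction τ, hst using Int.le_induction with
  | base => exact ⟨σ, le_rfl, le_rfl, by omega⟩
  | succ n hn ih =>
    by_cases h3 : r ≤ f n
    · obtain ⟨ρ, a, b, c⟩ := ih h3; exact ⟨ρ, a, by omega, c⟩
    · have := h n; exact ⟨n + 1, by omega, le_rfl, by omega⟩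

theorem Stair.sign {f g : ℤ → ℤ} (hf : Stair f) (hg : Stair g) (ne : ∀ τ, f τ ≠ g τ) {τ0 : ℤ}
    (h0 : f τ0 < g τ0) (τ : ℤ) : f τ < g τ := by
  rcases le_total τ0 τ with h | h
  · induction τ, h using Int.le_induction with
    | base => exact h0
    | succ n hn ih => have := hf n; have := hg n; have := ne (n + 1); omega
  · induction τ, h using Int.le_induction_down with
    | base => exact h0
    | pred n hn ih =>
      have a := hf (n - 1); have b := hg (n - 1); have := ne (n - 1)
      rw [sub_add_cancel] at a b; omega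

end Crest.Agent.H3.SCS
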