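import Crest.Agent.H3.SCSAlg

set_option autoImplicit false
set_option linter.unusedVariables false
set_option linter.deprecated false

/-! Shortest common superstring: the linking phase and the approximation guarantee. -/

namespace Crest.Agent.H3.SCS

abbrev FS := List Arc × List (List Arc)

def c1 (s : FS) : List (Str × Str) :=
  (verts s.2.flatten).flatMap (fun y => (([] :: verts s.1).filter
    (fun g => decide (dist y g + dist g y ≤ (ups (pick s.2 y)).length))).map (fun g => (y, g)))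

def c2 (s : FS) : List (Str × Str × Str) :=
  (verts s.2.flatten).flatMap (fun p => (verts (rem s.2 p).flatten).flatMap (fun q =>
    (([] :: verts s.1).filter (fun t => decide (dist p t + dist t q + dist q p ≤
      (ups (pick s.2 p)).length + (ups (pick s.2 q)).length))).map (fun t => (p, q, t))))

def link1 (s : FS) (c : Str × Str) : FS :=
  (splice s.1 c.2 (pth c.2 c.1 ++ rot (pick s.2 c.1) c.1 ++ pth c.1 c.2), rem s.2 c.1)

def link2 (s : FS) (c : Str × Str × Str) : FS :=
  (splice s.1 c.2.2 (pth c.2.2 c.2.1 ++ rot (pick s.2 c.2.1) c.2.1 ++ pth c.2.1 c.1 ++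
    rot (pick s.2 c.1) c.1 ++ pth c.1 c.2.2), rem (rem s.2 c.1) c.2.1)

def fstep (s : FS) : FS :=
  cond (c1 s).isEmpty (cond (c2 s).isEmpty s (link2 s ((c2 s).headD ([], [], []))))
    (link1 s ((c1 s).headD ([], [])))

structure FI (S : List Str) (ws : List (List Arc)) (s : FS) : Prop where
  path : Path [] [] s.1
  sub : s.2.Sublist ws
  cov : ∀ K ∈ ws, K ∈ s.2 ∨ ∀ v ∈ verts K, v ∈ verts s.1
  bud : (ups s.1).length + 2 * (ups s.2.flatten).length ≤ 2 * (ups ws.flatten).length
  val : ∀ a ∈ s.1, Val S a.1 ∧ Val S a.2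

theorem mem_c1 {s : FS} {c : Str × Str} : c ∈ c1 s ↔ c.1 ∈ verts s.2.flatten ∧
    (c.2 = [] ∨ c.2 ∈ verts s.1) ∧ dist c.1 c.2 + dist c.2 c.1 ≤ (ups (pick s.2 c.1)).length := by
  obtain ⟨y, g⟩ := c
  simp only [c1, List.mem_flatMap, List.mem_map, List.mem_filter, List.mem_cons, decide_eq_true_eq,
    Prod.mk.injEq]
  constructor
  · rintro ⟨a, h1, b, ⟨h2, h3⟩, rfl, rfl⟩; exact ⟨h1, h2, h3⟩
  · rintro ⟨h1, h2, h3⟩; exact ⟨y, h1, g, ⟨h2, h3⟩, rfl, rfl⟩

theorem mem_c2 {s : FS} {c : Str × Str × Str} : c ∈ c2 s ↔ c.1 ∈ verts s.2.flatten ∧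
    c.2.1 ∈ verts (rem s.2 c.1).flatten ∧ (c.2.2 = [] ∨ c.2.2 ∈ verts s.1) ∧
    dist c.1 c.2.2 + dist c.2.2 c.2.1 + dist c.2.1 c.1 ≤
      (ups (pick s.2 c.1)).length + (ups (pick s.2 c.2.1)).length := by
  obtain ⟨p, q, t⟩ := c
  simp only [c2, List.mem_flatMap, List.mem_map, List.mem_filter, List.mem_cons, decide_eq_true_eq,
    Prod.mk.injEq]
  constructor
  · rintro ⟨a, h1, b, h0, c, ⟨h2, h3⟩, rfl, rfl, rfl⟩; exact ⟨h1, h0, h2, h3⟩
  · rintro ⟨h1, h0, h2, h3⟩; exact ⟨p, h1, q, h0, t, ⟨h2, h3⟩, rfl, rfl, rfl⟩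

theorem rem_lt {ws : List (List Arc)} {y : Str} (h : y ∈ verts ws.flatten) :
    (rem ws y).length < ws.length := by
  obtain ⟨K, h1, h2⟩ := mem_verts_flatten.1 h
  exact List.length_filter_lt_length_iff_exists.2 ⟨K, h1, by simpa using h2⟩

theorem ups_pick_rem (ws : List (List Arc)) (y : Str) :
    (ups (pick ws y)).length + (ups (rem ws y).flatten).length = (ups ws.flatten).length := by
  rw [← (ups_perm (pick_rem_perm ws y)).length_eq, ups_append, List.length_append]

theorem val_pth {S : List Str} {x y : Str} (hx : Val S x) (hy : Val S y) :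
    ∀ a ∈ pth x y, Val S a.1 ∧ Val S a.2 := by
  intro a ha
  rcases mem_pth ha with h | h
  · exact ⟨hx.inf h.1, hx.inf h.2⟩
  · exact ⟨hy.inf h.1, hy.inf h.2⟩

theorem fstep_spec {S : List Str} {ws : List (List Arc)} (hM : MI S ws) {s : FS} (h : FI S ws s) :
    FI S ws (fstep s) ∧ ((c1 s = [] ∧ c2 s = [] ∧ fstep s = s) ∨ (fstep s).2.length < s.2.length) := by
  have hI := hM.1.sub h.sub
  have vK : ∀ K ∈ s.2, ∀ a ∈ K, Val S a.1 ∧ Val S a.2 := fun K hK a ha =>
    hM.val (List.mem_flatten.2 ⟨K, h.sub.subset hK, ha⟩)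
  have vV : ∀ K ∈ s.2, ∀ v ∈ verts K, Val S v := fun K hK v hv => by
    obtain ⟨a, h1, rfl⟩ := List.mem_map.1 hv; exact (vK K hK a h1).1
  have vG : ∀ g, g = [] ∨ g ∈ verts s.1 → Val S g := by
    rintro g (rfl | hg)
    · exact Or.inl rfl
    · obtain ⟨a, h1, rfl⟩ := List.mem_map.1 hg; exact (h.val a h1).1
  unfold fstep
  cases e1 : c1 s with
  | cons c L =>
    simp only [List.isEmpty_cons, cond_false, List.headD_cons]
    obtain ⟨a1, a2, a3⟩ := mem_c1.1 (show c ∈ c1 s by simp [e1])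
    obtain ⟨y, g⟩ := c
    simp only at a1 a2 a3
    obtain ⟨K, K1, K2⟩ := mem_verts_flatten.1 a1
    have pk := hI.pick_eq K1 K2
    obtain ⟨x, hx⟩ := (hI.1 K K1).2
    have pm : (link1 s (y, g)).1.Perm (s.1 ++ (pth g y ++ K ++ pth y g)) := by
      refine (splice_perm _ _ _).trans (List.Perm.append_left _ ?_)
      simp only [pk]
      exact ((rot_perm _ _).append_left _).append_right _
    refine ⟨⟨?_, List.filter_sublist.trans h.sub, fun K' hK' => ?_, ?_, fun a ha => ?_⟩,
      Or.inr (rem_lt a1)⟩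
    · refine h.path.splice a2.symm ?_
      simp only [pk]
      exact ((path_pth _ _).1.append (hx.rot K2)).append (path_pth _ _).1
    · simp only [(verts_perm pm).mem_iff, verts_append, List.mem_append]
      rcases h.cov K' hK' with h1 | h1
      · by_cases h2 : y ∈ verts K'
        · obtain rfl := hI.eq K1 h1 K2 h2
          exact Or.inr (fun v hv => Or.inr (Or.inl (Or.inr hv)))
        · exact Or.inl (List.mem_filter.2 ⟨h1, by simpa using h2⟩)
      · exact Or.inr (fun v hv => Or.inl (h1 v hv))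
    · rw [(ups_perm pm).length_eq]
      have b1 := ups_pick_rem s.2 y
      have b2 := (path_pth g y).2
      have b3 := (path_pth y g).2
      have b4 := h.bud
      rw [pk] at b1 a3
      simp only [ups_append, List.length_append, link1]
      omega
    · simp only [pm.mem_iff, List.mem_append] at ha
      rcases ha with ha | (ha | ha) | ha
      · exact h.val a ha
      · exact val_pth (vG g a2) (vV K K1 y K2) a ha
      · exact vK K K1 a ha
      · exact val_pth (vV K K1 y K2) (vG g a2) a ha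
  | nil =>
  cases e2 : c2 s with
  | nil => exact ⟨h, Or.inl ⟨rfl, rfl, rfl⟩⟩
  | cons c L =>
    simp only [List.isEmpty_cons, List.isEmpty_nil, cond_false, cond_true, List.headD_cons]
    obtain ⟨a1, a0, a2, a3⟩ := mem_c2.1 (show c ∈ c2 s by simp [e2])
    obtain ⟨p, q, t⟩ := c
    simp only at a1 a0 a2 a3
    obtain ⟨K, K1, K2⟩ := mem_verts_flatten.1 a1
    obtain ⟨K', K1', K2'⟩ := mem_verts_flatten.1 a0
    have K3' : K' ∈ s.2 := List.mem_of_mem_filter K1'
    have pk := hI.pick_eq K1 K2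
    have pk' := hI.pick_eq K3' K2'
    have pk'' := (hI.sub (List.filter_sublist (p := fun K => !decide (p ∈ verts K)))).pick_eq K1' K2'
    obtain ⟨x, hx⟩ := (hI.1 K K1).2
    obtain ⟨x', hx'⟩ := (hI.1 K' K3').2
    have pm : (link2 s (p, q, t)).1.Perm (s.1 ++ (pth t q ++ K' ++ pth q p ++ K ++ pth p t)) := by
      refine (splice_perm _ _ _).trans (List.Perm.append_left _ ?_)
      simp only [pk, pk']
      exact ((((rot_perm _ _).append_left _).append_right _).append (rot_perm _ _)).append_right _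
    refine ⟨⟨?_, (List.filter_sublist.trans List.filter_sublist).trans h.sub, fun J hJ => ?_, ?_,
      fun a ha => ?_⟩, Or.inr ((rem_lt a0).trans (rem_lt a1))⟩
    · refine h.path.splice a2.symm ?_
      simp only [pk, pk']
      exact ((((path_pth _ _).1.append (hx'.rot K2')).append (path_pth _ _).1).append
        (hx.rot K2)).append (path_pth _ _).1
    · simp only [(verts_perm pm).mem_iff, verts_append, List.mem_append]
      rcases h.cov J hJ with h1 | h1
      · by_cases h2 : p ∈ verts J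
        · obtain rfl := hI.eq K1 h1 K2 h2
          exact Or.inr (fun v hv => Or.inr (Or.inl (Or.inr hv)))
        by_cases h3 : q ∈ verts J
        · obtain rfl := hI.eq K3' h1 K2' h3
          exact Or.inr (fun v hv => Or.inr (Or.inl (Or.inl (Or.inl (Or.inr hv)))))
        · exact Or.inl (List.mem_filter.2 ⟨List.mem_filter.2 ⟨h1, by simpa using h2⟩,
            by simpa using h3⟩)
      · exact Or.inr (fun v hv => Or.inl (h1 v hv))
    · rw [(ups_perm pm).length_eq]
      have b1 := ups_pick_rem s.2 p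
      have b0 := ups_pick_rem (rem s.2 p) q
      have b2 := (path_pth t q).2
      have b3 := (path_pth q p).2
      have b5 := (path_pth p t).2
      have b4 := h.bud
      rw [pk] at b1 a3
      rw [pk'] at a3
      rw [show pick (rem s.2 p) q = K' from pk''] at b0
      simp only [ups_append, List.length_append, link2]
      omega
    · simp only [pm.mem_iff, List.mem_append] at ha
      rcases ha with ha | (((ha | ha) | ha) | ha) | ha
      · exact h.val a ha
      · exact val_pth (vG t a2) (vV K' K3' q K2') a ha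
      · exact vK K' K3' a ha
      · exact val_pth (vV K' K3' q K2') (vV K K1 p K2) a ha
      · exact vK K K1 a ha
      · exact val_pth (vV K K1 p K2) (vG t a2) a ha

theorem fi_iter {S : List Str} {ws : List (List Arc)} (hM : MI S ws) (k : ℕ) :
    FI S ws (fstep^[k] ([], ws)) ∧ ((c1 (fstep^[k] ([], ws)) = [] ∧ c2 (fstep^[k] ([], ws)) = []) ∨
      (fstep^[k] ([], ws)).2.length + k ≤ ws.length) := by
  induction k with
  | zero => exact ⟨⟨.nil _, List.Sublist.refl _, fun K hK => Or.inl hK, by simp, by simp⟩,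
      Or.inr (by simp)⟩
  | succ k ih =>
    rw [Function.iterate_succ_apply']
    obtain ⟨h1, h2⟩ := fstep_spec hM ih.1
    refine ⟨h1, ?_⟩
    rcases h2 with h2 | h2
    · rw [h2.2.2]; exact Or.inl ⟨h2.1, h2.2.1⟩
    · rcases ih.2 with h3 | h3
      · have : fstep (fstep^[k] ([], ws)) = fstep^[k] ([], ws) := by rw [fstep, h3.1, h3.2]; rfl
        rw [this]; exact Or.inl h3
      · right; omega

theorem stuck_cover {S : List Str} {ws : List (List Arc)} (hM : MI S ws) (hc : cands S ws = [])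
    {s : FS} (h : FI S ws s) (h1 : c1 s = []) (h2 : c2 s = []) {m : Str} (hm : Mx S m) :
    m ∈ verts s.1 := by
  have hI := hM.1.sub h.sub
  have nc : ∀ w, Val S w → Rais (· ∈ ups ws.flatten) (· ∈ dns ws.flatten) w →
      cand1 S ws w = true ∨ cand2 S ws w = true → False := by
    intro w a b c
    have : w ∈ cands S ws := by
      simp only [cands, List.mem_filter, Bool.and_eq_true, Bool.or_eq_true]
      exact ⟨mem_cells.2 ⟨b.1, a⟩, by simpa [rais] using b.2, c⟩
    simp [hc] at this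
  have vm : Val S m := Or.inr ⟨m, hm.1, List.infix_refl _⟩
  have vV : ∀ K ∈ ws, ∀ v ∈ verts K, Val S v := fun K hK v hv => by
    obtain ⟨a, h1, rfl⟩ := List.mem_map.1 hv
    exact (hM.val (List.mem_flatten.2 ⟨K, hK, h1⟩)).1
  have hU : m ∈ ups ws.flatten := by
    by_contra hU
    obtain ⟨w, w1, w2⟩ := desc (· ∈ ups ws.flatten) (· ∈ dns ws.flatten) m hm.2.1
    refine nc w (vm.inf w2.infix) w1 (Or.inl ?_)
    simp only [cand1, List.any_eq_true, Bool.and_eq_true, Bool.not_eq_eq_eq_not, Bool.not_true,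
      decide_eq_false_iff_not, decide_eq_true_eq, mem_maxs]
    exact ⟨m, hm, hU, reach_complete w1.1 (cells_closed S) (mem_cells.2 ⟨hm.2.1, vm⟩) vm.len w2⟩
  obtain ⟨K0, k1, k2, -⟩ := hM.1.of_ups hU
  rcases h.cov K0 k1 with k3 | k3
  swap
  · exact k3 m k2
  exfalso
  let C : Cfg {K // K ∈ s.2} :=
    { V := fun K v => v ∈ verts K.1
      W := fun K => (ups K.1).length
      G := fun v => v = [] ∨ ∃ K ∈ ws, K ∉ s.2 ∧ v ∈ verts K
      Uw := fun v => v ∈ ups ws.flatten
      Dw := fun v => v ∈ dns ws.flatten }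
  have gG : ∀ g, C.G g → g = [] ∨ g ∈ verts s.1 := by
    rintro g (rfl | ⟨K, a, b, c⟩)
    · exact Or.inl rfl
    · exact Or.inr ((h.cov K a).resolve_left b g c)
  have r1 : ∀ K y g a b, C.V K y → C.G g → Stp y g a → Stp g y b → C.W K < a + b := by
    intro K y g a b v1 v2 s1 s2
    by_contra hlt
    have : (y, g) ∈ c1 s := by
      refine mem_c1.2 ⟨mem_verts_flatten.2 ⟨K.1, K.2, v1⟩, gG g v2, ?_⟩
      rw [hI.pick_eq K.2 v1]
      have := dist_le s1; have := dist_le s2
      simp only [C] at hlt ⊢; omega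
    simp [h1] at this
  have H : Good C := by
    refine ⟨fun K => ?_, fun K => ups_ne_nil (hI.1 _ K.2).1 (hI.1 _ K.2).2, Or.inl rfl,
      fun K K' v a b => Subtype.ext (hI.eq K.2 K'.2 a b), fun K v a b => ?_, fun v hv => ?_,
      fun v hv => ?_, r1, fun K K' p q t a b c ne v1 v2 v3 s1 s2 s3 => ?_⟩
    · obtain ⟨x, hx⟩ := (hI.1 _ K.2).2
      exact isSt_of_closed C K hx (hI.1 _ K.2).1 rfl (fun _ => Iff.rfl)
        (fun v hv => mem_ups_flatten (h.sub.subset K.2) hv)
        (fun v hv => mem_dns_flatten (h.sub.subset K.2) hv)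
    · rcases b with rfl | ⟨K', b1, b2, b3⟩
      · have := r1 K [] [] 0 0 a (Or.inl rfl) (stp_nil_right _) (stp_nil_right _); omega
      · exact b2 (hM.1.eq (h.sub.subset K.2) b1 a b3 ▸ K.2)
    · obtain ⟨K, a, b, c⟩ := hM.1.of_ups hv
      by_cases e : K ∈ s.2
      · exact Or.inr ⟨⟨K, e⟩, b, c⟩
      · exact Or.inl ⟨Or.inr ⟨K, a, e, b⟩, Or.inr ⟨K, a, e, c⟩⟩
    · obtain ⟨K, a, b, c⟩ := hM.1.of_dns hv
      by_cases e : K ∈ s.2
      · exact Or.inr ⟨⟨K, e⟩, b, c⟩
      · exact Or.inl ⟨Or.inr ⟨K, a, e, b⟩, Or.inr ⟨K, a, e, c⟩⟩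
    · by_contra hlt
      have : (p, q, t) ∈ c2 s := by
        refine mem_c2.2 ⟨mem_verts_flatten.2 ⟨K.1, K.2, v1⟩, mem_verts_flatten.2 ⟨K'.1,
          List.mem_filter.2 ⟨K'.2, ?_⟩, v2⟩, gG t v3, ?_⟩
        · simpa using fun hp => ne (Subtype.ext (hI.eq K.2 K'.2 v1 hp))
        · rw [hI.pick_eq K.2 v1, hI.pick_eq K'.2 v2]
          have := dist_le s1; have := dist_le s2; have := dist_le s3
          simp only [C] at hlt ⊢; omega
      simp [h2] at this
  obtain ⟨M, u, u1, u2, u3⟩ := H.geo (K0 := ⟨K0, k3⟩) (s := m) k2 (by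
    rintro t (rfl | ⟨K, a, b, c⟩) hi
    · simp
    · rcases vV K a t c with rfl | ⟨s', b1, b2⟩
      · simp
      · exact b2.length_le.trans (hm.2.2 s' b1 (hi.trans b2)))
  have hab : ∀ t, ab M.1 t = true ↔ Ab C M t := fun t => by
    rw [ab_iff]; exact Iff.rfl
  have abM : ∀ v ∈ verts M.1, Ab C M v := by
    intro v hv
    obtain ⟨γ, g0, hg0⟩ := H.st M
    obtain ⟨τ, rfl⟩ := hg0.all v hv
    exact ⟨per_cl hg0.per _ _, _, hv, List.infix_refl _⟩
  obtain ⟨w, w1, w2⟩ := desc (· ∈ ups ws.flatten) (· ∈ dns ws.flatten) u u1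
  obtain ⟨a0, ha0⟩ := List.exists_mem_of_ne_nil _ (hI.1 _ M.2).1
  have vu : Val S u := (vV _ (h.sub.subset M.2) _ (fst_mem ha0)).inf (u3 _ (abM _ (fst_mem ha0))).infix
  refine nc w (vu.inf w2.infix) w1 (Or.inr ?_)
  simp only [cand2, List.any_eq_true, Bool.and_eq_true, List.all_eq_true, decide_eq_true_eq,
    Bool.or_eq_true, Bool.not_eq_eq_eq_not, Bool.not_true]
  refine ⟨M.1, h.sub.subset M.2, ⟨⟨fun v hv => H.len (K := M) hv, fun v hv => (hab v).2 (abM v hv)⟩,
    fun K hK => ?_⟩, fun t ht => ?_⟩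
  · by_cases e : K ∈ s.2
    · by_cases e2 : ∃ v ∈ verts K, ab M.1 v = true
      · obtain ⟨v, v1, v2⟩ := e2
        exact Or.inl (fun v' hv' => (hab v').2 (H.ab_all (K := ⟨K, e⟩) v1 ((hab v).1 v2) hv'))
      · push Not at e2
        exact Or.inr (fun v hv => by simpa using e2 v hv)
    · refine Or.inr (fun v hv => ?_)
      have := u2 v (Or.inr ⟨K, hK, e, hv⟩)
      rw [← hab] at this; simpa using this
  · by_cases e : ab M.1 t = true
    · refine Or.inr (reach_complete w1.1 (cells_closed S) ht (mem_cells.1 ht).2.len ?_)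
      refine (w2.mono (fun x hx => (List.mem_filter.1 hx).1) (fun x hx => (List.mem_filter.1 hx).1)).trans
        ((u3 t ((hab t).1 e)).mono (fun x hx => ?_) (fun x hx => ?_))
      · rw [List.mem_filter] at hx
        exact ⟨hx.1, by rw [← hab]; simpa using hx.2⟩
      · rw [List.mem_filter] at hx
        exact ⟨hx.1, by rw [← hab]; simpa using hx.2⟩
    · exact Or.inl (by simpa using e)

def phase2 (ws : List (List Arc)) : FS := ([] :: ws).foldl (fun s _ => fstep s) ([], ws)

def scs (S : List Str) : Str := letters (phase2 (phase1 S)).1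

theorem scs_spec (S : List Str) : (∀ s ∈ S, s <:+: scs S) ∧
    ∀ T' : Str, (∀ s ∈ S, s <:+: T') → (scs S).length ≤ 2 * T'.length := by
  obtain ⟨hM, hc⟩ := phase1_spec S
  obtain ⟨h1, h2⟩ := fi_iter hM ([] :: phase1 S).length
  have e : phase2 (phase1 S) = fstep^[([] :: phase1 S).length] ([], phase1 S) := by
    rw [phase2, List.foldl_const]
  rw [← e] at h1 h2
  have h3 := h2.resolve_right (by simp; omega)
  refine ⟨fun s hs => ?_, fun T' hT => ?_⟩
  · by_cases e : s = []
    · subst e; exact List.nil_infix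
    · obtain ⟨m, m1, m2⟩ := exists_mx hs e
      exact m2.trans (by simpa [scs] using h1.path.verts_infix (stuck_cover hM hc h1 h3.1 h3.2 m1))
  · have := h1.bud
    have := hM.card hT
    rw [scs, h1.path.letters_len]; omega

end Crest.Agent.H3.SCS
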