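import Crest.Agent.H3.SCSBase

set_option autoImplicit false
set_option linter.unusedVariables false
set_option linter.deprecated false

/-! Shortest common superstring: balanced arc multisets, raising, and the dichotomy lemma. -/

namespace Crest.Agent.H3.SCS
open Multiset

structure Ord (r : Str → Str → Prop) (ext : ℕ → Str → Str) : Prop where
  cases : ∀ v w, r v w ↔ v = w ∨ ∃ d, r (ext d v) w
  ne : ∀ d v, ¬ r (ext d v) v
  uniq : ∀ d d' v w, r (ext d v) w → r (ext d' v) w → d = d'
  mem : ∀ d v w, r (ext d v) w → d ∈ w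
  nn : ∀ d v, ext d v ≠ []

theorem ord_suf : Ord (fun v w => v <:+ w) (fun d v => d :: v) where
  cases v w := by
    constructor
    · rintro ⟨p, rfl⟩
      rcases p.eq_nil_or_concat with rfl | ⟨q, d, rfl⟩
      · simp
      · exact Or.inr ⟨d, q, by simp⟩
    · rintro (rfl | ⟨d, h⟩)
      · exact List.suffix_refl _
      · exact (List.suffix_cons d v).trans h
  ne d v h := by have := h.length_le; simp at this
  uniq d d' v w h h' := by
    have := (List.suffix_of_suffix_length_le h h' (by simp)).eq_of_length (by simp)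
    simpa using this
  mem d v w h := h.subset (by simp)
  nn d v := by simp

theorem ord_pre : Ord (fun v w => v <+: w) (fun d v => v ++ [d]) where
  cases v w := by
    constructor
    · rintro ⟨p, rfl⟩
      rcases p with _ | ⟨d, q⟩
      · simp
      · exact Or.inr ⟨d, q, by simp⟩
    · rintro (rfl | ⟨d, h⟩)
      · exact List.prefix_refl _
      · exact (List.prefix_append v [d]).trans h
  ne d v h := by have := h.length_le; simp at this
  uniq d d' v w h h' := by
    have := (List.prefix_of_prefix_length_le h h' (by simp)).eq_of_length (by simp)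
    simpa using this
  mem d v w h := h.subset (by simp)
  nn d v := by simp

section
variable {r : Str → Str → Prop} [DecidableRel r] {ext : ℕ → Str → Str} (O : Ord r ext)
include O

theorem Ord.split (U : Multiset Str) (A : Finset ℕ) (hA : ∀ w ∈ U, ∀ d ∈ w, d ∈ A) (v : Str) :
    U.countP (r v) = U.count v + ∑ d ∈ A, U.countP (r (ext d v)) := by
  induction U using Multiset.induction_on with
  | empty => simp
  | cons w U ih =>
    have ih' := ih (fun x hx => hA x (mem_cons_of_mem hx))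
    simp only [countP_cons, count_cons, Finset.sum_add_distrib, ih']
    have key : (if r v w then 1 else 0) = (if v = w then 1 else 0) +
        ∑ d ∈ A, (if r (ext d v) w then 1 else 0) := by
      by_cases h : ∃ d, r (ext d v) w
      · obtain ⟨d, hd⟩ := h
        rw [if_pos ((O.cases v w).2 (Or.inr ⟨d, hd⟩)), if_neg (by rintro rfl; exact O.ne _ _ hd),
          Finset.sum_eq_single_of_mem d (hA w (mem_cons_self _ _) d (O.mem _ _ _ hd))
            (fun d' _ hne => if_neg (fun h => hne (O.uniq _ _ _ _ h hd))), if_pos hd]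
      · rw [Finset.sum_eq_zero (fun d _ => if_neg (fun h' => h ⟨d, h'⟩))]
        by_cases e : v = w
        · rw [if_pos e, if_pos ((O.cases v w).2 (Or.inl e))]; rfl
        · rw [if_neg e, if_neg (fun h' => ((O.cases v w).1 h').elim e h)]; rfl
    omega

omit O in
theorem exists_alph (U U' : Multiset Str) : ∃ A : Finset ℕ, (∀ w ∈ U, ∀ d ∈ w, d ∈ A) ∧
    (∀ w ∈ U', ∀ d ∈ w, d ∈ A) :=
  ⟨(U + U').toFinset.biUnion List.toFinset,
    fun w hw d hd => Finset.mem_biUnion.2 ⟨w, by simp [hw], by simpa using hd⟩,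
    fun w hw d hd => Finset.mem_biUnion.2 ⟨w, by simp [hw], by simpa using hd⟩⟩

theorem Ord.f1 {U U' : Multiset Str} (h : ∀ w, w ≠ [] → U.countP (r w) ≤ U'.countP (r w)) {v : Str}
    (h1 : v ∉ U) (h2 : v ∈ U') : U.countP (r v) < U'.countP (r v) := by
  obtain ⟨A, a1, a2⟩ := exists_alph U U'
  rw [O.split U A a1, O.split U' A a2, count_eq_zero_of_notMem h1]
  have := Finset.sum_le_sum (s := A) (fun d _ => h _ (O.nn d v))
  have := count_pos.2 h2
  omega

theorem Ord.f2 {U U' : Multiset Str} (h : ∀ w, w ≠ [] → U.countP (r w) ≤ U'.countP (r w)) {s : Str}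
    {d : ℕ} (h1 : s ∉ U) (h2 : U.countP (r (ext d s)) < U'.countP (r (ext d s))) :
    U.countP (r s) < U'.countP (r s) := by
  obtain ⟨A, a1, a2⟩ := exists_alph U U'
  rw [O.split U A a1, O.split U' A a2, count_eq_zero_of_notMem h1]
  have hd : d ∈ A := by
    obtain ⟨w, w1, w2⟩ := countP_pos.1 (Nat.zero_lt_of_lt h2)
    exact a2 w w1 d (O.mem _ _ _ w2)
  have := Finset.sum_lt_sum (s := A) (fun d _ => h _ (O.nn d s)) ⟨d, hd, h2⟩
  omega

theorem Ord.f3 {U U' : Multiset Str} (h : ∀ w, w ≠ [] → U.countP (r w) = U'.countP (r w)) {v : Str}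
    (hv : v ≠ []) : U.count v = U'.count v := by
  obtain ⟨A, a1, a2⟩ := exists_alph U U'
  have h1 := h v hv
  rw [O.split U A a1, O.split U' A a2,
    Finset.sum_congr rfl (fun d _ => h _ (O.nn d v))] at h1
  omega

end

def nU (U : Multiset Str) (v : Str) : ℕ := U.countP (fun w => v <:+ w)
def nD (D : Multiset Str) (v : Str) : ℕ := D.countP (fun w => v <+: w)
def Bal (U D : Multiset Str) : Prop := ∀ v, v ≠ [] → nU U v = nD D v
def NLe (U U' : Multiset Str) : Prop := ∀ v, v ≠ [] → nU U v ≤ nU U' v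

theorem nU_add (U U' : Multiset Str) (v : Str) : nU (U + U') v = nU U v + nU U' v := countP_add _ _ _
theorem nD_add (U U' : Multiset Str) (v : Str) : nD (U + U') v = nD U v + nD U' v := countP_add _ _ _

theorem Bal.add {U D U' D' : Multiset Str} (h : Bal U D) (h' : Bal U' D') : Bal (U + U') (D + D') :=
  fun v hv => by rw [nU_add, nD_add, h v hv, h' v hv]

theorem prop_left {U D U' D' : Multiset Str} (h : Bal U D) (h' : Bal U' D') (hle : NLe U U')
    {v : Str} (h2 : v.dropLast ≠ []) (h1 : v.dropLast ∉ D) (hv : nU U v < nU U' v) :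
    nU U v.dropLast < nU U' v.dropLast := by
  have hne : v ≠ [] := by rintro rfl; simp at h2
  rw [h _ h2, h' _ h2]
  rw [h _ hne, h' _ hne, ← List.dropLast_append_getLast hne] at hv
  exact ord_pre.f2 (fun w hw => by have := hle w hw; rwa [h _ hw, h' _ hw] at this) h1 hv

theorem prop_down {U U' : Multiset Str} (hle : NLe U U')
    {v : Str} (h2 : v ≠ []) (h1 : v.tail ∉ U) (hv : nU U v < nU U' v) :
    nU U v.tail < nU U' v.tail := by
  obtain ⟨d, s, rfl⟩ := List.exists_cons_of_ne_nil h2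
  exact ord_suf.f2 hle h1 hv

theorem prop_rch {U D U' D' : Multiset Str} (h : Bal U D) (h' : Bal U' D') (hle : NLe U U')
    {u v : Str} (hr : Rch (· ∈ U) (· ∈ D) u v) (hv : nU U v < nU U' v) : nU U u < nU U' u := by
  induction hr with
  | base => exact hv
  | left v h1 h2 _ ih =>
    exact ih (prop_left h h' hle (fun e => by have := congrArg List.length e; simp at this; omega) h2 hv)
  | down v h1 h2 _ ih => exact ih (prop_down hle (by rintro rfl; simp at h1) h2 hv)

/-- cells whose count can be raised by one -/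
def Rais (Uw Dw : Str → Prop) (w : Str) : Prop :=
  w ≠ [] ∧ (w.length = 1 ∨ (Uw w.tail ∧ Dw w.dropLast))

theorem desc (Uw Dw : Str → Prop) (v : Str) (hv : v ≠ []) : ∃ w, Rais Uw Dw w ∧ Rch Uw Dw w v := by
  induction' hn : v.length using Nat.strong_induction_on with n ih generalizing v
  by_cases h : Rais Uw Dw v
  · exact ⟨v, h, .base⟩
  have l0 := List.length_pos_of_ne_nil hv
  have l1 : v.length ≠ 1 := fun e => h ⟨hv, Or.inl e⟩
  by_cases h1 : Uw v.tail
  · have h2 : ¬ Dw v.dropLast := fun e => h ⟨hv, Or.inr ⟨h1, e⟩⟩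
    obtain ⟨w, w1, w2⟩ := ih _ (by simp only [List.length_dropLast]; omega) v.dropLast
      (fun e => by have := congrArg List.length e; simp at this; omega) rfl
    exact ⟨w, w1, .left v (by omega) h2 w2⟩
  · obtain ⟨w, w1, w2⟩ := ih _ (by simp only [List.length_tail]; omega) v.tail
      (fun e => by have := congrArg List.length e; simp at this; omega) rfl
    exact ⟨w, w1, .down v (by omega) h1 w2⟩

theorem suf_ite {w : Str} (hw : w ≠ []) (x : Str) :
    (if x <:+ w then 1 else 0) = (if x <:+ w.tail then 1 else 0) + (if x = w then 1 else 0) := by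
  obtain ⟨d, s, rfl⟩ := List.exists_cons_of_ne_nil hw
  by_cases e : x = d :: s
  · subst e
    rw [if_pos (List.suffix_refl _), List.tail_cons, if_neg (ord_suf.ne d s), if_pos rfl]
  · simp [List.suffix_cons_iff, e]

theorem pre_ite {w : Str} (hw : w ≠ []) (x : Str) :
    (if x <+: w then 1 else 0) = (if x <+: w.dropLast then 1 else 0) + (if x = w then 1 else 0) := by
  obtain ⟨s, d, rfl⟩ := (List.eq_nil_or_concat w).resolve_left hw
  rw [List.concat_eq_append] at *
  by_cases e : x = s ++ [d]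
  · subst e
    rw [if_pos (List.prefix_refl _), List.dropLast_concat, if_neg (ord_pre.ne d s), if_pos rfl]
  · simp [List.prefix_concat_iff, e]

theorem nU_cons (w : Str) (U : Multiset Str) (x : Str) :
    nU (w ::ₘ U) x = nU U x + if x <:+ w then 1 else 0 := countP_cons _ _ _
theorem nD_cons (w : Str) (U : Multiset Str) (x : Str) :
    nD (w ::ₘ U) x = nD U x + if x <+: w then 1 else 0 := countP_cons _ _ _

theorem nU_raise {U : Multiset Str} {w : Str} (hw : w ≠ []) (h : w.length = 1 ∨ w.tail ∈ U)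
    {x : Str} (hx : x ≠ []) :
    nU (w ::ₘ U.erase w.tail) x = nU U x + if x = w then 1 else 0 := by
  rw [nU_cons, suf_ite hw]
  by_cases hm : w.tail ∈ U
  · conv_rhs => rw [← cons_erase hm, nU_cons]
    omega
  · have : w.tail = [] := by
      apply List.eq_nil_of_length_eq_zero; have := h.resolve_right hm; simp; omega
    rw [erase_of_notMem hm, this, if_neg (by simpa using hx)]; simp

theorem nD_raise {U : Multiset Str} {w : Str} (hw : w ≠ []) (h : w.length = 1 ∨ w.dropLast ∈ U)
    {x : Str} (hx : x ≠ []) :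
    nD (w ::ₘ U.erase w.dropLast) x = nD U x + if x = w then 1 else 0 := by
  rw [nD_cons, pre_ite hw]
  by_cases hm : w.dropLast ∈ U
  · conv_rhs => rw [← cons_erase hm, nD_cons]
    omega
  · have : w.dropLast = [] := by
      apply List.eq_nil_of_length_eq_zero; have := h.resolve_right hm; simp; omega
    rw [erase_of_notMem hm, this, if_neg (by simpa using hx)]; simp

theorem Bal.raise {U D : Multiset Str} (h : Bal U D) {w : Str} (hw : Rais (· ∈ U) (· ∈ D) w) :
    Bal (w ::ₘ U.erase w.tail) (w ::ₘ D.erase w.dropLast) := fun x hx => by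
  rw [nU_raise hw.1 (hw.2.imp_right And.left) hx, nD_raise hw.1 (hw.2.imp_right And.right) hx,
    h x hx]

def InZ (Z : Str → Prop) (U D : Multiset Str) : Prop :=
  (∀ v ∈ U, Z v ∧ Z v.dropLast) ∧ ∀ v ∈ D, Z v ∧ Z v.tail
def OutZ (Z : Str → Prop) (U D : Multiset Str) : Prop :=
  (∀ v ∈ U, ¬ Z v ∧ ¬ Z v.dropLast) ∧ ∀ v ∈ D, ¬ Z v ∧ ¬ Z v.tail

def supp (U : Multiset Str) : Finset Str := U.toFinset.biUnion (fun w => w.tails.toFinset)

theorem mem_supp {U : Multiset Str} {v : Str} (h : 0 < nU U v) : v ∈ supp U := by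
  obtain ⟨w, w1, w2⟩ := countP_pos.1 h
  exact Finset.mem_biUnion.2 ⟨w, by simpa using w1, by simpa using w2⟩

section
variable {Z : Str → Prop} (hZ0 : ¬ Z []) (hZ1 : ∀ v : Str, Z v.dropLast → Z v.tail → Z v)
  {UD DD : Multiset Str} (hD : Bal UD DD)
  (hconn : (∀ v ∈ UD, v ≠ [] → (Z v ↔ Z v.dropLast)) → (∀ v ∈ DD, v ≠ [] → (Z v ↔ Z v.tail)) →
    ∀ v ∈ UD, ¬ Z v)
include hZ0 hZ1 hD hconn

theorem dich_aux (k : ℕ) : ∀ UX DX UR DR : Multiset Str, Bal UX DX → Bal UR DR →
    NLe (UX + UR) UD → InZ Z UX DX → UX ≠ 0 →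
    ∑ v ∈ supp UD, (nU UD v - nU (UX + UR) v) ≤ k →
    ∃ UR' DR', Bal UR' DR' ∧ NLe UR UR' ∧ NLe (UX + UR') UD ∧ ¬ OutZ Z UR' DR' := by
  induction k using Nat.strong_induction_on with
  | _ k ih =>
  intro UX DX UR DR bX bR hle hin hne hk
  by_cases ho : OutZ Z UR DR
  swap
  · exact ⟨UR, DR, bR, fun _ _ => le_rfl, hle, ho⟩
  by_cases hv : ∃ v, v ≠ [] ∧ nU (UX + UR) v < nU UD v
  swap
  · exfalso
    push Not at hv
    have e1 : ∀ v, v ≠ [] → nU (UX + UR) v = nU UD v := fun v h => le_antisymm (hle v h) (hv v h)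
    have e2 : ∀ v, v ≠ [] → nD (DX + DR) v = nD DD v := fun v h => by
      rw [← bX.add bR v h, ← hD v h, e1 v h]
    have c1 : ∀ v, v ≠ [] → (v ∈ UD ↔ v ∈ UX + UR) := fun v h => by
      rw [← count_pos, ← count_pos, ord_suf.f3 e1 h]
    have c2 : ∀ v, v ≠ [] → (v ∈ DD ↔ v ∈ DX + DR) := fun v h => by
      rw [← count_pos, ← count_pos, ord_pre.f3 e2 h]
    obtain ⟨x, hx⟩ := exists_mem_of_ne_zero hne
    have zx := (hin.1 x hx).1
    refine hconn (fun v h1 h2 => ?_) (fun v h1 h2 => ?_) x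
      ((c1 x (by rintro rfl; exact hZ0 zx)).2 (mem_add.2 (Or.inl hx))) zx
    · rcases mem_add.1 ((c1 v h2).1 h1) with h | h
      · have := hin.1 v h; tauto
      · have := ho.1 v h; tauto
    · rcases mem_add.1 ((c2 v h2).1 h1) with h | h
      · have := hin.2 v h; tauto
      · have := ho.2 v h; tauto
  obtain ⟨v, v1, v2⟩ := hv
  obtain ⟨w, w1, w2⟩ := desc (· ∈ UX + UR) (· ∈ DX + DR) v v1
  have w3 := prop_rch (bX.add bR) hD hle w2 v2
  have meas : ∀ U', (∀ x, x ≠ [] → nU U' x = nU (UX + UR) x + if x = w then 1 else 0) →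
      nU (UX + UR) [] ≤ nU U' [] → NLe U' UD ∧
      ∑ v ∈ supp UD, (nU UD v - nU U' v) < k := by
    intro U' h h0
    refine ⟨fun x hx => ?_, lt_of_lt_of_le (Finset.sum_lt_sum (fun x _ => ?_)
      ⟨w, mem_supp (by omega), ?_⟩) hk⟩
    · rw [h x hx]; split_ifs with e
      · subst e; omega
      · exact hle x hx
    · by_cases e : x = []
      · subst e; omega
      · rw [h x e]; omega
    · rw [h w w1.1, if_pos rfl]; omega
  have card0 : ∀ U : Multiset Str, nU U [] ≤ nU (w ::ₘ U.erase w.tail) [] := by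
    intro U
    have : ∀ U : Multiset Str, nU U [] = card U := fun U =>
      countP_eq_card.2 (fun _ _ => List.nil_suffix)
    rw [this, this, card_cons]
    by_cases h : w.tail ∈ U
    · rw [card_erase_of_mem h, Nat.pred_eq_sub_one]; omega
    · rw [erase_of_notMem h]; omega
  have caseR : Rais (· ∈ UR) (· ∈ DR) w →
      ∃ UR' DR', Bal UR' DR' ∧ NLe UR UR' ∧ NLe (UX + UR') UD ∧ ¬ OutZ Z UR' DR' := by
    intro hw
    have r := fun x hx => nU_raise (x := x) hw.1 (hw.2.imp_right And.left) hx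
    obtain ⟨m1, m2⟩ := meas (UX + (w ::ₘ UR.erase w.tail))
      (fun x hx => by rw [nU_add, nU_add, r x hx]; omega)
      (by rw [nU_add, nU_add]; have := card0 UR; omega)
    obtain ⟨U', D', a1, a2, a3, a4⟩ := ih _ m2 UX DX _ _ bX (bR.raise hw) m1 hin hne le_rfl
    exact ⟨U', D', a1, fun x hx => le_trans (by rw [r x hx]; omega) (a2 x hx), a3, a4⟩
  rcases w1.2 with h | ⟨h1, h2⟩
  · exact caseR ⟨w1.1, Or.inl h⟩
  have mid : w.tail.dropLast = w.dropLast.tail := by rw [List.tail_dropLast]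
  rcases mem_add.1 h1 with h1 | h1 <;> rcases mem_add.1 h2 with h2 | h2
  · have hw : Rais (· ∈ UX) (· ∈ DX) w := ⟨w1.1, Or.inr ⟨h1, h2⟩⟩
    have r := fun x hx => nU_raise (x := x) hw.1 (hw.2.imp_right And.left) hx
    obtain ⟨m1, m2⟩ := meas ((w ::ₘ UX.erase w.tail) + UR)
      (fun x hx => by rw [nU_add, nU_add, r x hx]; omega)
      (by rw [nU_add, nU_add]; have := card0 UX; omega)
    have zw := hZ1 w (hin.2 _ h2).1 (hin.1 _ h1).1
    obtain ⟨U', D', a1, a2, a3, a4⟩ := ih _ m2 _ _ UR DR (bX.raise hw) bR m1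
      ⟨fun x hx => by
        rcases mem_cons.1 hx with rfl | hx
        · exact ⟨zw, (hin.2 _ h2).1⟩
        · exact hin.1 x (mem_of_mem_erase hx),
      fun x hx => by
        rcases mem_cons.1 hx with rfl | hx
        · exact ⟨zw, (hin.1 _ h1).1⟩
        · exact hin.2 x (mem_of_mem_erase hx)⟩ cons_ne_zero le_rfl
    refine ⟨U', D', a1, a2, fun x hx => le_trans ?_ (a3 x hx), a4⟩
    rw [nU_add, nU_add, r x hx]; omega
  · exact ((ho.2 _ h2).2 (mid ▸ (hin.1 _ h1).2)).elim
  · exact ((ho.1 _ h1).2 (mid ▸ (hin.2 _ h2).2)).elim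
  · exact caseR ⟨w1.1, Or.inr ⟨h1, h2⟩⟩

theorem dich {UX DX UR DR : Multiset Str} (bX : Bal UX DX) (bR : Bal UR DR)
    (hle : NLe (UX + UR) UD) (hin : InZ Z UX DX) (hne : UX ≠ 0) (ho : OutZ Z UR DR) {u : Str}
    (hu : u ≠ []) (hr : ∀ t, Z t → 0 < nU UD t → Rch (· ∈ UR) (· ∈ DR) u t) :
    nU (UX + UR) u < nU UD u := by
  obtain ⟨U', D', a1, a2, a3, a4⟩ := dich_aux hZ0 hZ1 hD hconn _ UX DX UR DR bX bR hle hin hne le_rfl
  have nn : ∀ t, Z t → t ≠ [] := fun t h e => hZ0 (e ▸ h)
  have key : ∃ t, Z t ∧ nU UR t < nU U' t := by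
    by_contra hc
    push Not at hc
    apply a4
    constructor
    · intro v hv
      by_cases hm : v ∈ UR
      · exact ho.1 v hm
      have h1 : nU UR v < nU U' v := ord_suf.f1 a2 hm hv
      refine ⟨fun z => by have := hc v z; omega, fun z => ?_⟩
      have := prop_left bR a1 a2 (nn _ z) (fun h => (ho.2 _ h).1 z) h1
      have := hc _ z; omega
    · intro v hv
      by_cases hm : v ∈ DR
      · exact ho.2 v hm
      by_cases e : v = []
      · subst e; exact ⟨hZ0, hZ0⟩
      have h1 : nD DR v < nD D' v :=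
        ord_pre.f1 (fun w hw => by have := a2 w hw; rwa [bR w hw, a1 w hw] at this) hm hv
      rw [← bR v e, ← a1 v e] at h1
      refine ⟨fun z => by have := hc v z; omega, fun z => ?_⟩
      have := prop_down a2 e (fun h => (ho.1 _ h).1 z) h1
      have := hc _ z; omega
  obtain ⟨t, t1, t2⟩ := key
  have h1 := a3 t (nn t t1)
  rw [nU_add] at h1
  have h2 := prop_rch bR a1 a2 (hr t t1 (by omega)) t2
  have h3 := a3 u hu
  rw [nU_add] at h3 ⊢
  omega

end

end Crest.Agent.H3.SCS
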