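import Crest.Agent.H3.SCSBase

set_option autoImplicit false
set_option linter.unusedVariables false
set_option linter.deprecated false

/-! Shortest common superstring: geometry of the unlinked components (basic lemmas). -/

namespace Crest.Agent.H3.SCS

structure Cfg (ι : Type) where
  V : ι → Str → Prop
  W : ι → ℕ
  G : Str → Prop
  Uw : Str → Prop
  Dw : Str → Prop

variable {ι : Type}

structure IsSt (C : Cfg ι) (K : ι) (β : ℤ → ℕ) (a : ℤ → ℤ) : Prop where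
  per : PerF β (C.W K)
  sh : ∀ τ, a (τ + 2 * C.W K) = a τ + C.W K
  step : ∀ τ, (a (τ + 1) = a τ + 1 ∧ C.Dw (cl β (a τ) (τ - a τ))) ∨
    (a (τ + 1) = a τ ∧ C.Uw (cl β (a τ) (τ + 1 - a τ)))
  le : ∀ τ, a τ ≤ τ - a τ
  mem : ∀ τ, C.V K (cl β (a τ) (τ - a τ))
  all : ∀ v, C.V K v → ∃ τ, v = cl β (a τ) (τ - a τ)

structure Good (C : Cfg ι) : Prop where
  st : ∀ K, ∃ β a, IsSt C K β a
  Wpos : ∀ K, 0 < C.W K
  Gnil : C.G []
  disj : ∀ K K' v, C.V K v → C.V K' v → K = K'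
  disjG : ∀ K v, C.V K v → ¬ C.G v
  hU : ∀ v, C.Uw v → (C.G v ∧ C.G v.dropLast) ∨ ∃ K, C.V K v ∧ C.V K v.dropLast
  hD : ∀ v, C.Dw v → (C.G v ∧ C.G v.tail) ∨ ∃ K, C.V K v ∧ C.V K v.tail
  r1 : ∀ K y g c1 c2, C.V K y → C.G g → Stp y g c1 → Stp g y c2 → C.W K < c1 + c2
  r2 : ∀ K K' p q t c1 c2 c3, K ≠ K' → C.V K p → C.V K' q → C.G t → Stp p t c1 → Stp t q c2 →
    Stp q p c3 → C.W K + C.W K' < c1 + c2 + c3

theorem stp_cell2 {α β : ℤ → ℕ} {a b r j : ℤ} (h1 : a ≤ r) (h2 : b ≤ j) (h3 : a ≤ b) (h4 : r ≤ j)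
    (e : ∀ i, r ≤ i → i < b → α i = β i) : Stp (cl α a b) (cl β r j) (j - b).toNat := by
  by_cases h : r ≤ b
  · exact ⟨cl α a r, cl α r b, cl β b j, (cl_append α h1 h).symm, by
      rw [cl_agree e]; exact (cl_append β h h2).symm, by simp⟩
  · exact ⟨cl α a b, [], cl β r j, by simp, by simp, by simp; omega⟩

theorem infix_cl {α : ℤ → ℕ} {a b : ℤ} (h : a ≤ b) {v : Str} (hv : v <:+: cl α a b) :
    ∃ r j, a ≤ r ∧ r ≤ j ∧ j ≤ b ∧ v = cl α r j := by
  obtain ⟨p, q, hpq⟩ := hv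
  have hl := congrArg List.length hpq
  simp only [List.length_append, cl_length] at hl
  refine ⟨a + p.length, b - q.length, by omega, by omega, by omega, ?_⟩
  rw [← cl_append α (show a ≤ a + p.length by omega) (show a + p.length ≤ b by omega),
    ← cl_append α (show a + p.length ≤ b - q.length by omega) (show b - q.length ≤ b by omega),
    List.append_assoc] at hpq
  have h1 := List.append_inj hpq (by simp)
  exact (List.append_inj h1.2 (by simp; omega)).1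

theorem IsSt.stair {C : Cfg ι} {K : ι} {β : ℤ → ℕ} {a : ℤ → ℤ} (h : IsSt C K β a) : Stair a := by
  intro τ; rcases h.step τ with h | h <;> omega

theorem IsSt.shk {C : Cfg ι} {K : ι} {β : ℤ → ℕ} {a : ℤ → ℤ} (h : IsSt C K β a) (k τ : ℤ) :
    a (τ + 2 * (k * C.W K)) = a τ + k * C.W K := by
  induction k using Int.induction_on generalizing τ with
  | zero => simp
  | succ k ih =>
    rw [show τ + 2 * (((k : ℤ) + 1) * C.W K) = τ + 2 * (k * C.W K) + 2 * C.W K by ring, h.sh, ih]; ring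
  | pred k ih =>
    have := h.sh (τ + 2 * ((-(k : ℤ) - 1) * C.W K))
    rw [show τ + 2 * ((-(k : ℤ) - 1) * C.W K) + 2 * C.W K = τ + 2 * (-(k : ℤ) * C.W K) by ring,
      ih] at this
    linarith

theorem cl_shift (β : ℤ → ℕ) (δ r j : ℤ) :
    cl (fun i => β (i - δ)) (r + δ) (j + δ) = cl β r j :=
  cl_congr (by ring) (fun i _ _ => by congr 1; ring)

theorem IsSt.shift {C : Cfg ι} {K : ι} {β : ℤ → ℕ} {a : ℤ → ℤ} (h : IsSt C K β a) (δ : ℤ) :
    IsSt C K (fun i => β (i - δ)) (fun τ => a (τ - 2 * δ) + δ) := by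
  have e : ∀ τ s, cl (fun i => β (i - δ)) (a (τ - 2 * δ) + δ) (s - (a (τ - 2 * δ) + δ)) =
      cl β (a (τ - 2 * δ)) (s - 2 * δ - a (τ - 2 * δ)) := by
    intro τ s
    rw [← cl_shift β δ]; congr 1; ring
  refine ⟨fun i => ?_, fun τ => ?_, fun τ => ?_, fun τ => ?_, fun τ => ?_, fun v hv => ?_⟩
  · rw [← h.per (i - δ)]; congr 1; ring
  · rw [show τ + 2 * (C.W K : ℤ) - 2 * δ = τ - 2 * δ + 2 * C.W K by ring, h.sh]; ring
  · rw [e, e, show τ + 1 - 2 * δ = τ - 2 * δ + 1 by ring]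
    rcases h.step (τ - 2 * δ) with h | h
    · exact Or.inl ⟨by omega, h.2⟩
    · exact Or.inr ⟨by omega, h.2⟩
  · have := h.le (τ - 2 * δ); omega
  · rw [e]; exact h.mem _
  · obtain ⟨τ, rfl⟩ := h.all v hv
    exact ⟨τ + 2 * δ, by rw [e]; simp⟩

namespace Good

variable {C : Cfg ι} (H : Good C)
include H

theorem len {K : ι} {v : Str} (hv : C.V K v) : C.W K < v.length := by
  simpa using H.r1 K v [] 0 _ hv H.Gnil (stp_nil_right v) (stp_nil_left v)

theorem clen {K : ι} {α : ℤ → ℕ} {r j : ℤ} (hv : C.V K (cl α r j)) : r + C.W K < j := by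
  have := H.len hv; simp at this; omega

/-- a lift through a given cell -/
theorem through0 {K : ι} {α : ℤ → ℕ} {r j : ℤ} (hv : C.V K (cl α r j)) :
    ∃ β a, IsSt C K β a ∧ a (r + j) = r ∧ ∀ i, r ≤ i → i < j → α i = β i := by
  obtain ⟨β, a, h⟩ := H.st K
  obtain ⟨τ, hτ⟩ := h.all _ hv
  have hl := H.clen hv
  obtain ⟨e1, e2⟩ := cl_inj (by omega) (h.le τ) hτ
  refine ⟨_, _, h.shift (r - a τ), ?_, fun i h1 h2 => ?_⟩
  · rw [show r + j - 2 * (r - a τ) = τ by omega]; ring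
  · rw [e2 i h1 h2]; congr 1; ring

theorem through {K : ι} {α : ℤ → ℕ} {r j : ℤ} (hp : PerF α (C.W K)) (hv : C.V K (cl α r j)) :
    ∃ a, IsSt C K α a ∧ a (r + j) = r := by
  obtain ⟨β, a, h, h1, h2⟩ := H.through0 hv
  have := PerF.ext (H.Wpos K) hp h.per (H.clen hv).le h2
  subst this
  exact ⟨a, h, h1⟩

theorem rectG {K : ι} {α : ℤ → ℕ} {a b r j : ℤ} (hp : PerF α (C.W K)) (hv : C.V K (cl α a b))
    (hg : C.G (cl α r j)) (h1 : a ≤ r) (h2 : r ≤ a + C.W K) (h3 : b ≤ j) (h4 : j ≤ b + C.W K) :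
    False := by
  have hl := H.clen hv
  have s1 := stp_cell α h1 h3 (by omega) (by omega)
  have s2 := stp_cell α h2 h4 (by omega) (by omega)
  rw [hp.cl1] at s2
  have := H.r1 K _ _ _ _ hv hg s1 s2
  omega

theorem pair {K K' : ι} (ne : K ≠ K') {α β : ℤ → ℕ} {a b r j : ℤ} (hv : C.V K (cl α a b))
    (hv' : C.V K' (cl β r j)) (h1 : a ≤ r) (h2 : b ≤ j) (e : ∀ i, r ≤ i → i < b → α i = β i) :
    a + C.W K + C.W K' < j := by
  have hl := H.clen hv
  have hl' := H.clen hv'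
  have s := stp_cell2 h1 h2 (by omega) (by omega) e
  have := H.r2 K' K _ _ [] _ _ _ ne.symm hv' hv H.Gnil (stp_nil_right _) (stp_nil_left _) s
  simp at this; omega

theorem far_above {A : ι} {β : ℤ → ℕ} {a : ℤ → ℤ} (h : IsSt C A β a) {r j : ℤ}
    (hg : C.G (cl β r j)) (hab : r < a (r + j)) (τ : ℤ) : r < a τ ∨ τ - a τ + C.W A < j := by
  by_contra hc
  push Not at hc
  have hs := h.sh τ
  have m1 := h.stair.mono (σ := r + j) (τ := τ)
  have m2 := h.stair.mono (σ := τ) (τ := r + j)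
  have m3 := h.stair.mono (σ := r + j) (τ := τ + 2 * C.W A)
  have m4 := h.stair.mono (σ := τ + 2 * C.W A) (τ := r + j)
  exact H.rectG h.per (h.mem τ) hg hc.1 (by omega) (by omega) (by omega)

theorem far_below {A : ι} {β : ℤ → ℕ} {a : ℤ → ℤ} (h : IsSt C A β a) {r j : ℤ}
    (hg : C.G (cl β r j)) (hab : a (r + j) < r) (τ : ℤ) : a τ + C.W A < r ∨ j < τ - a τ := by
  by_contra hc
  push Not at hc
  have hs := h.sh τ
  have m1 := h.stair.mono (σ := r + j) (τ := τ)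
  have m2 := h.stair.mono (σ := τ) (τ := r + j)
  have m3 := h.stair.mono (σ := r + j) (τ := τ + 2 * C.W A)
  have m4 := h.stair.mono (σ := τ + 2 * C.W A) (τ := r + j)
  exact H.rectG h.per (h.mem τ) hg (by omega) (by omega) (by omega) (by omega)

theorem st_ne {A : ι} {β : ℤ → ℕ} {a : ℤ → ℤ} (h : IsSt C A β a) {r j : ℤ}
    (hg : C.G (cl β r j)) : a (r + j) ≠ r := by
  intro e
  have := h.mem (r + j)
  rw [e, show r + j - r = j by ring] at this
  exact H.disjG _ _ this hg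

omit H in
theorem exists_shift {W : ℕ} (hW : 0 < W) (x y : ℤ) : ∃ k : ℤ, y ≤ x + k * W ∧ x + k * W < y + W := by
  have h1 := Int.emod_add_mul_ediv (x - y) W
  have h2 := Int.emod_nonneg (x - y) (show (W : ℤ) ≠ 0 by omega)
  have h3 := Int.emod_lt_of_pos (x - y) (show (0 : ℤ) < W by omega)
  exact ⟨-((x - y) / W), by linarith, by linarith⟩

theorem below_len {A : ι} {β : ℤ → ℕ} {a : ℤ → ℤ} (h : IsSt C A β a) {r j : ℤ}
    (hg : C.G (cl β r j)) (hab : a (r + j) < r) {v : Str} (hv : C.V A v) :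
    j - r < v.length := by
  obtain ⟨τ, rfl⟩ := h.all v hv
  obtain ⟨k, k1, k2⟩ := exists_shift (H.Wpos A) r (a τ + 1)
  have := H.far_below h (r := r + k * C.W A) (j := j + k * C.W A) (by rwa [h.per.cl]) (by
    rw [show r + k * C.W A + (j + k * C.W A) = r + j + 2 * (k * C.W A) by ring, h.shk]; omega) τ
  have := h.le τ
  simp only [cl_length]; omega

theorem above_len {A : ι} {β : ℤ → ℕ} {a : ℤ → ℤ} (h : IsSt C A β a) {r j : ℤ}
    (hg : C.G (cl β r j)) (hab : r < a (r + j)) {v : Str} (hv : C.V A v) :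
    (v.length : ℤ) < j - r := by
  obtain ⟨τ, rfl⟩ := h.all v hv
  obtain ⟨k, k1, k2⟩ := exists_shift (H.Wpos A) r (a τ)
  have := H.far_above h (r := r + k * C.W A) (j := j + k * C.W A) (by rwa [h.per.cl]) (by
    rw [show r + k * C.W A + (j + k * C.W A) = r + j + 2 * (k * C.W A) by ring, h.shk]; omega) τ
  have := h.le τ
  simp only [cl_length]; omega

/-- a good cell at least as long as some vertex is far above every vertex cell -/
theorem far {A : ι} {β : ℤ → ℕ} (hp : PerF β (C.W A)) {ρ c r j : ℤ} (hv : C.V A (cl β ρ c))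
    (hg : C.G (cl β r j)) {m : Str} (hm : C.V A m) (hl : m.length ≤ (cl β r j).length) :
    r < ρ ∨ c + C.W A < j := by
  obtain ⟨a, h, ha⟩ := H.through hp hv
  rcases lt_or_gt_of_ne (H.st_ne h hg) with h1 | h1
  · have := H.below_len h hg h1 hm
    have := H.len hm
    simp only [cl_length] at hl; omega
  · have := H.far_above h hg h1 (ρ + c)
    rw [ha] at this; omega

/-- a good cell shorter than some vertex is far below every vertex cell -/
theorem far' {A : ι} {β : ℤ → ℕ} (hp : PerF β (C.W A)) {ρ c r j : ℤ} (hv : C.V A (cl β ρ c))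
    (hg : C.G (cl β r j)) {m : Str} (hm : C.V A m) (hl : j - r ≤ m.length) :
    ρ + C.W A < r ∨ j < c := by
  obtain ⟨a, h, ha⟩ := H.through hp hv
  rcases lt_or_gt_of_ne (H.st_ne h hg) with h1 | h1
  · have := H.far_below h hg h1 (ρ + c)
    rw [ha] at this; omega
  · have := H.above_len h hg h1 hm
    omega

end Good

/-- periodic strings over a vertex of the component -/
def Ab (C : Cfg ι) (M : ι) (t : Str) : Prop := Per t (C.W M) ∧ ∃ m, C.V M m ∧ m <:+: t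

/-- planes of a component -/
def Pl (C : Cfg ι) (K : ι) (β : ℤ → ℕ) : Prop := PerF β (C.W K) ∧ ∃ r j, C.V K (cl β r j)

theorem IsSt.ab {C : Cfg ι} {K : ι} {β : ℤ → ℕ} {a : ℤ → ℤ} (h : IsSt C K β a) {r j : ℤ}
    (hr : r ≤ a (r + j)) : Ab C K (cl β r j) :=
  ⟨per_cl h.per _ _, _, h.mem (r + j), cl_infix β hr (h.le _) (by omega)⟩

theorem IsSt.pl {C : Cfg ι} {K : ι} {β : ℤ → ℕ} {a : ℤ → ℤ} (h : IsSt C K β a) : Pl C K β :=
  ⟨h.per, _, _, h.mem 0⟩

namespace Good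

variable {C : Cfg ι} (H : Good C)
include H

theorem pl_st {K : ι} {β : ℤ → ℕ} (h : Pl C K β) : ∃ a, IsSt C K β a := by
  obtain ⟨hp, r, j, hv⟩ := h
  obtain ⟨a, h, -⟩ := H.through hp hv
  exact ⟨a, h⟩

theorem pl_cell {K : ι} {β : ℤ → ℕ} (h : Pl C K β) {v : Str} (hv : C.V K v) :
    ∃ r j, v = cl β r j := by
  obtain ⟨a, h⟩ := H.pl_st h
  obtain ⟨τ, hτ⟩ := h.all v hv
  exact ⟨_, _, hτ⟩

theorem ab_cell {K : ι} {β : ℤ → ℕ} (h : Pl C K β) {t : Str} (ht : Ab C K t) :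
    ∃ r j r' j', t = cl β r j ∧ C.V K (cl β r' j') ∧ r ≤ r' ∧ j' ≤ j := by
  obtain ⟨hp, m, hm, hi⟩ := ht
  obtain ⟨r', j', rfl⟩ := H.pl_cell h hm
  obtain ⟨r, j, h1, h2, h3⟩ := Per.cell (H.Wpos K) hp h.1 (H.clen hm).le hi
  exact ⟨r, j, r', j', h3, hm, h1, h2⟩

theorem pl_trans {K M : ι} {β β' : ℤ → ℕ} (h1 : Pl C K β) (h2 : Pl C M β) (h3 : Pl C K β') :
    Pl C M β' := by
  obtain ⟨hp', r', j', hv⟩ := h3
  obtain ⟨r, j, e⟩ := H.pl_cell h1 hv
  have l1 := H.clen hv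
  have l2 := H.clen (e ▸ hv)
  obtain ⟨e1, e2⟩ := cl_inj (by omega) (by omega) e
  have hb : β' = fun i => β (i - (r' - r)) := by
    refine PerF.ext (H.Wpos K) hp' (fun i => ?_) l1.le (fun i a b => ?_)
    · rw [← h1.1 (i - (r' - r))]; congr 1; ring
    · rw [e2 i a b]; congr 1; ring
  obtain ⟨hq, x, y, hxy⟩ := h2
  refine ⟨fun i => ?_, x + (r' - r), y + (r' - r), ?_⟩
  · rw [hb]; simp only; rw [← hq (i - (r' - r))]; congr 1; ring
  · rw [hb, cl_shift]; exact hxy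

/-- two different components in one plane do not cross -/
theorem nocross {K M : ι} (ne : K ≠ M) {β : ℤ → ℕ} {f g : ℤ → ℤ} (hf : IsSt C K β f)
    (hg : IsSt C M β g) {τ0 : ℤ} (h0 : f τ0 ≤ g τ0) (τ : ℤ) : f τ < g τ := by
  have hne : ∀ τ, f τ ≠ g τ := fun τ e => ne (H.disj _ _ _ (hf.mem τ) (e ▸ hg.mem τ))
  exact Stair.sign hf.stair hg.stair hne (lt_of_le_of_ne h0 (hne τ0)) τ

/-- a component with a vertex over `M` lies over `M` -/
theorem ab_all {K M : ι} {v v' : Str} (hv : C.V K v) (hab : Ab C M v) (hv' : C.V K v') :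
    Ab C M v' := by
  obtain ⟨γ, g0, hg0⟩ := H.st M
  by_cases e : K = M
  · subst e
    obtain ⟨τ, rfl⟩ := hg0.all v' hv'
    exact ⟨per_cl hg0.per _ _, _, hv', List.infix_refl _⟩
  obtain ⟨r, j, r', j', rfl, hm, h1, h2⟩ := H.ab_cell hg0.pl hab
  obtain ⟨g, hg, hg1⟩ := H.through hg0.per hm
  obtain ⟨β, f, hf, hf1, hag⟩ := H.through0 hv
  have l1 := H.clen hv
  have l2 := H.clen hm
  have hβ : γ = β := by
    by_contra ne
    obtain ⟨L, R, a1, a2, a3, a4, a5⟩ :=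
      exists_run (H.Wpos M) (H.Wpos K) hg.per hf.per ne (by omega) hag
    have fw := fw_right (H.Wpos M) (H.Wpos K) hg.per hf.per a3 a5
    have hle := hg.le (2 * r - 1)
    obtain ⟨τ, t1, t2, t3⟩ := hg.stair.ivt (σ := 2 * r - 1) (τ := r' + j') (r := r) (by omega)
      (by omega) (by omega)
    have m := hg.stair.mono t2
    have hm2 := hg.mem τ
    rw [t3] at hm2
    have := H.pair (Ne.symm e) hm2 hv le_rfl (by omega) (fun _ _ _ => rfl)
    omega
  subst hβ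
  have m1 := hg.stair.mono (σ := r + j) (τ := r' + j')
  have m2 := hg.stair.mono (σ := r' + j') (τ := r + j)
  obtain ⟨τ, rfl⟩ := hf.all v' hv'
  have := H.nocross e hf hg (τ0 := r + j) (by omega) τ
  exact hg.ab (by rw [show f τ + (τ - f τ) = τ by ring]; omega)

/-- a component in the same plane with a cell in the rectangle of a vertex -/
theorem lemN {K K' : ι} {α : ℤ → ℕ} (hp : PerF α (C.W K)) (hp' : PerF α (C.W K')) {a b ρ c : ℤ}
    (hv : C.V K (cl α a b)) (hv' : C.V K' (cl α ρ c)) (h2 : ρ ≤ a + C.W K) (h3 : b ≤ c)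
    {t : Str} (hg : C.G t) (ht : Ab C K' t) : Ab C K t := by
  obtain ⟨r, j, r', j', rfl, hm, h5, h6⟩ := H.ab_cell ⟨hp', _, _, hv'⟩ ht
  obtain ⟨f, hf, hf1⟩ := H.through hp hv
  rcases lt_or_gt_of_ne (H.st_ne hf hg) with h1 | h1
  · exfalso
    have bl := H.below_len hf hg h1 hv
    obtain ⟨k, k1, k2⟩ := exists_shift (H.Wpos K') j c
    have hg' : C.G (cl α (r + k * C.W K') (j + k * C.W K')) := by rwa [hp'.cl]
    have f1 := H.far hp' hv' hg' hm (by simp only [cl_length]; omega)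
    have f2 := H.far' hp hv hg' hv (by omega)
    omega
  · exact hf.ab h1.le

theorem top {K : ι} {s : Str} (hs : C.V K s) (hmax : ∀ t, C.G t → s <:+: t → t.length ≤ s.length)
    {t : Str} (hg : C.G t) : ¬ Ab C K t := by
  intro ht
  obtain ⟨γ, g0, hg0⟩ := H.st K
  obtain ⟨r, j, r', j', rfl, hm, h5, h6⟩ := H.ab_cell hg0.pl ht
  obtain ⟨ρ, c, rfl⟩ := H.pl_cell hg0.pl hs
  obtain ⟨k, k1, k2⟩ := exists_shift (H.Wpos K) j c
  have hg' : C.G (cl γ (r + k * C.W K) (j + k * C.W K)) := by rwa [hg0.per.cl]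
  have f1 := H.far hg0.per hs hg' hm (by simp only [cl_length]; omega)
  have l := H.clen hs
  have := hmax _ hg' (cl_infix γ (by omega) (by omega) k1)
  simp only [cl_length] at this; omega

end Good

end Crest.Agent.H3.SCS
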