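import Crest.Agent.H3.SCSWalk

set_option autoImplicit false
set_option linter.unusedVariables false
set_option linter.deprecated false

/-! Shortest common superstring: operations on families of closed walks. -/

namespace Crest.Agent.H3.SCS

def tw (l : List Arc) (y : Str) : List Arc := l.takeWhile (fun a => !decide (a.1 = y))
def dw (l : List Arc) (y : Str) : List Arc := l.dropWhile (fun a => !decide (a.1 = y))
def rot (l : List Arc) (y : Str) : List Arc := dw l y ++ tw l y
def splice (root : List Arc) (g : Str) (c : List Arc) : List Arc := tw root g ++ c ++ dw root g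
def share (w c : List Arc) : Bool := (verts c).any (fun v => decide (v ∈ verts w))
def common (w c : List Arc) : Str := ((verts c).filter (fun v => decide (v ∈ verts w))).headD []
def merge (w c : List Arc) : List Arc := splice w (common w c) (rot c (common w c))
def ins (acc : List (List Arc)) (w : List Arc) : List (List Arc) :=
  (acc.filter (fun c => share w c)).foldl merge w :: acc.filter (fun c => !share w c)
def norm (ws : List (List Arc)) : List (List Arc) := ws.foldl ins []
def pick (ws : List (List Arc)) (y : Str) : List Arc :=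
  (ws.filter (fun K => decide (y ∈ verts K))).flatten
def rem (ws : List (List Arc)) (y : Str) : List (List Arc) :=
  ws.filter (fun K => !decide (y ∈ verts K))

theorem tw_dw (l : List Arc) (y : Str) : tw l y ++ dw l y = l := List.takeWhile_append_dropWhile

theorem Path.cut {x z : Str} {l : List Arc} (h : Path x z l) {g : Str} (hg : g ∈ verts l ∨ g = z) :
    Path x g (tw l g) ∧ Path g z (dw l g) := by
  induction h with
  | nil x => obtain rfl : g = x := by simpa using hg
             exact ⟨.nil _, .nil _⟩
  | cons a b c l h1 h2 ih =>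
    by_cases e : a = g
    · subst e
      simp only [tw, dw, List.takeWhile_cons, List.dropWhile_cons, decide_true, Bool.not_true,
        Bool.false_eq_true, if_false]
      exact ⟨.nil _, .cons _ _ _ _ h1 h2⟩
    · simp only [tw, dw, List.takeWhile_cons, List.dropWhile_cons, e, decide_false, Bool.not_false,
        if_true]
      have := ih (by simpa [Ne.symm e] using hg)
      exact ⟨.cons _ _ _ _ h1 this.1, this.2⟩

theorem rot_perm (l : List Arc) (y : Str) : (rot l y).Perm l := by
  conv_rhs => rw [← tw_dw l y]
  exact List.perm_append_comm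

theorem splice_perm (root : List Arc) (g : Str) (c : List Arc) :
    (splice root g c).Perm (root ++ c) := by
  conv_rhs => rw [← tw_dw root g]
  unfold splice
  rw [List.append_assoc, List.append_assoc]
  exact List.perm_append_comm.append_left _

theorem Path.rot {x : Str} {l : List Arc} (h : Path x x l) {y : Str} (hy : y ∈ verts l) :
    Path y y (rot l y) := (h.cut (Or.inl hy)).2.append (h.cut (Or.inl hy)).1

theorem Path.splice {x z : Str} {l c : List Arc} (h : Path x z l) {g : Str}
    (hg : g ∈ verts l ∨ g = z) (hc : Path g g c) : Path x z (splice l g c) :=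
  ((h.cut hg).1.append hc).append (h.cut hg).2

def Closed (w : List Arc) : Prop := ∃ x, Path x x w

theorem merge_perm (w c : List Arc) : (merge w c).Perm (w ++ c) :=
  (splice_perm _ _ _).trans ((rot_perm _ _).append_left _)

theorem Path.merge {x : Str} {w c : List Arc} (h : Path x x w) (hc : Closed c)
    (hs : ∃ v ∈ verts c, v ∈ verts w) : Path x x (merge w c) := by
  obtain ⟨y, hc⟩ := hc
  have : common w c ∈ (verts c).filter (fun v => decide (v ∈ verts w)) := by
    unfold common
    obtain ⟨v, h1, h2⟩ := hs
    have : v ∈ (verts c).filter (fun v => decide (v ∈ verts w)) := by simp [h1, h2]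
    generalize (verts c).filter (fun v => decide (v ∈ verts w)) = L at this
    cases L <;> simp at this ⊢
  simp only [List.mem_filter, decide_eq_true_eq] at this
  exact h.splice (Or.inl this.2) (hc.rot this.1)

theorem foldl_merge_perm (L : List (List Arc)) (w : List Arc) :
    (L.foldl merge w).Perm (w ++ L.flatten) := by
  induction L generalizing w with
  | nil => simp
  | cons c L ih =>
    rw [List.foldl_cons, List.flatten_cons, ← List.append_assoc]
    exact (ih _).trans ((merge_perm w c).append_right _)

theorem Path.foldl_merge {x : Str} (L : List (List Arc)) {w : List Arc} (h : Path x x w)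
    (hL : ∀ c ∈ L, Closed c ∧ ∃ v ∈ verts c, v ∈ verts w) : Path x x (L.foldl SCS.merge w) := by
  induction L generalizing w with
  | nil => exact h
  | cons c L ih =>
    refine ih (h.merge (hL c (by simp)).1 (hL c (by simp)).2) (fun d hd => ?_)
    obtain ⟨h1, v, h2, h3⟩ := hL d (by simp [hd])
    exact ⟨h1, v, h2, (verts_perm (merge_perm w c)).mem_iff.2 (by simp [h3])⟩

theorem flatten_filter_perm {α : Type} (L : List (List α)) (p : List α → Bool) :
    ((L.filter p).flatten ++ (L.filter (fun c => !p c)).flatten).Perm L.flatten := by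
  rw [← List.flatten_append]; exact (List.filter_append_perm p L).flatten

theorem ins_perm (acc : List (List Arc)) (w : List Arc) :
    (ins acc w).flatten.Perm (w ++ acc.flatten) := by
  unfold ins
  rw [List.flatten_cons]
  refine ((foldl_merge_perm _ _).append_right _).trans ?_
  rw [List.append_assoc]
  exact (flatten_filter_perm acc _).append_left _

theorem ins_length (acc : List (List Arc)) (w : List Arc) : (ins acc w).length ≤ acc.length + 1 := by
  unfold ins; simp [List.length_filter_le]

def Inv (ws : List (List Arc)) : Prop :=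
  (∀ w ∈ ws, w ≠ [] ∧ Closed w) ∧ ws.Pairwise (fun a b => ∀ v, v ∈ verts a → v ∉ verts b)

theorem mem_verts_flatten {L : List (List Arc)} {v : Str} :
    v ∈ verts L.flatten ↔ ∃ c ∈ L, v ∈ verts c := by
  simp only [verts, List.mem_map, List.mem_flatten]
  constructor
  · rintro ⟨a, ⟨c, h1, h2⟩, rfl⟩; exact ⟨c, h1, a, h2, rfl⟩
  · rintro ⟨c, h1, a, h2, rfl⟩; exact ⟨a, ⟨c, h1, h2⟩, rfl⟩

theorem Inv.eq {ws : List (List Arc)} (h : Inv ws) {a b : List Arc} (ha : a ∈ ws) (hb : b ∈ ws)
    {v : Str} (h1 : v ∈ verts a) (h2 : v ∈ verts b) : a = b := by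
  by_contra ne
  have : Std.Symm (fun a b : List Arc => ∀ v, v ∈ verts a → v ∉ verts b) :=
    ⟨fun _ _ h v a b => h v b a⟩
  exact h.2.forall ha hb ne v h1 h2

theorem Inv.sub {ws ws' : List (List Arc)} (h : Inv ws) (hs : ws'.Sublist ws) : Inv ws' :=
  ⟨fun w hw => h.1 w (hs.subset hw), h.2.sublist hs⟩

theorem Inv.ins {acc : List (List Arc)} (h : Inv acc) {w : List Arc} (h1 : w ≠ []) (h2 : Closed w) :
    Inv (ins acc w) := by
  have hp := foldl_merge_perm (acc.filter (fun c => share w c)) w
  refine ⟨fun c hc => ?_, List.pairwise_cons.2 ⟨fun c hc v hv hv' => ?_,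
    h.2.sublist List.filter_sublist⟩⟩
  · rcases List.mem_cons.1 hc with rfl | hc
    · obtain ⟨x, hx⟩ := h2
      refine ⟨fun e => ?_, x, hx.foldl_merge _ (fun c hc => ?_)⟩
      · rw [e] at hp; exact h1 (List.append_eq_nil_iff.1 hp.nil_eq.symm).1
      · rw [List.mem_filter] at hc
        exact ⟨(h.1 c hc.1).2, by simpa [share] using hc.2⟩
    · exact h.1 c (List.mem_of_mem_filter hc)
  · rw [List.mem_filter] at hc
    rw [(verts_perm hp).mem_iff, verts_append, List.mem_append, mem_verts_flatten] at hv
    rcases hv with hv | ⟨d, d1, d2⟩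
    · have := hc.2
      simp only [share, Bool.not_eq_eq_eq_not, Bool.not_true, List.any_eq_false,
        decide_eq_true_eq] at this
      exact this v hv' hv
    · rw [List.mem_filter] at d1
      have := h.eq d1.1 hc.1 d2 hv'
      subst this
      simp [d1.2] at hc

theorem foldl_ins_perm (ws acc : List (List Arc)) :
    (ws.foldl ins acc).flatten.Perm (ws.flatten ++ acc.flatten) ∧
      (ws.foldl ins acc).length ≤ ws.length + acc.length := by
  induction ws generalizing acc with
  | nil => simp
  | cons w ws ih =>
    obtain ⟨h1, h2⟩ := ih (ins acc w)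
    have := ins_length acc w
    refine ⟨h1.trans ?_, by simp only [List.foldl_cons, List.length_cons]; omega⟩
    rw [List.flatten_cons]
    refine ((ins_perm acc w).append_left _).trans ?_
    rw [← List.append_assoc]
    exact List.perm_append_comm.append_right _

theorem norm_perm (ws : List (List Arc)) : (norm ws).flatten.Perm ws.flatten := by
  simpa [norm] using (foldl_ins_perm ws []).1

theorem norm_inv {ws : List (List Arc)} (h : ∀ w ∈ ws, w ≠ [] ∧ Closed w) : Inv (norm ws) := by
  have : ∀ acc, Inv acc → Inv (ws.foldl ins acc) := by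
    induction ws with
    | nil => exact fun _ h => h
    | cons w ws ih =>
      exact fun acc ha => ih (fun c hc => h c (by simp [hc])) _
        (ha.ins (h w (by simp)).1 (h w (by simp)).2)
  exact this [] ⟨by simp, List.Pairwise.nil⟩

theorem Inv.pick_eq {ws : List (List Arc)} (h : Inv ws) {K : List Arc} (hK : K ∈ ws) {y : Str}
    (hy : y ∈ verts K) : pick ws y = K := by
  unfold pick
  have h2 := h.2
  clear h
  induction ws with
  | nil => simp at hK
  | cons w ws ih =>
    rw [List.pairwise_cons] at h2
    rcases List.mem_cons.1 hK with rfl | hK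
    · rw [List.filter_cons_of_pos (by simpa using hy), List.filter_eq_nil_iff.2
        (fun c hc => by simpa using h2.1 c hc y hy)]; simp
    · rw [List.filter_cons_of_neg (by simpa using fun h => h2.1 K hK y h hy)]
      exact ih hK h2.2

theorem pick_rem_perm (ws : List (List Arc)) (y : Str) :
    (pick ws y ++ (rem ws y).flatten).Perm ws.flatten := flatten_filter_perm ws _

theorem cutA {l : List Arc} {a : Arc} (h : a ∈ l) :
    l = l.takeWhile (fun b => !decide (b = a)) ++ a :: (l.dropWhile (fun b => !decide (b = a))).tail := by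
  induction l with
  | nil => simp at h
  | cons b l ih =>
    by_cases e : b = a
    · subst e; simp
    · have := ih (by simpa [Ne.symm e] using h)
      simp only [List.takeWhile_cons, List.dropWhile_cons, e, decide_false, Bool.not_false, if_true,
        List.cons_append]
      rw [← this]

def twA (l : List Arc) (a : Arc) : List Arc := l.takeWhile (fun b => !decide (b = a))
def dwA (l : List Arc) (a : Arc) : List Arc := (l.dropWhile (fun b => !decide (b = a))).tail

def restA (ws : List (List Arc)) (v : Str) : List Arc :=
  dwA (pick ws v.dropLast.tail) (v.dropLast, v.dropLast.tail) ++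
    twA (pick ws v.dropLast.tail) (v.dropLast, v.dropLast.tail)

def raise (ws : List (List Arc)) (v : Str) : List (List Arc) :=
  if v.length = 1 then norm ([([], v), (v, [])] :: ws) else
    norm (((v.dropLast, v) :: (v, v.tail) :: dwA (restA ws v) (v.dropLast.tail, v.tail)) ::
      ([twA (restA ws v) (v.dropLast.tail, v.tail)].filter (fun c => !c.isEmpty) ++
        rem ws v.dropLast.tail))

theorem Inv.adj {ws : List (List Arc)} (h : Inv ws) : ∀ a ∈ ws.flatten, Adj a.1 a.2 := by
  intro a ha
  obtain ⟨K, h1, h2⟩ := List.mem_flatten.1 ha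
  obtain ⟨x, hx⟩ := (h.1 K h1).2
  exact hx.adj h2

theorem nU_perm {l m : List Arc} (h : l.Perm m) (x : Str) : nU (ups l) x = nU (ups m) x := by
  rw [Multiset.coe_eq_coe.2 (ups_perm h)]

theorem raise_spec {ws : List (List Arc)} (h : Inv ws) {v : Str}
    (hv : Rais (· ∈ ups ws.flatten) (· ∈ dns ws.flatten) v) :
    Inv (raise ws v) ∧ ∀ x, x ≠ [] →
      nU (ups (raise ws v).flatten) x = nU (ups ws.flatten) x + if x = v then 1 else 0 := by
  unfold raise
  split_ifs with h1
  · obtain ⟨c, rfl⟩ := List.length_eq_one_iff.1 h1
    refine ⟨norm_inv (fun w hw => ?_), fun x hx => ?_⟩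
    · rcases List.mem_cons.1 hw with rfl | hw
      · exact ⟨by simp, [], .cons _ _ _ _ (Or.inl (by simp)) (.cons _ _ _ _ (Or.inr (by simp)) (.nil _))⟩
      · exact h.1 w hw
    · rw [nU_perm (norm_perm _)]
      have : ups ([([], [c]), ([c], [])] :: ws).flatten = [c] :: ups ws.flatten := by simp [ups]
      rw [this, ← Multiset.cons_coe, nU_cons, suf_ite (by simp)]
      simp [hx]
  obtain ⟨u1, u2⟩ := hv.2.resolve_left h1
  have l0 := List.length_pos_of_ne_nil hv.1
  rw [mem_ups h.adj, ← List.tail_dropLast] at u1
  rw [mem_dns h.adj] at u2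
  obtain ⟨K, K1, K2⟩ := List.mem_flatten.1 u2.2
  obtain ⟨K', K1', K2'⟩ := List.mem_flatten.1 u1.2
  obtain ⟨x, hx⟩ := (h.1 K K1).2
  have hm : v.dropLast.tail ∈ verts K := hx.closed_snd K2
  obtain rfl : K = K' := h.eq K1 K1' hm (fst_mem K2')
  have pk := h.pick_eq K1 hm
  have e1 := cutA K2
  have hr : restA ws v = dwA K (v.dropLast, v.dropLast.tail) ++ twA K (v.dropLast, v.dropLast.tail) := by
    rw [restA, pk]
  change K = twA K _ ++ _ :: dwA K _ at e1
  have p1 : Path v.dropLast.tail v.dropLast (restA ws v) := by
    rw [e1] at hx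
    obtain ⟨y, a1, a2⟩ := hx.split
    obtain ⟨b1, -, b3⟩ := a2.of_cons
    simp only at b1 b3
    subst b1
    rw [hr]; exact b3.append a1
  have q1 : K.Perm ((v.dropLast, v.dropLast.tail) :: restA ws v) := by
    conv_lhs => rw [e1]
    rw [hr]
    exact List.perm_middle.trans (List.perm_append_comm.cons _)
  have m2 : (v.dropLast.tail, v.tail) ∈ restA ws v := by
    rcases List.mem_cons.1 (q1.mem_iff.1 K2') with e | e
    · have := congrArg (fun a : Arc => a.1.length) e
      have := List.length_pos_of_ne_nil u2.1
      simp at *; omega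
    · exact e
  have e2 := cutA m2
  change restA ws v = twA _ _ ++ _ :: dwA _ _ at e2
  generalize twA (restA ws v) (v.dropLast.tail, v.tail) = c at *
  generalize dwA (restA ws v) (v.dropLast.tail, v.tail) = d at *
  rw [e2] at p1 q1
  obtain ⟨y, a1, a2⟩ := p1.split
  obtain ⟨b1, -, b3⟩ := a2.of_cons
  simp only at b1 b3
  subst b1
  refine ⟨norm_inv (fun w hw => ?_), fun x hx => ?_⟩
  · rcases List.mem_cons.1 hw with rfl | hw
    · exact ⟨by simp, _, .cons _ _ _ _ (Or.inl ⟨hv.1, rfl⟩) (.cons _ _ _ _ (Or.inr ⟨hv.1, rfl⟩) b3)⟩
    · rcases List.mem_append.1 hw with hw' | hw'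
      · simp only [List.mem_filter, List.mem_singleton] at hw'
        obtain ⟨rfl, hw''⟩ := hw'
        exact ⟨by simpa using hw'', _, a1⟩
      · exact h.1 w (List.mem_of_mem_filter hw')
  · rw [nU_perm (norm_perm _), ← nU_perm (pick_rem_perm ws v.dropLast.tail), pk,
      nU_perm (q1.append_right _)]
    have e3 : ([c].filter (fun c => !c.isEmpty)).flatten = c := by cases c <;> simp
    rw [List.flatten_cons, List.flatten_append, e3]
    have l1 : ¬ (v.length - 1 < v.length - 1 - 1) := by omega
    have l2 : v.length - 1 - 1 < v.length - 1 := by omega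
    have l3 : v.length - 1 < v.length := by omega
    have l4 : ¬ (v.length < v.length - 1) := by omega
    have f1 : ups (((v.dropLast, v) :: (v, v.tail) :: d) ++ (c ++ (rem ws v.dropLast.tail).flatten)) =
      v :: (ups d ++ (ups c ++ ups (rem ws v.dropLast.tail).flatten)) := by simp [ups, l3, l4]
    have f2 : ups (((v.dropLast, v.dropLast.tail) :: (c ++ (v.dropLast.tail, v.tail) :: d)) ++
      (rem ws v.dropLast.tail).flatten) =
      ups c ++ (v.tail :: ups d) ++ ups (rem ws v.dropLast.tail).flatten := by simp [ups, l1, l2]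
    rw [f1, f2]
    simp only [← Multiset.coe_add, ← Multiset.cons_coe, nU_add, nU_cons]
    rw [suf_ite hv.1]; omega

/-! distances and connecting paths -/

def dist (x y : Str) : ℕ :=
  ((List.range (y.length + 1)).filter (fun c => decide (y.take (y.length - c) <:+ x))).headD 0

def pth (x y : Str) : List Arc :=
  downs x (x.length - (y.length - dist x y)) ++ upsP y (y.length - dist x y) (dist x y)

theorem dist_spec (x y : Str) : dist x y ≤ y.length ∧ y.take (y.length - dist x y) <:+ x ∧
    ∀ c, c ≤ y.length → y.take (y.length - c) <:+ x → dist x y ≤ c := by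
  have hm : ∀ c, c ∈ (List.range (y.length + 1)).filter
      (fun c => decide (y.take (y.length - c) <:+ x)) ↔ c ≤ y.length ∧ y.take (y.length - c) <:+ x := by
    intro c; simp
  have hs : ((List.range (y.length + 1)).filter
      (fun c => decide (y.take (y.length - c) <:+ x))).Pairwise (· < ·) :=
    List.pairwise_lt_range.sublist List.filter_sublist
  have h0 := (hm y.length).2 ⟨le_rfl, by simp⟩
  unfold dist
  generalize (List.range (y.length + 1)).filter (fun c => decide (y.take (y.length - c) <:+ x)) = L at *
  cases L with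
  | nil => simp at h0
  | cons a L =>
    have := (hm a).1 (by simp)
    refine ⟨this.1, this.2, fun c h1 h2 => ?_⟩
    rcases List.mem_cons.1 ((hm c).2 ⟨h1, h2⟩) with rfl | h
    · exact le_rfl
    · exact ((List.pairwise_cons.1 hs).1 c h).le

theorem dist_le {x y : Str} {c : ℕ} (h : Stp x y c) : dist x y ≤ c := by
  obtain ⟨p, o, q, rfl, rfl, h⟩ := h
  exact ((dist_spec _ _).2.2 q.length (by simp) (by simp)).trans h

theorem path_pth (x y : Str) : Path x y (pth x y) ∧ (ups (pth x y)).length ≤ dist x y := by
  obtain ⟨h1, h2, -⟩ := dist_spec x y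
  have e := List.suffix_iff_eq_drop.1 h2
  rw [List.length_take, min_eq_left (by omega)] at e
  obtain ⟨a1, a2⟩ := path_downs x (x.length - (y.length - dist x y)) (by omega)
  have a3 := path_upsP y (y.length - dist x y) (dist x y) (by omega)
  rw [show y.length - dist x y + dist x y = y.length by omega, List.take_length, e] at a3
  refine ⟨a1.append a3, ?_⟩
  rw [pth, ups_append, a2, List.nil_append]
  have := ups_add_dns (upsP y (y.length - dist x y) (dist x y))
  simp only [upsP, List.length_map, List.length_range] at this ⊢; omega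

theorem mem_pth {x y : Str} {a : Arc} (h : a ∈ pth x y) :
    (a.1 <:+: x ∧ a.2 <:+: x) ∨ (a.1 <:+: y ∧ a.2 <:+: y) := by
  simp only [pth, downs, upsP, List.mem_append, List.mem_map] at h
  rcases h with ⟨i, -, rfl⟩ | ⟨i, -, rfl⟩
  · exact Or.inl ⟨(List.drop_suffix _ _).isInfix, (List.drop_suffix _ _).isInfix⟩
  · exact Or.inr ⟨(List.take_prefix _ _).isInfix, (List.take_prefix _ _).isInfix⟩

/-! the set of cells that descend to a given cell -/

def rstep (cells U D : List Str) (v : Str) (X : List Str) : List Str :=
  cells.filter (fun t => decide (t = v) || (decide (2 ≤ t.length) &&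
    ((!decide (t.dropLast ∈ D) && decide (t.dropLast ∈ X)) ||
      (!decide (t.tail ∈ U) && decide (t.tail ∈ X)))))

def reach (N : Str) (cells U D : List Str) (v : Str) : List Str :=
  N.foldl (fun X _ => rstep cells U D v X) []

theorem mem_rstep {cells U D : List Str} {v : Str} {X : List Str} {t : Str} :
    t ∈ rstep cells U D v X ↔ t ∈ cells ∧ (t = v ∨ (2 ≤ t.length ∧
      ((t.dropLast ∉ D ∧ t.dropLast ∈ X) ∨ (t.tail ∉ U ∧ t.tail ∈ X)))) := by
  simp [rstep]

theorem reach_sound {N : Str} {cells U D : List Str} {v t : Str} (h : t ∈ reach N cells U D v) :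
    Rch (· ∈ U) (· ∈ D) v t := by
  rw [reach, List.foldl_const] at h
  generalize N.length = n at h
  induction n generalizing t with
  | zero => simp at h
  | succ k ih =>
    rw [Function.iterate_succ_apply', mem_rstep] at h
    rcases h.2 with rfl | ⟨h1, h2 | h2⟩
    · exact .base
    · exact .left t h1 h2.1 (ih h2.2)
    · exact .down t h1 h2.1 (ih h2.2)

theorem reach_complete {N : Str} {cells U D : List Str} {v t : Str} (hv : v ≠ [])
    (hc : ∀ t ∈ cells, 2 ≤ t.length → t.dropLast ∈ cells ∧ t.tail ∈ cells) (ht : t ∈ cells)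
    (hN : t.length ≤ N.length) (h : Rch (· ∈ U) (· ∈ D) v t) : t ∈ reach N cells U D v := by
  rw [reach, List.foldl_const]
  have l := List.length_pos_of_ne_nil hv
  have hk : t.length < v.length + N.length := by omega
  clear hN
  generalize N.length = n at hk
  induction n generalizing t with
  | zero => have := h.infix.length_le; omega
  | succ k ih =>
    rw [Function.iterate_succ_apply', mem_rstep]
    refine ⟨ht, ?_⟩
    cases h with
    | base => exact Or.inl rfl
    | left _ h1 h2 h3 =>
      exact Or.inr ⟨h1, Or.inl ⟨h2, ih (hc t ht h1).1 h3 (by simp only [List.length_dropLast]; omega)⟩⟩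
    | down _ h1 h2 h3 =>
      exact Or.inr ⟨h1, Or.inr ⟨h2, ih (hc t ht h1).2 h3 (by simp only [List.length_tail]; omega)⟩⟩

end Crest.Agent.H3.SCS
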