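import Crest.Agent.H3.SCSFin
import Crest.Agent.H3.PTMore

set_option autoImplicit false

/-! Shortest common superstring: the algorithm runs in polynomial time. -/

namespace Crest.Agent.H3.SCS
open Crest.Agent.H3.Ptime

variable {α : Type} [Enc α]

@[fun_prop] theorem pt_ups {f : α → List Arc} (hf : PT f) : PT (fun a => ups (f a)) := by
  unfold ups; fun_prop
@[fun_prop] theorem pt_dns {f : α → List Arc} (hf : PT f) : PT (fun a => dns (f a)) := by
  unfold dns; fun_prop
@[fun_prop] theorem pt_verts {f : α → List Arc} (hf : PT f) : PT (fun a => verts (f a)) := by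
  unfold verts; fun_prop
@[fun_prop] theorem pt_letters {f : α → List Arc} (hf : PT f) : PT (fun a => letters (f a)) := by
  unfold letters; fun_prop
@[fun_prop] theorem pt_tw {f : α → List Arc} {g : α → Str} (hf : PT f) (hg : PT g) :
    PT (fun a => tw (f a) (g a)) := by unfold tw; fun_prop
@[fun_prop] theorem pt_dw {f : α → List Arc} {g : α → Str} (hf : PT f) (hg : PT g) :
    PT (fun a => dw (f a) (g a)) := by unfold dw; fun_prop
@[fun_prop] theorem pt_rot {f : α → List Arc} {g : α → Str} (hf : PT f) (hg : PT g) :
    PT (fun a => rot (f a) (g a)) := by unfold rot; fun_prop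
@[fun_prop] theorem pt_splice {f h : α → List Arc} {g : α → Str} (hf : PT f) (hg : PT g)
    (hh : PT h) : PT (fun a => splice (f a) (g a) (h a)) := by unfold splice; fun_prop
@[fun_prop] theorem pt_share {f g : α → List Arc} (hf : PT f) (hg : PT g) :
    PT (fun a => share (f a) (g a)) := by unfold share; fun_prop
@[fun_prop] theorem pt_common {f g : α → List Arc} (hf : PT f) (hg : PT g) :
    PT (fun a => common (f a) (g a)) := by unfold common; fun_prop
@[fun_prop] theorem pt_merge {f g : α → List Arc} (hf : PT f) (hg : PT g) :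
    PT (fun a => merge (f a) (g a)) := by unfold merge; fun_prop

@[fun_prop] theorem pt_foldl_merge {f : α → List (List Arc)} {g : α → List Arc} (hf : PT f)
    (hg : PT g) : PT (fun a => (f a).foldl merge (g a)) :=
  PT.foldl_add (f := fun _ c x => merge c x) hf hg (by fun_prop) (fun p => sz p.2)
    (PT.snd PT.id').szb (fun a c x => by
      rw [sz_perm (merge_perm c x)]; have := sz_append c x; simp only; omega)

@[fun_prop] theorem pt_ins {f : α → List (List Arc)} {g : α → List Arc} (hf : PT f) (hg : PT g) :
    PT (fun a => ins (f a) (g a)) := by unfold ins; fun_prop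

@[fun_prop] theorem pt_norm {f : α → List (List Arc)} (hf : PT f) : PT (fun a => norm (f a)) :=
  PT.foldl_add (f := fun _ c x => ins c x) hf (PT.const []) (by fun_prop) (fun p => sz p.2 + 2)
    ((PT.snd PT.id').szb.add (PB.const 2)) (fun a c x => by
      rw [sz_flatten, sz_flatten c, sz_perm (ins_perm c x)]
      have := sz_append x c.flatten
      have := ins_length c x
      simp only; omega)

@[fun_prop] theorem pt_pick {f : α → List (List Arc)} {g : α → Str} (hf : PT f) (hg : PT g) :
    PT (fun a => pick (f a) (g a)) := by unfold pick; fun_prop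
@[fun_prop] theorem pt_rem {f : α → List (List Arc)} {g : α → Str} (hf : PT f) (hg : PT g) :
    PT (fun a => rem (f a) (g a)) := by unfold rem; fun_prop
@[fun_prop] theorem pt_twA {f : α → List Arc} {g : α → Arc} (hf : PT f) (hg : PT g) :
    PT (fun a => twA (f a) (g a)) := by unfold twA; fun_prop
@[fun_prop] theorem pt_dwA {f : α → List Arc} {g : α → Arc} (hf : PT f) (hg : PT g) :
    PT (fun a => dwA (f a) (g a)) := by unfold dwA; fun_prop
@[fun_prop] theorem pt_restA {f : α → List (List Arc)} {g : α → Str} (hf : PT f) (hg : PT g) :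
    PT (fun a => restA (f a) (g a)) := by unfold restA; fun_prop
@[fun_prop] theorem pt_raise {f : α → List (List Arc)} {g : α → Str} (hf : PT f) (hg : PT g) :
    PT (fun a => raise (f a) (g a)) := by unfold raise; fun_prop

@[fun_prop] theorem pt_dist {f g : α → Str} (hf : PT f) (hg : PT g) :
    PT (fun a => dist (f a) (g a)) := by
  have hb : PB (fun a => (g a).length + 1) := (PB.length hg).add (PB.const 1)
  unfold dist; fun_prop

@[fun_prop] theorem pt_pth {f g : α → Str} (hf : PT f) (hg : PT g) :
    PT (fun a => pth (f a) (g a)) := by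
  have hb : PB (fun a => (f a).length - ((g a).length - dist (f a) (g a))) := PB.sub (PB.length hf)
  have hb' : PB (fun a => dist (f a) (g a)) := (PB.length hg).of_le (fun a => (dist_spec _ _).1)
  unfold pth downs upsP; fun_prop

@[fun_prop] theorem pt_rstep {c u d x : α → List Str} {v : α → Str} (hc : PT c) (hu : PT u)
    (hd : PT d) (hv : PT v) (hx : PT x) : PT (fun a => rstep (c a) (u a) (d a) (v a) (x a)) := by
  unfold rstep; fun_prop

@[fun_prop] theorem pt_reach {c u d : α → List Str} {n v : α → Str} (hn : PT n) (hc : PT c)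
    (hu : PT u) (hd : PT d) (hv : PT v) : PT (fun a => reach (n a) (c a) (u a) (d a) (v a)) := by
  refine PT.foldl (f := fun a X _ => rstep (c a) (u a) (d a) (v a) X) hn (PT.const [])
    (by fun_prop) (fun a => sz (c a)) hc.szb (fun a k => ?_)
  rw [List.foldl_const]
  cases ((n a).take k).length with
  | zero => exact sz_sublist (List.nil_sublist _)
  | succ m => rw [Function.iterate_succ_apply']; exact sz_sublist List.filter_sublist

theorem pt_cells1 : PT (fun p : Str × ℕ =>
    (List.range (p.1.length - p.2)).map (fun k => (p.1.drop p.2).take (k + 1))) := by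
  have hb : PB (fun p : Str × ℕ => p.1.length - p.2) := PB.sub (PB.length (by fun_prop))
  fun_prop

theorem pt_cells2 : PT (fun s : Str => (List.range s.length).flatMap (fun i =>
    (List.range (s.length - i)).map (fun k => (s.drop i).take (k + 1)))) :=
  PT.flatMap (PT.rangeL PT.id') pt_cells1

@[fun_prop] theorem pt_cells {f : α → List Str} (hf : PT f) : PT (fun a => cells (f a)) :=
  PT.flatMap hf (pt_cells2.comp (PT.snd PT.id'))

@[fun_prop] theorem pt_maxs {f : α → List Str} (hf : PT f) : PT (fun a => maxs (f a)) := by
  unfold maxs; fun_prop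
@[fun_prop] theorem pt_ab {f : α → List Arc} {g : α → Str} (hf : PT f) (hg : PT g) :
    PT (fun a => ab (f a) (g a)) := by unfold ab; fun_prop
@[fun_prop] theorem pt_rais {f : α → List (List Arc)} {g : α → Str} (hf : PT f) (hg : PT g) :
    PT (fun a => rais (f a) (g a)) := by unfold rais; fun_prop
@[fun_prop] theorem pt_cand1 {s : α → List Str} {f : α → List (List Arc)} {g : α → Str} (hs : PT s)
    (hf : PT f) (hg : PT g) : PT (fun a => cand1 (s a) (f a) (g a)) := by unfold cand1; fun_prop
@[fun_prop] theorem pt_cand2 {s : α → List Str} {f : α → List (List Arc)} {g : α → Str} (hs : PT s)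
    (hf : PT f) (hg : PT g) : PT (fun a => cand2 (s a) (f a) (g a)) := by unfold cand2; fun_prop
@[fun_prop] theorem pt_cands {s : α → List Str} {f : α → List (List Arc)} (hs : PT s)
    (hf : PT f) : PT (fun a => cands (s a) (f a)) := by unfold cands; fun_prop
@[fun_prop] theorem pt_mstep {s : α → List Str} {f : α → List (List Arc)} (hs : PT s)
    (hf : PT f) : PT (fun a => mstep (s a) (f a)) := by unfold mstep; fun_prop
@[fun_prop] theorem pt_fuel {f : α → List Str} (hf : PT f) : PT (fun a => fuel (f a)) := by
  unfold fuel; fun_prop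

theorem Val.sz_le {S : List Str} {v : Str} (h : Val S v) : sz v ≤ sz S := by
  rcases h with rfl | ⟨s, h1, h2⟩
  · cases S <;> simp [sz_nil, sz_cons]
  · exact (sz_sublist h2.sublist).trans (sz_le_of_mem h1)

theorem sz_arcs {S : List Str} {l : List Arc} (h : ∀ a ∈ l, Val S a.1 ∧ Val S a.2) :
    sz l ≤ l.length * (2 * sz S + 2) + 1 :=
  sz_le_mul l (2 * sz S + 1) (fun a ha => by
    have := (h a ha).1.sz_le; have := (h a ha).2.sz_le
    rw [show a = (a.1, a.2) from rfl, sz_pair]; omega)

theorem MI.sz_le {S : List Str} {ws : List (List Arc)} (h : MI S ws) :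
    sz ws ≤ 2 * S.flatten.length * (2 * sz S + 4) + 1 := by
  have h1 := h.card (T := S.flatten) (fun s hs => List.infix_of_mem_flatten hs)
  have h2 := sz_arcs (fun a ha => h.val ha)
  have h3 : ws.flatten.length = 2 * (ups ws.flatten).length ∧ ws.length ≤ ws.flatten.length := by
    have := h.1.1
    clear h h1 h2
    induction ws with
    | nil => simp
    | cons w ws ih =>
      obtain ⟨a, x, hx⟩ := this w (by simp)
      have := ih (fun c hc => this c (by simp [hc]))
      have := hx.len
      have := ups_add_dns w
      have := List.length_pos_of_ne_nil a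
      simp only [List.flatten_cons, ups_append, List.length_append, List.length_cons]; omega
  rw [sz_flatten]
  have h4 : ws.flatten.length ≤ 2 * S.flatten.length := by omega
  have := Nat.mul_le_mul_right (2 * sz S + 4) h4
  nlinarith [h3.2]

theorem pt_phase1 : PT phase1 := by
  refine PT.foldl (l := fuel) (f := fun S ws _ => mstep S ws) (by fun_prop) (PT.const [])
    (by fun_prop) (fun S => 2 * S.flatten.length * (2 * sz S + 4) + 1)
    ((((PB.const 2).mul (PB.length (by fun_prop))).mul (((PB.const 2).mul PB.size).add
      (PB.const 4))).add (PB.const 1)) (fun S k => ?_)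
  rw [List.foldl_const]
  exact (mi_iter S _).1.sz_le

@[fun_prop] theorem pt_c1 {f : α → FS} (hf : PT f) : PT (fun a => c1 (f a)) := by
  unfold c1; fun_prop
@[fun_prop] theorem pt_c2 {f : α → FS} (hf : PT f) : PT (fun a => c2 (f a)) := by
  unfold c2; fun_prop
@[fun_prop] theorem pt_link1 {f : α → FS} {g : α → Str × Str} (hf : PT f) (hg : PT g) :
    PT (fun a => link1 (f a) (g a)) := by unfold link1; fun_prop
@[fun_prop] theorem pt_link2 {f : α → FS} {g : α → Str × Str × Str} (hf : PT f) (hg : PT g) :
    PT (fun a => link2 (f a) (g a)) := by unfold link2; fun_prop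
@[fun_prop] theorem pt_fstep {f : α → FS} (hf : PT f) : PT (fun a => fstep (f a)) := by
  unfold fstep; fun_prop

theorem pt_phase2 : PT (fun S => phase2 (phase1 S)) := by
  have h1 := pt_phase1
  refine PT.foldl (l := fun S => [] :: phase1 S) (i := fun S => (([] : List Arc), phase1 S))
    (f := fun _ s _ => fstep s) (by fun_prop) (by fun_prop)
    (by fun_prop) (fun S => 4 * S.flatten.length * (2 * sz S + 2) + sz (phase1 S) + 2)
    (((((PB.const 4).mul (PB.length (by fun_prop))).mul (((PB.const 2).mul PB.size).add
      (PB.const 2))).add h1.szb).add (PB.const 2)) (fun S k => ?_)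
  rw [List.foldl_const]
  have hM := (phase1_spec S).1
  have h := (fi_iter hM (([] :: phase1 S).take k).length).1
  generalize fstep^[(([] :: phase1 S).take k).length] ([], phase1 S) = s at h
  have a1 := sz_arcs h.val
  have a2 := sz_sublist h.sub
  have a3 := h.bud
  have a4 := hM.card (T := S.flatten) (fun s hs => List.infix_of_mem_flatten hs)
  have a5 := h.path.len
  have a6 := ups_add_dns s.1
  have a7 : s.1.length ≤ 4 * S.flatten.length := by omega
  have := Nat.mul_le_mul_right (2 * sz S + 2) a7
  rw [show s = (s.1, s.2) from rfl, sz_pair]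
  omega

theorem pt_scs : PT scs := by
  have := pt_phase2
  unfold scs; fun_prop

end Crest.Agent.H3.SCS
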