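import Crest.Agent.H3.SCSFlow
import Crest.Agent.H3.SCSGeom

set_option autoImplicit false
set_option linter.unusedVariables false
set_option linter.deprecated false

/-! Shortest common superstring: walks in the hierarchical graph. -/

namespace Crest.Agent.H3.SCS

abbrev Arc := Str × Str

def Adj (x y : Str) : Prop := (y ≠ [] ∧ x = y.dropLast) ∨ (x ≠ [] ∧ y = x.tail)

inductive Path : Str → Str → List Arc → Prop
  | nil (x : Str) : Path x x []
  | cons (x y z : Str) (l : List Arc) : Adj x y → Path y z l → Path x z ((x, y) :: l)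

def ups (l : List Arc) : List Str := (l.filter (fun a => decide (a.1.length < a.2.length))).map (·.2)
def dns (l : List Arc) : List Str := (l.filter (fun a => !decide (a.1.length < a.2.length))).map (·.1)
def verts (l : List Arc) : List Str := l.map (·.1)
def letters (l : List Arc) : Str := l.flatMap (fun a => a.2.drop a.1.length)

@[simp] theorem ups_nil : ups [] = [] := rfl
@[simp] theorem dns_nil : dns [] = [] := rfl
@[simp] theorem verts_nil : verts [] = [] := rfl
@[simp] theorem letters_nil : letters [] = [] := rfl
@[simp] theorem ups_append (l m : List Arc) : ups (l ++ m) = ups l ++ ups m := by simp [ups]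
@[simp] theorem dns_append (l m : List Arc) : dns (l ++ m) = dns l ++ dns m := by simp [dns]
@[simp] theorem verts_append (l m : List Arc) : verts (l ++ m) = verts l ++ verts m := by simp [verts]
@[simp] theorem verts_cons (a : Arc) (m : List Arc) : verts (a :: m) = a.1 :: verts m := rfl
@[simp] theorem letters_append (l m : List Arc) : letters (l ++ m) = letters l ++ letters m := by
  simp [letters]

theorem ups_up (p : Str) (c : ℕ) (l : List Arc) : ups ((p, p ++ [c]) :: l) = (p ++ [c]) :: ups l := by
  simp [ups]
theorem dns_up (p : Str) (c : ℕ) (l : List Arc) : dns ((p, p ++ [c]) :: l) = dns l := by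
  simp [dns]
theorem letters_up (p : Str) (c : ℕ) (l : List Arc) :
    letters ((p, p ++ [c]) :: l) = c :: letters l := by simp [letters]
theorem ups_dn (p : Str) (c : ℕ) (l : List Arc) : ups ((c :: p, p) :: l) = ups l := by
  simp [ups]
theorem dns_dn (p : Str) (c : ℕ) (l : List Arc) : dns ((c :: p, p) :: l) = (c :: p) :: dns l := by
  simp [dns]
theorem letters_dn (p : Str) (c : ℕ) (l : List Arc) : letters ((c :: p, p) :: l) = letters l := by
  simp [letters]

theorem Adj.cases {x y : Str} (h : Adj x y) : (∃ c, y = x ++ [c]) ∨ ∃ c, x = c :: y := by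
  rcases h with ⟨h, rfl⟩ | ⟨h, rfl⟩
  · exact Or.inl ⟨_, (List.dropLast_append_getLast h).symm⟩
  · obtain ⟨d, s, rfl⟩ := List.exists_cons_of_ne_nil h
    exact Or.inr ⟨d, rfl⟩

theorem ups_perm {l m : List Arc} (h : l.Perm m) : (ups l).Perm (ups m) := (h.filter _).map _
theorem dns_perm {l m : List Arc} (h : l.Perm m) : (dns l).Perm (dns m) := (h.filter _).map _
theorem verts_perm {l m : List Arc} (h : l.Perm m) : (verts l).Perm (verts m) := h.map _

theorem ups_add_dns (l : List Arc) : (ups l).length + (dns l).length = l.length := by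
  simp only [ups, dns, List.length_map]
  exact (List.length_eq_length_filter_add _).symm

theorem Path.append {x y z : Str} {l m : List Arc} (h : Path x y l) (h' : Path y z m) :
    Path x z (l ++ m) := by
  induction h with
  | nil => exact h'
  | cons a b c l h1 _ ih => exact .cons a b z _ h1 (ih h')

theorem Path.of_cons {x z : Str} {a : Arc} {l : List Arc} (h : Path x z (a :: l)) :
    a.1 = x ∧ Adj a.1 a.2 ∧ Path a.2 z l := by
  cases h with
  | cons _ y _ _ h1 h2 => exact ⟨rfl, h1, h2⟩

theorem Path.of_nil {x z : Str} (h : Path x z []) : x = z := by cases h; rfl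

theorem Path.split {x z : Str} {l m : List Arc} (h : Path x z (l ++ m)) :
    ∃ y, Path x y l ∧ Path y z m := by
  induction l generalizing x with
  | nil => exact ⟨x, .nil x, h⟩
  | cons a l ih =>
    obtain ⟨rfl, h1, h2⟩ := h.of_cons
    obtain ⟨y, h3, h4⟩ := ih h2
    exact ⟨y, .cons _ _ _ _ h1 h3, h4⟩

theorem Path.adj {x z : Str} {l : List Arc} (h : Path x z l) {a : Arc} (ha : a ∈ l) :
    Adj a.1 a.2 := by
  induction h with
  | nil => simp at ha
  | cons a b c l h1 _ ih =>
    rcases List.mem_cons.1 ha with rfl | ha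
    · exact h1
    · exact ih ha

theorem Path.start {x z : Str} {l : List Arc} (h : Path x z l) : x ∈ verts l ∨ x = z := by
  cases h <;> simp

theorem Path.snd_mem {x z : Str} {l : List Arc} (h : Path x z l) {a : Arc} (ha : a ∈ l) :
    a.2 ∈ verts l ∨ a.2 = z := by
  induction h with
  | nil => simp at ha
  | cons a b c l h1 h2 ih =>
    rcases List.mem_cons.1 ha with rfl | ha
    · rcases h2.start with h | h <;> simp [h]
    · rcases ih ha with h | h <;> simp [h]

theorem Path.closed_snd {x : Str} {l : List Arc} (h : Path x x l) {a : Arc} (ha : a ∈ l) :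
    a.2 ∈ verts l := by
  rcases h.snd_mem ha with h1 | h1
  · exact h1
  · rw [h1]; cases h with
    | nil => simp at ha
    | cons => simp

theorem fst_mem {l : List Arc} {a : Arc} (ha : a ∈ l) : a.1 ∈ verts l := List.mem_map_of_mem ha

theorem mem_ups {l : List Arc} (h : ∀ a ∈ l, Adj a.1 a.2) {v : Str} :
    v ∈ ups l ↔ v ≠ [] ∧ (v.dropLast, v) ∈ l := by
  simp only [ups, List.mem_map, List.mem_filter, decide_eq_true_eq]
  constructor
  · rintro ⟨⟨x, y⟩, ⟨h1, h2⟩, rfl⟩
    rcases (h _ h1).cases with ⟨c, e⟩ | ⟨c, e⟩
    · simp only at e; subst e; simpa using h1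
    · simp only at e; subst e; simp at h2
  · rintro ⟨h1, h2⟩
    refine ⟨_, ⟨h2, ?_⟩, rfl⟩
    have := List.length_pos_of_ne_nil h1
    simp; omega

theorem mem_dns {l : List Arc} (h : ∀ a ∈ l, Adj a.1 a.2) {v : Str} :
    v ∈ dns l ↔ v ≠ [] ∧ (v, v.tail) ∈ l := by
  simp only [dns, List.mem_map, List.mem_filter, Bool.not_eq_eq_eq_not, Bool.not_true,
    decide_eq_false_iff_not]
  constructor
  · rintro ⟨⟨x, y⟩, ⟨h1, h2⟩, rfl⟩
    rcases (h _ h1).cases with ⟨c, e⟩ | ⟨c, e⟩
    · simp only at e; subst e; simp at h2
    · simp only at e; subst e; simpa using h1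
  · rintro ⟨h1, h2⟩
    exact ⟨_, ⟨h2, by simp⟩, rfl⟩

theorem Path.len {x z : Str} {l : List Arc} (h : Path x z l) :
    x.length + (ups l).length = z.length + (dns l).length := by
  induction h with
  | nil => rfl
  | cons a b c l h1 _ ih =>
    rcases h1.cases with ⟨d, rfl⟩ | ⟨d, rfl⟩
    · rw [ups_up, dns_up]; simp at ih ⊢; omega
    · rw [ups_dn, dns_dn]; simp at ih ⊢; omega

theorem Path.letters_len {x z : Str} {l : List Arc} (h : Path x z l) :
    (letters l).length = (ups l).length := by
  induction h with
  | nil => rfl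
  | cons a b c l h1 _ ih =>
    rcases h1.cases with ⟨d, rfl⟩ | ⟨d, rfl⟩
    · rw [ups_up, letters_up]; simp [ih]
    · rw [ups_dn, letters_dn, ih]

theorem Path.suffix {x z : Str} {l : List Arc} (h : Path x z l) : z <:+ x ++ letters l := by
  induction h with
  | nil => simp
  | cons a b c l h1 _ ih =>
    rcases h1.cases with ⟨d, rfl⟩ | ⟨d, rfl⟩
    · rw [letters_up]; simpa using ih
    · rw [letters_dn]; exact ih.trans (List.suffix_cons _ _)

theorem Path.verts_infix {x z : Str} {l : List Arc} (h : Path x z l) {v : Str} (hv : v ∈ verts l) :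
    v <:+: x ++ letters l := by
  induction h with
  | nil => simp at hv
  | cons a b c l h1 _ ih =>
    rcases List.mem_cons.1 hv with rfl | hv'
    · exact (List.prefix_append _ _).isInfix
    rcases h1.cases with ⟨d, rfl⟩ | ⟨d, rfl⟩
    · rw [letters_up]; simpa using ih hv'
    · rw [letters_dn]; exact (ih hv').trans (List.suffix_cons _ _).isInfix

def occ (v : Str) : Str → ℕ
  | [] => 0
  | d :: s => occ v s + if v <+: d :: s then 1 else 0

theorem occ_snoc {v : Str} (hv : v ≠ []) (p : Str) (c : ℕ) :
    occ v (p ++ [c]) = occ v p + if v <:+ p ++ [c] then 1 else 0 := by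
  induction p with
  | nil =>
    have h1 := pre_ite (w := [c]) (by simp) v
    have h2 := suf_ite (w := [c]) (by simp) v
    simp only [occ, List.nil_append, h1, h2]; simp [hv]
  | cons d p ih =>
    have h1 := pre_ite (w := d :: p ++ [c]) (by simp) v
    have h2 := suf_ite (w := d :: p ++ [c]) (by simp) v
    rw [List.dropLast_concat] at h1
    simp only [List.cons_append, List.tail_cons] at h1 h2
    simp only [List.cons_append, occ, ih]
    by_cases a : v <:+ p ++ [c] <;> simp only [a, if_true, if_false] at h2 ⊢ <;> omega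

theorem Path.bal' {x z : Str} {l : List Arc} (h : Path x z l) {v : Str} (hv : v ≠ []) :
    nU (ups l) v + occ v x = nD (dns l) v + occ v z := by
  induction h with
  | nil => simp [nU, nD]
  | cons a b c l h1 _ ih =>
    rcases h1.cases with ⟨d, rfl⟩ | ⟨d, rfl⟩
    · rw [ups_up, dns_up, ← Multiset.cons_coe, nU_cons]; rw [occ_snoc hv] at ih; omega
    · rw [ups_dn, dns_dn, ← Multiset.cons_coe, nD_cons, occ]; omega

theorem Path.bal {x : Str} {l : List Arc} (h : Path x x l) : Bal (ups l) (dns l) := fun v hv => by
  have := h.bal' hv; omega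

theorem Path.conn {x z : Str} {l : List Arc} (h : Path x z l) {Z : Str → Prop} (hx : ¬ Z x)
    (h1 : ∀ v ∈ ups l, v ≠ [] → (Z v ↔ Z v.dropLast)) (h2 : ∀ v ∈ dns l, v ≠ [] → (Z v ↔ Z v.tail)) :
    ∀ v ∈ ups l, ¬ Z v := by
  induction h with
  | nil => simp
  | cons a b c l h0 _ ih =>
    rcases h0.cases with ⟨d, rfl⟩ | ⟨d, rfl⟩
    · rw [ups_up] at h1 ⊢; rw [dns_up] at h2
      have : ¬ Z (a ++ [d]) := by rw [h1 _ (by simp) (by simp)]; simpa using hx
      intro v hv
      rcases List.mem_cons.1 hv with rfl | hv
      · exact this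
      · exact ih this (fun v hv => h1 v (by simp [hv])) h2 v hv
    · rw [ups_dn] at h1 ⊢; rw [dns_dn] at h2
      exact ih (by rwa [h2 _ (by simp) (by simp)] at hx) h1 (fun v hv => h2 v (by simp [hv]))

/-! paths between overlapping strings -/

def downs (x : Str) (n : ℕ) : List Arc := (List.range n).map (fun i => (x.drop i, x.drop (i + 1)))
def upsP (y : Str) (k n : ℕ) : List Arc :=
  (List.range n).map (fun i => (y.take (k + i), y.take (k + i + 1)))

theorem path_downs (x : Str) (n : ℕ) (h : n ≤ x.length) :
    Path x (x.drop n) (downs x n) ∧ ups (downs x n) = [] := by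
  induction n with
  | zero => exact ⟨.nil _, rfl⟩
  | succ n ih =>
    obtain ⟨h1, h2⟩ := ih (by omega)
    have e : downs x (n + 1) = downs x n ++ [(x.drop n, x.drop (n + 1))] := by
      simp [downs, List.range_succ]
    rw [e]
    refine ⟨h1.append (.cons _ _ _ _ (Or.inr ⟨by simp; omega, by simp⟩) (.nil _)), ?_⟩
    rw [ups_append, h2]; simp [ups]; omega

theorem path_upsP (y : Str) (k n : ℕ) (h : k + n ≤ y.length) :
    Path (y.take k) (y.take (k + n)) (upsP y k n) := by
  induction n with
  | zero => exact .nil _
  | succ n ih =>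
    have e : upsP y k (n + 1) = upsP y k n ++ [(y.take (k + n), y.take (k + n + 1))] := by
      simp [upsP, List.range_succ]
    rw [e]
    refine (ih (by omega)).append (.cons _ _ _ _ (Or.inl ⟨?_, ?_⟩) (.nil _))
    · intro e; have := congrArg List.length e; simp only [List.length_take, List.length_nil] at this
      omega
    · rw [List.dropLast_eq_take, List.take_take]; congr 1; simp only [List.length_take]; omega

/-- the walk of a superstring -/
structure DP (Val Mx : Str → Prop) (N : ℕ) (l : List Arc) : Prop where
  path : Path [] [] l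
  len : (ups l).length ≤ N
  val : ∀ v ∈ ups l, Val v
  mx : ∀ s, Mx s → s ∈ ups l

theorem exists_DP {Val Mx : Str → Prop} (h0 : Val []) (hinf : ∀ v w, v <:+: w → Val w → Val v)
    (hM : ∀ s, Mx s → s ≠ [] ∧ Val s ∧ ∀ v, Val v → s <:+: v → s = v) (T : Str)
    (hT : ∀ s, Mx s → s <:+: T) : ∃ l, DP Val Mx T.length l := by
  classical
  have dn : ∀ x y : Str, y <:+ x → ∃ l, Path x y l ∧ ups l = [] := by
    intro x y h
    rw [List.suffix_iff_eq_drop.1 h]
    exact ⟨_, path_downs x _ (by omega)⟩
  have key : ∀ T : Str, ∃ x l, Path [] x l ∧ (∀ y, y <:+ T → Val y → y <:+ x) ∧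
      (ups l).length ≤ T.length ∧ (∀ v ∈ ups l, Val v) ∧ ∀ s, Mx s → s <:+: T → s ∈ ups l := by
    intro T
    induction T using List.reverseRecOn with
    | nil => exact ⟨[], [], .nil _, fun y h _ => h, by simp, by simp,
        fun s h1 h2 => ((hM s h1).1 (by simpa using h2)).elim⟩
    | append_singleton T c ih =>
      obtain ⟨x, l, a1, a2, a3, a4, a5⟩ := ih
      have hex : ∃ k, Val ((T ++ [c]).drop k) := ⟨T.length + 1, by simpa using h0⟩
      have y1 := Nat.find_spec hex
      have y2 : ∀ y, y <:+ T ++ [c] → Val y → y <:+ (T ++ [c]).drop (Nat.find hex) := by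
        intro y h1 h2
        have e := List.suffix_iff_eq_drop.1 h1
        have := Nat.find_min' hex (m := (T ++ [c]).length - y.length) (e ▸ h2)
        rw [e]; exact List.drop_suffix_drop_left _ this
      have y3 := List.drop_suffix (Nat.find hex) (T ++ [c])
      generalize (T ++ [c]).drop (Nat.find hex) = y at y1 y2 y3
      have mx : ∀ s, Mx s → s <:+: T ++ [c] → s ∈ ups l ∨ (s = y ∧ y ≠ []) := by
        intro s h1 h2
        rcases List.infix_concat_iff.1 h2 with h | h
        · have := (hM s h1).2.2 y y1 (y2 s h (hM s h1).2.1).isInfix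
          exact Or.inr ⟨this, this ▸ (hM s h1).1⟩
        · exact Or.inl (a5 s h1 h)
      rcases List.suffix_concat_iff.1 y3 with rfl | ⟨y', rfl, hy'⟩
      · obtain ⟨m, m1, m2⟩ := dn x [] List.nil_suffix
        refine ⟨[], l ++ m, a1.append m1, y2, by simp [m2]; omega, by simpa [m2] using a4,
          fun s h1 h2 => ?_⟩
        simpa [m2] using mx s h1 h2
      · obtain ⟨m, m1, m2⟩ := dn x y' (a2 y' hy' (hinf _ _ (List.prefix_append _ _).isInfix y1))
        refine ⟨y' ++ [c], l ++ m ++ [(y', y' ++ [c])],
          (a1.append m1).append (.cons _ _ _ _ (Or.inl (by simp)) (.nil _)), y2, ?_, ?_,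
          fun s h1 h2 => ?_⟩
        · simp [m2, ups_up]; omega
        · intro v hv
          simp only [ups_append, m2, ups_up, List.append_nil, ups_nil, List.mem_append,
            List.mem_singleton] at hv
          rcases hv with hv | rfl
          · exact a4 v hv
          · exact y1
        · simpa [m2, ups_up] using mx s h1 h2
  obtain ⟨x, l, a1, -, a3, a4, a5⟩ := key T
  obtain ⟨m, m1, m2⟩ := dn x [] List.nil_suffix
  exact ⟨l ++ m, a1.append m1, by simpa [m2] using a3, by simpa [m2] using a4,
    fun s h => by simpa [m2] using a5 s h (hT s h)⟩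

theorem Path.lay {x z : Str} {l : List Arc} (h : Path x z l) {β : ℤ → ℕ} {r j j' : ℤ} (hr : r ≤ j)
    (hx : x = cl β r j) (hl : letters l <+: cl β j j') :
    z = cl β (r + (dns l).length) (j + (ups l).length) ∧ r + (dns l).length ≤ j + (ups l).length := by
  induction h generalizing r j with
  | nil => simpa [hx] using hr
  | cons a b c l h1 _ ih =>
    rcases h1.cases with ⟨d, rfl⟩ | ⟨d, rfl⟩
    · rw [letters_up] at hl
      have hj : j < j' := by have := hl.length_le; simp at this; omega
      rw [cl_cons β hj, List.cons_prefix_cons] at hl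
      have := ih (r := r) (j := j + 1) (by omega) (by rw [cl_snoc β hr, hx, hl.1]) hl.2
      rw [ups_up, dns_up, List.length_cons]; push_cast
      rw [show j + ((ups l).length + 1) = j + 1 + (ups l).length by ring]; exact this
    · rw [letters_dn] at hl
      have hj : r < j := by have := congrArg List.length hx; simp at this; omega
      have := ih (r := r + 1) (j := j) (by omega) (by rw [← cl_tail, ← hx]; rfl) hl
      rw [ups_dn, dns_dn, List.length_cons]; push_cast
      rw [show r + ((dns l).length + 1) = r + 1 + (dns l).length by ring]; exact this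

theorem isSt_of_closed {ι : Type} (C : Cfg ι) (K : ι) {w : List Arc} {x : Str} (hp : Path x x w)
    (hne : w ≠ []) (hW : C.W K = (ups w).length) (hV : ∀ v, C.V K v ↔ v ∈ verts w)
    (hU : ∀ v ∈ ups w, C.Uw v) (hD : ∀ v ∈ dns w, C.Dw v) : ∃ β a, IsSt C K β a := by
  have l1 := hp.len
  have l2 := ups_add_dns w
  have l3 := List.length_pos_of_ne_nil hne
  have l4 := hp.letters_len
  set W := C.W K with hWdef
  have hW0 : 0 < W := by omega
  have hper : Per (x ++ letters w) W := by
    unfold Per
    rw [List.length_append, show x.length + (letters w).length - W = x.length by omega,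
      List.take_left']
    · have := List.suffix_iff_eq_drop.1 hp.suffix
      rw [List.length_append, show x.length + (letters w).length - x.length = W by omega] at this
      exact this.symm
    · rfl
  let β : ℤ → ℕ := fun i => (x ++ letters w).getD (i % W).toNat 0
  have hβ : PerF β W := fun i => by simp [β]
  have hc : cl β 0 W <:+: x ++ letters w := by
    have : cl β 0 W = (x ++ letters w).take W := by
      apply List.ext_getElem
      · simp; omega
      · intro n h1 h2
        simp only [cl_length] at h1
        have : ((n : ℤ) % W).toNat = n := by rw [Int.emod_eq_of_lt (by omega) (by omega)]; simp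
        simp only [cl, List.getElem_map, List.getElem_range, zero_add, β, this, List.getElem_take]
        rw [List.getD_eq_getElem?_getD, List.getElem?_eq_getElem (by simp; omega)]; rfl
    rw [this]; exact (List.take_prefix _ _).isInfix
  obtain ⟨r, j', r1, r2, e⟩ := Per.cell hW0 hper hβ (by omega) hc
  have e1 := congrArg List.length e
  simp only [List.length_append, cl_length] at e1
  rw [← cl_append β (show r ≤ r + x.length by omega) (show r + x.length ≤ j' by omega)] at e
  obtain ⟨ex, el⟩ := List.append_inj e (by simp)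
  set j := r + x.length with hj
  have cell : ∀ k (hk : k < w.length), (w[k]).1 = cl β (r + (dns (w.take k)).length)
      (j + (ups (w.take k)).length) ∧ r + (dns (w.take k)).length ≤ j + (ups (w.take k)).length := by
    intro k hk
    have hp' := hp
    rw [← List.take_append_drop k w] at hp'
    obtain ⟨y, p1, p2⟩ := hp'.split
    rw [List.drop_eq_getElem_cons hk] at p2
    rw [p2.of_cons.1]
    refine p1.lay (j' := j') (by omega) ex ?_
    rw [← el]
    conv_rhs => rw [← List.take_append_drop k w, letters_append]
    exact List.prefix_append _ _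
  have cell2 : ∀ k (hk : k < w.length), (w[k]).2 = cl β (r + (dns (w.take (k + 1))).length)
      (j + (ups (w.take (k + 1))).length) := by
    intro k hk
    have hp' := hp
    rw [← List.take_append_drop (k + 1) w] at hp'
    obtain ⟨y, p1, p2⟩ := hp'.split
    have p3 := p1
    rw [List.take_succ_eq_append_getElem hk] at p3
    obtain ⟨y', -, p4⟩ := p3.split
    rw [p4.of_cons.2.2.of_nil]
    refine (p1.lay (j' := j') (by omega) ex ?_).1
    rw [← el]
    conv_rhs => rw [← List.take_append_drop (k + 1) w, letters_append]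
    exact List.prefix_append _ _
  have cnt : ∀ k, k ≤ w.length → (ups (w.take k)).length + (dns (w.take k)).length = k := by
    intro k hk; rw [ups_add_dns]; simp [hk]
  let a : ℤ → ℤ := fun τ => r + (dns (w.take ((τ - (r + j)) % (2 * W)).toNat)).length +
    ((τ - (r + j)) / (2 * W)) * W
  have ha : ∀ (k : ℕ) (q : ℤ), k ≤ 2 * W →
      a (r + j + k + q * (2 * W)) = r + (dns (w.take k)).length + q * W := by
    intro k q hk
    have key : ∀ (k : ℕ) (q : ℤ), k < 2 * W →
        a (r + j + k + q * (2 * W)) = r + (dns (w.take k)).length + q * W := by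
      intro k q hk
      simp only [a]
      rw [show r + j + k + q * (2 * W) - (r + j) = k + q * (2 * W) by ring, Int.add_mul_emod_self_right,
        Int.add_mul_ediv_right _ _ (by omega), Int.emod_eq_of_lt (by omega) (by omega),
        Int.ediv_eq_zero_of_lt (by omega) (by omega)]
      simp
    rcases lt_or_eq_of_le hk with h | h
    · exact key k q h
    · have := key 0 (q + 1) (by omega)
      rw [List.take_of_length_le (by omega), show r + j + k + q * (2 * W) =
        r + j + (0 : ℕ) + (q + 1) * (2 * W) by rw [h]; push_cast; ring, this]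
      simp only [List.take_zero, dns_nil, List.length_nil]
      rw [show (dns w).length = W by omega]; push_cast; ring
  have rep : ∀ τ : ℤ, ∃ (k : ℕ) (q : ℤ), k < w.length ∧ τ = r + j + k + q * (2 * W) := by
    intro τ
    have h1 := Int.emod_add_mul_ediv (τ - (r + j)) (2 * W)
    have h2 := Int.emod_nonneg (τ - (r + j)) (show (2 * W : ℤ) ≠ 0 by omega)
    have h3 := Int.emod_lt_of_pos (τ - (r + j)) (show (0 : ℤ) < 2 * W by omega)
    exact ⟨((τ - (r + j)) % (2 * W)).toNat, (τ - (r + j)) / (2 * W), by omega, by
      rw [Int.toNat_of_nonneg h2]; linarith⟩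
  have cellτ : ∀ (k : ℕ) (hk : k < w.length) (q : ℤ), cl β (a (r + j + k + q * (2 * W)))
      (r + j + k + q * (2 * W) - a (r + j + k + q * (2 * W))) = (w[k]).1 := by
    intro k hk q
    have c := cnt k hk.le
    rw [ha k q (by omega), (cell k hk).1, ← hβ.cl q (r + (dns (w.take k)).length)]
    congr 1
    have : q * (2 * W) = 2 * (q * W) := by ring
    omega
  refine ⟨β, a, hβ, fun τ => ?_, fun τ => ?_, fun τ => ?_, fun τ => ?_, fun v hv => ?_⟩
  · obtain ⟨k, q, hk, rfl⟩ := rep τ
    rw [show r + j + k + q * (2 * W) + 2 * (C.W K : ℤ) = r + j + k + (q + 1) * (2 * W) by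
      rw [← hWdef]; ring, ha k q (by omega), ha k (q + 1) (by omega), ← hWdef]; ring
  · obtain ⟨k, q, hk, rfl⟩ := rep τ
    have c0 := cellτ k hk q
    have c1 := cell2 k hk
    rw [List.take_succ_eq_append_getElem hk, dns_append, ups_append, ← hβ.cl q] at c1
    have c := cnt k hk.le
    have a0 := ha k q (by omega)
    have a1 := ha (k + 1) q (by omega)
    rw [show r + j + ((k + 1 : ℕ) : ℤ) + q * (2 * W) = r + j + k + q * (2 * W) + 1 by push_cast; ring,
      List.take_succ_eq_append_getElem hk, dns_append] at a1
    have hm : w[k] ∈ w := List.getElem_mem hk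
    have hadj := hp.adj hm
    generalize w[k] = arc at *
    obtain ⟨y, z⟩ := arc
    rcases hadj.cases with ⟨d, e⟩ | ⟨d, e⟩ <;> simp only at e <;> subst e
    · right
      rw [dns_up] at a1
      refine ⟨by rw [a1, a0]; simp, hU _ ?_⟩
      rw [dns_up, ups_up] at c1
      have : y ++ [d] ∈ ups w := by
        rw [mem_ups (fun a h => hp.adj h)]; exact ⟨by simp, by simpa using hm⟩
      simp only at c1
      rw [c1] at this
      convert this using 2
      · rw [a0]; simp
      · have : q * (2 * W) = 2 * (q * W) := by ring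
        rw [a0]; simp; omega
    · left
      rw [dns_dn] at a1
      refine ⟨by rw [a1, a0]; simp; ring, hD _ ?_⟩
      rw [c0, mem_dns (fun a h => hp.adj h)]
      exact ⟨by simp, hm⟩
  · obtain ⟨k, q, hk, rfl⟩ := rep τ
    have c := cnt k hk.le
    have := (cell k hk).2
    rw [ha k q (by omega)]
    have : q * (2 * W) = 2 * (q * W) := by ring
    omega
  · obtain ⟨k, q, hk, rfl⟩ := rep τ
    rw [cellτ k hk q, hV]; exact fst_mem (List.getElem_mem hk)
  · obtain ⟨arc, h1, rfl⟩ := List.mem_map.1 ((hV v).1 hv)
    obtain ⟨k, hk, rfl⟩ := List.getElem_of_mem h1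
    exact ⟨_, (cellτ k hk 0).symm⟩

end Crest.Agent.H3.SCS
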