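import Mathlib
import Crest.Agent.H3.OTDual
import Crest.Agent.H3.Limit

/-! The three-atom example on the cube. -/

set_option autoImplicit false
set_option linter.unusedSectionVars false

namespace Crest.Agent.H3.OT

open MeasureTheory Filter Topology Set Crest.AnalysisR.OT
open scoped ENNReal NNReal RealInnerProductSpace BoundedContinuousFunction

section general

variable {E : Type*} [NormedAddCommGroup E] [InnerProductSpace ℝ E] [FiniteDimensional ℝ E]
  [MeasurableSpace E] [BorelSpace E] {ρ : Measure E} {K : Set E} {R : ℝ}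
  {ι : Type*} [Fintype ι] [Nonempty ι]

lemma Src.map_tmap (hs : Src ρ K R) {y : ι → E} (hy : Function.Injective y) (ψ : ι → ℝ) :
    ρ.map (tmap y ψ) = ∑ i, ENNReal.ofReal (mass ρ y ψ i) • Measure.dirac (y i) := by
  have := hs.prob
  have : IsFiniteMeasure (∑ i, ENNReal.ofReal (mass ρ y ψ i) • Measure.dirac (y i)) := ⟨by
    simp [Measure.finsetSum_apply]⟩
  refine ext_of_forall_integral_eq_of_IsFiniteMeasure fun g => ?_
  rw [integral_map (measurable_tmap y ψ).aemeasurable g.continuous.aestronglyMeasurable,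
    hs.integral_tmap hy ψ g.continuous, integral_finsetSum_measure
      fun _ _ ↦ (integrable_dirac (by simp)).smul_measure (by simp)]
  refine Finset.sum_congr rfl fun i _ => ?_
  rw [integral_smul_measure, integral_dirac,
    ENNReal.toReal_ofReal (show 0 ≤ mass ρ y ψ i from measureReal_nonneg), smul_eq_mul]

lemma tmap_mem {y : ι → E} {A : Set E} (h0 : 0 ∈ A) (hy : ∀ i, y i ∈ A) (ψ : ι → ℝ) (x : E) :
    tmap y ψ x ∈ A := by
  by_cases h : ∃ i, x ∈ cell y ψ i
  · obtain ⟨i, hi⟩ := h
    rw [tmap_of_mem hi]; exact hy i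
  · push Not at h
    rw [tmap, Finset.sum_eq_zero fun i _ => indicator_of_notMem (h i) _]
    exact h0

lemma mass_pos (hs : Src (uniformProbOn K) K R) (hKc : IsCompact K) {y : ι → E} {ψ : ι → ℝ} {i : ι}
    {x : E} (hx : x ∈ cell y ψ i) (hx' : x ∈ interior K) : 0 < mass (uniformProbOn K) y ψ i := by
  have := hs.prob
  refine ENNReal.toReal_pos ?_ (measure_ne_top _ _)
  simp only [uniformProbOn, Measure.smul_apply, smul_eq_mul]
  refine mul_ne_zero (ENNReal.inv_ne_zero.2 hKc.measure_lt_top.ne) ?_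
  rw [Measure.restrict_apply (measurableSet_cell y ψ i)]
  refine ne_of_gt (lt_of_lt_of_le ?_ (measure_mono (inter_subset_inter_right _ interior_subset)))
  exact ((isOpen_cell y ψ i).inter isOpen_interior).measure_pos _ ⟨x, hx, hx'⟩

lemma tmap_optimal (hs : Src (uniformProbOn K) K R) (hKc : IsCompact K) {y : ι → E}
    (hy : Function.Injective y) (ψ : ι → ℝ) :
    IsOptimalMap (uniformProbOn K) ((uniformProbOn K).map (tmap y ψ)) (tmap y ψ) ∧
      ∀ T, IsOptimalMap (uniformProbOn K) ((uniformProbOn K).map (tmap y ψ)) T →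
        T =ᵐ[uniformProbOn K] tmap y ψ :=
  hs.optimal_and_unique (ae_nhds_uniform hKc hs.conv)
    (lipschitz_Phi (L := ‖y‖₊) (fun i => norm_le_pi_norm y i) ψ) (measurable_tmap y ψ)
    (ae_of_all _ (norm_tmap_le (norm_le_pi_norm y) ψ))
    ((hs.tmap_subgrad hy ψ).mono fun _ h x' _ => h x')

end general

/-- the cube -/
abbrev cube (d : ℕ) : Set (EuclideanSpace ℝ (Fin d)) := {x | ∀ i, |x i| ≤ 1}

lemma isCompact_cube (d : ℕ) : IsCompact (cube d) := by
  have : cube d = (WithLp.toLp 2) '' (Set.pi univ fun _ : Fin d => Icc (-1 : ℝ) 1) := by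
    ext x
    refine ⟨fun h => ⟨x.ofLp, fun i _ => abs_le.1 (h i), rfl⟩, ?_⟩
    rintro ⟨z, hz, rfl⟩ i
    exact abs_le.2 (hz i trivial)
  rw [this]
  exact (isCompact_univ_pi fun _ => isCompact_Icc).image (PiLp.continuous_toLp 2 _)

lemma convex_cube (d : ℕ) : Convex ℝ (cube d) := fun x hx y hy a b ha hb hab i => by
  have h1 := abs_le.1 (hx i)
  have h2 := abs_le.1 (hy i)
  simp only [PiLp.add_apply, PiLp.smul_apply, smul_eq_mul]
  rw [abs_le]; constructor <;> nlinarith

lemma mem_interior_cube {d : ℕ} {x : EuclideanSpace ℝ (Fin d)} (hx : ∀ i, |x i| < 1) :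
    x ∈ interior (cube d) := by
  refine mem_interior.2 ⟨⋂ i, {x | |x i| < 1}, fun z hz i => (mem_iInter.1 hz i).le, ?_,
    mem_iInter.2 hx⟩
  exact isOpen_iInter_of_finite fun i => isOpen_lt (by fun_prop) continuous_const

/-- a box with a distinguished first side -/
def box (k : ℕ) (a b c e : ℝ) : Set (EuclideanSpace ℝ (Fin (k + 1))) :=
  {x | x 0 ∈ Icc a b ∧ ∀ i : Fin k, x i.succ ∈ Icc c e}

lemma box_eq (k : ℕ) (a b c e : ℝ) : box k a b c e =
    WithLp.ofLp ⁻¹' Icc (Fin.cons a fun _ => c : Fin (k + 1) → ℝ) (Fin.cons b fun _ => e) := by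
  ext x
  simp only [box, mem_preimage, mem_Icc, Pi.le_def, Fin.forall_fin_succ, Fin.cons_zero,
    Fin.cons_succ, mem_ofPred_eq, forall_and]
  tauto

lemma measurableSet_box (k : ℕ) (a b c e : ℝ) : MeasurableSet (box k a b c e) := by
  rw [box_eq]
  exact (PiLp.volume_preserving_ofLp _).measurable measurableSet_Icc

lemma volume_box (k : ℕ) (a b c e : ℝ) :
    volume (box k a b c e) = ENNReal.ofReal (b - a) * ENNReal.ofReal (e - c) ^ k := by
  rw [box_eq, (PiLp.volume_preserving_ofLp _).measure_preimage measurableSet_Icc.nullMeasurableSet,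
    Real.volume_Icc_pi, Fin.prod_univ_succ]
  simp

variable {k : ℕ}

/-- the three atoms -/
noncomputable def atoms (k : ℕ) (θ : ℝ) : Fin 3 → EuclideanSpace ℝ (Fin (k + 2)) :=
  ![EuclideanSpace.single 0 (-1), EuclideanSpace.single 0 1, EuclideanSpace.single 1 θ]

/-- the dual weights -/
def wts (η : ℝ) : Fin 3 → ℝ := ![0, 0, -η]

lemma atoms_inj (θ : ℝ) : Function.Injective (atoms k θ) := by
  intro i j h
  have := congrArg (fun x : EuclideanSpace ℝ (Fin (k + 2)) => x 0) h
  fin_cases i <;> fin_cases j <;> simp [atoms] at this ⊢ <;> norm_num at this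

lemma atoms_mem {θ : ℝ} (hθ : |θ| ≤ 1) (i : Fin 3) : atoms k θ i ∈ cube (k + 2) := by
  intro j
  fin_cases i <;> simp [atoms, PiLp.single_apply] <;> split_ifs <;> simp [hθ]

lemma mem_cell0 {θ η : ℝ} {x : EuclideanSpace ℝ (Fin (k + 2))} :
    x ∈ cell (atoms k θ) (wts η) 0 ↔ x 0 < -x 0 ∧ θ * x 1 + η < -x 0 := by
  simp [cell, atoms, wts, Fin.forall_fin_succ, EuclideanSpace.inner_single_right]

lemma mem_cell1 {θ η : ℝ} {x : EuclideanSpace ℝ (Fin (k + 2))} :
    x ∈ cell (atoms k θ) (wts η) 1 ↔ -x 0 < x 0 ∧ θ * x 1 + η < x 0 := by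
  simp [cell, atoms, wts, Fin.forall_fin_succ, EuclideanSpace.inner_single_right]

lemma mem_cell2 {θ η : ℝ} {x : EuclideanSpace ℝ (Fin (k + 2))} :
    x ∈ cell (atoms k θ) (wts η) 2 ↔ -x 0 < θ * x 1 + η ∧ x 0 < θ * x 1 + η := by
  simp [cell, atoms, wts, Fin.forall_fin_succ, EuclideanSpace.inner_single_right]

lemma atoms_mass_pos {R : ℝ} (hs : Src (uniformProbOn (cube (k + 2))) (cube (k + 2)) R) (θ : ℝ)
    {η : ℝ} (h0 : 0 < η) (h1 : η < 1 / 2) (i : Fin 3) :
    0 < mass (uniformProbOn (cube (k + 2))) (atoms k θ) (wts η) i := by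
  fin_cases i
  · refine mass_pos hs (isCompact_cube _) (x := EuclideanSpace.single 0 (-1 / 2))
      (mem_cell0.2 ?_) (mem_interior_cube fun j => ?_)
    · simp; constructor <;> linarith
    · simp only [PiLp.single_apply]; split_ifs <;> norm_num [abs_lt]
  · refine mass_pos hs (isCompact_cube _) (x := EuclideanSpace.single 0 (1 / 2))
      (mem_cell1.2 ?_) (mem_interior_cube fun j => ?_)
    · simp; linarith
    · simp only [PiLp.single_apply]; split_ifs <;> norm_num [abs_lt]
  · refine mass_pos hs (isCompact_cube _) (x := 0) (mem_cell2.2 ?_) (mem_interior_cube fun j => ?_)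
    · simpa using h0
    · simp

/-- the reflection of the second coordinate -/
noncomputable def refl1 (k : ℕ) :
    EuclideanSpace ℝ (Fin (k + 2)) ≃ₗᵢ[ℝ] EuclideanSpace ℝ (Fin (k + 2)) :=
  LinearIsometryEquiv.piLpCongrRight 2 fun i =>
    if i = 1 then LinearIsometryEquiv.neg ℝ else LinearIsometryEquiv.refl ℝ ℝ

lemma refl1_apply (x : EuclideanSpace ℝ (Fin (k + 2))) (i : Fin (k + 2)) :
    refl1 k x i = if i = 1 then -x i else x i := by
  simp only [refl1, LinearIsometryEquiv.piLpCongrRight_apply]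
  split_ifs <;> simp

lemma refl1_preserving : MeasurePreserving (refl1 k) (uniformProbOn (cube (k + 2)))
    (uniformProbOn (cube (k + 2))) := by
  have h := (refl1 k).measurePreserving.restrict_preimage (isCompact_cube (k + 2)).measurableSet
  have e : refl1 k ⁻¹' cube (k + 2) = cube (k + 2) := by
    ext x
    refine forall_congr' fun i => ?_
    rw [refl1_apply]; split_ifs <;> simp
  rw [e] at h
  exact h.smul_measure _

lemma refl1_cell {θ η : ℝ} {x : EuclideanSpace ℝ (Fin (k + 2))} {i : Fin 3}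
    (hx : x ∈ cell (atoms k θ) (wts η) i) : refl1 k x ∈ cell (atoms k (-θ)) (wts η) i := by
  fin_cases i
  · simpa [mem_cell0, refl1_apply] using hx
  · simpa [mem_cell1, refl1_apply] using hx
  · simpa [mem_cell2, refl1_apply] using hx

lemma cost_upper {R : ℝ} (hs : Src (uniformProbOn (cube (k + 2))) (cube (k + 2)) R) {η : ℝ}
    (h0 : 0 < η) :
    ∫⁻ x, ‖tmap (atoms k η) (wts η) x - tmap (atoms k (-η)) (wts η) (refl1 k x)‖ₑ ^ 2
      ∂(uniformProbOn (cube (k + 2))) ≤
      ENNReal.ofReal (16 * 2 ^ (k + 1) * η ^ 3) * (volume (cube (k + 2)))⁻¹ := by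
  calc _ ≤ ∫⁻ x, (box (k + 1) (-(2 * η)) (2 * η) (-1) 1).indicator
        (fun _ => ENNReal.ofReal (2 * η) ^ 2) x ∂(uniformProbOn (cube (k + 2))) := by
        refine lintegral_mono_ae ?_
        filter_upwards [hs.aeK, hs.ae_mem_cell (atoms_inj η) (wts η)] with x hx ⟨i, hi⟩
        rw [tmap_of_mem hi, tmap_of_mem (refl1_cell hi)]
        fin_cases i
        · simp [atoms]
        · simp [atoms]
        · have h1 := mem_cell2.1 hi
          have h2 := abs_le.1 (hx 1)
          rw [indicator_of_mem (show x ∈ box (k + 1) (-(2 * η)) (2 * η) (-1) 1 from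
            ⟨⟨by nlinarith [h1.1], by nlinarith [h1.2]⟩, fun j => abs_le.1 (hx _)⟩)]
          refine le_of_eq ?_
          congr 1
          rw [← ofReal_norm]
          congr 1
          change ‖EuclideanSpace.single (1 : Fin (k + 2)) η - EuclideanSpace.single 1 (-η)‖ = _
          rw [← PiLp.single_sub, PiLp.norm_single, Real.norm_eq_abs, abs_of_pos (by linarith)]
          ring
    _ ≤ ENNReal.ofReal (2 * η) ^ 2 * ((volume (cube (k + 2)))⁻¹ *
        volume (box (k + 1) (-(2 * η)) (2 * η) (-1) 1)) := by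
        rw [lintegral_indicator_const (measurableSet_box ..)]
        simp only [uniformProbOn, Measure.smul_apply, smul_eq_mul]
        gcongr
        exact Measure.restrict_le_self
    _ = _ := by
        rw [volume_box, mul_comm _⁻¹, ← mul_assoc, ← ENNReal.ofReal_pow (by positivity),
          ← ENNReal.ofReal_pow (by norm_num), ← ENNReal.ofReal_mul (by linarith),
          ← ENNReal.ofReal_mul (by positivity)]
        congr 2; ring

lemma dist_lower {η : ℝ} (h0 : 0 < η) (h1 : η < 1 / 2) :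
    ENNReal.ofReal ((1 / 2) ^ (k + 2) * η) * (volume (cube (k + 2)))⁻¹ ≤
    ∫⁻ x, ‖tmap (atoms k η) (wts η) x - tmap (atoms k (-η)) (wts η) x‖ₑ ^ 2
      ∂(uniformProbOn (cube (k + 2))) := by
  have hsub : box (k + 1) (3 / 4 * η) (5 / 4 * η) (1 / 2) 1 ⊆ cube (k + 2) := by
    rintro x ⟨h2, h3⟩ i
    refine Fin.cases ?_ (fun j => ?_) i
    · rw [abs_le]; constructor <;> linarith [h2.1, h2.2]
    · rw [abs_le]; constructor <;> linarith [(h3 j).1, (h3 j).2]
  calc _ = ∫⁻ x, (box (k + 1) (3 / 4 * η) (5 / 4 * η) (1 / 2) 1).indicator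
        (fun _ => 1) x ∂(uniformProbOn (cube (k + 2))) := by
        rw [lintegral_indicator_const (measurableSet_box ..), one_mul]
        simp only [uniformProbOn, Measure.smul_apply, smul_eq_mul]
        rw [Measure.restrict_apply (measurableSet_box ..), inter_eq_left.2 hsub, volume_box,
          mul_comm, ← ENNReal.ofReal_pow (by norm_num), ← ENNReal.ofReal_mul (by linarith)]
        congr 2; ring
    _ ≤ _ := by
        refine lintegral_mono fun x => ?_
        by_cases hx : x ∈ box (k + 1) (3 / 4 * η) (5 / 4 * η) (1 / 2) 1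
        swap
        · simp only [indicator_of_notMem hx]; exact bot_le
        have h2 := hx.1
        have h3 : x 1 ∈ Icc (1 / 2 : ℝ) 1 := hx.2 0
        have c1 : x ∈ cell (atoms k η) (wts η) 2 :=
          mem_cell2.2 ⟨by nlinarith [h2.1, h3.1], by nlinarith [h2.2, h3.1]⟩
        have c2 : x ∈ cell (atoms k (-η)) (wts η) 1 :=
          mem_cell1.2 ⟨by nlinarith [h2.1], by nlinarith [h2.1, h3.1]⟩
        simp only [indicator_of_mem hx, tmap_of_mem c1, tmap_of_mem c2]
        refine one_le_pow₀ ?_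
        rw [← ofReal_norm, ENNReal.one_le_ofReal]
        simpa [atoms] using PiLp.norm_apply_le (atoms k η 2 - atoms k (-η) 1) 0

end Crest.Agent.H3.OT
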