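import Mathlib

/-! Row 186: Künneth for complexes with one-dimensional cohomology (linear algebra part). -/

set_option autoImplicit false

noncomputable section
namespace Crest.Agent.H3.Tk
open TensorProduct

/-- a differential module cut out by an idempotent, with one-dimensional cohomology -/
structure H1 (k : Type) [Field k] {M : Type} [AddCommGroup M] [Module k M] (d e : M →ₗ[k] M) (x0 : M) :
    Prop where
  de : ∀ x, d (e x) = d x
  ed : ∀ x, e (d x) = d x
  ee : ∀ x, e (e x) = e x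
  dd : ∀ x, d (d x) = 0
  dx : d x0 = 0
  ex : e x0 = x0
  H : ∀ x, e x = x → d x = 0 → ∃ (c : k) (y : M), d y = x + c • x0
  N : ∀ y, d y ≠ x0

section
variable {k : Type} [Field k] {M : Type} [AddCommGroup M] [Module k M] {d e : M →ₗ[k] M} {x0 : M}

lemma H1.contr (h : H1 k d e x0) : ∃ (s : M →ₗ[k] M) (α : M →ₗ[k] k),
    (∀ x, d (s x) + s (d x) = e x - α x • x0) ∧ (∀ x, e (s x) = s x) ∧ (∀ x, s (e x) = s x) ∧
    (∀ x, α (d x) = 0) ∧ (∀ x, α (e x) = α x) ∧ α x0 = 1 := by
  have hx : x0 ∉ LinearMap.range d := fun ⟨y, hy⟩ => h.N y hy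
  obtain ⟨β, hβ1, hβ0⟩ := Submodule.exists_dual_map_eq_bot_of_notMem hx inferInstance
  have hβ : ∀ x, β (d x) = 0 := fun x => by
    have : β (d x) ∈ (LinearMap.range d).map β := ⟨d x, ⟨x, rfl⟩, rfl⟩
    rwa [hβ0, Submodule.mem_bot] at this
  obtain ⟨σ, hσ⟩ := d.rangeRestrict.exists_rightInverse_of_surjective d.range_rangeRestrict
  obtain ⟨π, hπ⟩ := (LinearMap.range d).subtype.exists_leftInverse_of_injective
    (LinearMap.range d).ker_subtype
  set s0 : M →ₗ[k] M := e ∘ₗ σ ∘ₗ π with hs0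
  have h0 : ∀ x, d (s0 (d x)) = d x := fun x => by
    have a : π (d x) = ⟨d x, x, rfl⟩ := LinearMap.congr_fun hπ ⟨d x, x, rfl⟩
    have b := congrArg Subtype.val (LinearMap.congr_fun hσ ⟨d x, x, rfl⟩)
    simp only [hs0, LinearMap.comp_apply, h.de, a]
    exact b
  have e0 : ∀ x, e (s0 x) = s0 x := fun x => h.ee _
  set α : M →ₗ[k] k := (β x0)⁻¹ • (β ∘ₗ (e - s0 ∘ₗ d)) with hα
  have hαa : ∀ x, α x = (β x0)⁻¹ * β (e x - s0 (d x)) := fun x => rfl
  have a1 : ∀ x, α (d x) = 0 := fun x => by rw [hαa, h.ed, h.dd, map_zero, sub_zero, hβ, mul_zero]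
  have a2 : ∀ x, α (e x) = α x := fun x => by rw [hαa, hαa, h.ee, h.de]
  have a3 : α x0 = 1 := by rw [hαa, h.ex, h.dx, map_zero, sub_zero, inv_mul_cancel₀ hβ1]
  have key : ∀ x, d (s0 (e x - s0 (d x) - α x • x0)) = e x - s0 (d x) - α x • x0 := fun x => by
    obtain ⟨c, y, hy⟩ := h.H (e x - s0 (d x)) (by rw [map_sub, h.ee, e0])
      (by rw [map_sub, h.de, h0, sub_self])
    have hc : α x = -c := by
      have := hβ y
      rw [hy, map_add, map_smul, smul_eq_mul] at this
      rw [hαa, eq_neg_of_add_eq_zero_left this]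
      field_simp
    rw [hc, neg_smul, sub_neg_eq_add, ← hy, h0]
  refine ⟨s0 ∘ₗ (e - s0 ∘ₗ d - α.smulRight x0), α, fun x => ?_, fun x => e0 _, fun x => ?_, a1, a2, a3⟩
  · simp only [LinearMap.comp_apply, LinearMap.sub_apply, LinearMap.smulRight_apply]
    rw [key, h.ed, h.dd, a1]
    simp only [map_zero, sub_zero, zero_smul]
    abel
  · simp only [LinearMap.comp_apply, LinearMap.sub_apply, LinearMap.smulRight_apply]
    rw [h.ee, h.de, a2]

variable {M' : Type} [AddCommGroup M'] [Module k M'] {d' e' : M' →ₗ[k] M'} {x0' : M'}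

lemma add_self2 [CharP k 2] {W : Type} [AddCommGroup W] [Module k W] (x : W) : x + x = 0 := by
  rw [← two_smul k x, show (2 : k) = 0 from CharP.ofNat_eq_zero k 2, zero_smul]

lemma H1.tensor [CharP k 2] (h : H1 k d e x0) (h' : H1 k d' e' x0') :
    H1 k (map d e' + map e d') (map e e') (x0 ⊗ₜ[k] x0') := by
  obtain ⟨s, α, s1, s2, s3, a1, a2, a3⟩ := h.contr
  obtain ⟨s', α', s1', s2', s3', a1', a2', a3'⟩ := h'.contr
  set A : M ⊗[k] M' →ₗ[k] k := TensorProduct.lift (LinearMap.mul k k) ∘ₗ map α α' with hA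
  have hAt : ∀ x y, A (x ⊗ₜ y) = α x * α' y := fun x y => by simp [hA]
  have key : ∀ z, (map d e' + map e d') ((map s e' + map (α.smulRight x0) s') z) +
      (map s e' + map (α.smulRight x0) s') ((map d e' + map e d') z) =
      map e e' z - A z • (x0 ⊗ₜ[k] x0') := by
    intro z
    induction z using TensorProduct.induction_on with
    | zero => simp
    | add x y hx hy =>
      simp only [map_add, add_smul] at hx hy ⊢
      linear_combination (norm := module) hx + hy
    | tmul x y =>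
      simp only [LinearMap.add_apply, map_tmul, map_add, LinearMap.smulRight_apply, map_smul, h.dx,
        h.ex, a1, a2, s2, s3, s2', h'.ee, h'.de, h'.ed, hAt, zero_smul, zero_tmul, smul_zero]
      have b1 : d (s x) ⊗ₜ[k] e' y + s (d x) ⊗ₜ[k] e' y = e x ⊗ₜ[k] e' y - (α x • x0) ⊗ₜ[k] e' y := by
        rw [← add_tmul, s1, sub_tmul]
      have b2 : (α x • x0) ⊗ₜ[k] d' (s' y) + (α x • x0) ⊗ₜ[k] s' (d' y) =
          (α x • x0) ⊗ₜ[k] e' y - (α x * α' y) • x0 ⊗ₜ[k] x0' := by
        rw [← tmul_add, s1', tmul_sub, tmul_smul, smul_tmul', smul_smul, mul_comm, smul_tmul']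
      have b3 := add_self2 (k := k) (s x ⊗ₜ[k] d' y)
      linear_combination (norm := module) b1 + b2 + b3
  refine ⟨fun z => ?_, fun z => ?_, fun z => ?_, fun z => ?_, ?_, ?_, fun z hz hd => ?_, fun z hz => ?_⟩
  · induction z using TensorProduct.induction_on with
    | zero => simp
    | add x y hx hy => simp only [map_add, hx, hy]
    | tmul x y => simp [h.de, h.ee, h'.de, h'.ee]
  · induction z using TensorProduct.induction_on with
    | zero => simp
    | add x y hx hy => simp only [map_add, hx, hy]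
    | tmul x y => simp [h.ed, h.ee, h'.ed, h'.ee]
  · induction z using TensorProduct.induction_on with
    | zero => simp
    | add x y hx hy => simp only [map_add, hx, hy]
    | tmul x y => simp [h.ee, h'.ee]
  · induction z using TensorProduct.induction_on with
    | zero => simp
    | add x y hx hy => simp only [map_add, hx, hy, add_zero]
    | tmul x y =>
      simp only [LinearMap.add_apply, map_tmul, map_add, h.dd, h'.dd, h.de, h.ed, h'.de, h'.ed,
        zero_tmul, tmul_zero, zero_add, add_zero]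
      exact add_self2 (k := k) _
  · simp [h.dx, h'.dx]
  · simp [h.ex, h'.ex]
  · refine ⟨-A z, (map s e' + map (α.smulRight x0) s') z, ?_⟩
    have := key z
    rw [hd, map_zero, add_zero, hz] at this
    rw [this, neg_smul, sub_eq_add_neg]
  · have h1 : A ((map d e' + map e d') z) = 0 := by
      clear hz
      induction z using TensorProduct.induction_on with
      | zero => simp
      | add x y hx hy => simp only [map_add, hx, hy, add_zero]
      | tmul x y => simp [hAt, a1, a1']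
    rw [hz, hAt, a3, a3', one_mul] at h1
    exact one_ne_zero h1

lemma H1.transport {N : Type} [AddCommGroup N] [Module k N] (h : H1 k d e x0) (E : M ≃ₗ[k] N)
    {D F : N →ₗ[k] N} (hD : ∀ x, D (E x) = E (d x)) (hF : ∀ x, F (E x) = E (e x)) :
    H1 k D F (E x0) := by
  refine ⟨fun z => ?_, fun z => ?_, fun z => ?_, fun z => ?_, ?_, ?_, fun z hz hd => ?_, fun z hz => ?_⟩
  all_goals try obtain ⟨z, rfl⟩ := E.surjective z
  · rw [hF, hD, hD, h.de]
  · rw [hD, hF, h.ed]
  · rw [hF, hF, h.ee]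
  · rw [hD, hD, h.dd, map_zero]
  · rw [hD, h.dx, map_zero]
  · rw [hF, h.ex]
  · rw [hF, E.injective.eq_iff] at hz
    rw [hD, E.map_eq_zero_iff] at hd
    obtain ⟨c, y, hy⟩ := h.H z hz hd
    exact ⟨c, E y, by rw [hD, hy, map_add, map_smul]⟩
  · rw [hD, E.injective.eq_iff] at hz
    exact h.N z hz
end

/-! ### graded version on `I →₀ R` -/
section
variable {k : Type} [Field k] {I R : Type} [AddCommGroup R] [Module k R] (g : I → ℤ)

/-- homogeneous of degree `n` -/
def Hm (n : ℤ) (x : I →₀ R) : Prop := ∀ j, g j ≠ n → x j = 0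

def pr (n : ℤ) (x : I →₀ R) : I →₀ R := x.filter fun j => g j = n

lemma pr_apply (n : ℤ) (x : I →₀ R) (j : I) : pr g n x j = if g j = n then x j else 0 := by
  simp [pr, Finsupp.filter_apply]

lemma pr_add (n : ℤ) (x y : I →₀ R) : pr g n (x + y) = pr g n x + pr g n y := Finsupp.filter_add
lemma pr_smul (n : ℤ) (c : k) (x : I →₀ R) : pr g n (c • x) = c • pr g n x := Finsupp.filter_smul
lemma pr_zero (n : ℤ) : pr g n (0 : I →₀ R) = 0 := Finsupp.filter_zero _
lemma hm_pr (n : ℤ) (x : I →₀ R) : Hm g n (pr g n x) := fun j hj => by rw [pr_apply, if_neg hj]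
variable {g}
lemma Hm.pr_eq {n : ℤ} {x : I →₀ R} (h : Hm g n x) : pr g n x = x := by
  ext j; rw [pr_apply]; split_ifs with hj
  · rfl
  · exact (h j hj).symm
lemma Hm.pr_ne {n m : ℤ} {x : I →₀ R} (h : Hm g n x) (hm : m ≠ n) : pr g m x = 0 := by
  ext j; rw [pr_apply]; split_ifs with hj
  · exact h j (hj ▸ hm)
  · rfl

lemma sum_pr (x : I →₀ R) : ∑ n ∈ x.support.image g, pr g n x = x := by
  ext j
  rw [Finsupp.finsetSum_apply]
  simp only [pr_apply]
  rw [Finset.sum_ite_eq]
  split_ifs with hj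
  · rfl
  · by_contra hx
    exact hj (Finset.mem_image_of_mem g (Finsupp.mem_support_iff.2 (Ne.symm hx)))

/-- a map raising the degree by `a` on generators commutes with the projections -/
lemma pr_comm (d : (I →₀ R) →ₗ[k] (I →₀ R)) (a : ℤ)
    (hd : ∀ i r, Hm g (g i + a) (d (Finsupp.single i r))) (n : ℤ) (x : I →₀ R) :
    d (pr g n x) = pr g (n + a) (d x) := by
  induction x using Finsupp.induction_linear with
  | zero => simp [pr_zero]
  | add x y hx hy => simp only [pr_add, map_add, hx, hy]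
  | single i r =>
    have hs : Hm g (g i) (Finsupp.single i r) := fun j hj =>
      Finsupp.single_eq_of_ne (fun h => hj (h ▸ rfl))
    by_cases hn : n = g i
    · subst hn; rw [hs.pr_eq, (hd i r).pr_eq]
    · rw [hs.pr_ne hn, map_zero, (hd i r).pr_ne (by omega)]

variable (g) in
/-- graded form of the two last clauses of `H1` -/
def GG (d e : (I →₀ R) →ₗ[k] (I →₀ R)) (n0 : ℤ) (x0 : I →₀ R) : Prop :=
  (∀ n x, Hm g n x → e x = x → d x = 0 →
    ∃ (c : k) (y : I →₀ R), (n ≠ n0 → c = 0) ∧ Hm g (n - 1) y ∧ e y = y ∧ d y = x + c • x0) ∧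
  ∀ y, Hm g (n0 - 1) y → e y = y → d y ≠ x0

variable {d e : (I →₀ R) →ₗ[k] (I →₀ R)} {n0 : ℤ} {x0 : I →₀ R}

lemma GG.h1 (h : GG g d e n0 x0) (hd : ∀ n x, d (pr g n x) = pr g (n + 1) (d x))
    (he : ∀ n x, e (pr g n x) = pr g n (e x)) (h0 : Hm g n0 x0)
    (de : ∀ x, d (e x) = d x) (ed : ∀ x, e (d x) = d x) (ee : ∀ x, e (e x) = e x)
    (dd : ∀ x, d (d x) = 0) (dx : d x0 = 0) (ex : e x0 = x0) : H1 k d e x0 := by
  refine ⟨de, ed, ee, dd, dx, ex, fun x hx hdx => ?_, fun y hy => ?_⟩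
  · have : ∀ n, ∃ (c : k) (y : I →₀ R), d y = pr g n x + c • x0 := fun n => by
      obtain ⟨c, y, -, -, -, hy⟩ := h.1 n (pr g n x) (hm_pr g n x) (by rw [he, hx])
        (by rw [hd, hdx, pr_zero])
      exact ⟨c, y, hy⟩
    choose c y hy using this
    refine ⟨∑ n ∈ x.support.image g, c n, ∑ n ∈ x.support.image g, y n, ?_⟩
    rw [map_sum, Finset.sum_congr rfl fun n _ => hy n, Finset.sum_add_distrib, sum_pr, Finset.sum_smul]
  · refine h.2 (pr g (n0 - 1) (e y)) (hm_pr _ _ _) (by rw [he, ee]) ?_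
    rw [hd, de, hy, sub_add_cancel, h0.pr_eq]

lemma H1.gg (h : H1 k d e x0) (hd : ∀ n x, d (pr g n x) = pr g (n + 1) (d x))
    (he : ∀ n x, e (pr g n x) = pr g n (e x)) (h0 : Hm g n0 x0) : GG g d e n0 x0 := by
  refine ⟨fun n x hn hx hdx => ?_, fun y _ _ => h.N y⟩
  obtain ⟨c, y, hy⟩ := h.H x hx hdx
  have hh : d (pr g (n - 1) (e y)) = x + c • pr g n x0 := by
    rw [hd, h.de, hy, sub_add_cancel, pr_add, pr_smul, hn.pr_eq]
  by_cases hn0 : n = n0
  · subst hn0
    exact ⟨c, pr g (n - 1) (e y), fun h => (h rfl).elim, hm_pr _ _ _, by rw [he, h.ee], by rw [hh, h0.pr_eq]⟩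
  · exact ⟨0, pr g (n - 1) (e y), fun _ => rfl, hm_pr _ _ _, by rw [he, h.ee],
      by rw [hh, h0.pr_ne hn0, smul_zero, zero_smul]⟩
end

end Crest.Agent.H3.Tk
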