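import Crest.Agent.H6.TkI
import Crest.Agent.H3.TkA

/-! Row 186: rows and columns of a complex as graded vector spaces. -/

set_option autoImplicit false

noncomputable section
namespace Crest.Agent.H3.Tk
open Crest.Agent.H6.Tk Finsupp MulOpposite

section
variable {R : Type} [Ring R] {I J : Type}

lemma lin_single (Φ : (I →₀ R) →ₗ[R] (J →₀ R)) (i : I) (r : R) :
    Φ (single i r) = r • Φ (single i 1) := by
  rw [← map_smul, smul_single, smul_eq_mul, mul_one]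

lemma one_single (P : Cx R) (i : P.I) (r : R) : P.one (single i r) = single i (r * P.ε i) := by
  simp [Cx.one]

lemma one_apply (P : Cx R) (x : P.I →₀ R) (j : P.I) : P.one x j = x j * P.ε j := by
  induction x using Finsupp.induction_linear with
  | zero => simp
  | add x y hx hy => simp [hx, hy, add_mul]
  | single i r =>
    rw [one_single]
    by_cases h : j = i
    · subst h; simp
    · rw [single_eq_of_ne h, single_eq_of_ne h, zero_mul]

variable {P P' : Cx R} {n : ℤ} {Φ : Ch P P' R}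

lemma comp_one (h : IsC P P' R n Φ) : Φ ∘ₗ P.one = Φ := by
  refine Finsupp.lhom_ext fun i r => ?_
  ext j
  rw [LinearMap.comp_apply, one_single, lin_single, lin_single Φ i r]
  simp only [Finsupp.smul_apply, smul_eq_mul, mul_assoc]
  rw [← smul_eq_mul (P.ε i), (h i j).2.1]

lemma one_comp (h : IsC P P' R n Φ) : P'.one ∘ₗ Φ = Φ := by
  refine Finsupp.lhom_ext fun i r => ?_
  ext j
  rw [LinearMap.comp_apply, one_apply, lin_single Φ i r]
  simp only [Finsupp.smul_apply, smul_eq_mul, mul_assoc]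
  have := (h i j).2.2
  rw [op_smul_eq_mul] at this
  rw [this]

lemma one_isC (P : Cx R) : IsC P P R 0 P.one := by
  intro i j
  rw [one_single, one_mul]
  by_cases h : j = i
  · subst h; simp [P.idem]
  · simp [single_eq_of_ne h]

lemma d_isC (P : Cx R) : IsC P P R 1 P.d := P.d_isM

lemma δ_self (Φ : Ch P P' R) : δ P P' R Φ = Φ ∘ₗ P.d + P'.d ∘ₗ Φ := by rw [δ, tens_self]

/-! rows -/

def vr (Q : Cx R) (x : Q.I →₀ R) : Ch (pt R) Q R := Finsupp.linearCombination R fun _ => x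

lemma vr_single (Q : Cx R) (x : Q.I →₀ R) : vr Q x (single () 1) = x := by simp [vr]

lemma vr_rv {Q : Cx R} (v : Ch (pt R) Q R) : vr Q (v (single () 1)) = v := by
  refine Finsupp.lhom_ext fun i r => ?_
  rw [lin_single v i r]; simp [vr]; rfl

lemma vr_inj {Q : Cx R} {x y : Q.I →₀ R} (h : vr Q x = vr Q y) : x = y := by
  rw [← vr_single Q x, h, vr_single]

lemma isC_vr {Q : Cx R} (x : Q.I →₀ R) : IsC (pt R) Q R n (vr Q x) ↔ Hm Q.deg n x ∧ Q.one x = x := by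
  constructor
  · intro h
    refine ⟨fun j hj => ?_, ?_⟩
    · have := (h () j).1 (by simpa [pt] using hj)
      rwa [vr_single] at this
    · ext j
      have := (h () j).2.2
      rwa [vr_single, op_smul_eq_mul, ← one_apply] at this
  · rintro ⟨h1, h2⟩ ⟨⟩ j
    rw [vr_single]
    refine ⟨fun hj => h1 j (by simpa [pt] using hj), one_smul _ _, ?_⟩
    rw [op_smul_eq_mul, ← one_apply, h2]

lemma δ_vr {Q : Cx R} (x : Q.I →₀ R) : δ (pt R) Q R (vr Q x) = vr Q (Q.d x) := by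
  rw [← vr_rv (δ (pt R) Q R (vr Q x)), δ_self]
  congr 1
  rw [LinearMap.add_apply, LinearMap.comp_apply, LinearMap.comp_apply, vr_single]
  exact add_eq_right.2 (map_zero _)

lemma vr_add {Q : Cx R} (x y : Q.I →₀ R) : vr Q (x + y) = vr Q x + vr Q y := by
  rw [← vr_rv (vr Q x + vr Q y), LinearMap.add_apply, vr_single, vr_single]

lemma vr_zero (Q : Cx R) : vr Q 0 = 0 := by
  rw [← vr_rv (0 : Ch (pt R) Q R)]; rfl

lemma cy_vr {Q : Cx R} (x : Q.I →₀ R) :
    Cy (pt R) Q R n (vr Q x) ↔ Hm Q.deg n x ∧ Q.one x = x ∧ Q.d x = 0 := by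
  rw [Cy, isC_vr, δ_vr, and_assoc, ← vr_zero]
  exact and_congr_right fun _ => and_congr_right fun _ => ⟨vr_inj, fun h => by rw [h]⟩

lemma bd_vr {Q : Cx R} (x : Q.I →₀ R) :
    Bd (pt R) Q R n (vr Q x) ↔ ∃ y, Hm Q.deg (n - 1) y ∧ Q.one y = y ∧ Q.d y = x := by
  constructor
  · rintro ⟨Ψ, h1, h2⟩
    rw [← vr_rv Ψ] at h1 h2
    rw [isC_vr] at h1
    rw [δ_vr] at h2
    exact ⟨_, h1.1, h1.2, vr_inj h2⟩
  · rintro ⟨y, h1, h2, h3⟩
    exact ⟨vr Q y, (isC_vr y).2 ⟨h1, h2⟩, by rw [δ_vr, h3]⟩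

/-! columns -/

def wc (Q : Cx R) (x : Q.I →₀ R) : Ch Q (pt R) R :=
  Finsupp.lsingle () ∘ₗ Finsupp.linearCombination R x

lemma wc_single (Q : Cx R) (x : Q.I →₀ R) (i : Q.I) : wc Q x (single i 1) () = x i := by simp [wc]

lemma col_ext {Q : Cx R} {w w' : Ch Q (pt R) R} (h : ∀ i, w (single i 1) () = w' (single i 1) ()) :
    w = w' := by
  refine Finsupp.lhom_ext fun i r => ?_
  ext ⟨⟩
  rw [lin_single w, lin_single w', Finsupp.smul_apply, Finsupp.smul_apply, h]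

lemma wc_inj {Q : Cx R} {x y : Q.I →₀ R} (h : wc Q x = wc Q y) : x = y := by
  ext i; rw [← wc_single Q x, h, wc_single]

lemma exists_wc {Q : Cx R} {w : Ch Q (pt R) R} (h : IsC Q (pt R) R n w) : ∃ x, wc Q x = w := by
  refine ⟨Finsupp.ofSupportFinite (fun i => w (single i 1) ()) ((Q.fin (-n)).subset fun i hi => ?_),
    col_ext fun i => by rw [wc_single]; rfl⟩
  by_contra hc
  exact hi ((h i ()).1 (by simp only [pt, Set.mem_ofPred_eq] at hc ⊢; omega))

lemma wc_add {Q : Cx R} (x y : Q.I →₀ R) : wc Q (x + y) = wc Q x + wc Q y :=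
  col_ext fun i => by simp [wc_single]

lemma wc_zero (Q : Cx R) : wc Q 0 = 0 := col_ext fun i => by rw [wc_single]; rfl
end

section
variable (k : Type) [Field k] {R : Type} [Ring R] [Algebra k R]

lemma vr_smul {Q : Cx R} (c : k) (x : Q.I →₀ R) : vr Q (c • x) = c • vr Q x := by
  rw [← vr_rv (c • vr Q x), LinearMap.smul_apply, vr_single]

lemma wc_smul {Q : Cx R} (c : k) (x : Q.I →₀ R) : wc Q (c • x) = c • wc Q x :=
  col_ext fun i => by simp [wc_single]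

/-- transpose of a homogeneous matrix -/
def trp {P P' : Cx R} {n : ℤ} (Φ : Ch P P' R) (h : IsC P P' R n Φ) : (P'.I →₀ R) →ₗ[k] (P.I →₀ R) :=
  Finsupp.lsum k fun j =>
    { toFun := fun b => (Finsupp.ofSupportFinite (fun i => Φ (single i 1) j)
        ((P.fin (P'.deg j - n)).subset fun i hi => by
          by_contra hc
          exact hi ((h i j).1 (by simp only [Set.mem_ofPred_eq] at hc; omega)))).mapRange (· * b)
          (zero_mul b)
      map_add' := fun a b => by ext i; simp [mul_add]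
      map_smul' := fun a b => by ext i; simp }

lemma trp_single {P P' : Cx R} {n : ℤ} (Φ : Ch P P' R) (h : IsC P P' R n Φ) (j : P'.I) (b : R) (i : P.I) :
    trp k Φ h (single j b) i = Φ (single i 1) j * b := by
  simp [trp, Finsupp.ofSupportFinite_coe]

lemma wc_trp {P P' : Cx R} {n : ℤ} (Φ : Ch P P' R) (h : IsC P P' R n Φ) (x : P'.I →₀ R) :
    wc P (trp k Φ h x) = wc P' x ∘ₗ Φ := by
  induction x using Finsupp.induction_linear with
  | zero => rw [map_zero, wc_zero, wc_zero, LinearMap.zero_comp]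
  | add x y hx hy => rw [map_add, wc_add, wc_add, hx, hy, LinearMap.add_comp]
  | single j b =>
    refine col_ext fun i => ?_
    rw [wc_single, trp_single, LinearMap.comp_apply]
    generalize Φ (single i 1) = y
    induction y using Finsupp.induction_linear with
    | zero => rw [map_zero]; exact zero_mul _
    | add x y hx hy => simp only [Finsupp.add_apply, add_mul, map_add, hx, hy]
    | single j' r =>
      rw [lin_single, Finsupp.smul_apply, wc_single]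
      by_cases hj : j = j'
      · subst hj; simp
      · rw [single_eq_of_ne hj, single_eq_of_ne (Ne.symm hj), zero_mul, smul_zero]

def cD (Q : Cx R) : (Q.I →₀ R) →ₗ[k] (Q.I →₀ R) := trp k Q.d (d_isC Q)
def cE (Q : Cx R) : (Q.I →₀ R) →ₗ[k] (Q.I →₀ R) := trp k Q.one (one_isC Q)
def rD (Q : Cx R) : (Q.I →₀ R) →ₗ[k] (Q.I →₀ R) := Q.d.restrictScalars k
def rE (Q : Cx R) : (Q.I →₀ R) →ₗ[k] (Q.I →₀ R) := Q.one.restrictScalars k

lemma wc_cD (Q : Cx R) (x : Q.I →₀ R) : wc Q (cD k Q x) = wc Q x ∘ₗ Q.d := wc_trp k _ _ x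
lemma wc_cE (Q : Cx R) (x : Q.I →₀ R) : wc Q (cE k Q x) = wc Q x ∘ₗ Q.one := wc_trp k _ _ x

lemma cE_apply (Q : Cx R) (x : Q.I →₀ R) (i : Q.I) : cE k Q x i = Q.ε i * x i := by
  rw [← wc_single Q (cE k Q x), wc_cE, LinearMap.comp_apply, one_single, one_mul, lin_single,
    Finsupp.smul_apply, wc_single, smul_eq_mul]

lemma isC_wc {Q : Cx R} {n : ℤ} (x : Q.I →₀ R) :
    IsC Q (pt R) R n (wc Q x) ↔ Hm (fun i => -Q.deg i) n x ∧ cE k Q x = x := by
  constructor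
  · intro h
    refine ⟨fun j hj => ?_, ?_⟩
    · have := (h j ()).1 (by simp only [pt] at hj ⊢; omega)
      rwa [wc_single] at this
    · ext j
      have := (h j ()).2.1
      rwa [wc_single, smul_eq_mul, ← cE_apply k] at this
  · rintro ⟨h1, h2⟩ j ⟨⟩
    rw [wc_single]
    refine ⟨fun hj => h1 j (by simp only [pt] at hj ⊢; omega), ?_, one_smul _ _⟩
    rw [smul_eq_mul, ← cE_apply k, h2]

lemma δ_wc {Q : Cx R} (x : Q.I →₀ R) : δ Q (pt R) R (wc Q x) = wc Q (cD k Q x) := by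
  rw [δ_self, wc_cD]
  exact add_eq_left.2 (LinearMap.zero_comp _)

lemma cy_wc {Q : Cx R} {n : ℤ} (x : Q.I →₀ R) :
    Cy Q (pt R) R n (wc Q x) ↔ Hm (fun i => -Q.deg i) n x ∧ cE k Q x = x ∧ cD k Q x = 0 := by
  rw [Cy, isC_wc k, δ_wc k, and_assoc, ← wc_zero]
  exact and_congr_right fun _ => and_congr_right fun _ => ⟨wc_inj, fun h => by rw [h]⟩

lemma bd_wc {Q : Cx R} {n : ℤ} (x : Q.I →₀ R) :
    Bd Q (pt R) R n (wc Q x) ↔
      ∃ y, Hm (fun i => -Q.deg i) (n - 1) y ∧ cE k Q y = y ∧ cD k Q y = x := by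
  constructor
  · rintro ⟨Ψ, h1, h2⟩
    obtain ⟨y, rfl⟩ := exists_wc h1
    rw [isC_wc k] at h1
    rw [δ_wc k] at h2
    exact ⟨_, h1.1, h1.2, wc_inj h2⟩
  · rintro ⟨y, h1, h2, h3⟩
    exact ⟨wc Q y, (isC_wc k y).2 ⟨h1, h2⟩, by rw [δ_wc k, h3]⟩

lemma rD_pr (Q : Cx R) (n : ℤ) (x : Q.I →₀ R) :
    rD k Q (pr Q.deg n x) = pr Q.deg (n + 1) (rD k Q x) :=
  pr_comm _ 1 (fun i r j hj => by
    change Q.d (single i r) j = 0
    rw [lin_single, Finsupp.smul_apply, (Q.d_isM i j).1 hj, smul_zero]) n x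

lemma rE_pr (Q : Cx R) (n : ℤ) (x : Q.I →₀ R) :
    rE k Q (pr Q.deg n x) = pr Q.deg n (rE k Q x) := by
  have := pr_comm (g := Q.deg) (rE k Q) 0 (fun i r j hj => by
    change Q.one (single i r) j = 0
    rw [lin_single, Finsupp.smul_apply, (one_isC Q i j).1 hj, smul_zero]) n x
  rwa [add_zero] at this

lemma cD_pr (Q : Cx R) (n : ℤ) (x : Q.I →₀ R) :
    cD k Q (pr (fun i => -Q.deg i) n x) = pr (fun i => -Q.deg i) (n + 1) (cD k Q x) :=
  pr_comm _ 1 (fun i r j hj => by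
    rw [cD, trp_single, (Q.d_isM j i).1 (by omega), zero_mul]) n x

lemma cE_pr (Q : Cx R) (n : ℤ) (x : Q.I →₀ R) :
    cE k Q (pr (fun i => -Q.deg i) n x) = pr (fun i => -Q.deg i) n (cE k Q x) := by
  have := pr_comm (g := fun i => -Q.deg i) (cE k Q) 0 (fun i r j hj => by
    rw [cE, trp_single, (one_isC Q j i).1 (by simp only at hj; omega), zero_mul]) n x
  rwa [add_zero] at this

/-- cohomology of the rows is spanned by `v0` -/
def RowG (Q : Cx R) (n0 : ℤ) (v0 : Ch (pt R) Q R) : Prop :=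
  (∀ n v, Cy (pt R) Q R n v → (n ≠ n0 → Bd (pt R) Q R n v) ∧ ∃ c : k, Bd (pt R) Q R n (v + c • v0)) ∧
    ¬ Bd (pt R) Q R n0 v0

def ColG (Q : Cx R) (n0 : ℤ) (w0 : Ch Q (pt R) R) : Prop :=
  (∀ n w, Cy Q (pt R) R n w → (n ≠ n0 → Bd Q (pt R) R n w) ∧ ∃ c : k, Bd Q (pt R) R n (w + c • w0)) ∧
    ¬ Bd Q (pt R) R n0 w0

lemma rowG_iff (Q : Cx R) (n0 : ℤ) (x0 : Q.I →₀ R) (h0 : Cy (pt R) Q R n0 (vr Q x0)) :
    RowG k Q n0 (vr Q x0) ↔ H1 k (rD k Q) (rE k Q) x0 := by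
  rw [cy_vr] at h0
  constructor
  · rintro ⟨h1, h2⟩
    refine GG.h1 (g := Q.deg) (n0 := n0) ⟨fun n x a b c => ?_, fun y a b c => h2 ((bd_vr _).2 ⟨y, a, b, c⟩)⟩
      (rD_pr k Q) (rE_pr k Q) h0.1 (LinearMap.congr_fun (comp_one (d_isC Q)))
      (LinearMap.congr_fun (one_comp (d_isC Q))) (LinearMap.congr_fun (one_comp (one_isC Q)))
      (LinearMap.congr_fun Q.dd) h0.2.2 h0.2.1
    obtain ⟨p1, e, p2⟩ := h1 n (vr Q x) ((cy_vr x).2 ⟨a, b, c⟩)
    by_cases hn : n = n0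
    · rw [← vr_smul, ← vr_add, bd_vr] at p2
      obtain ⟨y, hy⟩ := p2
      exact ⟨e, y, fun h => (h hn).elim, hy⟩
    · obtain ⟨y, hy⟩ := (bd_vr x).1 (p1 hn)
      exact ⟨0, y, fun _ => rfl, by rwa [zero_smul, add_zero]⟩
  · intro h
    have := h.gg (rD_pr k Q) (rE_pr k Q) h0.1
    refine ⟨fun n v hv => ?_, fun hb => ?_⟩
    · rw [← vr_rv v] at hv ⊢
      obtain ⟨a, b, c⟩ := (cy_vr _).1 hv
      obtain ⟨e, y, he, hy⟩ := this.1 n _ a b c
      refine ⟨fun hn => (bd_vr _).2 ⟨y, ?_⟩, e, ?_⟩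
      · rwa [he hn, zero_smul, add_zero] at hy
      · rw [← vr_smul, ← vr_add, bd_vr]; exact ⟨y, hy⟩
    · obtain ⟨y, a, b, c⟩ := (bd_vr _).1 hb
      exact this.2 y a b c

lemma colG_iff (Q : Cx R) (n0 : ℤ) (x0 : Q.I →₀ R) (h0 : Cy Q (pt R) R n0 (wc Q x0)) :
    ColG k Q n0 (wc Q x0) ↔ H1 k (cD k Q) (cE k Q) x0 := by
  rw [cy_wc k] at h0
  constructor
  · rintro ⟨h1, h2⟩
    refine GG.h1 (g := fun i => -Q.deg i) (n0 := n0)
      ⟨fun n x a b c => ?_, fun y a b c => h2 ((bd_wc k _).2 ⟨y, a, b, c⟩)⟩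
      (cD_pr k Q) (cE_pr k Q) h0.1 (fun x => wc_inj ?_) (fun x => wc_inj ?_) (fun x => wc_inj ?_)
      (fun x => wc_inj ?_) h0.2.2 h0.2.1
    · obtain ⟨p1, e, p2⟩ := h1 n (wc Q x) ((cy_wc k x).2 ⟨a, b, c⟩)
      by_cases hn : n = n0
      · rw [← wc_smul, ← wc_add, bd_wc k] at p2
        obtain ⟨y, hy⟩ := p2
        exact ⟨e, y, fun h => (h hn).elim, hy⟩
      · obtain ⟨y, hy⟩ := (bd_wc k x).1 (p1 hn)
        exact ⟨0, y, fun _ => rfl, by rwa [zero_smul, add_zero]⟩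
    · rw [wc_cD, wc_cE, wc_cD, LinearMap.comp_assoc, one_comp (d_isC Q)]
    · rw [wc_cE, wc_cD, LinearMap.comp_assoc, comp_one (d_isC Q)]
    · rw [wc_cE, wc_cE, LinearMap.comp_assoc, comp_one (one_isC Q)]
    · rw [wc_cD, wc_cD, LinearMap.comp_assoc, Q.dd, wc_zero, LinearMap.comp_zero]
  · intro h
    have := h.gg (cD_pr k Q) (cE_pr k Q) h0.1
    refine ⟨fun n v hv => ?_, fun hb => ?_⟩
    · obtain ⟨x, rfl⟩ := exists_wc hv.1
      obtain ⟨a, b, c⟩ := (cy_wc k _).1 hv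
      obtain ⟨e, y, he, hy⟩ := this.1 n _ a b c
      refine ⟨fun hn => (bd_wc k _).2 ⟨y, ?_⟩, e, ?_⟩
      · rwa [he hn, zero_smul, add_zero] at hy
      · rw [← wc_smul, ← wc_add, bd_wc k]; exact ⟨y, hy⟩
    · obtain ⟨y, a, b, c⟩ := (bd_wc k _).1 hb
      exact this.2 y a b c
end

end Crest.Agent.H3.Tk
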