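import Crest.Agent.H6.TkD
import Crest.Agent.H3.TkB

/-! Row 186: `End_k E / K` is acyclic on rows and columns (duality). -/

set_option autoImplicit false

noncomputable section
namespace Crest.Agent.H3.Tk
open Crest.Agent.H6.Tk Finsupp MulOpposite

section
variable {k : Type} [Field k] {I R : Type} [AddCommGroup R] [Module k R] {g : I → ℤ}

lemma dual_ex {d e : (I →₀ R) →ₗ[k] (I →₀ R)} (hd : ∀ n x, d (pr g n x) = pr g (n + 1) (d x))
    (he : ∀ n x, e (pr g n x) = pr g n (e x)) (ed : ∀ x, e (d x) = d x) (de : ∀ x, d (e x) = d x)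
    (ee : ∀ x, e (e x) = e x) (n : ℤ)
    (ex : ∀ x, Hm g n x → e x = x → d x = 0 → ∃ y, d y = x)
    (l : (I →₀ R) →ₗ[k] k) (h1 : ∀ x, l (d x) = 0) (h2 : ∀ x, l (e x) = l x)
    (h3 : ∀ x, l (pr g n x) = l x) :
    ∃ μ : (I →₀ R) →ₗ[k] k, (∀ x, μ (d x) = l x) ∧ (∀ x, μ (e x) = μ x) ∧
      ∀ x, μ (pr g (n + 1) x) = μ x := by
  let p : ℤ → (I →₀ R) →ₗ[k] (I →₀ R) := fun a =>
    { toFun := pr g a, map_add' := pr_add g a, map_smul' := pr_smul g a }
  have hl : l ∈ (LinearMap.ker (d ∘ₗ p n)).dualAnnihilator := by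
    rw [Submodule.mem_dualAnnihilator]
    intro x hx
    have hx' : d (pr g n x) = 0 := hx
    obtain ⟨y, hy⟩ := ex (e (pr g n x)) (by rw [he]; exact hm_pr g n _) (ee _) (by rw [de, hx'])
    rw [← h3, ← h2, ← hy, h1]
  rw [← LinearMap.range_dualMap_eq_dualAnnihilator_ker] at hl
  obtain ⟨μ, hμ⟩ := hl
  refine ⟨μ ∘ₗ e ∘ₗ p (n + 1), fun x => ?_, fun x => ?_, fun x => ?_⟩
  · change μ (e (pr g (n + 1) (d x))) = _
    rw [← hd, ed, ← hμ]; rfl
  · change μ (e (pr g (n + 1) (e x))) = μ (e (pr g (n + 1) x))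
    rw [← he, ee]
  · change μ (e (pr g (n + 1) (pr g (n + 1) x))) = μ (e (pr g (n + 1) x))
    rw [(hm_pr g (n + 1) x).pr_eq]

lemma hm_single (i : I) (r : R) : Hm g (g i) (single i r) := fun _ hj =>
  Finsupp.single_eq_of_ne (fun h => hj (h ▸ rfl))

lemma l_pr {n : ℤ} (l : (I →₀ R) →ₗ[k] k) (h : ∀ i r, g i ≠ n → l (single i r) = 0) (x : I →₀ R) :
    l (pr g n x) = l x := by
  induction x using Finsupp.induction_linear with
  | zero => rw [pr_zero]
  | add x y hx hy => simp only [pr_add, map_add, hx, hy]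
  | single i r =>
    by_cases hn : g i = n
    · subst hn; rw [(hm_single i r).pr_eq]
    · rw [(hm_single i r).pr_ne (Ne.symm hn), map_zero, h i r hn]
end

section
variable {k : Type} [Field k] {E : Type} [Ring E] [Algebra k E] {P : Cx E}
  {V : Type} [AddCommGroup V] [Module E V] [Module Eᵐᵒᵖ V] [SMulCommClass E Eᵐᵒᵖ V] {ι : Type}

lemma lin_single' {I W : Type} [AddCommGroup W] [Module E W] (Φ : (I →₀ E) →ₗ[E] W) (i : I) (r : E) :
    Φ (single i r) = r • Φ (single i 1) := by
  rw [← map_smul, smul_single, smul_eq_mul, mul_one]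

lemma col_dual (e : V ≃+ (ι → E →ₗ[k] k)) (he : ∀ (a : E) v t x, e (a • v) t x = e v t (x * a))
    (hP : Row P E) : Col P V := by
  intro n w hw
  -- the pairing
  let L : Ch P (pt E) V → ι → (P.I →₀ E) →ₗ[k] k := fun u t =>
    Finsupp.lsum k fun i => e (u (single i 1) ()) t
  have z : ∀ t, e ((0 : (pt E).I →₀ V) ()) t 1 = 0 := fun t => by
    change e 0 t 1 = 0
    rw [map_zero]; rfl
  have hL : ∀ u t x, L u t x = e (u x ()) t 1 := fun u t x => by
    induction x using Finsupp.induction_linear with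
    | zero => rw [map_zero, map_zero, z]
    | add x y hx hy => simp only [map_add, hx, hy, Finsupp.add_apply, Pi.add_apply, LinearMap.add_apply]
    | single i r =>
      rw [lin_single' u, Finsupp.smul_apply, he, one_mul]
      simp [L]
  have hδ : ∀ u : Ch P (pt E) V, δ P (pt E) V u = u ∘ₗ P.d := fun u => by
    rw [δ]
    refine add_eq_left.2 ?_
    have : (pt E).d = 0 := rfl
    rw [this, tens_zero, LinearMap.zero_comp]
  have key : ∀ t, ∃ μ : (P.I →₀ E) →ₗ[k] k, (∀ x, μ (rD k P x) = L w t x) ∧
      (∀ x, μ (rE k P x) = μ x) ∧ ∀ x, μ (pr P.deg (-n + 1) x) = μ x := fun t => by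
    refine dual_ex (rD_pr k P) (rE_pr k P) (LinearMap.congr_fun (one_comp (d_isC P)))
      (LinearMap.congr_fun (comp_one (d_isC P))) (LinearMap.congr_fun (one_comp (one_isC P))) (-n)
      (fun x a b c => ?_) (L w t) (fun x => ?_) (fun x => ?_) (l_pr _ fun i r hi => ?_)
    · obtain ⟨y, -, -, hy⟩ := (bd_vr x).1 (hP (-n) (vr P x) ((cy_vr x).2 ⟨a, b, c⟩))
      exact ⟨y, hy⟩
    · have h0 := hw.2
      rw [hδ] at h0
      have : w (rD k P x) = 0 := LinearMap.congr_fun h0 x
      rw [hL, this, z]
    · induction x using Finsupp.induction_linear with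
      | zero => simp
      | add x y hx hy => simp only [map_add, hx, hy]
      | single i r =>
        change L w t (P.one (single i r)) = _
        rw [one_single, hL, hL, lin_single' w, lin_single' w i r, Finsupp.smul_apply,
          Finsupp.smul_apply, mul_smul, (hw.1 i ()).2.1]
    · rw [hL, lin_single' w, Finsupp.smul_apply,
        (hw.1 i ()).1 (by simp only [pt]; omega)]
      simp
  choose μ h1 h2 h3 using key
  let c : P.I → V := fun i => e.symm fun t => μ t ∘ₗ Finsupp.lsingle i
  let u : Ch P (pt E) V := Finsupp.lsingle () ∘ₗ Finsupp.linearCombination E c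
  have hu : ∀ i, u (single i 1) () = c i := fun i => by simp [u]
  have hLu : ∀ t x, L u t x = μ t x := fun t x => by
    induction x using Finsupp.induction_linear with
    | zero => simp
    | add x y hx hy => simp only [map_add, hx, hy]
    | single i r => simp [L, hu, c]
  refine ⟨u, fun i ⟨⟩ => ⟨fun hi => ?_, ?_, one_smul _ _⟩, ?_⟩
  · rw [hu]
    apply e.injective
    ext t r
    have : μ t (single i r) = 0 := by
      rw [← h3, (hm_single i r).pr_ne (by simp only [pt] at hi; omega), map_zero]
    simpa [c] using this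
  · rw [hu]
    apply e.injective
    ext t r
    rw [he]
    have := h2 t (single i r)
    change μ t (P.one _) = _ at this
    rw [one_single] at this
    simpa [c] using this
  · rw [hδ]
    refine Finsupp.lhom_ext fun i r => ?_
    ext ⟨⟩
    apply e.injective
    ext t s
    have a : ∀ v : V, e v t s = e (s • v) t 1 := fun v => by rw [he, one_mul]
    rw [a, a (w _ _), ← Finsupp.smul_apply, ← Finsupp.smul_apply, ← map_smul, ← map_smul,
      LinearMap.comp_apply, ← hL, ← hL, hLu, ← h1]
    rfl

lemma row_dual (e : V ≃+ (ι → E →ₗ[k] k)) (he : ∀ (a : E) v t x, e (op a • v) t x = e v t (a * x))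
    (hP : Col P E) : Row P V := by
  intro n w hw
  let L : (P.I →₀ V) → ι → (P.I →₀ E) →ₗ[k] k := fun u t => Finsupp.lsum k fun i => e (u i) t
  have hL : ∀ u t i r, L u t (single i r) = e (u i) t r := fun u t i r => by simp [L]
  have hLa : ∀ u u' t x, L (u + u') t x = L u t x + L u' t x := fun u u' t x => by
    induction x using Finsupp.induction_linear with
    | zero => simp
    | add x y hx hy => simp only [map_add, hx, hy]; abel
    | single i r => simp [hL]
  have hL0 : ∀ t x, L 0 t x = 0 := fun t x => by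
    have := hLa 0 0 t x
    rw [add_zero] at this
    exact left_eq_add.1 this
  have hLs : ∀ i v t x, L (single i v) t x = e v t (x i) := fun i v t x => by
    induction x using Finsupp.induction_linear with
    | zero => simp
    | add x y hx hy => simp only [map_add, hx, hy, Finsupp.add_apply]
    | single j r =>
      rw [hL]
      by_cases h : i = j
      · subst h; simp
      · rw [single_eq_of_ne h, single_eq_of_ne (Ne.symm h)]; simp
  have hLd : ∀ u t j r, L u t (cD k P (single j r)) = e (tens V P.d u j) t r := fun u t j r => by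
    induction u using Finsupp.induction_linear with
    | zero => rw [hL0]; simp
    | add x y hx hy => simp only [hLa, map_add, hx, hy, Finsupp.add_apply, Pi.add_apply, LinearMap.add_apply]
    | single i v => rw [hLs, cD, trp_single, tens_single, he]
  have hδ : ∀ u : Ch (pt E) P V, δ (pt E) P V u = tens V P.d ∘ₗ u := fun u => by
    rw [δ]
    refine add_eq_right.2 ?_
    have : (pt E).d = 0 := rfl
    rw [this, LinearMap.comp_zero]
  have cEs : ∀ i r, cE k P (single i r) = single i (P.ε i * r) := fun i r => by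
    ext j
    rw [cE_apply]
    by_cases h : j = i
    · subst h; simp
    · rw [single_eq_of_ne h, single_eq_of_ne h, mul_zero]
  have key : ∀ t, ∃ μ : (P.I →₀ E) →ₗ[k] k, (∀ x, μ (cD k P x) = L (w (single () 1)) t x) ∧
      (∀ x, μ (cE k P x) = μ x) ∧ ∀ x, μ (pr (fun i => -P.deg i) (-n + 1) x) = μ x := fun t => by
    refine dual_ex (cD_pr k P) (cE_pr k P) (fun x => wc_inj ?_) (fun x => wc_inj ?_)
      (fun x => wc_inj ?_) (-n)
      (fun x a b c => ?_) _ (fun x => ?_) (fun x => ?_) (l_pr _ fun i r hi => ?_)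
    · rw [wc_cE, wc_cD, LinearMap.comp_assoc, comp_one (d_isC P)]
    · rw [wc_cD, wc_cE, wc_cD, LinearMap.comp_assoc, one_comp (d_isC P)]
    · rw [wc_cE, wc_cE, LinearMap.comp_assoc, comp_one (one_isC P)]
    · obtain ⟨y, -, -, hy⟩ := (bd_wc k x).1 (hP (-n) (wc P x) ((cy_wc k x).2 ⟨a, b, c⟩))
      exact ⟨y, hy⟩
    · have h0 := hw.2
      rw [hδ] at h0
      have h1 : tens V P.d (w (single () 1)) = 0 := LinearMap.congr_fun h0 _
      induction x using Finsupp.induction_linear with
      | zero => simp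
      | add x y hx hy => simp only [map_add, hx, hy, add_zero]
      | single i r => rw [hLd, h1]; simp
    · induction x using Finsupp.induction_linear with
      | zero => simp
      | add x y hx hy => simp only [map_add, hx, hy]
      | single i r => rw [cEs, hL, hL, ← he, (hw.1 () i).2.2]
    · rw [hL, (hw.1 () i).1 (by simp only [pt]; omega)]
      simp
  choose μ h1 h2 h3 using key
  let c : P.I → V := fun i => e.symm fun t => μ t ∘ₗ Finsupp.lsingle i
  have hc : ∀ i, P.deg i ≠ n - 1 → c i = 0 := fun i hi => by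
    apply e.injective
    ext t r
    have : μ t (single i r) = 0 := by
      rw [← h3, (hm_single (g := fun i => -P.deg i) i r).pr_ne (by omega), map_zero]
    simpa [c] using this
  let c' : P.I →₀ V := Finsupp.ofSupportFinite c ((P.fin (n - 1)).subset fun i hi => by
    by_contra h
    exact hi (hc i h))
  have hc' : ∀ i, c' i = c i := fun i => rfl
  let u : Ch (pt E) P V := Finsupp.linearCombination E fun _ => c'
  have hu : u (single () 1) = c' := by simp [u]
  have hLu : ∀ t x, L c' t x = μ t x := fun t x => by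
    induction x using Finsupp.induction_linear with
    | zero => simp
    | add x y hx hy => simp only [map_add, hx, hy]
    | single i r => simp [hL, hc', c]
  refine ⟨u, fun ⟨⟩ i => ⟨fun hi => ?_, one_smul _ _, ?_⟩, ?_⟩
  · rw [hu, hc']
    exact hc i (by simp only [pt] at hi; omega)
  · rw [hu, hc']
    apply e.injective
    ext t r
    rw [he]
    have := h2 t (single i r)
    rw [cEs] at this
    simpa [c] using this
  · rw [hδ]
    refine Finsupp.lhom_ext fun ⟨⟩ r => ?_
    rw [lin_single' w, lin_single' (_ ∘ₗ u), LinearMap.comp_apply, hu]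
    congr 1
    ext j
    apply e.injective
    ext t s
    rw [← hLd, hLu, h1, hL]
end

section
variable {k B : Type} [Field k] [Ring B] [Algebra k B] [FiniteDimensional k B]
open TrivSqZeroExt

instance fdDual : FiniteDimensional k (DualNumber B) := inferInstanceAs (FiniteDimensional k (B × B))

lemma trace_surj {M : Type} [AddCommGroup M] [Module k M] [FiniteDimensional k M]
    (Λ : (M →ₗ[k] M) →ₗ[k] k) : ∃ φ : M →ₗ[k] M, ∀ ψ, LinearMap.trace k M (φ ∘ₗ ψ) = Λ ψ := by
  let T : (M →ₗ[k] M) →ₗ[k] Module.Dual k (M →ₗ[k] M) :=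
    LinearMap.compr₂ (LinearMap.llcomp k M M M) (LinearMap.trace k M)
  have hT : Function.Injective T := by
    rw [injective_iff_map_eq_zero]
    intro φ hφ
    ext x
    refine (Module.forall_dual_apply_eq_zero_iff k _).1 fun f => ?_
    have := LinearMap.congr_fun hφ (f.smulRight x)
    have h2 : φ ∘ₗ f.smulRight x = f.smulRight (φ x) := by ext; simp
    change LinearMap.trace k M (φ ∘ₗ f.smulRight x) = 0 at this
    rwa [h2, LinearMap.trace_smulRight] at this
  obtain ⟨φ, hφ⟩ := (LinearMap.injective_iff_surjective_of_finrank_eq_finrank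
    (Subspace.dual_finrank_eq).symm).1 hT Λ
  exact ⟨φ, fun ψ => LinearMap.congr_fun hφ ψ⟩

lemma exists_e (T : (Fin 2 → DualNumber B) →ₗ[k] (DualNumber B →ₗ[k] DualNumber B))
    (hinj : Function.Injective T) (h1 : ∀ x, BLin k B (T x)) (h2 : ∀ ψ, BLin k B ψ → ∃ x, T x = ψ) :
    ∃ e : (KK k B).Quo ≃+ (Fin 2 → DualNumber B →ₗ[k] k), ∀ φ t x,
      e ((KK k B).mkQ φ) t x = LinearMap.trace k _ (Om.toL φ ∘ₗ T (Pi.single t x)) := by
  let f : Om k (DualNumber B) →+ (Fin 2 → DualNumber B →ₗ[k] k) :=
    { toFun := fun φ t => LinearMap.trace k _ ∘ₗ LinearMap.llcomp k _ _ _ (Om.toL φ) ∘ₗ T ∘ₗ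
        LinearMap.single k (fun _ => DualNumber B) t
      map_zero' := by ext t x; simp
      map_add' := fun a b => by ext t x; simp [LinearMap.add_comp] }
  have hf : ∀ φ t x, f φ t x = LinearMap.trace k _ (Om.toL φ ∘ₗ T (Pi.single t x)) := fun _ _ _ => rfl
  have hker : ∀ φ, f φ = 0 ↔ φ ∈ (KK k B).N := fun φ => by
    constructor
    · intro h ψ hψ
      obtain ⟨x, rfl⟩ := h2 ψ hψ
      have : x = Pi.single 0 (x 0) + Pi.single 1 (x 1) := by
        ext1 i; fin_cases i <;> simp
      rw [this, map_add, LinearMap.comp_add, map_add, ← hf, ← hf, h]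
      simp
    · intro h
      ext t x
      rw [hf]
      exact h _ (h1 _)
  have hs : Function.Surjective f := fun l => by
    obtain ⟨Λ, hΛ⟩ := LinearMap.dualMap_surjective_of_injective hinj (LinearMap.lsum k _ k l)
    obtain ⟨φ, hφ⟩ := trace_surj Λ
    refine ⟨Om.ofL φ, ?_⟩
    ext t x
    rw [hf, Om.toL_ofL, hφ]
    have := LinearMap.congr_fun hΛ (Pi.single t x)
    rw [LinearMap.dualMap_apply] at this
    rw [this]
    fin_cases t <;> simp
  let f' : (KK k B).Quo →+ (Fin 2 → DualNumber B →ₗ[k] k) :=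
    QuotientAddGroup.lift (KK k B).N.toAddSubgroup f fun φ hφ => (hker φ).2 hφ
  have hf' : ∀ φ, f' ((KK k B).mkQ φ) = f φ := fun _ => rfl
  refine ⟨AddEquiv.ofBijective f' ⟨?_, fun l => ?_⟩, fun φ t x => hf φ t x⟩
  · rw [injective_iff_map_eq_zero]
    intro q hq
    obtain ⟨φ, rfl⟩ := (KK k B).mkQ_surj q
    exact ((KK k B).mkQ_eq_zero φ).2 ((hker φ).1 hq)
  · obtain ⟨φ, rfl⟩ := hs l
    exact ⟨_, hf' φ⟩

variable (k B) in
def TL : (Fin 2 → DualNumber B) →ₗ[k] (DualNumber B →ₗ[k] DualNumber B) :=
  LinearMap.mk₂ k (fun x y => inl y.fst * x 0 + inl y.snd * x 1)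
    (fun x x' y => by simp only [Pi.add_apply, mul_add]; abel)
    (fun c x y => by simp)
    (fun x y y' => by simp only [fst_add, snd_add, inl_add, add_mul]; abel)
    (fun c x y => by simp [inl_smul])

variable (k B) in
def TR : (Fin 2 → DualNumber B) →ₗ[k] (DualNumber B →ₗ[k] DualNumber B) :=
  LinearMap.mk₂ k (fun x y => inl (y * x 0).snd + inr (y * x 1).snd)
    (fun x x' y => by simp only [Pi.add_apply, mul_add, snd_add, inl_add, inr_add]; abel)
    (fun c x y => by simp only [Pi.smul_apply, mul_smul_comm, snd_smul, inl_smul, inr_smul, smul_add])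
    (fun x y y' => by simp only [add_mul, snd_add, inl_add, inr_add]; abel)
    (fun c x y => by simp only [smul_mul_assoc, snd_smul, inl_smul, inr_smul, smul_add])

omit [FiniteDimensional k B] in
lemma TL_apply (x : Fin 2 → DualNumber B) (y : DualNumber B) :
    TL k B x y = inl y.fst * x 0 + inl y.snd * x 1 := rfl
omit [FiniteDimensional k B] in
lemma TR_apply (x : Fin 2 → DualNumber B) (y : DualNumber B) :
    TR k B x y = inl (y * x 0).snd + inr (y * x 1).snd := rfl

omit [FiniteDimensional k B] in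
lemma bLin_eq {ψ : DualNumber B →ₗ[k] DualNumber B} (h : BLin k B ψ) (y : DualNumber B) :
    ψ y = inl y.fst * ψ 1 + inl y.snd * ψ (inr 1) := by
  rw [← h, ← h, ← map_add]
  congr 1
  ext <;> simp

lemma col_quo {P : Cx (DualNumber B)} (hP : Row P (DualNumber B)) : Col P (KK k B).Quo := by
  obtain ⟨e, he⟩ := exists_e (TL k B) (by
      rw [injective_iff_map_eq_zero]
      intro x hx
      have a := LinearMap.congr_fun hx 1
      have b := LinearMap.congr_fun hx (inr 1)
      rw [TL_apply] at a b
      ext1 i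
      fin_cases i
      · simpa using a
      · simpa using b)
    (fun x b y => by simp [TL_apply, mul_add, ← mul_assoc, ← inl_mul])
    (fun ψ h => ⟨![ψ 1, ψ (inr 1)], LinearMap.ext fun y => by rw [TL_apply, bLin_eq h y]; rfl⟩)
  refine col_dual e (fun a v t x => ?_) hP
  obtain ⟨φ, rfl⟩ := (KK k B).mkQ_surj v
  rw [← map_smul, he, he, Om.toL_smul, LinearMap.comp_assoc]
  congr 2
  ext1 y
  fin_cases t <;> simp [TL_apply, mul_assoc]

lemma row_quo {P : Cx (DualNumber B)} (hP : Col P (DualNumber B)) : Row P (KK k B).Quo := by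
  obtain ⟨e, he⟩ := exists_e (TR k B) (by
      rw [injective_iff_map_eq_zero]
      intro x hx
      have a := LinearMap.congr_fun hx 1
      have b := LinearMap.congr_fun hx (inr 1)
      rw [TR_apply] at a b
      have a1 := congrArg fst a
      have a2 := congrArg snd a
      have b1 := congrArg fst b
      have b2 := congrArg snd b
      ext1 i
      fin_cases i
      · ext
        · simpa using b1
        · simpa using a1
      · ext
        · simpa using b2
        · simpa using a2)
    (fun x b y => by ext <;> simp [TR_apply, mul_add, mul_assoc])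
    (fun ψ h => ⟨![inl (ψ (inr 1)).fst + inr (ψ 1).fst, inl (ψ (inr 1)).snd + inr (ψ 1).snd],
      LinearMap.ext fun y => by rw [TR_apply, bLin_eq h y]; ext <;> simp⟩)
  refine row_dual e (fun a v t x => ?_) hP
  obtain ⟨φ, rfl⟩ := (KK k B).mkQ_surj v
  rw [← SubBi.mkQ_op, he, he, Om.toL_op, LinearMap.comp_assoc, LinearMap.trace_comp_comm',
    LinearMap.comp_assoc]
  congr 2
  ext1 y
  fin_cases t <;> simp [TR_apply, mul_assoc]
end

theorem qrStmt : QRStmt := fun _ _ _ _ _ _ _ X _ hr hc =>
  haveI := X.fd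
  ⟨row_quo hc, col_quo hr⟩

end Crest.Agent.H3.Tk
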