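import Crest.Agent.H3.TkB

/-! Row 186: the Künneth step `TensStmt`. -/

set_option autoImplicit false
set_option linter.unusedSectionVars false

noncomputable section
namespace Crest.Agent.H3.Tk
open Crest.Agent.H6.Tk Finsupp MulOpposite TensorProduct

section
variable (k : Type) [Field k] {R : Type} [Ring R] [Algebra k R]

lemma row_eq (Q : Cx R) (i : Q.I) : Q.row i = vr Q (single i (Q.ε i)) := by
  rw [← vr_rv (Q.row i)]
  congr 1
  simp [Cx.row]

lemma col_eq (Q : Cx R) (i : Q.I) : Q.col i = wc Q (single i (Q.ε i)) := by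
  refine col_ext fun j => ?_
  rw [wc_single]
  change (single () (Q.one (single j 1) i) : Unit →₀ R) () = _
  rw [single_eq_same, one_single, one_mul]
  by_cases h : j = i
  · subst h; rfl
  · rw [single_eq_of_ne h, single_eq_of_ne (Ne.symm h)]

lemma row_cy (Q : Cx R) (i : Q.I) (h : ∀ j, Q.deg j ≤ Q.deg i) :
    Cy (pt R) Q R (Q.deg i) (vr Q (single i (Q.ε i))) := by
  refine (cy_vr _).2 ⟨fun j hj => single_eq_of_ne fun e => hj (e ▸ rfl), by rw [one_single, Q.idem], ?_⟩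
  ext j
  rw [lin_single, Finsupp.smul_apply, (Q.d_isM i j).1 (by have := h j; omega), smul_zero]; rfl

include k in
lemma col_cy (Q : Cx R) (i : Q.I) (h : ∀ j, Q.deg i ≤ Q.deg j) :
    Cy Q (pt R) R (-Q.deg i) (wc Q (single i (Q.ε i))) := by
  refine (cy_wc k _).2 ⟨fun j hj => single_eq_of_ne fun e => hj (e ▸ rfl), ?_, ?_⟩
  · ext j
    rw [cE_apply]
    by_cases e : j = i
    · subst e; rw [single_eq_same, Q.idem]
    · rw [single_eq_of_ne e, mul_zero]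
  · ext j
    rw [cD, trp_single, (Q.d_isM j i).1 (by have := h j; omega), zero_mul]; rfl

variable {k}
lemma χ_d (χ : R →ₐ[k] k) (Q : Cx R) (i : Q.I) (h0 : ∀ j, j ≠ i → χ (Q.ε j) = 0) (y : Q.I →₀ R) :
    χ (Q.d y i) = 0 := by
  induction y using Finsupp.induction_linear with
  | zero => simp
  | add x y hx hy => simp [hx, hy]
  | single j r =>
    rw [lin_single, Finsupp.smul_apply, smul_eq_mul, map_mul]
    by_cases e : j = i
    · subst e; rw [(Q.d_isM j j).1 (by omega), map_zero, mul_zero]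
    · rw [← (Q.d_isM j i).2.1, smul_eq_mul, map_mul, h0 j e, zero_mul, mul_zero]

lemma χ_cD (χ : R →ₐ[k] k) (Q : Cx R) (i : Q.I) (h0 : ∀ j, j ≠ i → χ (Q.ε j) = 0) (y : Q.I →₀ R) :
    χ (cD k Q y i) = 0 := by
  induction y using Finsupp.induction_linear with
  | zero => simp
  | add x y hx hy => simp [hx, hy]
  | single j r =>
    rw [cD, trp_single, map_mul]
    by_cases e : j = i
    · subst e; rw [(Q.d_isM j j).1 (by omega), map_zero, zero_mul]
    · rw [← (Q.d_isM i j).2.2, op_smul_eq_mul, map_mul, h0 j e, mul_zero, zero_mul]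

lemma rowG_χ (χ : R →ₐ[k] k) (Q : Cx R) (i : Q.I) (h1 : χ (Q.ε i) = 1)
    (h0 : ∀ j, j ≠ i → χ (Q.ε j) = 0) (h : ∀ j, Q.deg j ≤ Q.deg i) :
    RowG k Q (Q.deg i) (vr Q (single i (Q.ε i))) ↔
      ∀ n v, Cy (pt R) Q R n v → χ (v (single () 1) i) = 0 → Bd (pt R) Q R n v := by
  obtain ⟨r1, r2, r3⟩ := (cy_vr _).1 (row_cy Q i h)
  constructor
  · rintro ⟨g, -⟩ n v hv hχ
    obtain ⟨c, hc⟩ := (g n v hv).2
    have hc' := hc
    rw [← vr_rv v, ← vr_smul, ← vr_add, bd_vr] at hc'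
    obtain ⟨y, -, -, hy⟩ := hc'
    have := χ_d χ Q i h0 y
    rw [hy, Finsupp.add_apply, Finsupp.smul_apply, single_eq_same, map_add, map_smul, h1, hχ, zero_add,
      smul_eq_mul, mul_one] at this
    rwa [this, zero_smul, add_zero] at hc
  · intro g
    refine ⟨fun n v hv => ?_, fun hb => ?_⟩
    · rw [← vr_rv v] at hv ⊢
      obtain ⟨a, b, c⟩ := (cy_vr _).1 hv
      have hn : n ≠ Q.deg i → Bd (pt R) Q R n (vr Q (v (single () 1))) := fun hn =>
        g n _ hv (by rw [vr_single, a i hn.symm, map_zero])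
      refine ⟨hn, ?_⟩
      by_cases e : n = Q.deg i
      · subst e
        refine ⟨-χ (v (single () 1) i), ?_⟩
        rw [← vr_smul, ← vr_add]
        refine g _ _ ((cy_vr _).2 ⟨fun j hj => ?_, ?_, ?_⟩) ?_
        · rw [Finsupp.add_apply, Finsupp.smul_apply, a j hj, r1 j hj, smul_zero, add_zero]
        · rw [map_add, LinearMap.map_smul_of_tower, b, r2]
        · rw [map_add, LinearMap.map_smul_of_tower, c, r3, smul_zero, add_zero]
        · rw [vr_single, Finsupp.add_apply, Finsupp.smul_apply, single_eq_same, map_add, map_smul, h1]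
          simp
      · exact ⟨0, by rw [zero_smul, add_zero]; exact hn e⟩
    · obtain ⟨y, -, -, hy⟩ := (bd_vr _).1 hb
      have := χ_d χ Q i h0 y
      rw [hy, single_eq_same, h1] at this
      exact one_ne_zero this

lemma colG_χ (χ : R →ₐ[k] k) (Q : Cx R) (i : Q.I) (h1 : χ (Q.ε i) = 1)
    (h0 : ∀ j, j ≠ i → χ (Q.ε j) = 0) (h : ∀ j, Q.deg i ≤ Q.deg j) :
    ColG k Q (-Q.deg i) (wc Q (single i (Q.ε i))) ↔
      ∀ n w, Cy Q (pt R) R n w → χ (w (single i 1) ()) = 0 → Bd Q (pt R) R n w := by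
  obtain ⟨r1, r2, r3⟩ := (cy_wc k _).1 (col_cy k Q i h)
  constructor
  · rintro ⟨g, -⟩ n v hv hχ
    obtain ⟨c, hc⟩ := (g n v hv).2
    obtain ⟨x, rfl⟩ := exists_wc hv.1
    have hc' := hc
    rw [← wc_smul, ← wc_add, bd_wc k] at hc'
    obtain ⟨y, -, -, hy⟩ := hc'
    have := χ_cD χ Q i h0 y
    rw [wc_single] at hχ
    rw [hy, Finsupp.add_apply, Finsupp.smul_apply, single_eq_same, map_add, map_smul, h1, hχ, zero_add,
      smul_eq_mul, mul_one] at this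
    rwa [this, zero_smul, add_zero] at hc
  · intro g
    refine ⟨fun n v hv => ?_, fun hb => ?_⟩
    · obtain ⟨x, rfl⟩ := exists_wc hv.1
      obtain ⟨a, b, c⟩ := (cy_wc k _).1 hv
      have hn : n ≠ -Q.deg i → Bd Q (pt R) R n (wc Q x) := fun hn =>
        g n _ hv (by rw [wc_single, a i hn.symm, map_zero])
      refine ⟨hn, ?_⟩
      by_cases e : n = -Q.deg i
      · subst e
        refine ⟨-χ (x i), ?_⟩
        rw [← wc_smul, ← wc_add]
        refine g _ _ ((cy_wc k _).2 ⟨fun j hj => ?_, ?_, ?_⟩) ?_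
        · rw [Finsupp.add_apply, Finsupp.smul_apply, a j hj, r1 j hj, smul_zero, add_zero]
        · rw [map_add, map_smul, b, r2]
        · rw [map_add, map_smul, c, r3, smul_zero, add_zero]
        · rw [wc_single, Finsupp.add_apply, Finsupp.smul_apply, single_eq_same, map_add, map_smul, h1]
          simp
      · exact ⟨0, by rw [zero_smul, add_zero]; exact hn e⟩
    · obtain ⟨y, -, -, hy⟩ := (bd_wc k _).1 hb
      have := χ_cD χ Q i h0 y
      rw [hy, single_eq_same, h1] at this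
      exact one_ne_zero this

lemma cy_comp {P Q S : Cx R} {n m : ℤ} {Φ : Ch P Q R} {Ψ : Ch Q S R} [CharP k 2]
    (hΦ : Cy P Q R n Φ) (hΨ : Cy Q S R 0 Ψ) (hc : IsC P S R m (Ψ ∘ₗ Φ)) : Cy P S R m (Ψ ∘ₗ Φ) := by
  refine ⟨hc, ?_⟩
  have a := hΦ.2
  have b := hΨ.2
  rw [δ_self] at a b ⊢
  refine LinearMap.ext fun x => ?_
  have a' := congrArg Ψ (LinearMap.congr_fun a x)
  have b' := LinearMap.congr_fun b (Φ x)
  have c' := add_self2 (k := k) (Ψ (Q.d (Φ x)))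
  simp only [LinearMap.add_apply, LinearMap.comp_apply, map_add, LinearMap.zero_apply, map_zero] at *
  linear_combination (norm := module) a' + b' - c'
end

section
variable (k : Type) [Field k] {B B' : Type} [Ring B] [Algebra k B] [Ring B'] [Algebra k B']
  {I I' J J' L L' : Type}

abbrev ET (I I' : Type) : (I →₀ B) ⊗[k] (I' →₀ B') ≃ₗ[k] (I × I' →₀ B ⊗[k] B') :=
  finsuppTensorFinsupp k k B B' I I'

/-- tensor product of matrices -/
def tm (Φ : (I →₀ B) →ₗ[B] (J →₀ B)) (Ψ : (I' →₀ B') →ₗ[B'] (J' →₀ B')) :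
    (I × I' →₀ B ⊗[k] B') →ₗ[B ⊗[k] B'] (J × J' →₀ B ⊗[k] B') :=
  Finsupp.linearCombination (B ⊗[k] B') fun p => ET k J J' (Φ (single p.1 1) ⊗ₜ Ψ (single p.2 1))

variable (Φ : (I →₀ B) →ₗ[B] (J →₀ B)) (Ψ : (I' →₀ B') →ₗ[B'] (J' →₀ B'))

lemma tm_single (p : I × I') (q : J × J') :
    tm k Φ Ψ (single p 1) q = Φ (single p.1 1) q.1 ⊗ₜ Ψ (single p.2 1) q.2 := by
  obtain ⟨j, j'⟩ := q
  simp [tm]

lemma tm_ET (x : I →₀ B) (y : I' →₀ B') :
    tm k Φ Ψ (ET k I I' (x ⊗ₜ y)) = ET k J J' (Φ x ⊗ₜ Ψ y) := by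
  induction x using Finsupp.induction_linear with
  | zero => simp
  | add x x' hx hx' => simp only [add_tmul, map_add, hx, hx']
  | single i a =>
    induction y using Finsupp.induction_linear with
    | zero => simp
    | add x x' hx hx' => simp only [tmul_add, map_add, hx, hx']
    | single j b =>
      ext ⟨l, l'⟩
      rw [finsuppTensorFinsupp_single, lin_single, Finsupp.smul_apply, tm_single,
        finsuppTensorFinsupp_apply, lin_single Φ i a, lin_single Ψ j b]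
      simp

lemma mat_ext {R : Type} [Ring R] {Φ Φ' : (I →₀ R) →ₗ[R] (J →₀ R)}
    (h : ∀ i, Φ (single i 1) = Φ' (single i 1)) : Φ = Φ' :=
  Finsupp.lhom_ext fun i r => by rw [lin_single Φ, lin_single Φ', h]

lemma single_one (p : I × I') :
    (single p 1 : I × I' →₀ B ⊗[k] B') = ET k I I' (single p.1 1 ⊗ₜ single p.2 1) := by
  rw [finsuppTensorFinsupp_single]; rfl

lemma tm_comp (Φ' : (J →₀ B) →ₗ[B] (L →₀ B)) (Ψ' : (J' →₀ B') →ₗ[B'] (L' →₀ B')) :
    tm k Φ' Ψ' ∘ₗ tm k Φ Ψ = tm k (Φ' ∘ₗ Φ) (Ψ' ∘ₗ Ψ) :=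
  mat_ext fun p => by rw [LinearMap.comp_apply, single_one, tm_ET, tm_ET, tm_ET]; rfl

lemma tm_add_left (Φ' : (I →₀ B) →ₗ[B] (J →₀ B)) : tm k (Φ + Φ') Ψ = tm k Φ Ψ + tm k Φ' Ψ :=
  mat_ext fun p => by
    rw [LinearMap.add_apply, single_one, tm_ET, tm_ET, tm_ET, LinearMap.add_apply, add_tmul, map_add]

lemma tm_add_right (Ψ' : (I' →₀ B') →ₗ[B'] (J' →₀ B')) : tm k Φ (Ψ + Ψ') = tm k Φ Ψ + tm k Φ Ψ' :=
  mat_ext fun p => by
    rw [LinearMap.add_apply, single_one, tm_ET, tm_ET, tm_ET, LinearMap.add_apply, tmul_add, map_add]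

lemma tm_zero_left : tm k (0 : (I →₀ B) →ₗ[B] (J →₀ B)) Ψ = 0 :=
  mat_ext fun p => by rw [single_one, tm_ET]; simp

lemma tm_zero_right : tm k Φ (0 : (I' →₀ B') →ₗ[B'] (J' →₀ B')) = 0 :=
  mat_ext fun p => by rw [single_one, tm_ET]; simp

variable {Φ Ψ}
lemma isM_tm {dI : I → ℤ} {eI : I → B} {dJ : J → ℤ} {eJ : J → B} {dI' : I' → ℤ} {eI' : I' → B'}
    {dJ' : J' → ℤ} {eJ' : J' → B'} {n n' m : ℤ} (h : IsM B dI eI dJ eJ n Φ)
    (h' : IsM B' dI' eI' dJ' eJ' n' Ψ) (hm : m = n + n') :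
    IsM (B ⊗[k] B') (fun p => dI p.1 + dI' p.2) (fun p => eI p.1 ⊗ₜ eI' p.2)
      (fun p => dJ p.1 + dJ' p.2) (fun p => eJ p.1 ⊗ₜ eJ' p.2) m (tm k Φ Ψ) := by
  intro p q
  obtain ⟨a1, a2, a3⟩ := h p.1 q.1
  obtain ⟨b1, b2, b3⟩ := h' p.2 q.2
  rw [smul_eq_mul] at a2 b2
  rw [op_smul_eq_mul] at a3 b3
  rw [tm_single, smul_eq_mul, op_smul_eq_mul, Algebra.TensorProduct.tmul_mul_tmul,
    Algebra.TensorProduct.tmul_mul_tmul, a2, a3, b2, b3]
  refine ⟨fun hd => ?_, rfl, rfl⟩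
  by_cases e : dJ q.1 = dI p.1 + n
  · rw [b1 (by simp only at hd; omega), tmul_zero]
  · rw [a1 e, zero_tmul]

lemma isM_add {R : Type} [Ring R] {dI : I → ℤ} {eI : I → R} {dJ : J → ℤ} {eJ : J → R} {n : ℤ}
    {Φ Φ' : (I →₀ R) →ₗ[R] (J →₀ R)} (h : IsM R dI eI dJ eJ n Φ) (h' : IsM R dI eI dJ eJ n Φ') :
    IsM R dI eI dJ eJ n (Φ + Φ') := by
  intro i j
  obtain ⟨a1, a2, a3⟩ := h i j
  obtain ⟨b1, b2, b3⟩ := h' i j
  rw [LinearMap.add_apply, Finsupp.add_apply, smul_add, smul_add, a2, a3, b2, b3]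
  exact ⟨fun hd => by rw [a1 hd, b1 hd, add_zero], rfl, rfl⟩

variable [CharP k 2]

/-- tensor product of complexes -/
def tcx (Q : Cx B) (Q' : Cx B') (hf : ∀ n, {p : Q.I × Q'.I | Q.deg p.1 + Q'.deg p.2 = n}.Finite) :
    Cx (B ⊗[k] B') where
  I := Q.I × Q'.I
  deg p := Q.deg p.1 + Q'.deg p.2
  fin := hf
  ε p := Q.ε p.1 ⊗ₜ Q'.ε p.2
  idem p := by rw [Algebra.TensorProduct.tmul_mul_tmul, Q.idem, Q'.idem]
  d := tm k Q.d Q'.one + tm k Q.one Q'.d
  d_isM := isM_add (isM_tm k Q.d_isM (one_isC Q') rfl) (isM_tm k (one_isC Q) Q'.d_isM rfl)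
  dd := by
    rw [LinearMap.add_comp, LinearMap.comp_add, LinearMap.comp_add, tm_comp, tm_comp, tm_comp, tm_comp,
      Q.dd, Q'.dd, tm_zero_left, tm_zero_right, zero_add, add_zero, comp_one (d_isC Q),
      one_comp (d_isC Q), comp_one (d_isC Q'), one_comp (d_isC Q')]
    exact LinearMap.ext fun x => add_self2 (k := k) _

lemma fin_of (Q : Cx B) (Q' : Cx B') (n a b : ℤ)
    (h : ∀ p : Q.I × Q'.I, Q.deg p.1 + Q'.deg p.2 = n → Q.deg p.1 ∈ Set.Icc a b) :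
    {p : Q.I × Q'.I | Q.deg p.1 + Q'.deg p.2 = n}.Finite := by
  refine ((Set.finite_Icc a b).biUnion fun c _ => (Q.fin c).prod (Q'.fin (n - c))).subset fun p hp => ?_
  simp only [Set.mem_iUnion]
  exact ⟨_, h p hp, rfl, by simp only [Set.mem_ofPred_eq] at hp ⊢; omega⟩

variable {Q P : Cx B} {Q' P' : Cx B'} (hf : ∀ n, {p : Q.I × Q'.I | Q.deg p.1 + Q'.deg p.2 = n}.Finite)
  (hg : ∀ n, {p : P.I × P'.I | P.deg p.1 + P'.deg p.2 = n}.Finite)

lemma tcx_one : (tcx k Q Q' hf).one = tm k Q.one Q'.one :=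
  mat_ext fun p => by
    rw [one_single, one_mul]
    refine Eq.trans ?_ (congrArg (tm k Q.one Q'.one) (single_one k p)).symm
    rw [tm_ET, one_single, one_single, one_mul, one_mul, finsuppTensorFinsupp_single]
    rfl

lemma trp_tm {n n' m : ℤ} {Φ : Ch P Q B} {Ψ : Ch P' Q' B'} (h : IsC P Q B n Φ) (h' : IsC P' Q' B' n' Ψ)
    {Θ : Ch (tcx k P P' hg) (tcx k Q Q' hf) (B ⊗[k] B')}
    (h'' : IsC (tcx k P P' hg) (tcx k Q Q' hf) (B ⊗[k] B') m Θ) (e : Θ = tm k Φ Ψ)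
    (x : Q.I →₀ B) (y : Q'.I →₀ B') :
    trp k Θ h'' (ET k Q.I Q'.I (x ⊗ₜ y)) = ET k P.I P'.I (trp k Φ h x ⊗ₜ trp k Ψ h' y) := by
  subst e
  induction x using Finsupp.induction_linear with
  | zero => simp only [zero_tmul, map_zero]; exact map_zero _
  | add x x' hx hx' => simp only [add_tmul, map_add, ← hx, ← hx']; exact map_add _ _ _
  | single i a =>
    induction y using Finsupp.induction_linear with
    | zero => simp only [tmul_zero, map_zero]; exact map_zero _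
    | add x x' hx hx' => simp only [tmul_add, map_add, ← hx, ← hx']; exact map_add _ _ _
    | single j b =>
      refine Finsupp.ext fun (⟨l, l'⟩ : P.I × P'.I) => ?_
      rw [finsuppTensorFinsupp_single]
      refine (trp_single k _ h'' (i, j) _ (l, l')).trans ?_
      refine Eq.trans ?_ (finsuppTensorFinsupp_apply ..).symm
      rw [trp_single, trp_single, ← Algebra.TensorProduct.tmul_mul_tmul]
      exact congrArg (· * _) (tm_single k Φ Ψ (l, l') (i, j))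

lemma h1_row {x : Q.I →₀ B} {y : Q'.I →₀ B'} (h : H1 k (rD k Q) (rE k Q) x)
    (h' : H1 k (rD k Q') (rE k Q') y) :
    H1 k (rD k (tcx k Q Q' hf)) (rE k (tcx k Q Q' hf)) (ET k Q.I Q'.I (x ⊗ₜ y)) := by
  refine (h.tensor h').transport (ET k Q.I Q'.I) (fun z => ?_) (fun z => ?_)
  · induction z using TensorProduct.induction_on with
    | zero => simp only [map_zero]
    | add x y hx hy => simp only [map_add, ← hx, ← hy]
    | tmul x y =>
      rw [LinearMap.add_apply, map_tmul, map_tmul, map_add]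
      exact congrArg₂ (· + ·) (tm_ET k _ _ x y) (tm_ET k _ _ x y)
  · induction z using TensorProduct.induction_on with
    | zero => simp only [map_zero]
    | add x y hx hy => simp only [map_add, ← hx, ← hy]
    | tmul x y =>
      rw [map_tmul]
      exact (LinearMap.congr_fun (tcx_one k hf) _).trans (tm_ET k _ _ x y)

lemma h1_col {x : Q.I →₀ B} {y : Q'.I →₀ B'} (h : H1 k (cD k Q) (cE k Q) x)
    (h' : H1 k (cD k Q') (cE k Q') y) :
    H1 k (cD k (tcx k Q Q' hf)) (cE k (tcx k Q Q' hf)) (ET k Q.I Q'.I (x ⊗ₜ y)) := by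
  refine (h.tensor h').transport (ET k Q.I Q'.I) (fun z => ?_) (fun z => ?_)
  · induction z using TensorProduct.induction_on with
    | zero => simp only [map_zero]
    | add x y hx hy => simp only [map_add, ← hx, ← hy]
    | tmul x y =>
      rw [LinearMap.add_apply, map_tmul, map_tmul, map_add]
      have h1 : IsC (tcx k Q Q' hf) (tcx k Q Q' hf) (B ⊗[k] B') 1 (tm k Q.d Q'.one) :=
        isM_tm k Q.d_isM (one_isC Q') rfl
      have h2 : IsC (tcx k Q Q' hf) (tcx k Q Q' hf) (B ⊗[k] B') 1 (tm k Q.one Q'.d) :=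
        isM_tm k (one_isC Q) Q'.d_isM rfl
      rw [cD, cD, cD, cE, cE, ← trp_tm k hf hf (d_isC Q) (one_isC Q') h1 rfl,
        ← trp_tm k hf hf (one_isC Q) (d_isC Q') h2 rfl]
      refine wc_inj (Q := tcx k Q Q' hf) ?_
      refine Eq.trans ?_ (wc_add (Q := tcx k Q Q' hf) _ _).symm
      exact (wc_trp k _ _ _).trans ((LinearMap.comp_add _ _ _).trans
        (congrArg₂ (· + ·) (wc_trp k _ h1 _).symm (wc_trp k _ h2 _).symm))
  · induction z using TensorProduct.induction_on with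
    | zero => simp only [map_zero]
    | add x y hx hy => simp only [map_add, ← hx, ← hy]
    | tmul x y =>
      rw [map_tmul]
      exact trp_tm k hf hf (one_isC Q) (one_isC Q') _ (tcx_one k hf) x y
end

section
variable {k : Type} [Field k] [CharP k 2] {B : Type} [Ring B] [Algebra k B]

section
variable {Qp Qm : Cx B} {ip : Qp.I} {im : Qm.I} {φ : Ch Qp Qm B} {m : ℤ}

lemma φrow (φ : Ch Qp Qm B) (ip : Qp.I) : φ ∘ₗ Qp.row ip = vr Qm (φ (single ip (Qp.ε ip))) := by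
  rw [← vr_rv (φ ∘ₗ Qp.row ip), LinearMap.comp_apply, row_eq, vr_single]

variable (k) in
include k in
lemma φrow_cy (hφ : Cy Qp Qm B 0 φ) (h0 : Qp.deg ip = 0) (hp : ∀ i, Qp.deg i ≤ 0) :
    Cy (pt B) Qm B 0 (vr Qm (φ (single ip (Qp.ε ip)))) := by
  rw [← φrow, row_eq]
  refine cy_comp (k := k) (row_cy Qp ip fun j => h0 ▸ hp j) hφ ?_
  rw [← row_eq, φrow, isC_vr]
  refine ⟨fun j hj => ?_, LinearMap.congr_fun (one_comp hφ.1) _⟩
  rw [lin_single, Finsupp.smul_apply, (hφ.1 ip j).1 (by omega), smul_zero]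

variable (k) in
lemma φcol (hφ : IsC Qp Qm B 0 φ) (im : Qm.I) :
    Qm.col im ∘ₗ φ = wc Qp (trp k φ hφ (single im (Qm.ε im))) := by
  rw [wc_trp, col_eq]

variable (k) in
lemma φcol_cy (hφ : Cy Qp Qm B 0 φ) (h0 : Qm.deg im = -m) (hp : ∀ i, -m ≤ Qm.deg i) :
    Cy Qp (pt B) B m (wc Qp (trp k φ hφ.1 (single im (Qm.ε im)))) := by
  have hc := col_cy k Qm im fun j => h0 ▸ hp j
  refine ⟨(isC_wc k _).2 ⟨fun j hj => ?_, wc_inj ?_⟩, ?_⟩
  · rw [trp_single, (hφ.1 j im).1 (by simp only at hj; omega), zero_mul]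
  · rw [wc_cE, wc_trp, LinearMap.comp_assoc, comp_one hφ.1]
  · have a := hφ.2
    have b := hc.2
    rw [δ_wc k, wc_cD] at b
    rw [δ_self] at a
    rw [δ_wc k, wc_cD, wc_trp, LinearMap.comp_assoc, eq_neg_of_add_eq_zero_left a, LinearMap.comp_neg,
      ← LinearMap.comp_assoc, b, LinearMap.zero_comp, neg_zero]
end

variable {m : ℕ} (X : BD k B m)

lemma hrp : H1 k (rD k X.Qp) (rE k X.Qp) (single X.ip (X.Qp.ε X.ip)) :=
  have h : ∀ j, X.Qp.deg j ≤ X.Qp.deg X.ip := fun j => X.deg_ip ▸ X.degp j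
  (rowG_iff k _ _ _ (row_cy _ _ h)).1 ((rowG_χ X.χ _ _ X.χ_ip X.χp h).2 X.rowp)

lemma hcm : H1 k (cD k X.Qm) (cE k X.Qm) (single X.im (X.Qm.ε X.im)) :=
  have h : ∀ j, X.Qm.deg X.im ≤ X.Qm.deg j := fun j => X.deg_im ▸ X.degm j
  (colG_iff k _ _ _ (col_cy k _ _ h)).1 ((colG_χ X.χ _ _ X.χ_im X.χm h).2 X.colm)

lemma hrm : H1 k (rD k X.Qm) (rE k X.Qm) (X.φ (single X.ip (X.Qp.ε X.ip))) :=
  (rowG_iff k _ _ _ (φrow_cy k X.φ_cy X.deg_ip X.degp)).1 (by rw [← φrow]; exact ⟨X.rowm, X.rowm'⟩)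

lemma hcp : H1 k (cD k X.Qp) (cE k X.Qp) (trp k X.φ X.φ_cy.1 (single X.im (X.Qm.ε X.im))) :=
  (colG_iff k _ _ _ (φcol_cy k X.φ_cy X.deg_im X.degm)).1 (by rw [← φcol]; exact ⟨X.colp, X.colp'⟩)
end

theorem tensStmt : TensStmt := by
  intro k _ _ B B' _ _ _ _ a b X Y
  have := X.fd
  have := Y.fd
  have fp : ∀ n, {p : X.Qp.I × Y.Qp.I | X.Qp.deg p.1 + Y.Qp.deg p.2 = n}.Finite := fun n =>
    fin_of _ _ n n 0 fun p hp => ⟨by have := Y.degp p.2; omega, X.degp _⟩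
  have fm : ∀ n, {p : X.Qm.I × Y.Qm.I | X.Qm.deg p.1 + Y.Qm.deg p.2 = n}.Finite := fun n =>
    fin_of _ _ n (-a) (n + b) fun p hp => ⟨X.degm _, by have := Y.degm p.2; omega⟩
  let χ : B ⊗[k] B' →ₐ[k] k := Algebra.TensorProduct.lift X.χ Y.χ fun _ _ => Commute.all _ _
  have hχ : ∀ x y, χ (x ⊗ₜ y) = X.χ x * Y.χ y := fun x y => Algebra.TensorProduct.lift_tmul _ _ _ _ _
  let Qp := tcx k X.Qp Y.Qp fp
  let Qm := tcx k X.Qm Y.Qm fm
  let ip : Qp.I := (X.ip, Y.ip)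
  let im : Qm.I := (X.im, Y.im)
  let φ : Ch Qp Qm (B ⊗[k] B') := tm k X.φ Y.φ
  have degp : ∀ i, Qp.deg i ≤ 0 := fun p => add_nonpos (X.degp _) (Y.degp _)
  have degm : ∀ i, -((a + b : ℕ) : ℤ) ≤ Qm.deg i := fun p => by
    have := add_le_add (X.degm p.1) (Y.degm p.2)
    push_cast
    rw [neg_add]; exact this
  have deg_ip : Qp.deg ip = 0 := show X.Qp.deg X.ip + Y.Qp.deg Y.ip = 0 by
    rw [X.deg_ip, Y.deg_ip, add_zero]
  have deg_im : Qm.deg im = -((a + b : ℕ) : ℤ) := show X.Qm.deg X.im + Y.Qm.deg Y.im = _ by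
    rw [X.deg_im, Y.deg_im]; push_cast; ring
  have χ_ip : χ (Qp.ε ip) = 1 := (hχ _ _).trans (by rw [X.χ_ip, Y.χ_ip, one_mul])
  have χ_im : χ (Qm.ε im) = 1 := (hχ _ _).trans (by rw [X.χ_im, Y.χ_im, one_mul])
  have χp : ∀ i, i ≠ ip → χ (Qp.ε i) = 0 := fun p hp => (hχ _ _).trans (by
    by_cases e : p.1 = X.ip
    · rw [Y.χp p.2 fun e' => hp (Prod.ext e e'), mul_zero]
    · rw [X.χp _ e, zero_mul])
  have χm : ∀ i, i ≠ im → χ (Qm.ε i) = 0 := fun p hp => (hχ _ _).trans (by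
    by_cases e : p.1 = X.im
    · rw [Y.χm p.2 fun e' => hp (Prod.ext e e'), mul_zero]
    · rw [X.χm _ e, zero_mul])
  have φ_cy : Cy Qp Qm (B ⊗[k] B') 0 φ := by
    refine ⟨isM_tm k X.φ_cy.1 Y.φ_cy.1 rfl, ?_⟩
    have a1 := X.φ_cy.2
    have a2 := Y.φ_cy.2
    rw [δ_self] at a1 a2 ⊢
    change tm k X.φ Y.φ ∘ₗ (tm k X.Qp.d Y.Qp.one + tm k X.Qp.one Y.Qp.d) +
      (tm k X.Qm.d Y.Qm.one + tm k X.Qm.one Y.Qm.d) ∘ₗ tm k X.φ Y.φ = 0
    rw [LinearMap.comp_add, LinearMap.add_comp, tm_comp, tm_comp, tm_comp, tm_comp, comp_one X.φ_cy.1,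
      comp_one Y.φ_cy.1, one_comp X.φ_cy.1, one_comp Y.φ_cy.1, add_add_add_comm, ← tm_add_left,
      ← tm_add_right, a1, a2, tm_zero_left, tm_zero_right, add_zero]
  have sp : (single ip (Qp.ε ip) : Qp.I →₀ B ⊗[k] B') =
      ET k _ _ (single X.ip (X.Qp.ε X.ip) ⊗ₜ single Y.ip (Y.Qp.ε Y.ip)) :=
    (finsuppTensorFinsupp_single ..).symm
  have sm : (single im (Qm.ε im) : Qm.I →₀ B ⊗[k] B') =
      ET k _ _ (single X.im (X.Qm.ε X.im) ⊗ₜ single Y.im (Y.Qm.ε Y.im)) :=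
    (finsuppTensorFinsupp_single ..).symm
  have hp : ∀ j, Qp.deg j ≤ Qp.deg ip := fun j => deg_ip ▸ degp j
  have hm : ∀ j, Qm.deg im ≤ Qm.deg j := fun j => deg_im ▸ degm j
  have rp := (rowG_χ χ Qp ip χ_ip χp hp).1 ((rowG_iff k _ _ _ (row_cy _ _ hp)).2
    (sp ▸ h1_row k fp (hrp X) (hrp Y)))
  have cm := (colG_χ χ Qm im χ_im χm hm).1 ((colG_iff k _ _ _ (col_cy k _ _ hm)).2
    (sm ▸ h1_col k fm (hcm X) (hcm Y)))
  have rm : RowG k Qm 0 (φ ∘ₗ Qp.row ip) := by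
    rw [φrow]
    refine (rowG_iff k _ _ _ (φrow_cy k φ_cy deg_ip degp)).2 ?_
    have e := (congrArg φ sp).trans (tm_ET k _ _ _ _)
    exact e ▸ h1_row k fm (hrm X) (hrm Y)
  have cp : ColG k Qp (a + b : ℕ) (Qm.col im ∘ₗ φ) := by
    rw [φcol k φ_cy.1]
    refine (colG_iff k _ _ _ (φcol_cy k φ_cy deg_im degm)).2 ?_
    have e := (congrArg (trp k φ φ_cy.1) sm).trans (trp_tm k fm fp X.φ_cy.1 Y.φ_cy.1 φ_cy.1 rfl _ _)
    exact e ▸ h1_col k fp (hcp X) (hcp Y)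
  refine ⟨⟨inferInstance, χ, X.f ⊗ₜ Y.f, ?_, ?_, fun c => ?_, Qp, Qm, ip, im, degp, degm, deg_ip, deg_im,
    χ_ip, χ_im, χp, χm, φ, φ_cy, rp, rm.1, rm.2, cm, cp.1, cp.2⟩⟩
  · rw [Algebra.TensorProduct.tmul_mul_tmul, X.ff, Y.ff]
  · rw [hχ, X.χf, Y.χf, one_mul]
  · induction c using TensorProduct.induction_on with
    | zero => simp
    | add x y hx hy =>
      have : LinearMap.mulRight k (x + y) = LinearMap.mulRight k x + LinearMap.mulRight k y :=
        LinearMap.ext fun z => mul_add z x y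
      rw [this, LinearMap.comp_add, map_add, hx, hy, add_zero]
    | tmul x y =>
      have : LinearMap.mulLeft k (X.f ⊗ₜ[k] Y.f) ∘ₗ LinearMap.mulRight k (x ⊗ₜ[k] y) =
          map (LinearMap.mulLeft k X.f ∘ₗ LinearMap.mulRight k x)
            (LinearMap.mulLeft k Y.f ∘ₗ LinearMap.mulRight k y) := by
        refine TensorProduct.ext' fun u v => ?_
        simp
      rw [this, LinearMap.trace_tensorProduct', X.tr, zero_mul]

end Crest.Agent.H3.Tk
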